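import Vale.Agent.P024.Defs

/-! Rigid elements give valuations. -/

noncomputable section
namespace Uc
open scoped Classical

namespace AEJ

variable {K R : Type} [Field K] [Field R] {f : K → R}

theorem f_one (hm : ∀ x y, x ≠ 0 → y ≠ 0 → f (x * y) = f x + f y) : f 1 = 0 := by
  have := hm 1 1 one_ne_zero one_ne_zero
  rw [mul_one] at this
  linear_combination -this

theorem f_inv (hm : ∀ x y, x ≠ 0 → y ≠ 0 → f (x * y) = f x + f y) {x : K} (hx : x ≠ 0) :
    f x⁻¹ = -f x := by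
  have := hm x x⁻¹ hx (inv_ne_zero hx)
  rw [mul_inv_cancel₀ hx, f_one hm] at this
  linear_combination -this

theorem f_div (hm : ∀ x y, x ≠ 0 → y ≠ 0 → f (x * y) = f x + f y) {x y : K} (hx : x ≠ 0)
    (hy : y ≠ 0) : f (x / y) = f x - f y := by
  rw [div_eq_mul_inv, hm _ _ hx (inv_ne_zero hy), f_inv hm hy, sub_eq_add_neg]

theorem f_pow (hm : ∀ x y, x ≠ 0 → y ≠ 0 → f (x * y) = f x + f y) {x : K} (hx : x ≠ 0) (n : ℕ) :
    f (x ^ n) = n * f x := by
  induction n with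
  | zero => rw [pow_zero, f_one hm]; simp
  | succ n ih => rw [pow_succ, hm _ _ (pow_ne_zero n hx) hx, ih]; push_cast; ring

/-- the data of the construction -/
structure Dat (f : K → R) : Prop where
  hm : ∀ x y, x ≠ 0 → y ≠ 0 → f (x * y) = f x + f y
  two : (2 : R) ≠ 0
  hr : ∀ x, x ≠ 0 → f x ≠ 0 → f (1 - x) = 0 ∨ f (1 - x) = f x

/-- the rigid part of the maximal ideal -/
def MM (f : K → R) (x : K) : Prop := x ≠ 0 ∧ f x ≠ 0 ∧ f (1 + x) = 0

/-- membership in the ring -/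
def OO (f : K → R) (z : K) : Prop := ∀ y, MM f y → 1 + z * y ≠ 0 ∧ f (1 + z * y) = 0

variable (D : Dat f)
include D

theorem f_neg_one : f (-1) = 0 := by
  have := D.hm (-1) (-1) (by simp) (by simp)
  rw [neg_mul_neg, mul_one, f_one D.hm] at this
  exact (mul_eq_zero.1 (by linear_combination -this : (2 : R) * f (-1) = 0)).resolve_left D.two

theorem f_neg {x : K} (hx : x ≠ 0) : f (-x) = f x := by
  rw [← neg_one_mul, D.hm _ _ (by simp) hx, f_neg_one D, zero_add]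

theorem one_add_ne {x : K} (hx : f x ≠ 0) : 1 + x ≠ 0 := by
  intro h
  rw [eq_neg_of_add_eq_zero_right h] at hx
  exact hx (f_neg_one D)

theorem MM_or {x : K} (h0 : x ≠ 0) (hx : f x ≠ 0) : MM f x ∨ MM f x⁻¹ := by
  have h1 := D.hr (-x) (neg_ne_zero.2 h0) (by rwa [f_neg D h0])
  rw [sub_neg_eq_add, f_neg D h0] at h1
  refine h1.imp (fun h => ⟨h0, hx, h⟩) fun h =>
    ⟨inv_ne_zero h0, by rwa [f_inv D.hm h0, neg_ne_zero], ?_⟩
  have e : 1 + x⁻¹ = (1 + x) / x := by field_simp; ring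
  rw [e, f_div D.hm (one_add_ne D hx) h0, h, sub_self]

theorem not_MM_both {x : K} (h1 : MM f x) (h2 : MM f x⁻¹) : False := by
  have h0 := h1.1
  have e : 1 + x⁻¹ = (1 + x) / x := by field_simp; ring
  have h3 := h2.2.2
  rw [e, f_div D.hm (one_add_ne D h1.2.1) h0, h1.2.2, zero_sub, neg_eq_zero] at h3
  exact h1.2.1 h3

theorem P_half {x y : K} (hx : MM f x) (hy : MM f y) :
    1 - x * y ≠ 0 ∧ (f (1 - x * y) = 0 ∨ f (1 - x * y) = f y) := by
  have hx1 := one_add_ne D hx.2.1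
  have hy1 := one_add_ne D hy.2.1
  have hy0 := hy.1
  have er : f (y * (1 + x) / (1 + y)) = f y := by
    rw [f_div D.hm (mul_ne_zero hy0 hx1) hy1, D.hm _ _ hy0 hx1, hx.2.2, hy.2.2, add_zero, sub_zero]
  have e : 1 - y * (1 + x) / (1 + y) = (1 - x * y) / (1 + y) := by field_simp; ring
  have hne : 1 - x * y ≠ 0 := by
    intro h
    rw [h, zero_div] at e
    rw [← sub_eq_zero.1 e, f_one D.hm] at er
    exact hy.2.1 er.symm
  refine ⟨hne, ?_⟩
  have := D.hr _ (div_ne_zero (mul_ne_zero hy0 hx1) hy1) (by rw [er]; exact hy.2.1)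
  rwa [e, f_div D.hm hne hy1, er, hy.2.2, sub_zero] at this

theorem P_full {x y : K} (hx : MM f x) (hy : MM f y) : f (1 - x * y) = 0 := by
  by_contra hn
  have h1 := (P_half D hx hy).2.resolve_left hn
  have h2 := (P_half D hy hx).2
  rw [mul_comm] at h2
  have h3 := h2.resolve_left hn
  have h4 : f (x * y) = 2 * f x := by
    rw [D.hm _ _ hx.1 hy.1]; linear_combination h3 - h1
  have h5 := (D.hr _ (mul_ne_zero hx.1 hy.1)
    (by rw [h4]; exact mul_ne_zero D.two hx.2.1)).resolve_left hn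
  exact hx.2.1 (by linear_combination h3 - h5 - h4)

theorem MM_frac {x : K} (hx : MM f x) : MM f (-x / (1 + x)) := by
  have h1 := one_add_ne D hx.2.1
  have h0 := hx.1
  refine ⟨div_ne_zero (neg_ne_zero.2 h0) h1, ?_, ?_⟩
  · rw [f_div D.hm (neg_ne_zero.2 h0) h1, f_neg D h0, hx.2.2, sub_zero]
    exact hx.2.1
  · have e : 1 + -x / (1 + x) = (1 + x)⁻¹ := by field_simp; ring
    rw [e, f_inv D.hm h1, hx.2.2, neg_zero]

theorem MM_neg {x : K} (hx : MM f x) : MM f (-x) := by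
  have h0 := hx.1
  have hn : f (-x) ≠ 0 := by rw [f_neg D h0]; exact hx.2.1
  refine (MM_or D (neg_ne_zero.2 h0) hn).elim id fun h => ?_
  have h1 : 1 + -x ≠ 0 := one_add_ne D hn
  have h1' : x - 1 ≠ 0 := fun e => h1 (by linear_combination -e)
  have h2 := P_full D hx (MM_frac D h)
  have e : 1 - x * (-(-x)⁻¹ / (1 + (-x)⁻¹)) = (1 + -x)⁻¹ := by
    have h3 : 1 + (-x)⁻¹ = (x - 1) / x := by field_simp; ring
    rw [h3]
    field_simp
    ring
  rw [e, f_inv D.hm h1, neg_eq_zero] at h2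
  exact ⟨neg_ne_zero.2 h0, hn, h2⟩

theorem P_add {x y : K} (hx : MM f x) (hy : MM f y) : 1 + x * y ≠ 0 ∧ f (1 + x * y) = 0 := by
  have h1 := (P_half D (MM_neg D hx) hy).1
  have h2 := P_full D (MM_neg D hx) hy
  rw [neg_mul, sub_neg_eq_add] at h1 h2
  exact ⟨h1, h2⟩

theorem MM_div {x : K} (hx : MM f x) : MM f (x / (1 + x)) := by
  have := MM_neg D (MM_frac D hx)
  rwa [neg_div, neg_neg] at this

theorem MM_mul_one_add {x y : K} (hx : MM f x) (hy : MM f y) : MM f (y * (1 + x)) := by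
  have hx1 := one_add_ne D hx.2.1
  have hy1 := one_add_ne D hy.2.1
  have hy0 := hy.1
  refine ⟨mul_ne_zero hy0 hx1, ?_, ?_⟩
  · rw [D.hm _ _ hy0 hx1, hx.2.2, add_zero]
    exact hy.2.1
  · obtain ⟨h1, h2⟩ := P_add D hx (MM_div D hy)
    have e : 1 + y * (1 + x) = (1 + y) * (1 + x * (y / (1 + y))) := by field_simp; ring
    rw [e, D.hm _ _ hy1 h1, hy.2.2, h2, add_zero]

theorem MM_div_one_add {x y : K} (hx : MM f x) (hy : MM f y) : MM f (y / (1 + x)) := by
  have hx1 := one_add_ne D hx.2.1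
  have := MM_mul_one_add D (MM_frac D hx) hy
  have e : y * (1 + -x / (1 + x)) = y / (1 + x) := by field_simp; ring
  rwa [e] at this

theorem one_sub_mul_eq {a b : K} (ha : MM f a) (hb : MM f b) :
    ∃ b', MM f b' ∧ 1 - a * b = (1 + b) * (1 + b') := by
  have hb1 := one_add_ne D hb.2.1
  refine ⟨-(b * (1 + a) / (1 + b)), MM_neg D (MM_div_one_add D hb (MM_mul_one_add D ha hb)), ?_⟩
  field_simp
  ring

theorem four {a b c d : K} (ha : MM f a) (hb : MM f b) (hc : MM f c) (hd : MM f d) :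
    a * b * (c * d) ≠ 1 := by
  intro h
  obtain ⟨b', hb', e1⟩ := one_sub_mul_eq D ha hb
  obtain ⟨d', hd', e2⟩ := one_sub_mul_eq D hc hd
  have h1 := MM_neg D (MM_div_one_add D hb' (MM_div_one_add D hb
    (MM_mul_one_add D hd' (MM_mul_one_add D hd hb))))
  have ha0 := ha.1
  have hb1 := one_add_ne D hb.2.1
  have hb1' := one_add_ne D hb'.2.1
  have e : -(b * (1 + d) * (1 + d') / (1 + b) / (1 + b')) = a⁻¹ := by
    rw [div_div, mul_assoc, ← e1, ← e2]
    have h3 : 1 - a * b ≠ 0 := by rw [e1]; exact mul_ne_zero hb1 hb1'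
    refine eq_inv_of_mul_eq_one_left ?_
    rw [neg_mul, div_mul_eq_mul_div, neg_eq_iff_eq_neg, div_eq_iff h3]
    linear_combination -h
  rw [e] at h1
  exact not_MM_both D ha h1

theorem OO_of_MM {z : K} (hz : MM f z) : OO f z := fun _ hy => P_add D hz hy

theorem MM_of_OO {z : K} (hz : OO f z) (h0 : z ≠ 0) (hH : f z ≠ 0) : MM f z := by
  refine (MM_or D h0 hH).resolve_right fun h => (hz _ (MM_neg D h)).1 ?_
  field_simp
  ring

theorem MM_mul_of_OO {z y : K} (hz : OO f z) (hz0 : z ≠ 0) (hH : f z = 0) (hy : MM f y) :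
    MM f (z * y) := by
  refine ⟨mul_ne_zero hz0 hy.1, ?_, (hz y hy).2⟩
  rw [D.hm _ _ hz0 hy.1, hH, zero_add]
  exact hy.2.1

theorem OO_zero : OO f 0 := fun y _ => by
  rw [zero_mul, add_zero]
  exact ⟨one_ne_zero, f_one D.hm⟩

theorem exists_of_not_OO {z : K} (hz : ¬ OO f z) (hH : f z = 0) :
    ∃ y, MM f y ∧ MM f (z * y)⁻¹ := by
  have hz0 : z ≠ 0 := by
    rintro rfl
    exact hz (OO_zero D)
  by_contra hc
  push Not at hc
  refine hz fun y hy => ?_
  have h1 : f (z * y) ≠ 0 := by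
    rw [D.hm _ _ hz0 hy.1, hH, zero_add]
    exact hy.2.1
  exact ⟨one_add_ne D h1, ((MM_or D (mul_ne_zero hz0 hy.1) h1).resolve_right (hc y hy)).2.2⟩

theorem OO_or (z : K) : OO f z ∨ OO f z⁻¹ := by
  by_cases hz0 : z = 0
  · rw [hz0]; exact Or.inl (OO_zero D)
  by_cases hH : f z = 0
  · by_contra hc
    push Not at hc
    obtain ⟨y, hy, hy'⟩ := exists_of_not_OO D hc.1 hH
    obtain ⟨w, hw, hw'⟩ := exists_of_not_OO D hc.2 (by rw [f_inv D.hm hz0, hH, neg_zero])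
    refine four D hy hy' hw hw' ?_
    have := hy.1
    have := hw.1
    field_simp
  · exact (MM_or D hz0 hH).imp (OO_of_MM D) (OO_of_MM D)

theorem OO_mul {a b : K} (ha : OO f a) (hb : OO f b) : OO f (a * b) := by
  by_cases ha0 : a = 0
  · rw [ha0, zero_mul]; exact OO_zero D
  by_cases hb0 : b = 0
  · rw [hb0, mul_zero]; exact OO_zero D
  intro y hy
  by_cases hbH : f b = 0
  · rw [mul_assoc]; exact ha _ (MM_mul_of_OO D hb hb0 hbH hy)
  by_cases haH : f a = 0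
  · rw [mul_comm a, mul_assoc]; exact hb _ (MM_mul_of_OO D ha ha0 haH hy)
  have ha' := MM_of_OO D ha ha0 haH
  have hb' := MM_of_OO D hb hb0 hbH
  have hy0 := hy.1
  by_cases hab : f (a * b) = 0
  · have h1 : f (a * b * y) ≠ 0 := by
      rw [D.hm _ _ (mul_ne_zero ha0 hb0) hy0, hab, zero_add]
      exact hy.2.1
    refine ⟨one_add_ne D h1, ((MM_or D (mul_ne_zero (mul_ne_zero ha0 hb0) hy0)
      h1).resolve_right fun h => ?_).2.2⟩
    refine four D ha' hb' hy h ?_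
    field_simp
  · exact P_add D ⟨mul_ne_zero ha0 hb0, hab, (P_add D ha' hb').2⟩ hy

theorem OO_one_add {z : K} (hz : OO f z) : OO f (1 + z) := by
  intro y hy
  have hy1 := one_add_ne D hy.2.1
  obtain ⟨h1, h2⟩ := hz _ (MM_div D hy)
  have e : 1 + (1 + z) * y = (1 + y) * (1 + z * (y / (1 + y))) := by field_simp; ring
  rw [e, D.hm _ _ hy1 h1, hy.2.2, h2, add_zero]
  exact ⟨mul_ne_zero hy1 h1, rfl⟩

theorem OO_neg_one : OO f (-1) := by
  intro y hy
  have := MM_neg D hy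
  rw [neg_one_mul]
  exact ⟨one_add_ne D this.2.1, this.2.2⟩

theorem OO_add {a b : K} (ha : OO f a) (hb : OO f b) : OO f (a + b) := by
  by_cases ha0 : a = 0
  · rwa [ha0, zero_add]
  by_cases hb0 : b = 0
  · rwa [hb0, add_zero]
  rcases OO_or D (a / b) with h | h
  · have := OO_mul D hb (OO_one_add D h)
    have e : b * (1 + a / b) = a + b := by field_simp; ring
    rwa [e] at this
  · have := OO_mul D ha (OO_one_add D h)
    have e : a * (1 + (a / b)⁻¹) = a + b := by field_simp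
    rwa [e] at this

/-- the valuation ring -/
def vring : ValuationSubring K where
  carrier := {z | OO f z}
  mul_mem' := OO_mul D
  one_mem' := fun y hy => by rw [one_mul]; exact ⟨one_add_ne D hy.2.1, hy.2.2⟩
  add_mem' := OO_add D
  zero_mem' := OO_zero D
  neg_mem' := fun {x} hx => by
    have := OO_mul D (OO_neg_one D) hx
    rwa [neg_one_mul] at this
  mem_or_inv_mem' := OO_or D

theorem unit_eq {x : K} (h0 : x ≠ 0) (h1 : x ∈ vring D) (h2 : x⁻¹ ∈ vring D) : f x = 0 := by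
  by_contra hH
  exact not_MM_both D (MM_of_OO D h1 h0 hH)
    (MM_of_OO D h2 (inv_ne_zero h0) (by rwa [f_inv D.hm h0, neg_ne_zero]))

omit D in
theorem seq {a p q : R} {N : ℕ} (ha : a ≠ 0) (hpq : p ≠ q) (hN : N ≠ 0) (hp : p ^ N = p)
    (hq : q ^ N = q) {b : ℕ → R} (h : ∀ i, p * b (i + 1) * (a - b i) = q * b i * (a - b (i + 1)))
    (hb : b N = b 0) : b 0 = 0 ∨ b 0 = a := by
  by_contra hc
  push Not at hc
  have hw : a - b 0 ≠ 0 := sub_ne_zero.2 hc.2.symm
  obtain ⟨M, rfl⟩ := Nat.exists_eq_succ_of_ne_zero hN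
  by_cases hq0 : q = 0
  · have hp0 : p ≠ 0 := fun e => hpq (e.trans hq0.symm)
    have h1 : ∀ i, a - b i ≠ 0 → b (i + 1) = 0 := fun i hi => by
      have := h i
      rw [hq0, zero_mul, zero_mul] at this
      exact (mul_eq_zero.1 ((mul_eq_zero.1 this).resolve_right hi)).resolve_left hp0
    have h2 : ∀ i, b (i + 1) = 0 := fun i => by
      induction i with
      | zero => exact h1 0 hw
      | succ i ih => exact h1 _ (by rwa [ih, sub_zero])
    exact hc.1 (hb.symm.trans (h2 M))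
  by_cases hp0 : p = 0
  · have h1 : ∀ i, b i ≠ 0 → b (i + 1) = a := fun i hi => by
      have := h i
      rw [hp0, zero_mul, zero_mul] at this
      exact (sub_eq_zero.1 ((mul_eq_zero.1 this.symm).resolve_left (mul_ne_zero hq0 hi))).symm
    have h2 : ∀ i, b (i + 1) = a := fun i => by
      induction i with
      | zero => exact h1 0 hc.1
      | succ i ih => exact h1 _ (by rwa [ih])
    exact hc.2 (hb.symm.trans (h2 M))
  have h1 : ∀ i, a - b i ≠ 0 ∧ p ^ i * b i * (a - b 0) = q ^ i * b 0 * (a - b i) := fun i => by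
    induction i with
    | zero => exact ⟨hw, by simp⟩
    | succ i ih =>
      refine ⟨fun e => ?_, mul_right_cancel₀ ih.1 ?_⟩
      · have := h i
        rw [e, mul_zero, ← sub_eq_zero.1 e] at this
        exact mul_ne_zero (mul_ne_zero hp0 ha) ih.1 this
      · linear_combination p ^ i * (a - b 0) * h i + q * (a - b (i + 1)) * ih.2
  have h2 := (h1 (M + 1)).2
  rw [hb, hp, hq] at h2
  exact hpq (mul_right_cancel₀ hc.1 (mul_right_cancel₀ hw h2))

end AEJ

/-- See the blueprint, section AEJ. -/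
theorem aej {K : Type} [Field K] {l : ℕ} (hl : l.Prime) (h2 : l ≠ 2) (f : K → ZMod l)
    (hm : ∀ x y, x ≠ 0 → y ≠ 0 → f (x * y) = f x + f y) (hn : ∃ x, x ≠ 0 ∧ f x ≠ 0)
    (hr : ∀ x, x ≠ 0 → f x ≠ 0 → f (1 - x) = 0 ∨ f (1 - x) = f x) :
    ∃ O : ValuationSubring K, O ≠ ⊤ ∧ ∀ x, x ≠ 0 → x ∈ O → x⁻¹ ∈ O → f x = 0 := by
  have : Fact l.Prime := ⟨hl⟩
  have D : AEJ.Dat f := ⟨hm, fun h => h2 ((Nat.prime_dvd_prime_iff_eq hl Nat.prime_two).1
    ((ZMod.natCast_eq_zero_iff 2 l).1 (by exact_mod_cast h))), hr⟩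
  refine ⟨AEJ.vring D, fun h => ?_, fun x => AEJ.unit_eq D⟩
  obtain ⟨x, hx, hx'⟩ := hn
  exact hx' (AEJ.unit_eq D hx (h ▸ ValuationSubring.mem_top _) (h ▸ ValuationSubring.mem_top _))

/-- From a commuting pair to rigidity. See the blueprint, section AEJ. -/
theorem rigid_of_pair {K : Type} [Field K] {l : ℕ} (hl : l.Prime) (f g : K → ZMod l)
    (hf : ∀ x y, x ≠ 0 → y ≠ 0 → f (x * y) = f x + f y)
    (hg : ∀ x y, x ≠ 0 → y ≠ 0 → g (x * y) = g x + g y)
    (hc : ∀ x, x ≠ 0 → x ≠ 1 → f x * g (1 - x) = f (1 - x) * g x)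
    {η : K} {e : ℕ} (hη : η ^ l ^ e = 1) (h1 : f η = 0) (h3 : g η ≠ 0) {x : K} (hx : x ≠ 0)
    (h4 : f x ≠ 0) : f (1 - x) = 0 ∨ f (1 - x) = f x := by
  have : Fact l.Prime := ⟨hl⟩
  have hN : l ^ e ≠ 0 := pow_ne_zero e hl.ne_zero
  have hη0 : η ≠ 0 := by
    rintro rfl
    rw [zero_pow hN] at hη
    exact zero_ne_one hη
  have hη1 : η ≠ 1 := by
    rintro rfl
    exact h3 (AEJ.f_one hg)
  have hη1' : 1 - η ≠ 0 := sub_ne_zero.2 hη1.symm
  have h5 : f (1 - η) = 0 := by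
    have := hc η hη0 hη1
    rw [h1, zero_mul] at this
    exact (mul_eq_zero.1 this.symm).resolve_right h3
  have hx0 : ∀ i : ℕ, η ^ i * x ≠ 0 := fun i => mul_ne_zero (pow_ne_zero i hη0) hx
  have hfx : ∀ i : ℕ, f (η ^ i * x) = f x := fun i => by
    rw [hf _ _ (pow_ne_zero i hη0) hx, AEJ.f_pow hf hη0, h1, mul_zero, zero_add]
  have hgx : ∀ i : ℕ, g (η ^ (i + 1) * x) = g (η ^ i * x) + g η := fun i => by
    rw [pow_succ', mul_assoc, hg _ _ hη0 (hx0 i), add_comm]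
  have hx1 : ∀ i : ℕ, η ^ i * x ≠ 1 := fun i h => by
    have := hfx i
    rw [h, AEJ.f_one hf] at this
    exact h4 this.symm
  have hx1' : ∀ i : ℕ, 1 - η ^ i * x ≠ 0 := fun i => sub_ne_zero.2 (hx1 i).symm
  have key := AEJ.seq (a := f x) (p := g η - g (1 - η)) (q := -g (1 - η)) (N := l ^ e) h4
    (fun h => h3 (by linear_combination h)) hN (ZMod.pow_card_pow _) (ZMod.pow_card_pow _)
    (b := fun i => f (1 - η ^ i * x)) (fun i => ?_) (by simp only [hη, pow_zero])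
  · simpa only [pow_zero, one_mul] using key
  have e1 : 1 - (1 - η ^ i * x) / (1 - η ^ (i + 1) * x) =
      η ^ i * x * (1 - η) / (1 - η ^ (i + 1) * x) := by
    rw [eq_div_iff (hx1' _), sub_mul, div_mul_cancel₀ _ (hx1' _)]
    ring
  have hy1 : (1 - η ^ i * x) / (1 - η ^ (i + 1) * x) ≠ 1 := fun h => by
    rw [h, sub_self] at e1
    exact div_ne_zero (mul_ne_zero (hx0 i) hη1') (hx1' _) e1.symm
  have h6 := hc _ (div_ne_zero (hx1' i) (hx1' (i + 1))) hy1
  rw [e1, AEJ.f_div hf (hx1' i) (hx1' _), AEJ.f_div hg (hx1' i) (hx1' _),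
    AEJ.f_div hf (mul_ne_zero (hx0 i) hη1') (hx1' _),
    AEJ.f_div hg (mul_ne_zero (hx0 i) hη1') (hx1' _), hf _ _ (hx0 i) hη1', hg _ _ (hx0 i) hη1',
    hfx, h5] at h6
  have h7 := hc _ (hx0 i) (hx1 i)
  have h8 := hc _ (hx0 (i + 1)) (hx1 _)
  rw [hfx] at h7
  rw [hfx, hgx] at h8
  linear_combination f x * h6 + (f x - f (1 - η ^ (i + 1) * x)) * h7 +
    (f (1 - η ^ i * x) - f x) * h8

end Uc
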