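import Vale.Agent.P024.EG

/-! Automorphisms of open subgroups, and the extension to a normalizer. -/

noncomputable section
namespace Uc
open scoped Classical
variable {Ω E : Type} [Field Ω] [CharZero Ω] [Nice Ω] [IsAlgClosed Ω] [Field E] [CharZero E]
  [Nice E] {j : E →+* Ω} {V₀ : Subgroup (Aut Ω)} {ι : Aut Ω → Aut E} {U : Subgroup (Aut E)}
  {φ ψ : Aut E → Aut E}

/-- `ex`, `hl` for `ψ`, `Pr.exists_ext`, `IOD.lift_I`, `exists_lpart` (the image under `ι` of the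
`l`-part of `g` is `ι g` if that is pro-`l`) -/
theorem auto2 (hι : IOD j V₀ ι) (hψ : Setup U ψ) (h1 : ∀ u ∈ U, ψ u ∈ U)
    (h2 : ∀ u ∈ U, φ (ψ u) = u) (hφ : Setup U φ) : KL2 (hι.setup.pre U) fun g => φ (ι g) := by
  refine ⟨1, 0, ∅, one_ne_zero, fun l hl hl2 _ _ J hJ => ?_⟩
  rw [Nat.le_zero, Finset.card_eq_zero, Finset.eq_empty_iff_forall_notMem]
  intro p hp
  obtain ⟨hp1, hp2, hp3⟩ := hJ p hp
  obtain ⟨B, rfl⟩ := Pr.exists_above (E := E) hp1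
  obtain ⟨τ₂, h3, h4, h5, k, y, -, h6⟩ := ex hφ.opn B hl hp2
  have h7 : τ₂ ≠ 1 := by
    rintro rfl
    exact h6 rfl
  have h8 : ψ τ₂ ≠ 1 := fun hc => h7 (by rw [← h2 τ₂ h3, hc, hφ.map_one])
  obtain ⟨B₁, h9, h10⟩ := Uc.hl hψ hl hl2 hp2 h3 h4 h5 h8
  obtain ⟨A, rfl⟩ := Pr.exists_ext j B₁
  obtain ⟨g, h11, h12, h13⟩ := hι.lift_I A h10
  obtain ⟨τ, h14, h15⟩ := exists_lpart hl g
  have hV : τ ∈ V₀ := by
    obtain ⟨n, -, hn⟩ := h15 V₀ hι.setup.opn 0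
    simpa using mul_mem (pow_mem h11 n) hn
  have hI : τ ∈ A.I := mem_of_approx (isClosed_I A) fun W hW _ => by
    obtain ⟨n, -, hn⟩ := h15 W hW 0
    exact ⟨g ^ n, pow_mem h12 n, hn⟩
  have he : ι τ = ψ τ₂ := by
    rw [← inv_mul_eq_one]
    refine eq_one_of_forall fun W hW hn => ?_
    obtain ⟨T, hT⟩ := proL_iff.1 (hψ.proL h3 h5) W hW
    obtain ⟨n, hn1, hn2⟩ := h15 _ (hι.setup.isOpen_pre hW) T
    have h16 := (hι.setup.mem_pre.1 hn2).2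
    rw [hι.setup.mul _ (inv_mem (pow_mem h11 n)) _ hV, hι.setup.map_inv (pow_mem h11 n),
      hι.setup.map_pow h11, h13] at h16
    rw [← QuotientGroup.eq] at h16 ⊢
    rw [← h16, QuotientGroup.mk_pow]
    have h17 : ((ψ τ₂ : Aut E) : Aut E ⧸ W) ^ l ^ T = 1 := by
      rw [← QuotientGroup.mk_pow, QuotientGroup.eq_one_iff]; exact hT
    rw [pow_eq_pow_mod n h17, hn1, ← pow_eq_pow_mod 1 h17, pow_one]
  refine hp3 A B rfl ⟨h9, hp2, τ, hι.setup.mem_pre.2 ⟨hV, he ▸ h1 _ h3⟩, hI, h14, ?_, ?_⟩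
  · show φ (ι τ) ≠ 1
    rwa [he, h2 _ h3]
  · show φ (ι τ) ∈ B.I
    rwa [he, h2 _ h3]

/-- See the blueprint, section Auto. -/
theorem auto1 (hι : IOD j V₀ ι) (hψ : Setup U ψ) (h1 : ∀ u ∈ U, φ u ∈ U)
    (h2 : ∀ u ∈ U, φ (ψ u) = u) (h3 : ∀ u ∈ U, ψ (φ u) = u) (hφ : Setup U φ) {p : ℕ}
    (hp : p.Prime) : KL1 (hι.setup.pre U) (fun g => φ (ι g)) p := by
  obtain ⟨X, hX, hX'⟩ := orb hφ.opn p
  obtain ⟨l₀, hl₀, hl₀'⟩ := Nat.infinite_setOfPred_prime.exists_notMem_finite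
    (Set.toFinite ({2, p} : Set ℕ))
  have hl₀p : l₀.Prime := hl₀
  simp only [Set.mem_insert_iff, Set.mem_singleton_iff, not_or] at hl₀'
  have hd : ∀ A₀ : Pr E, ∃ (τ₀ : Aut E) (B₀ : Pr E), A₀ ∈ X → τ₀ ∈ U ∧ τ₀ ∈ A₀.I ∧ ProL l₀ τ₀ ∧
      ψ τ₀ ≠ 1 ∧ B₀.p ≠ l₀ ∧ ψ τ₀ ∈ B₀.I := by
    intro A₀
    by_cases hA : A₀ ∈ X
    · have h4 : A₀.p ≠ l₀ := by rw [hX A₀ hA]; exact fun hc => hl₀'.2 hc.symm
      obtain ⟨τ₀, h5, h6, h7, k, y, -, h8⟩ := ex hφ.opn A₀ hl₀p h4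
      have h9 : ψ τ₀ ≠ 1 := fun hc => h8 (by rw [← h2 τ₀ h5, hc, hφ.map_one]; rfl)
      obtain ⟨B₀, h10, h11⟩ := Uc.hl hψ hl₀p hl₀'.1 h4 h5 h6 h7 h9
      exact ⟨τ₀, B₀, fun _ => ⟨h5, h6, h7, h9, h10, h11⟩⟩
    · exact ⟨1, A₀, fun hc => absurd hc hA⟩
  choose τ₀ B₀ hd using hd
  refine ⟨X.image fun A₀ => (B₀ A₀).p, X.image fun A₀ => (B₀ A₀).p,
    fun l A B hl _ hΛ hB ⟨h4, h5, τ, h6, h7, h8, h9, h10⟩ => ?_⟩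
  obtain ⟨h11, h12⟩ := hι.setup.mem_pre.1 h6
  obtain ⟨A₀, hA₀, u, hu, rfl⟩ := hX' B hB
  obtain ⟨d1, d2, d3, d4, d5, d6⟩ := hd A₀ hA₀
  have h13 : φ (ι τ) ∈ U := h1 _ h12
  have h14 : u⁻¹ * φ (ι τ) * u⁻¹⁻¹ ∈ U := mul_mem (mul_mem (inv_mem hu) h13) (inv_mem (inv_mem hu))
  have h15 : u⁻¹ * φ (ι τ) * u⁻¹⁻¹ ∈ A₀.I := by
    have := Pr.conj_mem_I h10 u⁻¹
    rwa [inv_smul_smul] at this
  have h16 : ProL l (ι τ) := hι.setup.proL h11 h8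
  have h17 : A₀.p ≠ l₀ := by rw [hX A₀ hA₀]; exact fun hc => hl₀'.2 hc.symm
  obtain ⟨i, h18, -, h19⟩ := cm hφ.opn hl hl₀p (A := A₀) h5 h17 h14 h15
    ((hφ.proL h12 h16).conj u⁻¹) d1 d2 d3
  have h20 : i * τ₀ A₀ * i⁻¹ ∈ U := mul_mem (mul_mem h18 d1) (inv_mem h18)
  have h21 : Commute (ψ (u⁻¹ * φ (ι τ) * u⁻¹⁻¹)) (ψ (i * τ₀ A₀ * i⁻¹)) := by
    unfold Commute SemiconjBy
    rw [← hψ.mul _ h14 _ h20, ← hψ.mul _ h20 _ h14, h19.eq]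
  rw [hψ.map_conj h13 (inv_mem hu), hψ.map_conj d1 h18, h3 _ h12] at h21
  have h22 := mem_D_of_commute hl₀p ((hψ.proL d1 d3).conj (ψ i)) (by
    rw [Ne, mul_inv_eq_one, mul_eq_left]; exact d4) (Pr.conj_mem_I d6 (ψ i)) d5 h21
  have h23 : ι τ ≠ 1 := fun hc => h9 (by show φ (ι τ) = 1; rw [hc, hφ.map_one])
  have h24 := dd hl (h16.conj (ψ u⁻¹)) (by
    rw [Ne, mul_inv_eq_one, mul_eq_left]; exact h23)
    (Pr.conj_mem_I (hι.ind.mem_I h11 h7) (ψ u⁻¹)) h22 h4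
    (fun hc => hΛ (Finset.mem_image.2 ⟨A₀, hA₀, hc⟩))
  exact Finset.mem_image.2 ⟨A₀, hA₀, (congrArg Pr.p h24).symm⟩

/-- `eg`, `IOD.desc`; an endomorphism of an algebraic extension is bijective -/
theorem auto (Ω : Type) [Field Ω] [CharZero Ω] [Nice Ω] [IsAlgClosed Ω] (hφ : Setup U φ)
    (hψ : Setup U ψ) (h0 : ∀ u ∈ U, φ u ∈ U) (h1 : ∀ u ∈ U, ψ u ∈ U)
    (h2 : ∀ u ∈ U, φ (ψ u) = u) (h3 : ∀ u ∈ U, ψ (φ u) = u) :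
    ∃ ε : Aut E, ∀ u ∈ U, φ u = ε * u * ε⁻¹ := by
  obtain ⟨j, V₀, ι, hι⟩ := exists_iod Ω E
  obtain ⟨j', hj⟩ := eg (hι.setup.comp hφ) (auto2 hι hψ h1 h2 hφ) isOpen_top ∅
    fun A _ _ => auto1 hι hψ h0 h2 h3 hφ A.prime
  obtain ⟨ε, hε⟩ := hι.desc hφ.map_one hj
  let ε' : Aut E := AlgEquiv.ofBijective ε.toRatAlgHom
    (Algebra.IsAlgebraic.algHom_bijective ε.toRatAlgHom)
  refine ⟨ε'⁻¹, fun u hu => ?_⟩
  rw [inv_inv, mul_assoc, eq_inv_mul_iff_mul_eq]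
  ext x
  exact (hε u hu x).symm

variable {V : Subgroup (Aut Ω)} {α : Aut Ω → Aut E}

end Uc
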