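import Vale.Agent.P024.W1

/-! Norms of characters. -/

noncomputable section
namespace Uc
open scoped Classical
variable {Ω E : Type} [Field Ω] [CharZero Ω] [Nice Ω] [IsAlgClosed Ω] [Field E] [CharZero E]
  [Nice E]

variable {V : Subgroup (Aut Ω)} {α : Aut Ω → Aut E}

omit [IsAlgClosed Ω] in
/-- the other conjugates of `α` kill the commutators with `m` -/
theorem Core_kill (h : Setup V α) {V' : Subgroup (Aut Ω)} (hn : V'.Normal) (hle : V' ≤ V)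
    {m : Aut Ω} (hm : m ∈ Mt V α) {x t : Aut Ω} (hx : x ∈ V') (ht : t ∉ V) :
    α (t⁻¹ * (m⁻¹ * x * m * x⁻¹) * t) = 1 := by
  have h1 : t⁻¹ * m * t ∈ V :=
    V.normalCore_le (by simpa using V.normalCore_normal.conj_mem m hm.1 t⁻¹)
  have h2 : t⁻¹ * x * t ∈ V := hle (by simpa using hn.conj_mem x hx t⁻¹)
  have e : t⁻¹ * (m⁻¹ * x * m * x⁻¹) * t =
      (t⁻¹ * m * t)⁻¹ * (t⁻¹ * x * t) * (t⁻¹ * m * t) * (t⁻¹ * x * t)⁻¹ := by group
  rw [e, h.mul _ (V.mul_mem (V.mul_mem (V.inv_mem h1) h2) h1) _ (V.inv_mem h2),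
    h.mul _ (V.mul_mem (V.inv_mem h1) h2) _ h1, h.mul _ (V.inv_mem h1) _ h2, h.map_inv h1,
    h.map_inv h2, hm.2 t ht]
  simp

theorem Core_pigeon {β : Type} [Finite β] {Q : Set ℕ} (hQ : Q.Infinite) (c : ℕ → β) :
    ∃ b, {q | q ∈ Q ∧ c q = b}.Infinite := by
  by_contra hc
  push Not at hc
  refine hQ ((Set.finite_iUnion hc).subset fun q hq => ?_)
  exact Set.mem_iUnion.2 ⟨c q, hq, rfl⟩

/-- See the blueprint, section W1. -/
theorem core (h : Setup V α) {W : Subgroup (Aut E)} (hW : IsOpen (W : Set (Aut E)))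
    (hn : W.Normal) {r s : ℕ} (hr : r.Prime) (h2 : r ≠ 2) (hs : 0 < s) {m : Aut Ω}
    (hm : m ∈ Mt V α) {Q : Set ℕ} (hQ : Q.Infinite) (A : ℕ → Pr Ω) (φ σ : ℕ → Aut Ω) (f : ℕ → ℕ)
    (h1 : ∀ q ∈ Q, (A q).p = q ∧ (A q).IsFrob q (φ q) ∧ (∀ j : ℕ, φ q ^ j ∈ V ↔ f q ∣ j) ∧
      σ q ∈ V ∧ (A q).IsFrob (q ^ f q) (σ q) ∧ α (σ q) ∈ W) :
    ∃ b : ℕ, ∀ ν : Aut E → ℂˣ, IsChar W r ν → Unr W {r} ν → (∀ q ∈ Q, ν (α (σ q)) = 1) →
      (∀ x ∈ W, Nm (α m) s ν x = 1) → ∀ x ∈ W, ν x ^ r ^ b = 1 := by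
  set V' := (h.pre W).normalCore with hV'
  have hVo : IsOpen (V' : Set (Aut Ω)) := isOpen_normalCore (h.isOpen_pre hW)
  have hVn : V'.Normal := (h.pre W).normalCore_normal
  have hVp : V' ≤ h.pre W := (h.pre W).normalCore_le
  have hVV : V' ≤ V := hVp.trans (h.pre_le W)
  have hidx : V'.index ≠ 0 := index_ne_zero hVo
  have : V'.FiniteIndex := ⟨hidx⟩
  obtain ⟨c, hc⟩ := Core_pigeon ((hQ.sdiff (ur hVo)).sdiff (Set.finite_singleton r))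
    fun q => (φ q : Aut Ω ⧸ V')
  set Q' := {q | q ∈ (Q \ {p : ℕ | ∃ A : Pr Ω, A.p = p ∧ ¬ A.I ≤ V'}) \ {r} ∧
    (φ q : Aut Ω ⧸ V') = c} with hQ'
  have hq : ∀ q ∈ Q', q ∈ Q ∧ (A q).I ≤ V' ∧ q ≠ r ∧ (φ q : Aut Ω ⧸ V') = c := by
    rintro q ⟨⟨⟨h3, h4⟩, h5⟩, h6⟩
    refine ⟨h3, ?_, h5, h6⟩
    by_contra h7
    exact h4 ⟨A q, (h1 q h3).1, h7⟩
  obtain ⟨q₀, hq₀⟩ := hc.nonempty
  obtain ⟨n, hn0, -, hper⟩ := exists_period V' hidx (φ q₀)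
  have hcos : ∀ q ∈ Q', (φ q₀)⁻¹ * φ q ∈ V' := fun q h3 =>
    QuotientGroup.eq.1 ((hq q₀ hq₀).2.2.2.trans (hq q h3).2.2.2.symm)
  have hpow : ∀ q ∈ Q', φ q ^ n ∈ V' := fun q h3 => by
    rw [← QuotientGroup.eq_one_iff, QuotientGroup.mk_pow, (hq q h3).2.2.2, ← (hq q₀ hq₀).2.2.2,
      ← QuotientGroup.mk_pow, QuotientGroup.eq_one_iff]
    exact (hper n).2 dvd_rfl
  let e := hc.natEmbedding
  have hp : ∀ i, (A (e i)).p = e i := fun i => (h1 _ (hq _ (e i).2).1).1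
  obtain ⟨H₀, hH₀, hw⟩ := w1 hVo hVn hr h2 (fun i => A (e i))
    (fun i j hij => e.injective (Subtype.ext (by simpa only [hp] using hij)))
    (fun i => φ (e i)) (fun i => by rw [hp]; exact (h1 _ (hq _ (e i).2).1).2.1) (φ q₀) hn0 hper
    fun i => hcos _ (e i).2
  have hpre : ∀ j : ℕ, φ q₀ ^ j ∈ V → φ q₀ ^ j ∈ h.pre W := by
    intro j hj
    obtain ⟨h3, h4, -, -⟩ := hq q₀ hq₀
    obtain ⟨-, h5, h6, h7, h8, h9⟩ := h1 q₀ h3
    obtain ⟨k, rfl⟩ := (h6 j).1 hj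
    rw [pow_mul]
    refine Subgroup.pow_mem _ ?_ k
    have h10 := hVp (h4 (h8.inv_mul (h5.pow (f q₀))))
    have h11 := (h.pre W).mul_mem (h.mem_pre.2 ⟨h7, h9⟩) h10
    rwa [mul_inv_cancel_left] at h11
  set N := ((Finset.range n).filter fun j => φ q₀ ^ j ∈ V).card with hN
  have hN0 : 0 < N := Finset.card_pos.2
    ⟨0, Finset.mem_filter.2 ⟨Finset.mem_range.2 hn0, by rw [pow_zero]; exact V.one_mem⟩⟩
  obtain ⟨e₀, he₀, he⟩ := exists_pow_mem (h.isOpen_img hVo)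
  refine ⟨e₀ * (N * H₀) * s, fun ν hν hu hσ hN1 x hx => ?_⟩
  have hch := h.isChar hν
  have hun : Unr V' {r} fun g => ν (α g) := (up h hr h2 hν hu).mono hVp
  have hmV : m ∈ V := V.normalCore_le hm.1
  have hconj : ∀ w ∈ W, (α m)⁻¹ * w * α m ∈ W := fun w hw => by
    simpa using hn.conj_mem w hw (α m)⁻¹
  have hfr : ∀ q ∈ Q', ν (α (φ q ^ n)) = 1 := by
    intro q h0
    obtain ⟨h3, h4, h4', -⟩ := hq q h0
    obtain ⟨h5', h5, h6, h7, h8, h9⟩ := h1 q h3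
    obtain ⟨k, hk⟩ := (h6 n).1 (hVV (hpow q h0))
    have h10 : (σ q ^ k)⁻¹ * φ q ^ n ∈ (A q).I := by
      refine (h8.pow k).inv_mul ?_
      rw [← pow_mul, ← hk]
      exact h5.pow n
    have h11 := hun (A q) (by rw [h5']; simpa using h4') _ (h4 h10) h10
    have h12 : σ q ∈ h.pre W := h.mem_pre.2 ⟨h7, h9⟩
    have h13 := hch.mul _ ((h.pre W).pow_mem h12 k) _ (hVp (h4 h10))
    have h14 := ch_pow (ν := fun g => ν (α g)) hch.mul h12 k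
    simp only [mul_inv_cancel_left] at h13 h14 h11
    rw [h13, h14, h11, hσ q h3, one_pow, mul_one]
  have hw' := hw (fun g => ν (α g)) (hch.mono hVo hVp) hun fun i => hfr _ (e i).2
  have hstep : ∀ y ∈ V', ν ((α m)⁻¹ * α y * α m) ^ (N * H₀) = ν (α y) ^ (N * H₀) := by
    intro y hy
    have h3 : m⁻¹ * y * m ∈ V' := by simpa using hVn.conj_mem y hy m⁻¹
    have h4 : m⁻¹ * y * m * y⁻¹ ∈ V' := V'.mul_mem h3 (V'.inv_mem hy)
    have h5 := hw' _ h4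
    have h6 : Nm (φ q₀) n (fun g => ν (α g)) (m⁻¹ * y * m * y⁻¹) =
        ν (α (m⁻¹ * y * m * y⁻¹)) ^ N := by
      unfold Nm
      rw [hN, ← Finset.prod_const, Finset.prod_filter]
      refine Finset.prod_congr rfl fun j _ => ?_
      split_ifs with hj
      · exact ch_conj (ν := fun g => ν (α g)) hch.mul (hVp h4) (hpre j hj)
      · show ν (α _) = 1
        rw [Core_kill h hVn hVV hm hy hj]
        exact ch_one hν.mul
    have h7 : ν (α (m⁻¹ * y * m * y⁻¹)) = ν ((α m)⁻¹ * α y * α m) * (ν (α y))⁻¹ := by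
      have h8 := hch.mul _ (hVp h3) _ ((h.pre W).inv_mem (hVp hy))
      have h9 := ch_inv (ν := fun g => ν (α g)) hch.mul (hVp hy)
      rw [h8, h9, h.mul _ (V.mul_mem (V.inv_mem hmV) (hVV hy)) _ hmV,
        h.mul _ (V.inv_mem hmV) _ (hVV hy), h.map_inv hmV]
    rw [h6, ← pow_mul, h7, mul_pow, inv_pow, mul_inv_eq_one] at h5
    exact h5
  have hinv : ∀ w ∈ W, ν ((α m)⁻¹ * w * α m) ^ (e₀ * (N * H₀)) = ν w ^ (e₀ * (N * H₀)) := by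
    intro w hw
    obtain ⟨y, hy, -, h3⟩ := h.mem_img.1 (he w)
    have h4 := hstep y hy
    have h5 : (α m)⁻¹ * w ^ e₀ * α m = ((α m)⁻¹ * w * α m) ^ e₀ := by
      simpa using (conj_pow (i := e₀) (a := (α m)⁻¹) (b := w)).symm
    rw [h3, h5, ch_pow hν.mul (hconj w hw), ch_pow hν.mul hw] at h4
    rw [pow_mul, h4, ← pow_mul]
  have h3 := nm_of_inv (H := W) (ν := fun g => ν g ^ (e₀ * (N * H₀))) (g := α m) s hinv hx
  have h4 : Nm (α m) s (fun g => ν g ^ (e₀ * (N * H₀))) x = Nm (α m) s ν x ^ (e₀ * (N * H₀)) := by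
    unfold Nm
    rw [Finset.prod_pow]
  rw [h4, hN1 x hx, one_pow, ← pow_mul] at h3
  obtain ⟨T, hT⟩ := hν.ord
  exact pow_pow_eq_one hr (by positivity) h3.symm (hT x hx)

end Uc
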