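import Vale.Agent.P024.ZZ

/-! The two forms in which the characters are used. -/

noncomputable section
namespace Uc
open scoped Classical
variable {E : Type} [Field E] [CharZero E] [Nice E] {W : Subgroup (Aut E)} {r s' l s : ℕ}
  {m : Aut E}

theorem mem_Ws {g : Aut E} : g ∈ Ws W l s ↔ g ∈ W ∧ chi E l g ^ ((l - 1) / s) = 1 := Iff.rfl
theorem ZB_le (hl : l ≠ 0) (s : ℕ) : W ⊓ Fm E l ≤ Ws W l s := fun _ hg =>
  mem_Ws.2 ⟨hg.1, by rw [(mem_Fm_iff hl).1 hg.2, one_pow]⟩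
theorem isOpen_Ws (hW : IsOpen (W : Set (Aut E))) (hl : l ≠ 0) (s : ℕ) :
    IsOpen (Ws W l s : Set (Aut E)) :=
  Subgroup.isOpen_mono (ZB_le hl s) (isOpen_inf hW (isOpen_Fm hl))
theorem normal_Ws (hW : W.Normal) (l s : ℕ) : (Ws W l s).Normal := by
  unfold Ws
  infer_instance
theorem inf_le_Ws (hl : l ≠ 0) (s : ℕ) : W ⊓ Fm E l ≤ Ws W l s := ZB_le hl s
/-- take `g` with `chi l g` a generator of `(ZMod l)ˣ` -/
theorem exists_gen_Ws (hl : l.Prime) (hs : s.Prime) (hd : s ∣ l - 1) (hf : Full W l) :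
    ∃ g ∈ W, (∀ j : ℕ, g ^ j ∈ Ws W l s ↔ s ∣ j) ∧ ∀ y ∈ W, ∃ j : ℕ, (g ^ j)⁻¹ * y ∈ Ws W l s := by
  have : Fact l.Prime := ⟨hl⟩
  obtain ⟨c, hc⟩ := IsCyclic.exists_generator (α := (ZMod l)ˣ)
  have ho : orderOf c = l - 1 := by
    rw [orderOf_eq_card_of_forall_mem_zpowers hc, Nat.card_eq_fintype_card, ZMod.card_units]
  obtain ⟨g, hg, e⟩ := hf c
  obtain ⟨t, ht⟩ := hd
  have ht0 : t ≠ 0 := by
    rintro rfl
    have := hl.two_le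
    omega
  have hq : (l - 1) / s = t := by rw [ht, Nat.mul_div_cancel_left _ hs.pos]
  refine ⟨g, hg, fun j => ?_, fun y hy => ?_⟩
  · rw [mem_Ws, map_pow, e, ← pow_mul, ← orderOf_dvd_iff_pow_eq_one, ho, hq, ht,
      Nat.mul_dvd_mul_iff_right (Nat.pos_of_ne_zero ht0), and_iff_right (W.pow_mem hg j)]
  · obtain ⟨j, hj⟩ := (Submonoid.mem_powers_iff _ _).1
      (mem_powers_iff_mem_zpowers.2 (hc (chi E l y)))
    refine ⟨j, mem_Ws.2 ⟨W.mul_mem (W.inv_mem (W.pow_mem hg j)) hy, ?_⟩⟩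
    rw [map_mul, map_inv, map_pow, e, hj, inv_mul_cancel, one_pow]

theorem ZB_pow (hl : l.Prime) (hd : s ∣ l - 1) {y : Aut E} (hy : y ∈ W) : y ^ s ∈ Ws W l s := by
  have : Fact l.Prime := ⟨hl⟩
  refine mem_Ws.2 ⟨W.pow_mem hy s, ?_⟩
  rw [map_pow, ← pow_mul, Nat.mul_div_cancel' hd, ZMod.units_pow_card_sub_one_eq_one]

theorem ZB_ndvd (hr : r.Prime) (hs : s.Prime) (hsr : s ≠ r) : ¬ r ∣ s := fun h =>
  hsr ((Nat.prime_dvd_prime_iff_eq hr hs).1 h).symm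

theorem ZB_zz (h : BE W r s' m) (hl : l.Prime) (hs : s.Prime) (hsr : s ≠ r) {g : Aut E}
    (hg : g ∈ W) (h1 : ∀ j : ℕ, g ^ j ∈ Ws W l s ↔ s ∣ j) (b : ℕ) :
    ∃ ν : Aut E → ℂˣ, IsChar (Ws W l s) r ν ∧ Unr (Ws W l s) {r} ν ∧
      (∀ x ∈ Ws W l s, Nm m s' ν x = 1) ∧ (∀ x ∈ Ws W l s, Nm g s ν x = 1) ∧
      ∃ x ∈ Ws W l s, ν x ^ r ^ b ≠ 1 := by
  have hm : ∀ i : ℕ, m ^ i ∈ W → m ^ i ∈ Ws W l s := fun i hi =>
    ZB_le hl.ne_zero s ⟨hi, (Fm E l).pow_mem (h.mu l hl.ne_zero) i⟩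
  obtain ⟨ν, a1, a2, a3, a4, a5⟩ := zz (isOpen_Ws h.opn hl.ne_zero s) (normal_Ws h.nrm l s) h.rp
    h.r2 (fun x hx => h.fm hx.1) h.sp (Or.inl hs) h.sr hsr h.mu (h.fm hg)
    (ZB_le hl.ne_zero s ⟨W.mul_mem (h.nrm.conj_mem _ hg m) (W.inv_mem hg),
      commutator_mem_Fm hl.ne_zero m g⟩)
    (hm _ ((h.ord _).2 dvd_rfl)) ((h1 _).2 dvd_rfl) (fun i j hij => by
      have h2 : m ^ i ∈ W := (W.mul_mem_cancel_right (W.pow_mem hg j)).1 hij.1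
      exact ⟨(h.ord i).1 h2, (h1 j).1 (((Ws W l s).mul_mem_cancel_left (hm i h2)).1 hij)⟩) b
  exact ⟨ν, a1, a2, a3, a4 hs.ne_one, a5⟩

/-- `zz` for `Ws W l s`; `nm_gen`, and `Nm y s ν (y ^ s) = ν (y ^ s) ^ s` -/
theorem za (h : BE W r s' m) (hl : l.Prime) (hs : s.Prime) (hd : s ∣ l - 1) (hsr : s ≠ r)
    (hf : Full W l) (b : ℕ) : ∃ ν : Aut E → ℂˣ, IsChar (Ws W l s) r ν ∧ Unr (Ws W l s) {r} ν ∧
      (∀ x ∈ Ws W l s, Nm m s' ν x = 1) ∧ (∀ y ∈ W, y ∉ Ws W l s → ν (y ^ s) = 1) ∧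
      ∃ x ∈ Ws W l s, ν x ^ r ^ b ≠ 1 := by
  obtain ⟨g, hg, h1, h2⟩ := exists_gen_Ws hl hs hd hf
  obtain ⟨ν, a1, a2, a3, a4, a5⟩ := ZB_zz h hl hs hsr hg h1 b
  refine ⟨ν, a1, a2, a3, fun y hy hy' => ?_, a5⟩
  have := normal_Ws h.nrm l s
  obtain ⟨j, hj⟩ := h2 y hy
  have hys := ZB_pow hl hd hy
  have e1 := nm_gen a1.mul hs ((h1 s).2 dvd_rfl) hj hy' hys
  have e2 : Nm y s ν (y ^ s) = ν (y ^ s) ^ s := by
    unfold Nm
    rw [Finset.prod_congr rfl (g := fun _ => ν (y ^ s)) fun j _ => by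
      rw [mul_assoc, pow_mul_comm, inv_mul_cancel_left], Finset.prod_const, Finset.card_range]
  obtain ⟨T, hT⟩ := a1.ord
  exact eq_one_of_coprime h.rp (ZB_ndvd h.rp hs hsr) (by rw [← e2, e1, a4 _ hys]) (hT _ hys)

theorem ZB_nm {G : Type} [Group G] (g : G) (s i k : ℕ) (ν₁ ν₂ : G → ℂˣ) (x : G) :
    Nm g s (fun x => ν₁ x ^ i * (ν₂ x ^ k)⁻¹) x = Nm g s ν₁ x ^ i * (Nm g s ν₂ x ^ k)⁻¹ := by
  unfold Nm
  rw [Finset.prod_mul_distrib, Finset.prod_inv_distrib, Finset.prod_pow, Finset.prod_pow]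

theorem ZB_char {W' : Subgroup (Aut E)} (hle : W' ≤ W) {ν₁ ν₂ : Aut E → ℂˣ}
    (h1 : IsChar W' r ν₁) (h2 : IsChar W r ν₂) (i k : ℕ) :
    IsChar W' r fun x => ν₁ x ^ i * (ν₂ x ^ k)⁻¹ := by
  refine ⟨fun x hx y hy => ?_, ?_, ?_⟩
  · rw [h1.mul x hx y hy, h2.mul x (hle hx) y (hle hy), mul_pow, mul_pow, mul_inv,
      mul_mul_mul_comm]
  · obtain ⟨V₁, a1, a2, a3⟩ := h1.opn
    obtain ⟨V₂, b1, -, b3⟩ := h2.opn
    exact ⟨V₁ ⊓ V₂, isOpen_inf a1 b1, inf_le_left.trans a2, fun x hx => by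
      rw [a3 x hx.1, b3 x hx.2, one_pow, one_pow, inv_one, one_mul]⟩
  · obtain ⟨T₁, a⟩ := h1.ord
    obtain ⟨T₂, b⟩ := h2.ord
    refine ⟨T₁ + T₂, fun x hx => ?_⟩
    have e1 : ν₁ x ^ r ^ (T₁ + T₂) = 1 := by rw [pow_add, pow_mul, a x hx, one_pow]
    have e2 : ν₂ x ^ r ^ (T₁ + T₂) = 1 := by rw [pow_add, pow_mul', b x (hle hx), one_pow]
    rw [mul_pow, inv_pow, pow_right_comm, e1, pow_right_comm, e2, one_pow, one_pow, inv_one,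
      one_mul]

/-- Take `ν₁` from `zz` for `Ws W l s` (killed by `Nm g s`) and `ν₂` from `zz` for `W` with
`s = 1`, `g = 1`, restricted to `Ws W l s` (invariant under `g`; its order does not drop since
`x ^ s ∈ Ws`). Replace both by powers of exact order `r ^ (b + 1)`. One of `ν₁ φ`, `ν₂ φ` is a power
of the other (`exists_pow_or`); take `ν₁ / ν₂ ^ k` or `ν₂ / ν₁ ^ k`. A character that is invariant
and killed by the norm is trivial. -/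
theorem zc (h : BE W r s' m) (hl : l.Prime) (hs : s.Prime) (hd : s ∣ l - 1) (hsr : s ≠ r)
    (hf : Full W l) {φ : Aut E} (hφ : φ ∈ Ws W l s) (b : ℕ) :
    ∃ ν : Aut E → ℂˣ, IsChar (Ws W l s) r ν ∧ Unr (Ws W l s) {r} ν ∧
      (∀ x ∈ Ws W l s, Nm m s' ν x = 1) ∧ ν φ = 1 ∧ ∃ x ∈ Ws W l s, ν x ^ r ^ b ≠ 1 := by
  obtain ⟨g, hg, h1, -⟩ := exists_gen_Ws hl hs hd hf
  obtain ⟨ν₁, a1, a2, a3, a4, x₁, a5, a6⟩ := ZB_zz h hl hs hsr hg h1 b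
  obtain ⟨ν₂, b1, b2, b3, -, x₂, b5, b6⟩ := zz (s := 1) (g := 1) h.opn h.nrm h.rp h.r2 h.fm h.sp
    (Or.inr rfl) h.sr h.rp.ne_one.symm h.mu (one_mem _) (by simp) ((h.ord _).2 dvd_rfl) (by simp)
    (fun i j hij => ⟨(h.ord i).1 (by simpa using hij), one_dvd _⟩) b
  have hN := normal_Ws h.nrm l s
  have hle : Ws W l s ≤ W := inf_le_left
  have hnd := ZB_ndvd h.rp hs hsr
  obtain ⟨T₁, o1⟩ := a1.ord
  obtain ⟨T₂, o2⟩ := b1.ord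
  have key : ∀ i k : ℕ, (∀ x ∈ Ws W l s, (ν₁ x ^ i * (ν₂ x ^ k)⁻¹) ^ r ^ b = 1) →
      ∀ x ∈ Ws W l s, (ν₁ x ^ i) ^ r ^ b = 1 ∧ (ν₂ x ^ k) ^ r ^ b = 1 := fun i k hh => by
    have e : ∀ x ∈ Ws W l s, (ν₁ x ^ i) ^ r ^ b = (ν₂ x ^ k) ^ r ^ b := fun x hx => by
      have := hh x hx
      rwa [mul_pow, inv_pow, mul_inv_eq_one] at this
    intro x hx
    have e1 : ((ν₂ x ^ k) ^ r ^ b) ^ s = (Nm g s ν₁ x ^ i) ^ r ^ b := by
      unfold Nm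
      rw [← Finset.prod_pow, ← Finset.prod_pow, Finset.prod_congr rfl
        (g := fun _ => (ν₂ x ^ k) ^ r ^ b) fun j _ => by
          rw [e _ (hN.conj_mem' _ hx _), ch_conj b1.mul (hle hx) (W.pow_mem hg j)],
        Finset.prod_const, Finset.card_range]
    have e2 : (ν₂ x ^ k) ^ r ^ b = 1 :=
      eq_one_of_coprime (T := T₂) h.rp hnd (by rw [e1, a4 x hx, one_pow, one_pow]) (by
        rw [pow_right_comm, pow_right_comm (ν₂ x), o2 x (hle hx), one_pow, one_pow])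
    exact ⟨(e x hx).trans e2, e2⟩
  have fin : ∀ i k : ℕ, ν₁ φ ^ i = ν₂ φ ^ k → i = 1 ∨ k = 1 →
      ∃ ν : Aut E → ℂˣ, IsChar (Ws W l s) r ν ∧ Unr (Ws W l s) {r} ν ∧
      (∀ x ∈ Ws W l s, Nm m s' ν x = 1) ∧ ν φ = 1 ∧ ∃ x ∈ Ws W l s, ν x ^ r ^ b ≠ 1 :=
    fun i k e hik => by
      refine ⟨_, ZB_char hle a1 b1 i k, fun A hA x hx hI => ?_, fun x hx => ?_,
        by rw [e, mul_inv_cancel], ?_⟩
      · simp only [a2 A hA x hx hI, b2 A hA x (hle hx) hI, one_pow, inv_one, one_mul]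
      · rw [ZB_nm, a3 x hx, b3 x (hle hx), one_pow, one_pow, inv_one, one_mul]
      · by_contra hc
        push Not at hc
        rcases hik with rfl | rfl
        · exact a6 (by simpa using (key 1 k hc x₁ a5).1)
        · have := (key i 1 hc _ (ZB_pow hl hd b5)).2
          rw [pow_one, ch_pow b1.mul b5, pow_right_comm] at this
          exact b6 (eq_one_of_coprime (T := T₂) h.rp hnd this (by
            rw [pow_right_comm, o2 _ b5, one_pow]))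
  have p1 : ν₁ φ ^ r ^ (T₁ + T₂) = 1 := by rw [pow_add, pow_mul, o1 φ hφ, one_pow]
  have p2 : ν₂ φ ^ r ^ (T₁ + T₂) = 1 := by rw [pow_add, pow_mul', o2 φ (hle hφ), one_pow]
  rcases exists_pow_or h.rp p1 p2 with ⟨k, e⟩ | ⟨k, e⟩
  · exact fin 1 k (by rw [pow_one, e]) (Or.inl rfl)
  · exact fin k 1 (by rw [pow_one, e]) (Or.inr rfl)

end Uc
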