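import Vale.Agent.P024.EG
import Vale.Agent.P024.Core
import Vale.Agent.P024.ZB

/-! The independent case. -/

noncomputable section
namespace Uc
open scoped Classical
variable {Ω E : Type} [Field Ω] [CharZero Ω] [Nice Ω] [IsAlgClosed Ω] [Field E] [CharZero E]
  [Nice E] {V : Subgroup (Aut Ω)} {α : Aut Ω → Aut E}

variable {W : Subgroup (Aut E)} {r s' : ℕ} {m : Aut Ω}

/-- pigeonhole principle for an infinite set -/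
theorem CB1_pigeon {X : Type} {Q : Set ℕ} (hQ : Q.Infinite) {T : Set X} (hT : T.Finite)
    (R : ℕ → X → Prop) (h : ∀ q ∈ Q, ∃ x ∈ T, R q x) : ∃ x ∈ T, {q | q ∈ Q ∧ R q x}.Infinite := by
  by_contra hc
  push Not at hc
  refine hQ ((hT.biUnion fun x hx => hc x hx).subset fun q hq => ?_)
  obtain ⟨x, hx, hr⟩ := h q hq
  exact Set.mem_biUnion hx ⟨hq, hr⟩

/-- See the blueprint, section CB. -/
theorem kl1b (h : Setup V α) (hm : m ∈ Mt V α) (hb : BE W r s' (α m)) {l : ℕ} (hl : l.Prime)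
    (h2 : l ≠ 2) (hf : Full W l) {p : ℕ} (hp : p ≠ r) (hg : Good (Ws W l 2) p)
    (hI : ∀ B : Pr E, B.p = p → B.I ≤ Ws W l 2) : KL1 V α p := by
  by_contra hc
  have hQ : {q : ℕ | ∃ (l' : ℕ) (A : Pr Ω) (B : Pr E), l'.Prime ∧ A.p = q ∧ B.p = p ∧
      Hit V α l' A B}.Infinite := fun hfin =>
    hc ⟨hfin.toFinset, ∅, fun l' A B h1 _ _ h3 h4 =>
      (Set.Finite.mem_toFinset _).2 ⟨l', A, B, h1, rfl, h3, h4⟩⟩
  obtain ⟨X, hX, hX'⟩ := orb (h.isOpen_img isOpen_top) p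
  obtain ⟨B₀, hB₀, hQ'⟩ := CB1_pigeon hQ X.finite_toSet
    (fun q B₀ => ∃ (l' : ℕ) (A : Pr Ω), l'.Prime ∧ A.p = q ∧ Hit V α l' A B₀) (by
      rintro q ⟨l', A, B, h1, h3, h4, h5⟩
      obtain ⟨B₀, h6, u, h7, h8⟩ := hX' B h4
      obtain ⟨v, -, hv, rfl⟩ := h.mem_img.1 h7
      refine ⟨B₀, h6, l', v⁻¹ • A, h1, h3, ?_⟩
      have := h.hit_smul h5 (V.inv_mem hv)
      rwa [h.map_inv hv, ← h8, inv_smul_smul] at this)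
  have hp₀ : B₀.p = p := hX B₀ hB₀
  obtain ⟨φ₂, hφ₂, hF⟩ := hg B₀ hp₀
  rw [← hp₀] at hF
  have hW := isOpen_Ws hb.opn hl.ne_zero 2
  have hdata : ∀ q : ℕ, ∃ (A : Pr Ω) (φ σ : Aut Ω) (f : ℕ), (q ∈ {q | q ∈ {q : ℕ |
      ∃ (l' : ℕ) (A : Pr Ω) (B : Pr E), l'.Prime ∧ A.p = q ∧ B.p = p ∧ Hit V α l' A B} ∧
      ∃ (l' : ℕ) (A : Pr Ω), l'.Prime ∧ A.p = q ∧ Hit V α l' A B₀}) →
      A.p = q ∧ A.IsFrob q φ ∧ (∀ j : ℕ, φ ^ j ∈ V ↔ f ∣ j) ∧ σ ∈ V ∧ A.IsFrob (q ^ f) σ ∧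
        α σ ∈ B₀.D := by
    intro q
    by_cases hq : ∃ (l' : ℕ) (A : Pr Ω), l'.Prime ∧ A.p = q ∧ Hit V α l' A B₀
    · obtain ⟨l', A, h1, rfl, h3⟩ := hq
      obtain ⟨φ, σ, f, -, -, h4, h5, h6, h7, h8, -⟩ := hit_data h h1 h3
      exact ⟨A, φ, σ, f, fun _ => ⟨rfl, h4, h5, h6, h7, h8⟩⟩
    · obtain ⟨A, -⟩ := Pr.exists_above (E := Ω) Nat.prime_two
      exact ⟨A, 1, 1, 0, fun hq' => absurd hq'.2 hq⟩
  choose A φ σ f hdata using hdata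
  have hI₀ := hI B₀ hp₀
  obtain ⟨b, hcore⟩ := core h hW (normal_Ws hb.nrm l 2) hb.rp hb.r2 hb.sp.pos hm hQ' A φ σ f
    fun q hq => by
      obtain ⟨h1, h3, h4, h5, h6, h7⟩ := hdata q hq
      refine ⟨h1, h3, h4, h5, h6, ?_⟩
      obtain ⟨a, i, hi, x, hx, he⟩ := df hF h7 hW
      rw [he]
      exact mul_mem (mul_mem (pow_mem hφ₂ a) (hI₀ hi)) hx
  have hd : 2 ∣ l - 1 := (hl.even_sub_one h2).two_dvd
  obtain ⟨ν, h1, h3, h4, h5, x, hx, h6⟩ := zc hb hl Nat.prime_two hd hb.r2.symm hf hφ₂ b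
  refine h6 (hcore ν h1 h3 (fun q hq => ?_) h4 x hx)
  obtain ⟨W', h7, h8, h9⟩ := h1.opn
  obtain ⟨a, i, hi, y, hy, he⟩ := df hF (hdata q hq).2.2.2.2.2 h7
  rw [he, h1.mul _ (mul_mem (pow_mem hφ₂ a) (hI₀ hi)) _ (h8 hy),
    h1.mul _ (pow_mem hφ₂ a) _ (hI₀ hi), ch_pow h1.mul hφ₂, h5, h9 y hy,
    h3 B₀ (by rw [hp₀]; simpa using hp) i (hI₀ hi) hi]
  simp

end Uc
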