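import Vale.Agent.P024.NFc

/-! Decomposition theory at finite level, and finiteness of Selmer groups. -/

noncomputable section
namespace Uc
open NumberField
open scoped Classical
variable {L : Type} [Field L] [NumberField L]

theorem NF3_types {α τ : Type} {T : Set τ} (hT : T.Finite) (P : α → Prop) (t : α → τ → Prop)
    (h : ∀ a, P a → ∃ i ∈ T, t a i) :
    ∃ X : Finset α, (∀ a ∈ X, P a) ∧ ∀ a, P a → ∃ a₀ ∈ X, ∃ i, t a i ∧ t a₀ i := by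
  have h1 : ∀ i : {i // i ∈ T ∧ ∃ a, P a ∧ t a i}, ∃ a, P a ∧ t a i.1 := fun i => i.2.2
  choose f hf using h1
  have : Finite {i // i ∈ T ∧ ∃ a, P a ∧ t a i} := (hT.subset fun i hi => hi.1).to_subtype
  refine ⟨(Set.finite_range f).toFinset, fun a ha => ?_, fun a ha => ?_⟩
  · obtain ⟨i, rfl⟩ := (Set.Finite.mem_toFinset _).1 ha
    exact (hf i).1
  · obtain ⟨i, hi, hi'⟩ := h a ha
    exact ⟨f ⟨i, hi, a, ha, hi'⟩, (Set.Finite.mem_toFinset _).2 ⟨_, rfl⟩, i, hi', (hf _).2⟩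

/-- the units modulo `n`-th powers (Dirichlet) -/
theorem units_mod_pow (L : Type) [Field L] [NumberField L] {n : ℕ} (hn : n ≠ 0) :
    ∃ X : Finset L, ∀ x : L, x ≠ 0 → (∀ B : Pr L, B.w x = 0) →
      ∃ x₀ ∈ X, ∃ y : L, x = x₀ * y ^ n := by
  have : Group.FG (𝓞 L)ˣ := Group.fg_iff_monoid_fg.2 inferInstance
  have := Subgroup.finiteIndex_range_powMonoidHom_of_fg (𝓞 L)ˣ hn
  let f : (𝓞 L)ˣ ⧸ (powMonoidHom n : (𝓞 L)ˣ →* (𝓞 L)ˣ).range → L :=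
    fun q => ((q.out : (𝓞 L)ˣ) : 𝓞 L)
  refine ⟨(Set.finite_range f).toFinset, fun x hx h => ?_⟩
  obtain ⟨u, rfl⟩ := Pr.exists_unit hx h
  obtain ⟨⟨_, v, rfl⟩, hv⟩ := QuotientGroup.mk_out_eq_mul
    (powMonoidHom n : (𝓞 L)ˣ →* (𝓞 L)ˣ).range u
  refine ⟨f u, (Set.Finite.mem_toFinset _).2 ⟨_, rfl⟩, ((v⁻¹ : (𝓞 L)ˣ) : 𝓞 L), ?_⟩
  have h1 : u = (QuotientGroup.mk u :
      (𝓞 L)ˣ ⧸ (powMonoidHom n : (𝓞 L)ˣ →* (𝓞 L)ˣ).range).out * v⁻¹ ^ n := by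
    rw [hv, inv_pow]
    exact (mul_inv_cancel_right u (v ^ n)).symm
  have h2 := congrArg (fun w : (𝓞 L)ˣ => ((w : 𝓞 L) : L)) h1
  simpa [f] using h2

theorem NF3_sel (L : Type) [Field L] [NumberField L] {n : ℕ} (hn : n ≠ 0) :
    ∃ X : Finset L, ∀ x : L, x ≠ 0 → (∀ B : Pr L, ∃ c : L, c ≠ 0 ∧ B.w x = n * B.w c) →
      ∃ x₀ ∈ X, ∃ y : L, x = x₀ * y ^ n := by
  have hn' : (n : ℚ) ≠ 0 := Nat.cast_ne_zero.2 hn
  obtain ⟨C, hC⟩ := exists_class_reps L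
  obtain ⟨U, hU⟩ := units_mod_pow L hn
  obtain ⟨X, h1, h2⟩ := NF3_types C.finite_toSet
    (fun x : L => x ≠ 0 ∧ ∀ B : Pr L, ∃ c : L, c ≠ 0 ∧ B.w x = n * B.w c)
    (fun x D => ∃ y : L, y ≠ 0 ∧ ∀ B : Pr L, B.w x / n = D B + B.w y) fun x hx =>
    hC (fun B => B.w x / n) ⟨(Pr.finite_supp x).subset fun B hB h0 => hB (by
      show B.w x / n = 0
      rw [h0, zero_div]), fun B => by
      obtain ⟨c, c1, c2⟩ := hx.2 B
      exact ⟨c, c1, by beta_reduce; rw [c2, mul_div_cancel_left₀ _ hn']⟩⟩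
  refine ⟨Finset.image₂ (· * ·) X U, fun x hx h => ?_⟩
  obtain ⟨x₀, a1, D, ⟨y, y1, y2⟩, y₀, y3, y4⟩ := h2 x ⟨hx, h⟩
  have a2 := (h1 x₀ a1).1
  obtain ⟨u, u1, v, u2⟩ := hU (x / x₀ * (y₀ / y) ^ n)
    (mul_ne_zero (div_ne_zero hx a2) (pow_ne_zero _ (div_ne_zero y3 y1))) fun B => by
      rw [B.w_mul _ _ (div_ne_zero hx a2) (pow_ne_zero _ (div_ne_zero y3 y1)), B.w_div hx a2,
        B.w_pow, B.w_div y3 y1, (div_eq_iff hn').1 (y2 B), (div_eq_iff hn').1 (y4 B)]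
      ring
  refine ⟨x₀ * u, Finset.mem_image₂_of_mem a1 u1, v * (y / y₀), ?_⟩
  rw [mul_pow, mul_assoc, ← mul_assoc u, ← u2, mul_assoc, ← mul_pow]
  field_simp
  simp

/-- Selmer groups are finite: the valuations at the primes above `S` modulo `n`, then the class
of the divisor of `x` divided by `n`, then units modulo `n`-th powers; choose one element in each
of the finitely many types -/
theorem selmer_fin (L : Type) [Field L] [NumberField L] {n : ℕ} (hn : n ≠ 0) (S : Finset ℕ) :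
    ∃ X : Finset L, ∀ x : L, x ≠ 0 →
      (∀ B : Pr L, B.p ∉ S → ∃ c : L, c ≠ 0 ∧ B.w x = n * B.w c) →
      ∃ x₀ ∈ X, ∃ y : L, x = x₀ * y ^ n := by
  have : NeZero n := ⟨hn⟩
  have : Finite {B : Pr L // B.p ∈ S} :=
    ((S.finite_toSet.biUnion fun p _ => Pr.finite_above L p).subset fun B hB =>
      Set.mem_biUnion hB rfl).to_subtype
  choose e he0 _ he π hπ0 hπ using fun B : Pr L => B.exists_ram
  obtain ⟨U, hU⟩ := NF3_sel L hn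
  obtain ⟨X, h1, h2⟩ := NF3_types (Set.finite_univ (α := {B : Pr L // B.p ∈ S} → ZMod n))
    (fun x : L => x ≠ 0 ∧ ∀ B : Pr L, B.p ∉ S → ∃ c : L, c ≠ 0 ∧ B.w x = n * B.w c)
    (fun x f => ∀ B : {B : Pr L // B.p ∈ S}, ∃ k : ℤ, B.1.w x = k / e B.1 ∧ (k : ZMod n) = f B)
    fun x _ => by
      choose k hk using fun B => he B x
      exact ⟨fun B => k B.1, Set.mem_univ _, fun B => ⟨k B.1, hk B.1, rfl⟩⟩
  refine ⟨Finset.image₂ (· * ·) X U, fun x hx h => ?_⟩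
  obtain ⟨x₀, a1, f, f1, f2⟩ := h2 x ⟨hx, h⟩
  obtain ⟨a2, a3⟩ := h1 x₀ a1
  obtain ⟨u, u1, y, u2⟩ := hU (x / x₀) (div_ne_zero hx a2) fun B => by
    rw [B.w_div hx a2]
    by_cases hB : B.p ∈ S
    · obtain ⟨k, k1, k2⟩ := f1 ⟨B, hB⟩
      obtain ⟨k', k3, k4⟩ := f2 ⟨B, hB⟩
      obtain ⟨m, hm⟩ := (ZMod.intCast_eq_intCast_iff_dvd_sub k' k n).1 (k4.trans k2.symm)
      refine ⟨π B ^ m, zpow_ne_zero _ (hπ0 B), ?_⟩
      have hm' : (k : ℚ) - k' = n * m := by exact_mod_cast hm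
      rw [k1, k3, B.w_zpow, hπ, ← sub_div, hm']
      ring
    · obtain ⟨c, c1, c2⟩ := h B hB
      obtain ⟨c', c3, c4⟩ := a3 B hB
      exact ⟨c / c', div_ne_zero c1 c3, by rw [B.w_div c1 c3, c2, c4, mul_sub]⟩
  refine ⟨x₀ * u, Finset.mem_image₂_of_mem a1 u1, y, ?_⟩
  rw [mul_assoc, ← u2, mul_div_cancel₀ _ a2]

theorem NF3_fin (L : Type) [Field L] [NumberField L] {r : ℕ} (hr : r.Prime) (T : ℕ) :
    Finite (𝓞 L ⧸ Ideal.span {(r : 𝓞 L) ^ T}) :=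
  Ideal.finiteQuotientOfFreeOfNeBot _ fun h =>
    pow_ne_zero T (Nat.cast_ne_zero.2 hr.ne_zero) (Ideal.span_singleton_eq_bot.1 h)

theorem NF3_cg {r : ℕ} (hr : r.Prime) {T : ℕ} {z z' : 𝓞 L}
    (h : Ideal.Quotient.mk (Ideal.span {(r : 𝓞 L) ^ T}) z = Ideal.Quotient.mk _ z') :
    Cg r T (z : L) z' := fun B hB => by
  have := (Pr.pow_dvd_iff hr T _).1 (Ideal.mem_span_singleton.1 (Ideal.Quotient.eq.1 h)) B hB
  simpa using this

/-- Finiteness of ray class groups. -/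
theorem ray_fin (L : Type) [Field L] [NumberField L] {r : ℕ} (hr : r.Prime) (T : ℕ) :
    ∃ X : Finset (Pr L → ℚ), ∀ D : Pr L → ℚ, IsDv D → (∀ B : Pr L, B.p = r → D B = 0) →
      ∃ D₀ ∈ X, ∃ x : L, x ≠ 0 ∧ Cg r (T + 1) x 1 ∧ ∀ B, D B = D₀ B + B.w x := by
  have := NF3_fin L hr (T + 1)
  obtain ⟨C, hC⟩ := exists_class_reps L
  obtain ⟨X, h1, h2⟩ := NF3_types C.finite_toSet
    (fun D : Pr L → ℚ => IsDv D ∧ ∀ B : Pr L, B.p = r → D B = 0)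
    (fun D D₀ => ∃ x : L, x ≠ 0 ∧ ∀ B, D B = D₀ B + B.w x) fun D hD => hC D hD.1
  obtain ⟨Y, h3, h4⟩ := NF3_types
    (Set.finite_univ (α := 𝓞 L ⧸ Ideal.span {(r : 𝓞 L) ^ (T + 1)}))
    (fun x : L => x ≠ 0 ∧ ∀ B : Pr L, B.p = r → B.w x = 0)
    (fun x c => ∃ z : 𝓞 L, Cg r (T + 1) x z ∧ Ideal.Quotient.mk _ z = c) fun x hx => by
      obtain ⟨z, hz⟩ := Pr.exists_int_cg r (T + 1) (y := x) fun B hB => (hx.2 B hB).ge
      exact ⟨_, Set.mem_univ _, z, hz, rfl⟩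
  refine ⟨Finset.image₂ (fun (D : Pr L → ℚ) (y : L) (B : Pr L) => D B + B.w y) X Y,
    fun D hD h0 => ?_⟩
  obtain ⟨D', a1, D₀, ⟨x, x1, x2⟩, x', x3, x4⟩ := h2 D ⟨hD, h0⟩
  have a2 : ∀ B : Pr L, D B = D' B + B.w (x / x') := fun B => by
    rw [B.w_div x1 x3, x2, x4]; ring
  have a3 := div_ne_zero x1 x3
  obtain ⟨y, b1, c, ⟨z, z1, z2⟩, z', z3, z4⟩ := h4 (x / x') ⟨a3, fun B hB => by
    have := a2 B
    rw [h0 B hB, (h1 D' a1).2 B hB, zero_add] at this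
    exact this.symm⟩
  obtain ⟨b2, b3⟩ := h3 y b1
  refine ⟨_, Finset.mem_image₂_of_mem a1 b1, x / x' / y, div_ne_zero a3 b2, fun B hB => ?_,
    fun B => by rw [B.w_div a3 b2, a2]; ring⟩
  rw [div_sub_one b2, Pr.ge_div_iff b2, b3 B hB, add_zero]
  have := ((z1 B hB).add (NF3_cg hr (z2.trans z4.symm) B hB)).sub (z3 B hB)
  rwa [sub_add_sub_cancel, sub_sub_sub_cancel_right] at this

theorem NF3_pow {B : Pr L} {t : ℚ} {x z : L} (hx : B.In x) (hz : B.In z) (h : B.Ge t (x - z))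
    (k : ℕ) : B.Ge t (x ^ k - z ^ k) := by
  induction k with
  | zero => rw [pow_zero, pow_zero, sub_self]; exact Pr.Ge.zero B t
  | succ k ih =>
    have h1 := (Pr.ge_zero_iff.2 hx).mul ih
    have h2 := h.mul (Pr.ge_zero_iff.2 (hz.pow k))
    rw [zero_add] at h1
    rw [add_zero] at h2
    have e : x ^ (k + 1) - z ^ (k + 1) = x * (x ^ k - z ^ k) + (x - z) * z ^ k := by ring
    rw [e]
    exact h1.add h2

/-- a fixed power of an element prime to `r` is congruent to `1` -/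
theorem exists_pow_cg (L : Type) [Field L] [NumberField L] {r : ℕ} (hr : r.Prime) (T : ℕ) :
    ∃ e : ℕ, 0 < e ∧ ∀ x : L, x ≠ 0 → (∀ B : Pr L, B.p = r → B.w x = 0) → Cg r T (x ^ e) 1 := by
  have := NF3_fin L hr T
  refine ⟨Nat.card (𝓞 L ⧸ Ideal.span {(r : 𝓞 L) ^ T})ˣ, Nat.card_pos, fun x hx h => ?_⟩
  obtain ⟨z, hz⟩ := Pr.exists_int_cg r (T + 1) (y := x) fun B hB => (h B hB).ge
  have h1 : ∀ B : Pr L, B.p = r → (z : L) ≠ 0 ∧ B.w z = B.w x := fun B hB => by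
    refine Pr.w_eq_of_sm hx (Pr.Ge.sm (t := ((T + 1 : ℕ) : ℚ)) ?_ (by positivity))
    rw [div_sub_one hx, Pr.ge_div_iff hx, h B hB, add_zero, ← neg_sub]
    exact (hz B hB).neg
  obtain ⟨B₀, hB₀⟩ := Pr.exists_above (E := L) hr
  have h2 : IsCoprime z ((r : 𝓞 L) ^ T) :=
    ((Pr.isCoprime_iff hr z).2 ⟨(h1 B₀ hB₀).1, fun B hB => (h1 B hB).2.trans (h B hB)⟩).pow_right
  obtain ⟨a, b, hab⟩ := h2
  have h3 : IsUnit (Ideal.Quotient.mk (Ideal.span {(r : 𝓞 L) ^ T}) z) := by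
    refine IsUnit.of_mul_eq_one_right (Ideal.Quotient.mk _ a) ?_
    rw [← map_mul, ← map_one (Ideal.Quotient.mk (Ideal.span {(r : 𝓞 L) ^ T})), Ideal.Quotient.eq,
      ← hab, sub_add_cancel_left]
    exact neg_mem (Ideal.mul_mem_left _ _ (Ideal.mem_span_singleton_self _))
  obtain ⟨u, hu⟩ := h3
  have h4 : Ideal.Quotient.mk (Ideal.span {(r : 𝓞 L) ^ T})
      (z ^ Nat.card (𝓞 L ⧸ Ideal.span {(r : 𝓞 L) ^ T})ˣ) = Ideal.Quotient.mk _ 1 := by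
    rw [map_pow, ← hu, ← Units.val_pow_eq_pow_val, pow_card_eq_one', map_one, Units.val_one]
  intro B hB
  have h5 := NF3_cg hr h4 B hB
  have h6 := NF3_pow (h B hB).ge (B.in_coe z)
    ((hz B hB).mono (s := (T : ℚ)) (by exact_mod_cast T.le_succ))
    (Nat.card (𝓞 L ⧸ Ideal.span {(r : 𝓞 L) ^ T})ˣ)
  push_cast at h5
  have h7 := h6.add h5
  rwa [sub_add_sub_cancel] at h7

end Uc
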