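import Vale.Agent.P024.VD
import Vale.Agent.P024.NF3

/-! Value groups do not grow in unramified extensions. -/

noncomputable section
namespace Uc
open scoped Classical
variable {E : Type} [Field E] [CharZero E] [Nice E]

theorem SF_emb {n : ℕ} (hn : n ≠ 0) : ∃ (e : ZMod n → ℂˣ) (k : ℂˣ → ZMod n),
    (∀ a, k (e a) = a) ∧ e 0 = 1 ∧ (∀ a b, e (a + b) = e a * e b) ∧
      ∀ u : ℂˣ, u ^ n = 1 → e (k u) = u := by
  obtain ⟨e, h1, h2, h3⟩ := exists_emb hn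
  have : NeZero n := ⟨hn⟩
  have h4 : ∀ (m : ℕ) (a : ZMod n), e (m • a) = e a ^ m := by
    intro m a
    induction m with
    | zero => rw [zero_smul, pow_zero, h2]
    | succ m ih => rw [succ_nsmul, h3, ih, pow_succ]
  have h5 : ∀ a, e a ∈ rootsOfUnity n ℂ := fun a => by
    rw [mem_rootsOfUnity, ← h4, nsmul_eq_mul, ZMod.natCast_self, zero_mul, h2]
  have h6 : Function.Injective fun a => (⟨e a, h5 a⟩ : rootsOfUnity n ℂ) :=
    fun a b h => h1 (congrArg Subtype.val h)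
  have h7 := h6.bijective_of_nat_card_le (by
    rw [Nat.card_zmod]
    exact card_rootsOfUnity ℂ n)
  refine ⟨e, Function.invFun e, Function.leftInverse_invFun h1, h2, h3, fun u hu => ?_⟩
  obtain ⟨a, ha⟩ := h7.2 ⟨u, (mem_rootsOfUnity n u).2 hu⟩
  exact Function.invFun_eq ⟨a, congrArg Subtype.val ha⟩

theorem SF_kummer {W : Subgroup (Aut E)} (hW : IsOpen (W : Set (Aut E))) {r : ℕ} (hr : r ≠ 0)
    (hF : W ≤ Fm E r) (S : Finset ℕ) : ∃ X₀ : Finset E, ∀ (k : Aut E → ZMod r)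
      (W' : Subgroup (Aut E)), IsOpen (W' : Set (Aut E)) → (∀ g ∈ W, g ∈ W' → k g = 0) →
      (∀ g ∈ W, ∀ h ∈ W, k (g * h) = k g + k h) →
      (∀ A : Pr E, A.p ∉ S → ∀ g ∈ W, g ∈ A.I → k g = 0) →
      ∃ x ∈ X₀, ∀ g ∈ W, k g = kc r x g := by
  have := numberField_Fx hW
  obtain ⟨X₀, hX₀⟩ := selmer_fin (Fx W) hr S
  refine ⟨X₀.image (Fx W).subtype, fun k W' hW' h0 hk hI => ?_⟩
  have hz := zt_prim (E := E) hr
  have hp : ∀ a : ZMod r, (zt E r ^ a.val) ^ r = 1 := fun a => by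
    rw [← pow_mul, mul_comm, pow_mul, hz.pow_eq_one, one_pow]
  obtain ⟨z, hz0, hz1⟩ := hilbert90 (isOpen_inf hW hW') inf_le_left (fun g => zt E r ^ (k g).val)
    (fun g _ => pow_ne_zero _ (hz.ne_zero hr))
    (fun g hg h hh => by rw [hk g hg h hh, zt_pow_add hr, mem_Fm.1 (hF hg) _ (hp _)])
    (fun g hg => by rw [h0 g hg.1 hg.2, ZMod.val_zero, pow_zero])
  have hx : z ^ r ∈ Fx W := fun g hg => by rw [map_pow, hz1 g hg, mul_pow, hp, one_mul]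
  obtain ⟨x₀, hx₀, y, hy⟩ := hX₀ ⟨z ^ r, hx⟩
    (fun h => pow_ne_zero r hz0 (congrArg Subtype.val h)) (fun B hB => by
      obtain ⟨A, rfl⟩ := Pr.exists_ext (Fx W).subtype B
      obtain ⟨c, hc, hc0, hc1⟩ := vd hW A hz0 fun g hg hgI => by
        rw [hz1 g hg, hI A hB g hg hgI, ZMod.val_zero, pow_zero, one_mul]
      refine ⟨⟨c, hc⟩, fun h => hc0 (congrArg Subtype.val h), ?_⟩
      change A.w (z ^ r) = r * A.w c
      rw [Pr.w_pow, hc1])
  have hy' : z ^ r = (x₀ : E) * (y : E) ^ r := congrArg Subtype.val hy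
  have h1 : (x₀ : E) * (y : E) ^ r ≠ 0 := hy' ▸ pow_ne_zero r hz0
  have hx0 : (x₀ : E) ≠ 0 := left_ne_zero_of_mul h1
  have hy0 : (y : E) ≠ 0 := fun h => right_ne_zero_of_mul h1 (by rw [h, zero_pow hr])
  refine ⟨x₀, Finset.mem_image_of_mem _ hx₀, fun g hg => ?_⟩
  refine (kc_eq hr hx0 (hF hg) (ρ := z / y) ?_ ?_).symm
  · rw [div_pow, hy', mul_div_cancel_right₀ _ (pow_ne_zero r hy0)]
  · rw [map_div₀, hz1 g hg, y.2 g hg, mul_div_assoc]

/-- Finiteness of characters of order `r`. On `W' = W ⊓ Fm r` write `ν g = e (k g)`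
(`exists_emb`; its range is all `r`-th roots of unity), `hilbert90` for `zt ^ k g` gives `z` with
`x = z ^ r` in `Fx W'`, `vd` and `selmer_fin` show that `ν` on `W'` is one of finitely many Kummer
characters; the values on a transversal of `W / W'` are `r`-th roots of unity. -/
theorem sf1 {W : Subgroup (Aut E)} (hW : IsOpen (W : Set (Aut E))) {r : ℕ} (hr : r.Prime)
    (S : Finset ℕ) : ∃ R : ℕ, ∀ X : Finset (Aut E → ℂˣ),
      (∀ ν ∈ X, IsChar W r ν ∧ Unr W S ν ∧ ∀ g ∈ W, ν g ^ r = 1) →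
      (∀ ν ∈ X, ∀ ν' ∈ X, (∀ g ∈ W, ν g = ν' g) → ν = ν') → X.card ≤ R := by
  have hr0 := hr.ne_zero
  have : NeZero r := ⟨hr0⟩
  have hW1 : IsOpen ((W ⊓ Fm E r : Subgroup (Aut E)) : Set (Aut E)) :=
    isOpen_inf hW (isOpen_Fm hr0)
  obtain ⟨e, k, h1, h2, h3, h4⟩ := SF_emb hr0
  obtain ⟨X₀, hX₀⟩ := SF_kummer hW1 hr0 inf_le_right S
  obtain ⟨T, hT1, hT2, -⟩ := exists_transversal (W := W) hW1
  refine ⟨(X₀ ×ˢ (Finset.univ : Finset (T → ZMod r))).card, fun X hX hsep => ?_⟩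
  have k1 : k 1 = 0 := by rw [← h2, h1]
  have key : ∀ ν : Aut E → ℂˣ, ∃ x : E, ν ∈ X →
      x ∈ X₀ ∧ ∀ g ∈ W ⊓ Fm E r, k (ν g) = kc r x g := by
    intro ν
    by_cases hν : ν ∈ X
    · obtain ⟨hc, hu, hp⟩ := hX ν hν
      obtain ⟨W', hW', -, hW''⟩ := hc.opn
      obtain ⟨x, hx, hx'⟩ := hX₀ (fun g => k (ν g)) W' hW'
        (fun g _ hg => by rw [hW'' g hg, k1])
        (fun g hg h hh => by
          rw [hc.mul g hg.1 h hh.1, ← h4 _ (hp g hg.1), ← h4 _ (hp h hh.1), ← h3, h1, h1, h1])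
        (fun A hA g hg hI => by rw [hu A hA g hg.1 hI, k1])
      exact ⟨x, fun _ => ⟨hx, hx'⟩⟩
    · exact ⟨0, fun h => absurd h hν⟩
  choose x hx using key
  refine Finset.card_le_card_of_injOn (fun ν => (x ν, fun t : T => k (ν t)))
    (fun ν hν => Finset.mem_coe.2 (Finset.mem_product.2 ⟨(hx ν hν).1, Finset.mem_univ _⟩))
    fun ν hν ν' hν' h => hsep ν hν ν' hν' fun g hg => ?_
  obtain ⟨hc, -, hp⟩ := hX ν hν
  obtain ⟨hc', -, hp'⟩ := hX ν' hν'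
  obtain ⟨t, ht, htg⟩ := hT2 g hg
  have e1 : x ν = x ν' := congrArg Prod.fst h
  have e2 : k (ν t) = k (ν' t) := congrFun (congrArg Prod.snd h) ⟨t, ht⟩
  have e3 : ν t = ν' t := by rw [← h4 _ (hp t (hT1 t ht)), e2, h4 _ (hp' t (hT1 t ht))]
  have e4 : ν (t⁻¹ * g) = ν' (t⁻¹ * g) := by
    rw [← h4 _ (hp _ htg.1), (hx ν hν).2 _ htg, e1, ← (hx ν' hν').2 _ htg, h4 _ (hp' _ htg.1)]
  rw [← mul_inv_cancel_left t g, hc.mul _ (hT1 t ht) _ htg.1, hc'.mul _ (hT1 t ht) _ htg.1, e3, e4]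

/-- induction on `b`: the fibres of `ν ↦ ν ^ r` -/
theorem sf {W : Subgroup (Aut E)} (hW : IsOpen (W : Set (Aut E))) {r : ℕ} (hr : r.Prime)
    (S : Finset ℕ) (b : ℕ) : ∃ R : ℕ, ∀ X : Finset (Aut E → ℂˣ),
      (∀ ν ∈ X, IsChar W r ν ∧ Unr W S ν ∧ ∀ g ∈ W, ν g ^ r ^ b = 1) →
      (∀ ν ∈ X, ∀ ν' ∈ X, (∀ g ∈ W, ν g = ν' g) → ν = ν') → X.card ≤ R := by
  induction b with
  | zero =>
    refine ⟨1, fun X hX hsep => Finset.card_le_one.2 fun ν hν ν' hν' =>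
      hsep ν hν ν' hν' fun g hg => ?_⟩
    have h1 := (hX ν hν).2.2 g hg
    have h2 := (hX ν' hν').2.2 g hg
    rw [pow_zero, pow_one] at h1 h2
    rw [h1, h2]
  | succ b ih =>
    obtain ⟨R, hR⟩ := ih
    obtain ⟨R₁, hR₁⟩ := sf1 hW hr S
    refine ⟨R₁ * R, fun X hX hsep => ?_⟩
    let P : (Aut E → ℂˣ) → Aut E → ℂˣ := fun ν g => if g ∈ W then ν g ^ r else 1
    have hP : ∀ ν, ∀ g ∈ W, P ν g = ν g ^ r := fun ν g hg => if_pos hg
    refine (Finset.card_le_mul_card_image (f := P) X R₁ fun a _ => ?_).trans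
      (Nat.mul_le_mul_left _ (hR _ (fun μ hμ => ?_) fun μ hμ μ' hμ' h => ?_))
    · rcases (X.filter fun ν => P ν = a).eq_empty_or_nonempty with h | ⟨ν₀, h₀⟩
      · rw [h]
        exact Nat.zero_le _
      · obtain ⟨h₀, h₀'⟩ := Finset.mem_filter.1 h₀
        obtain ⟨hc₀, hu₀, -⟩ := hX ν₀ h₀
        rw [← Finset.card_image_of_injective _ (div_left_injective (b := ν₀))]
        refine hR₁ _ (fun μ hμ => ?_) fun μ hμ μ' hμ' h => ?_
        · obtain ⟨ν, hν, rfl⟩ := Finset.mem_image.1 hμ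
          obtain ⟨hν, hν'⟩ := Finset.mem_filter.1 hν
          obtain ⟨hc, hu, -⟩ := hX ν hν
          have hpow : ∀ g ∈ W, (ν / ν₀) g ^ r = 1 := fun g hg => by
            rw [Pi.div_apply, div_pow, ← hP ν g hg, ← hP ν₀ g hg, hν', h₀', div_self']
          obtain ⟨W₁, a1, a2, a3⟩ := hc.opn
          obtain ⟨W₂, b1, -, b3⟩ := hc₀.opn
          refine ⟨⟨fun g hg h hh => ?_, ⟨W₁ ⊓ W₂, isOpen_inf a1 b1, inf_le_left.trans a2,
            fun g hg => ?_⟩, ⟨1, fun g hg => by rw [pow_one, hpow g hg]⟩⟩,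
            fun A hA g hg hI => ?_, hpow⟩
          · simp only [Pi.div_apply]
            rw [hc.mul g hg h hh, hc₀.mul g hg h hh, mul_div_mul_comm]
          · rw [Pi.div_apply, a3 g hg.1, b3 g hg.2, div_one]
          · rw [Pi.div_apply, hu A hA g hg hI, hu₀ A hA g hg hI, div_one]
        · obtain ⟨ν, hν, rfl⟩ := Finset.mem_image.1 hμ
          obtain ⟨ν', hν', rfl⟩ := Finset.mem_image.1 hμ'
          rw [hsep ν (Finset.mem_filter.1 hν).1 ν' (Finset.mem_filter.1 hν').1 fun g hg =>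
            div_left_injective (h g hg)]
    · obtain ⟨ν, hν, rfl⟩ := Finset.mem_image.1 hμ
      obtain ⟨hc, hu, hp⟩ := hX ν hν
      have hpow : ∀ g ∈ W, P ν g ^ r ^ b = 1 := fun g hg => by
        rw [hP ν g hg, ← pow_mul, ← pow_succ', hp g hg]
      obtain ⟨W₁, a1, a2, a3⟩ := hc.opn
      refine ⟨⟨fun g hg h hh => ?_, ⟨W₁, a1, a2, fun g hg => ?_⟩, ⟨b, hpow⟩⟩,
        fun A hA g hg hI => ?_, hpow⟩
      · rw [hP _ _ (W.mul_mem hg hh), hP _ _ hg, hP _ _ hh, hc.mul g hg h hh, mul_pow]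
      · rw [hP _ _ (a2 hg), a3 g hg, one_pow]
      · rw [hP _ _ hg, hu A hA g hg hI, one_pow]
    · obtain ⟨ν, -, rfl⟩ := Finset.mem_image.1 hμ
      obtain ⟨ν', -, rfl⟩ := Finset.mem_image.1 hμ'
      funext g
      by_cases hg : g ∈ W
      · exact h g hg
      · simp only [P, if_neg hg]

end Uc
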