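import Vale.Agent.P024.Hit
import Vale.Agent.P024.SF

/-! Hits. -/

noncomputable section
namespace Uc
open scoped Classical
variable {E₁ E₂ : Type} [Field E₁] [CharZero E₁] [Nice E₁] [Field E₂] [CharZero E₂] [Nice E₂]
  {V : Subgroup (Aut E₁)} {α : Aut E₁ → Aut E₂} {l : ℕ}

/-- All but finitely many primes are hit from outside a finite set. For a prime `p` that is not
hit, `ν p g = e (kc l p (α g))` is a character of `V' = pre (Fm l)` unramified outside `S ∪ {l}`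
(`hit_of_move`). If `ν p = ν p'` on `V'` then `rt l p / rt l p'` lies in `Fx (img V')` and has
valuation `1 / l` above `p`, so `p` is in the finite set of `val_int`. Conclude with `sf1`. -/
theorem k1 (h : Setup V α) (hl : l.Prime) (h2 : l ≠ 2) (S : Finset ℕ) :
    {p : ℕ | p.Prime ∧ ¬ ∃ (A : Pr E₁) (B : Pr E₂), B.p = p ∧ A.p ∉ S ∧ Hit V α l A B}.Finite := by
  have hn := hl.ne_zero
  have hV' := h.isOpen_pre (isOpen_Fm (E := E₂) hn)
  obtain ⟨R, hR⟩ := sf1 hV' hl (insert l S)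
  obtain ⟨e, e1, e2, e3⟩ := exists_emb hn
  by_contra hinf
  obtain ⟨J, hJ, hcard⟩ := (Set.Infinite.sdiff hinf (val_int (h.isOpen_img hV'))).exists_subset_card_eq
    (R + 1)
  have hp0 : ∀ p ∈ J, ((p : ℕ) : E₂) ≠ 0 := fun p hp => Nat.cast_ne_zero.2 (hJ hp).1.1.ne_zero
  have hinj : ∀ p ∈ J, ∀ p' ∈ J, (∀ g ∈ h.pre (Fm E₂ l), e (kc l (p : E₂) (α g)) =
      e (kc l (p' : E₂) (α g))) → p = p' := by
    intro p hp p' hp' he
    by_contra hne
    obtain ⟨B, hB⟩ := Pr.exists_above (E := E₂) (hJ hp).1.1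
    refine (hJ hp).2 ⟨B, hB, rt l (p : E₂) / rt l (p' : E₂), fun w hw => ?_, fun k hk => ?_⟩
    · obtain ⟨g, h3, -, rfl⟩ := h.mem_img.1 hw
      rw [map_div₀, kc_spec hn (hp0 p hp) (map_natCast _ _),
        kc_spec hn (hp0 p' hp') (map_natCast _ _), e1 (he g h3),
        mul_div_mul_left _ _ (pow_ne_zero _ ((zt_prim hn).ne_zero hn))]
    · have h3 := B.w_pow (rt l (p : E₂) / rt l (p' : E₂)) l
      rw [div_pow, rt_pow hn, rt_pow hn, B.w_div (hp0 p hp) (hp0 p' hp'), hk,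
        Pr.w_prime (hJ hp').1.1 (hB ▸ hne), ← hB, B.w_p, sub_zero] at h3
      have h4 : (1 : ℤ) = l * k := by exact_mod_cast h3
      have h5 : (l : ℤ) ∣ 1 := ⟨k, h4⟩
      exact hl.one_lt.ne' (Nat.dvd_one.1 (by exact_mod_cast h5))
  have := hR (J.image fun p : ℕ => fun g => e (kc l (p : E₂) (α g))) (fun ν hν => ?_)
    fun ν hν ν' hν' he => ?_
  · rw [Finset.card_image_of_injOn fun p hp p' hp' he => hinj p hp p' hp' fun g _ =>
      congrFun he g] at this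
    omega
  · obtain ⟨p, hp, rfl⟩ := Finset.mem_image.1 hν
    have hm : ∀ g ∈ h.pre (Fm E₂ l), ∀ g' ∈ h.pre (Fm E₂ l), e (kc l (p : E₂) (α (g * g'))) =
        e (kc l (p : E₂) (α g)) * e (kc l (p : E₂) (α g')) := fun g hg g' hg' => by
      rw [h.mul _ (h.pre_le _ hg) _ (h.pre_le _ hg'),
        kc_mul_right hn (hp0 p hp) (map_natCast _ _) (map_natCast _ _) (h.mem_pre.1 hg).2, e3]
    have hpow : ∀ (a : ZMod l) (k : ℕ), e a ^ k = e (k * a) := fun a k => by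
      induction k with
      | zero => simp [e2]
      | succ k ih => rw [pow_succ, ih, ← e3]; push_cast; ring_nf
    have ho : ∀ g ∈ h.pre (Fm E₂ l), e (kc l (p : E₂) (α g)) ^ l = 1 := fun g _ => by
      rw [hpow, ZMod.natCast_self, zero_mul, e2]
    refine ⟨⟨hm, ⟨h.pre (Fm E₂ l ⊓ stab {rt l (p : E₂)}), h.isOpen_pre (isOpen_inf (isOpen_Fm hn)
      (isOpen_stab (Set.finite_singleton _))), fun g hg => ?_, fun g hg => ?_⟩,
      ⟨1, by simpa using ho⟩⟩, fun A hA g hg hi => ?_, ho⟩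
    · exact h.mem_pre.2 ⟨(h.mem_pre.1 hg).1, (h.mem_pre.1 hg).2.1⟩
    · show e (kc l (p : E₂) (α g)) = 1
      rw [(kc_eq_zero_iff hn (hp0 p hp) (map_natCast _ _) (h.mem_pre.1 hg).2.1 (rt_pow hn _)).2
        ((h.mem_pre.1 hg).2.2 _ rfl), e2]
    · show e (kc l (p : E₂) (α g)) = 1
      rw [(kc_eq_zero_iff hn (hp0 p hp) (map_natCast _ _) (h.mem_pre.1 hg).2 (rt_pow hn _)).2, e2]
      by_contra hc
      simp only [Finset.mem_insert, not_or] at hA
      obtain ⟨B, h3, h4⟩ := hit_of_move h hl h2 hA.1 (h.mem_pre.1 hg).1 hi (T := 1)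
        (by simpa using (h.mem_pre.1 hg).2) (hJ hp).1.1.ne_zero (by simpa using rt_pow hn _) hc
      exact (hJ hp).1.2 ⟨A, B, (Nat.prime_dvd_prime_iff_eq B.prime (hJ hp).1.1).1 h3, hA.2, h4⟩
  · obtain ⟨p, hp, rfl⟩ := Finset.mem_image.1 hν
    obtain ⟨p', hp', rfl⟩ := Finset.mem_image.1 hν'
    rw [hinj p hp p' hp' he]

theorem infinite_hits (h : Setup V α) (hl : l.Prime) (h2 : l ≠ 2) {P : Set ℕ} (hP : P.Infinite)
    (hp : ∀ p ∈ P, p.Prime) :
    {q : ℕ | ∃ (A : Pr E₁) (B : Pr E₂), A.p = q ∧ B.p ∈ P ∧ Hit V α l A B}.Infinite := by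
  intro hfin
  obtain ⟨p, h1, h3⟩ := hP.exists_notMem_finite (k1 h hl h2 hfin.toFinset)
  refine h3 ⟨hp p h1, ?_⟩
  rintro ⟨A, B, rfl, h4, h5⟩
  exact h4 ((Set.Finite.mem_toFinset _).2 ⟨A, B, rfl, h1, h5⟩)

end Uc
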