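import Vale.Agent.P024.CB1
import Vale.Agent.P024.K1

/-! The independent case. -/

noncomputable section
namespace Uc
open scoped Classical
variable {Ω E : Type} [Field Ω] [CharZero Ω] [Nice Ω] [IsAlgClosed Ω] [Field E] [CharZero E]
  [Nice E] {V : Subgroup (Aut Ω)} {α : Aut Ω → Aut E}

variable {W : Subgroup (Aut E)} {r s' : ℕ} {m : Aut Ω}

theorem CB2_dvd {l s p q a f : ℕ} (hl : l.Prime) (hd : s ∣ l - 1) (hf : s ∣ f)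
    (hp : orderOf (p : ZMod l) = l - 1) (hq : (q : ZMod l) ≠ 0)
    (h : (p : ZMod l) ^ a = (q : ZMod l) ^ f) : s ∣ a := by
  have := Fact.mk hl
  obtain ⟨k, hk⟩ := hd
  obtain ⟨f', rfl⟩ := hf
  have hk0 : 0 < k := Nat.pos_of_ne_zero (by
    rintro rfl
    have := hl.two_le
    omega)
  have h1 : (p : ZMod l) ^ (a * k) = 1 := by
    rw [pow_mul, h, ← pow_mul, mul_assoc, mul_comm f' k, ← mul_assoc, ← hk, pow_mul,
      ZMod.pow_card_sub_one_eq_one hq, one_pow]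
  have h3 := orderOf_dvd_of_pow_eq_one h1
  rw [hp, hk] at h3
  exact Nat.dvd_of_mul_dvd_mul_right hk0 h3

/-- See the blueprint, section CB. -/
theorem deg_one (h : Setup V α) (hm : m ∈ Mt V α) (hb : BE W r s' (α m)) (hr : V.index < r)
    {l : ℕ} (hl : l.Prime) (h2 : l ≠ 2) (hd : (V.index).factorial ∣ l - 1) (hf : Full W l)
    {P : Set ℕ} (hP : P.Infinite)
    (h1 : ∀ p ∈ P, p.Prime ∧ orderOf (p : ZMod l) = l - 1 ∧ Good W p) :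
    {q : ℕ | ∃ (A : Pr Ω) (σ : Aut Ω), A.p = q ∧ σ ∈ V ∧ A.IsFrob q σ ∧
      ∀ T, Acts (l ^ T) (α σ) q}.Infinite := by
  have := Fact.mk hl
  have hW₁ : IsOpen ((W ⊓ Fm E l : Subgroup (Aut E)) : Set (Aut E)) :=
    isOpen_inf hb.opn (isOpen_Fm hl.ne_zero)
  have hP' := hP.sdiff ((ur hW₁).union (Set.finite_singleton r))
  have hQ := infinite_hits h hl h2 hP' fun p hp => (h1 p hp.1).1
  obtain ⟨f, ⟨hf0, hfd⟩, hQ'⟩ := CB1_pigeon hQ (Set.finite_Ioc 0 V.index)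
    (fun q f => ∃ (A : Pr Ω) (B : Pr E) (φ σ : Aut Ω), A.p = q ∧ B.p ∈ P ∧ B.p ≠ r ∧
      B.I ≤ W ⊓ Fm E l ∧ A.p ≠ l ∧ B.p ≠ l ∧ A.IsFrob q φ ∧ (∀ j : ℕ, φ ^ j ∈ V ↔ f ∣ j) ∧ σ ∈ V ∧
      A.IsFrob (q ^ f) σ ∧ α σ ∈ B.D ∧ ∀ T, Acts (l ^ T) (α σ) (q ^ f)) (by
      rintro q ⟨A, B, rfl, h3, h4⟩
      obtain ⟨φ, σ, f, h5, h6, h7, h8, h9, h10, h11, h12⟩ := hit_data h hl h4
      refine ⟨f, ⟨h5, h6⟩, A, B, φ, σ, rfl, h3.1, fun hc => h3.2 (Or.inr hc), ?_, h4.1, h4.2.1,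
        h7, h8, h9, h10, h11, h12⟩
      by_contra hc
      exact h3.2 (Or.inl ⟨B, rfl, hc⟩))
  by_cases hf1 : f = 1
  · subst hf1
    refine hQ'.mono ?_
    rintro q ⟨-, A, B, φ, σ, h3, -, -, -, -, -, -, -, h4, h5, -, h6⟩
    rw [pow_one] at h5 h6
    exact ⟨A, σ, h3, h4, h5, h6⟩
  exfalso
  have hs : (f.minFac).Prime := Nat.minFac_prime hf1
  have hsf : f.minFac ∣ f := Nat.minFac_dvd f
  generalize f.minFac = s at hs hsf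
  have hsle : s ≤ V.index := (Nat.le_of_dvd hf0 hsf).trans hfd
  have hsd : s ∣ l - 1 := (Nat.dvd_factorial hs.pos hsle).trans hd
  have hsr : s ≠ r := by omega
  have hW := isOpen_Ws hb.opn hl.ne_zero s
  have hle : W ⊓ Fm E l ≤ Ws W l s := inf_le_Ws hl.ne_zero s
  obtain ⟨Q, hQ', hQd⟩ : ∃ Q : Set ℕ, Q.Infinite ∧ ∀ q ∈ Q,
      ∃ (A : Pr Ω) (B : Pr E) (φ σ : Aut Ω), A.p = q ∧ B.p ∈ P ∧ B.p ≠ r ∧
      B.I ≤ W ⊓ Fm E l ∧ A.p ≠ l ∧ B.p ≠ l ∧ A.IsFrob q φ ∧ (∀ j : ℕ, φ ^ j ∈ V ↔ f ∣ j) ∧ σ ∈ V ∧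
      A.IsFrob (q ^ f) σ ∧ α σ ∈ B.D ∧ ∀ T, Acts (l ^ T) (α σ) (q ^ f) :=
    ⟨_, hQ', fun q hq => hq.2⟩
  have hdata : ∀ q : ℕ, ∃ (A : Pr Ω) (φ σ : Aut Ω), q ∈ Q →
      (A.p = q ∧ A.IsFrob q φ ∧ (∀ j : ℕ, φ ^ j ∈ V ↔ f ∣ j) ∧ σ ∈ V ∧ A.IsFrob (q ^ f) σ) ∧
      ∃ (B : Pr E) (y : Aut E), B.p ≠ r ∧ B.I ≤ W ⊓ Fm E l ∧ y ∈ W ∧ y ∉ Ws W l s ∧
        y ^ s ∈ Ws W l s ∧
        ∀ W' : Subgroup (Aut E), IsOpen (W' : Set (Aut E)) →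
          ∃ a : ℕ, ∃ i ∈ B.I, ∃ x ∈ W', α σ = (y ^ s) ^ a * i * x := by
    intro q
    by_cases hq : q ∈ Q
    swap
    · obtain ⟨A, -⟩ := Pr.exists_above (E := Ω) Nat.prime_two
      exact ⟨A, 1, 1, fun hq' => absurd hq' hq⟩
    obtain ⟨A, B, φ, σ, rfl, h3, h4, h5, h6, h7, h8, h9, h10, h11, h12, h13⟩ := hQd q hq
    obtain ⟨-, h14, h15⟩ := h1 _ h3
    obtain ⟨y, hy, hF⟩ := h15 B rfl
    have hnd : ¬ B.p ∣ l := fun hc => h7 ((Nat.prime_dvd_prime_iff_eq B.prime hl).1 hc)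
    have hcy : ((chi E l y : (ZMod l)ˣ) : ZMod l) = B.p :=
      (acts_iff hl.ne_zero).1 (hF.acts hnd)
    have hk : (l - 1) / s * s = l - 1 := Nat.div_mul_cancel hsd
    have hl1 : 0 < l - 1 := by have := hl.two_le; omega
    refine ⟨A, φ, σ, fun _ => ⟨⟨rfl, h8, h9, h10, h11⟩, B, y, h4, h5, hy, fun hc => ?_,
      mem_Ws.2 ⟨pow_mem hy s, ?_⟩, fun W' hW' => ?_⟩⟩
    · have h16 := congrArg (Units.val : (ZMod l)ˣ → ZMod l) (mem_Ws.1 hc).2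
      rw [Units.val_pow_eq_pow_val, hcy, Units.val_one] at h16
      have h17 := orderOf_dvd_of_pow_eq_one h16
      rw [h14] at h17
      have h18 : 0 < (l - 1) / s := Nat.div_pos (Nat.le_of_dvd hl1 hsd) hs.pos
      have h19 := Nat.le_of_dvd h18 h17
      have h20 := Nat.div_lt_self hl1 hs.one_lt
      omega
    · rw [map_pow, ← pow_mul, mul_comm, hk]
      exact ZMod.units_pow_card_sub_one_eq_one l _
    · obtain ⟨a, i, hi, x, hx, he⟩ := df hF h12 (isOpen_inf hW' (isOpen_Fm hl.ne_zero))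
      have h16 : ((chi E l (α σ) : (ZMod l)ˣ) : ZMod l) = (A.p ^ f : ℕ) :=
        (acts_iff hl.ne_zero).1 (by simpa using h13 1)
      rw [he, map_mul, map_mul, (mem_Fm_iff hl.ne_zero).1 hx.2,
        (mem_Fm_iff hl.ne_zero).1 (h5 hi).2, mul_one, mul_one, map_pow,
        Units.val_pow_eq_pow_val, hcy, Nat.cast_pow] at h16
      have h17 : (A.p : ZMod l) ≠ 0 := fun hc =>
        h6 ((Nat.prime_dvd_prime_iff_eq hl A.prime).1 ((ZMod.natCast_eq_zero_iff _ _).1 hc)).symm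
      obtain ⟨a', rfl⟩ := CB2_dvd hl hsd hsf h14 h17 h16
      exact ⟨a', i, hi, x, hx.1, by rw [he, pow_mul]⟩
  choose A φ σ hdata using hdata
  obtain ⟨b, hcore⟩ := core h hW (normal_Ws hb.nrm l s) hb.rp hb.r2 hb.sp.pos hm hQ' A φ σ
    (fun _ => f) fun q hq => by
      obtain ⟨⟨h3, h4, h5, h6, h7⟩, B, y, -, h8, -, -, h9, h10⟩ := hdata q hq
      refine ⟨h3, h4, h5, h6, h7, ?_⟩
      obtain ⟨a, i, hi, x, hx, he⟩ := h10 _ hW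
      rw [he]
      exact mul_mem (mul_mem (pow_mem h9 a) (hle (h8 hi))) hx
  obtain ⟨ν, h3, h4, h5, h6, x, hx, h7⟩ := za hb hl hs hsd hsr hf b
  refine h7 (hcore ν h3 h4 (fun q hq => ?_) h5 x hx)
  obtain ⟨-, B, y, h8, h9, h10, h11, h12, h13⟩ := hdata q hq
  obtain ⟨W', h14, h15, h16⟩ := h3.opn
  obtain ⟨a, i, hi, z, hz, he⟩ := h13 W' h14
  rw [he, h3.mul _ (mul_mem (pow_mem h12 a) (hle (h9 hi))) _ (h15 hz),
    h3.mul _ (pow_mem h12 a) _ (hle (h9 hi)), ch_pow h3.mul h12, h6 y h10 h11, h16 z hz,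
    h4 B (by simpa using h8) i (hle (h9 hi)) hi]
  simp

end Uc
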