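import Vale.Agent.P024.NF

/-! Decomposition theory at finite level, and finiteness of Selmer groups. -/

noncomputable section
namespace Uc
open NumberField
open scoped Classical
variable {L : Type} [Field L] [NumberField L]

/-- Transitivity. Otherwise take `z` with positive valuation at `B`, valuation zero at all
`g • B'` and integral elsewhere (`Pr.approx`), and compare the valuations of its norm. -/
theorem tr_fin (G : Subgroup (Aut L)) {B B' : Pr L} (h : ∀ z ∈ Fx G, B.w z = B'.w z) :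
    ∃ g ∈ G, g • B = B' := by
  by_contra hc
  push Not at hc
  obtain ⟨z, z0, h1, h2⟩ := Pr.exists_w (insert B' (Finset.univ.image fun g : G => g.1 • B))
    (fun C => if C = B' then (B'.p : L) else 1) fun C _ => by
      split_ifs
      exacts [B'.p_ne_zero, one_ne_zero]
  have h3 : ∀ C : Pr L, 0 ≤ C.w z := fun C => by
    by_cases hC : C ∈ insert B' (Finset.univ.image fun g : G => g.1 • B)
    · rw [h1 C hC]
      split_ifs
      exacts [Pr.In.natCast C _, C.w_one.ge]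
    · exact h2 C hC
  have h4 : ∀ (C : Pr L) (g : G), C.w (g.1 z) = (g.1⁻¹ • C).w z := fun C g => by
    rw [Pr.smul_w, inv_inv]
  have h5 := h (∏ g : G, g.1 z) fun t ht => by
    rw [map_prod]
    exact Fintype.prod_equiv (Equiv.mulLeft (⟨t, ht⟩ : G)) _ _ fun g => rfl
  have h0 : ∀ g ∈ (Finset.univ : Finset G), g.1 z ≠ 0 := fun g _ => (map_ne_zero _).2 z0
  rw [B.w_prod _ _ h0, B'.w_prod _ _ h0, Finset.sum_eq_zero fun g _ => ?_] at h5
  · have h6 := Finset.single_le_sum (f := fun g : G => B'.w (g.1 z))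
      (fun g _ => (h3 _).trans (h4 B' g).ge) (Finset.mem_univ 1)
    have h7 := h1 B' (Finset.mem_insert_self _ _)
    rw [if_pos rfl, B'.w_p] at h7
    change B'.w z ≤ _ at h6
    linarith
  · rw [h4, h1 (g.1⁻¹ • B)
      (Finset.mem_insert_of_mem (Finset.mem_image.2 ⟨g⁻¹, Finset.mem_univ _, rfl⟩)),
      if_neg (hc _ (G.inv_mem g.2)), Pr.w_one]

/-- Realising a residue map. Let `B = A.comap i`, `θ` a generator of the residue group
(`Pr.exists_res_gen`) that is small at all `g • B ≠ B`; the polynomial `∏ (X - g θ)` over `G` has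
integral coefficients in `Fx G`, so `ρ (rs θ)` is the residue of some `h θ`, it is nonzero, so
`h⁻¹ • B = B`. -/
theorem sd_fin {E : Type} [Field E] (i : L →+* E) (A : Pr E) (G : Subgroup (Aut L))
    (ρ : A.kk →+* A.kk) (h : ∀ z ∈ Fx G, A.In (i z) → ρ (A.rs (i z)) = A.rs (i z)) :
    ∃ g ∈ G, g • A.comap i = A.comap i ∧
      ∀ z, A.In (i z) → A.rs (i (g z)) = ρ (A.rs (i z)) := by
  set B := A.comap i with hB
  obtain ⟨θ₀, a1, a2, a3⟩ := B.exists_res_gen
  obtain ⟨θ, b1, -⟩ := Pr.approx (Finset.univ.image fun g : G => g.1 • B)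
    (fun C => if C = B then θ₀ else 0) fun _ => 1
  have b2 : ∀ g ∈ G, (g • B).Sm (θ - if g • B = B then θ₀ else 0) := fun g hg =>
    (b1 _ (Finset.mem_image.2 ⟨⟨g, hg⟩, Finset.mem_univ _, rfl⟩)).sm one_pos
  have b3 : B.Sm (θ - θ₀) := by simpa using b2 1 G.one_mem
  have b4 : ∀ g : G, B.In (g.1 θ) := fun g => by
    have := b2 _ (G.inv_mem g.2)
    change (g.1⁻¹ • B).In θ
    split_ifs at this with e
    · rw [e] at this ⊢
      simpa using this.in.add a1
    · simpa using this.in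
  let r : B.vs →+* A.kk :=
    { toFun z := A.rs (i z)
      map_one' := by simp [Pr.rs_one]
      map_mul' x y := by rw [MulMemClass.coe_mul, map_mul]; exact Pr.rs_mul x.2 y.2
      map_zero' := by simp [Pr.rs_zero]
      map_add' x y := by rw [AddMemClass.coe_add, map_add]; exact Pr.rs_add x.2 y.2 }
  let f : Polynomial B.vs := ∏ g : G, (Polynomial.X - Polynomial.C ⟨g.1 θ, b4 g⟩)
  have c1 : ∀ n, (f.coeff n : L) ∈ Fx G := fun n t ht => by
    have e : (f.map B.vs.subtype).map (t : L →+* L) = f.map B.vs.subtype := by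
      simp only [f, Polynomial.map_prod, Polynomial.map_sub, Polynomial.map_X, Polynomial.map_C]
      exact Fintype.prod_equiv (Equiv.mulLeft (⟨t, ht⟩ : G)) _ _ fun g => rfl
    simpa using congrArg (fun q => q.coeff n) e
  have c2 : (f.map r).map ρ = f.map r := by
    ext n
    rw [Polynomial.coeff_map, Polynomial.coeff_map]
    exact h _ (c1 n) (f.coeff n).2
  have c3 : ∀ x, (f.map r).eval x = ∏ g : G, (x - A.rs (i (g.1 θ))) := fun x => by
    simp [f, Polynomial.map_prod, Polynomial.eval_prod, r]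
  have θi : B.In θ := b4 1
  have θA : A.In (i θ) := θi
  have gA : ∀ g : G, A.In (i (g.1 θ)) := b4
  have c4 : (f.map r).eval (ρ (A.rs (i θ))) = 0 := by
    rw [← c2, Polynomial.eval_map, Polynomial.eval₂_at_apply, c3, map_eq_zero]
    exact Finset.prod_eq_zero (Finset.mem_univ 1) (sub_self _)
  rw [c3, Finset.prod_eq_zero_iff] at c4
  obtain ⟨g, -, hg⟩ := c4
  have hg' := sub_eq_zero.1 hg
  have d0 : ¬ B.Sm θ := fun e => a2 (by simpa using e.sub b3)
  have d1 : g.1 • B = B := by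
    by_contra e
    have := b2 _ (G.inv_mem g.2)
    rw [if_neg (fun e' => e (inv_smul_eq_iff.1 e').symm), sub_zero, Pr.smul_sm, inv_inv,
      Pr.comap_sm, ← Pr.rs_eq_zero_iff (gA g), ← hg', map_eq_zero, Pr.rs_eq_zero_iff θA,
      ← Pr.comap_sm] at this
    exact d0 this
  have d2 : ∀ {x}, B.Sm x → B.Sm (g.1 x) := fun {x} hx => by
    rw [← inv_smul_eq_iff.2 d1.symm, Pr.smul_sm, inv_inv] at hx
    exact hx
  have d3 : ∀ {x}, B.In x → B.In (g.1 x) := fun {x} hx => by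
    unfold Pr.In
    rw [Pr.w_of_smul d1]
    exact hx
  refine ⟨g, g.2, d1, fun z hz => ?_⟩
  have hz' : B.In z := hz
  have gz : A.In (i (g.1 z)) := d3 hz'
  by_cases hs : B.Sm z
  · rw [(Pr.rs_eq_zero_iff hz).2 ((Pr.comap_sm i).1 hs), map_zero]
    exact (Pr.rs_eq_zero_iff gz).2 ((Pr.comap_sm i).1 (d2 hs))
  · obtain ⟨k, hk⟩ := a3 z hz hs
    have e1 : B.Sm (z - θ ^ k) := by
      rw [← Pr.rs_eq_iff hz' (θi.pow k), Pr.rs_pow θi, (Pr.rs_eq_iff θi a1).2 b3, ← Pr.rs_pow a1,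
        Pr.rs_eq_iff hz' (a1.pow k)]
      exact hk
    have e2 := d2 e1
    rw [Pr.comap_sm, map_sub, map_pow] at e1
    rw [Pr.comap_sm, map_sub, map_pow, map_sub, map_pow] at e2
    rw [(Pr.rs_eq_iff hz (θA.pow k)).2 e1, (Pr.rs_eq_iff gz ((gA g).pow k)).2 e2,
      Pr.rs_pow θA, Pr.rs_pow (gA g), map_pow, hg']

theorem exists_frob_fin (G : Subgroup (Aut L)) (B : Pr L)
    (h : ∀ z ∈ Fx G, B.In z → B.Sm (z ^ B.p - z)) : ∃ g ∈ G, B.IsFrob B.p g := by
  haveI := B.charP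
  haveI : Fact B.p.Prime := ⟨B.prime⟩
  obtain ⟨g, hg, h1, h2⟩ := sd_fin (RingHom.id L) B G (frobenius B.kk B.p) fun z hz hz' => by
    rw [frobenius_def, ← Pr.rs_pow hz', Pr.rs_eq_iff (hz'.pow _) hz']
    exact h z hz hz'
  exact ⟨g, hg, Pr.isFrob_iff.2 ⟨h1, h2⟩⟩

/-- automorphisms of the finite residue field are powers of the Frobenius map -/
theorem df_fin {B : Pr L} {φ g : Aut L} (hφ : B.IsFrob B.p φ) (hg : g ∈ B.D) :
    ∃ a : ℕ, (φ ^ a)⁻¹ * g ∈ B.I := by
  haveI := B.charP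
  haveI : Fact B.p.Prime := ⟨B.prime⟩
  haveI := B.finite_kk
  letI : Algebra (ZMod B.p) B.kk := ZMod.algebra _ _
  obtain ⟨ρ, hρ⟩ := Pr.exists_rsHom hg
  obtain ⟨a, ha⟩ := FiniteField.exists_forall_apply_eq_pow (ZMod B.p) B.p B.kk
    (AlgEquiv.ofRingEquiv (f := ρ) fun x => RingHom.congr_fun
      (RingHom.ext_zmod ((ρ : B.kk →+* B.kk).comp (algebraMap _ _)) (algebraMap _ _)) x)
  rw [Nat.card_zmod] at ha
  exact ⟨a, (hφ.pow a).inv_mul (Pr.isFrob_iff.2 ⟨hg, fun z hz => (hρ z hz).trans (ha _)⟩)⟩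

/-- for `g ≠ 1` pick an integer `z` with `g z ≠ z` -/
theorem ur_fin (L : Type) [Field L] [NumberField L] :
    {p : ℕ | ∃ B : Pr L, B.p = p ∧ B.I ≠ ⊥}.Finite := by
  have h : ∀ g : Aut L, ∃ z : L, IsIntegral ℤ z ∧ (g ≠ 1 → g z - z ≠ 0) := fun g => by
    by_cases hg : g = 1
    · exact ⟨0, isIntegral_zero, fun h => absurd hg h⟩
    obtain ⟨z, hz⟩ : ∃ z, g z ≠ z := by
      by_contra h
      push Not at h
      exact hg (AlgEquiv.ext h)
    obtain ⟨n, hn, h1⟩ := Pr.exists_nat_mul_isIntegral z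
    refine ⟨_, h1, fun _ => ?_⟩
    rw [map_mul, map_natCast, ← mul_sub]
    exact mul_ne_zero (Nat.cast_ne_zero.2 hn) (sub_ne_zero.2 hz)
  choose z h1 h2 using h
  refine ((Set.finite_iUnion fun g : Aut L => Pr.finite_supp (g (z g) - z g)).image Pr.p).subset ?_
  rintro _ ⟨B, rfl, hB⟩
  obtain ⟨⟨g, hg⟩, h3⟩ := (Subgroup.ne_bot_iff_exists_ne_one).1 hB
  refine ⟨B, Set.mem_iUnion.2 ⟨g, ?_⟩, rfl⟩
  exact ((hg.2 _ (Pr.In.of_isIntegral B (h1 g))).resolve_left
    (h2 g fun e => h3 (Subtype.ext e))).ne'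

end Uc
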