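import Vale.Agent.P024.NF

/-! Primes of number fields. -/

noncomputable section
namespace Uc
open NumberField
open scoped Classical
variable {L : Type} [Field L] [NumberField L]

theorem NFc_ram (v : HS L) {p : ℕ} (hp : p.Prime) (h : (p : 𝓞 L) ∈ v.asIdeal ^ 2) :
    v.asIdeal ∣ differentIdeal ℤ (𝓞 L) := by
  have hp' : Prime (p : ℤ) := Nat.prime_iff_prime_int.1 hp
  have hb : (Ideal.span {(p : ℤ)} : Ideal ℤ) ≠ ⊥ := by
    simpa using hp.ne_zero
  have : (Ideal.span {(p : ℤ)} : Ideal ℤ).IsMaximal :=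
    ((Ideal.span_singleton_prime hp'.ne_zero).2 hp').isMaximal hb
  have h2 := pow_sub_one_dvd_differentIdeal ℤ (p := Ideal.span {(p : ℤ)}) v.asIdeal 2 hb (by
    rw [Ideal.map_span, Set.image_singleton, Ideal.dvd_span_singleton]
    simpa using h)
  simpa using h2

namespace Pr

/-- almost all primes are unramified (`NumberField.not_dvd_discr_iff_forall_mem`, or directly:
if `e > 1` there is an integer `y`, not divisible by `p`, with positive valuation at all primes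
above `p`; then `p` divides all traces of `y b`, so it divides the discriminant) -/
theorem finite_ram (L : Type) [Field L] [NumberField L] :
    {p : ℕ | ∃ B : Pr L, B.p = p ∧ ∃ z : L, ∀ k : ℤ, B.w z ≠ k}.Finite := by
  obtain ⟨Φ, e, hΦ⟩ := exists_hs (L := L)
  have h1 : {v : HS L | v.asIdeal ∣ differentIdeal ℤ (𝓞 L)}.Finite :=
    Ideal.finite_factors differentIdeal_ne_bot
  refine (h1.image fun v => (Φ.symm v).p).subset ?_
  rintro p ⟨B, rfl, z, hz⟩
  refine ⟨Φ B, ?_, by simp⟩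
  obtain ⟨he, -, -, hw, -⟩ := hΦ B
  refine NFc_ram _ B.prime ((mem_pow_iff_OG _ _ _).2 (Or.inr ?_))
  have h2 := hw (B.p : L)
  rw [B.w_p, mul_one] at h2
  have h3 : ord (Φ B) (B.p : L) = (e B : ℤ) := by exact_mod_cast h2
  have h4 : e B ≠ 1 := by
    intro h4
    have h5 := hw z
    rw [h4, Nat.cast_one, one_mul] at h5
    exact hz _ h5.symm
  have h5 : (((B.p : 𝓞 L) : 𝓞 L) : L) = (B.p : L) := by simp
  rw [h5, h3]
  omega

end Pr

theorem isDv_w (x : L) (hx : x ≠ 0) : IsDv fun B : Pr L => B.w x :=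
  ⟨Pr.finite_supp x, fun _ => ⟨x, hx, rfl⟩⟩

open scoped nonZeroDivisors

theorem NFc_cnt_int (v : HS L) {a : 𝓞 L} (ha : a ≠ 0) :
    FractionalIdeal.count L v (FractionalIdeal.spanSingleton (𝓞 L)⁰ (a : L)) = ord v (a : L) := by
  have h1 : (Ideal.span {a} : Ideal (𝓞 L)) ≠ 0 := by simpa using ha
  rw [RingOfIntegers.coe_eq_algebraMap, ← FractionalIdeal.coeIdeal_span_singleton,
    FractionalIdeal.count_coe L v h1, ord,
    IsDedekindDomain.HeightOneSpectrum.valuation_of_algebraMap, v.intValuation_if_neg ha]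
  simp

theorem NFc_cnt (v : HS L) {x : L} (hx : x ≠ 0) :
    FractionalIdeal.count L v (FractionalIdeal.spanSingleton (𝓞 L)⁰ x) = ord v x := by
  obtain ⟨a, b, hb, rfl⟩ := IsFractionRing.div_surjective (𝓞 L) x
  have hb' : b ≠ 0 := nonZeroDivisors.ne_zero hb
  have ha : a ≠ 0 := by rintro rfl; simp at hx
  have ha1 : (a : L) ≠ 0 := by simpa using ha
  have hb1 : (b : L) ≠ 0 := by simpa using hb'
  rw [← RingOfIntegers.coe_eq_algebraMap, ← RingOfIntegers.coe_eq_algebraMap, ord_div v ha1 hb1,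
    div_eq_mul_inv, ← FractionalIdeal.spanSingleton_mul_spanSingleton,
    ← FractionalIdeal.spanSingleton_inv,
    FractionalIdeal.count_mul L v (FractionalIdeal.spanSingleton_ne_zero_iff.2 ha1)
      (inv_ne_zero (FractionalIdeal.spanSingleton_ne_zero_iff.2 hb1)),
    FractionalIdeal.count_inv, NFc_cnt_int v ha, NFc_cnt_int v hb', sub_eq_add_neg]

theorem NFc_pr {I : (FractionalIdeal (𝓞 L)⁰ L)ˣ} (h : ClassGroup.mk L I = 1) :
    ∃ x : L, x ≠ 0 ∧ ∀ v : HS L, ord v x = FractionalIdeal.count L v (I : FractionalIdeal _ L) := by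
  obtain ⟨x, hx⟩ := (ClassGroup.mk_eq_one_iff.1 h).principal
  have hx' : (I : FractionalIdeal (𝓞 L)⁰ L) = FractionalIdeal.spanSingleton (𝓞 L)⁰ x := by
    apply FractionalIdeal.coeToSubmodule_injective
    simp only [hx, FractionalIdeal.coe_spanSingleton]
  have hx0 : x ≠ 0 := by
    rintro rfl
    exact I.ne_zero (by rw [hx', FractionalIdeal.spanSingleton_zero])
  exact ⟨x, hx0, fun v => by rw [hx', NFc_cnt v hx0]⟩

theorem NFc_ex (n : HS L → ℤ) (hn : {v | n v ≠ 0}.Finite) :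
    ∃ I : (FractionalIdeal (𝓞 L)⁰ L)ˣ, ∀ v : HS L,
      FractionalIdeal.count L v (I : FractionalIdeal _ L) = n v := by
  have h0 : ∀ v : HS L, ((v.asIdeal : FractionalIdeal (𝓞 L)⁰ L)) ^ n v ≠ 0 := fun v =>
    zpow_ne_zero _ (FractionalIdeal.coeIdeal_ne_zero.2 v.ne_bot)
  refine ⟨Units.mk0 (∏ v ∈ hn.toFinset, ((v.asIdeal : FractionalIdeal (𝓞 L)⁰ L)) ^ n v)
    (Finset.prod_ne_zero_iff.2 fun v _ => h0 v), fun v => ?_⟩
  rw [Units.val_mk0, FractionalIdeal.count_prod L v _ _ fun w _ => h0 w]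
  simp only [FractionalIdeal.count_zpow, FractionalIdeal.count_maximal, mul_ite, mul_one, mul_zero,
    Finset.sum_ite_eq', Set.Finite.mem_toFinset, Set.mem_ofPred_eq]
  split_ifs with h
  · rfl
  · exact (not_not.1 h).symm

/-- the class map -/
theorem NFc_cls (L : Type) [Field L] [NumberField L] :
    ∃ c : (Pr L → ℚ) → ClassGroup (𝓞 L),
      (∀ D D', IsDv D → IsDv D' → c D = c D' → ∃ x : L, x ≠ 0 ∧ ∀ B, D B = D' B + B.w x) ∧
      ∀ D, IsDv D → ∀ k : ℕ, c D ^ k = 1 → ∃ x : L, x ≠ 0 ∧ ∀ B : Pr L, B.w x = k * D B := by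
  obtain ⟨Φ, e, hΦ⟩ := exists_hs (L := L)
  have key : ∀ D : Pr L → ℚ, ∃ I : (FractionalIdeal (𝓞 L)⁰ L)ˣ, IsDv D → ∀ B : Pr L,
      (FractionalIdeal.count L (Φ B) (I : FractionalIdeal _ L) : ℚ) = e B * D B := by
    intro D
    by_cases hD : IsDv D
    swap
    · exact ⟨1, fun h => absurd h hD⟩
    choose z hz0 hz using hD.2
    have hn : ∀ B, (ord (Φ B) (z B) : ℚ) = e B * D B := fun B => by
      rw [(hΦ B).2.2.2.1, hz]
    obtain ⟨I, hI⟩ := NFc_ex (fun v => ord v (z (Φ.symm v))) (by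
      refine (hD.1.image Φ).subset fun v hv => ⟨Φ.symm v, fun h0 => hv ?_, by simp⟩
      have := hn (Φ.symm v)
      rw [h0, mul_zero, Equiv.apply_symm_apply] at this
      exact_mod_cast this)
    exact ⟨I, fun _ B => by rw [hI, Equiv.symm_apply_apply, hn]⟩
  choose I hI using key
  have he : ∀ B, (e B : ℚ) ≠ 0 := fun B => Nat.cast_ne_zero.2 (hΦ B).1.ne'
  refine ⟨fun D => ClassGroup.mk L (I D), fun D D' hD hD' h => ?_, fun D hD k h => ?_⟩
  · obtain ⟨x, hx0, hx⟩ := NFc_pr (I := I D * (I D')⁻¹) (by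
      rw [map_mul, map_inv, mul_inv_eq_one]; exact h)
    refine ⟨x, hx0, fun B => ?_⟩
    have h1 := hx (Φ B)
    rw [Units.val_mul, Units.val_inv_eq_inv_val, FractionalIdeal.count_mul L _ (I D).ne_zero
      (inv_ne_zero (I D').ne_zero), FractionalIdeal.count_inv] at h1
    have h2 := (hΦ B).2.2.2.1 x
    rw [h1] at h2
    push_cast at h2
    rw [hI D hD, hI D' hD'] at h2
    apply mul_left_cancel₀ (he B)
    linarith
  · obtain ⟨x, hx0, hx⟩ := NFc_pr (I := I D ^ k) (by rw [map_pow]; exact h)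
    refine ⟨x, hx0, fun B => ?_⟩
    have h1 := hx (Φ B)
    rw [Units.val_pow_eq_pow_val, FractionalIdeal.count_pow] at h1
    have h2 := (hΦ B).2.2.2.1 x
    rw [h1] at h2
    push_cast at h2
    rw [hI D hD] at h2
    apply mul_left_cancel₀ (he B)
    linarith

/-- finiteness of the class group: a divisor gives a fractional ideal; clear denominators with a
natural number and use `ClassGroup.mk0`, `ClassGroup.mk0_eq_mk0_iff` -/
theorem exists_class_reps (L : Type) [Field L] [NumberField L] : ∃ X : Finset (Pr L → ℚ),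
    ∀ D : Pr L → ℚ, IsDv D → ∃ D₀ ∈ X, ∃ x : L, x ≠ 0 ∧ ∀ B, D B = D₀ B + B.w x := by
  obtain ⟨c, hc, -⟩ := NFc_cls L
  have key : ∀ g : ClassGroup (𝓞 L), ∃ D₀ : Pr L → ℚ,
      (∃ D, IsDv D ∧ c D = g) → IsDv D₀ ∧ c D₀ = g := by
    intro g
    by_cases h : ∃ D, IsDv D ∧ c D = g
    · obtain ⟨D, hD⟩ := h
      exact ⟨D, fun _ => hD⟩
    · exact ⟨0, fun h' => absurd h' h⟩
  choose r hr using key
  refine ⟨Finset.univ.image r, fun D hD => ⟨r (c D), Finset.mem_image_of_mem _ (Finset.mem_univ _),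
    ?_⟩⟩
  obtain ⟨h1, h2⟩ := hr (c D) ⟨D, hD, rfl⟩
  exact hc _ _ hD h1 h2.symm
/-- pigeonhole on the multiples of `D`, then take the factorial of the number of classes -/
theorem exists_class_exp (L : Type) [Field L] [NumberField L] : ∃ h : ℕ, 0 < h ∧
    ∀ D : Pr L → ℚ, IsDv D → ∃ x : L, x ≠ 0 ∧ ∀ B : Pr L, B.w x = h * D B := by
  obtain ⟨c, -, hc⟩ := NFc_cls L
  exact ⟨Fintype.card (ClassGroup (𝓞 L)), Fintype.card_pos,
    fun D hD => hc D hD _ pow_card_eq_one⟩
/-- a power of a prime is principal -/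
theorem exists_gen (B : Pr L) : ∃ x : 𝓞 L, (x : L) ≠ 0 ∧ 0 < B.w (x : L) ∧
    ∀ B' : Pr L, B' ≠ B → B'.w (x : L) = 0 := by
  obtain ⟨h, h0, hh⟩ := exists_class_exp L
  obtain ⟨x, hx0, hx⟩ := hh (fun B' => if B' = B then 1 else 0) ⟨by
    refine (Set.finite_singleton B).subset fun B' hB' => ?_
    by_contra hne
    exact hB' (if_neg hne), fun B' => by
      by_cases hb : B' = B
      · exact ⟨B'.p, B'.p_ne_zero, B'.w_p.trans (if_pos hb).symm⟩
      · exact ⟨1, one_ne_zero, B'.w_one.trans (if_neg hb).symm⟩⟩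
  have hi : IsIntegral ℤ x := Pr.isIntegral_iff.2 fun B' => by
    show 0 ≤ B'.w x
    rw [hx]
    split_ifs <;> positivity
  refine ⟨⟨x, hi⟩, hx0, ?_, fun B' hB' => ?_⟩
  · show 0 < B.w x
    rw [hx, if_pos rfl]
    positivity
  · show B'.w x = 0
    rw [hx, if_neg hB', mul_zero]

end Uc
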