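import Vale.Agent.P024.NF

/-! Units and the logarithmic map. -/

noncomputable section
namespace Uc
open NumberField
open scoped Classical
variable {L : Type} [Field L] [NumberField L]

theorem act_apply (γ : Aut L) (x : Additive Lˣ) : ((act γ x).toMul : L) = γ (x.toMul : Lˣ) := rfl

omit [NumberField L] in
theorem UL_ext {x y : Additive Lˣ} (h : ((x.toMul : Lˣ) : L) = (y.toMul : Lˣ)) : x = y :=
  Additive.toMul.injective (Units.ext h)

theorem act_one : act (1 : Aut L) = 1 := LinearMap.ext fun _ => UL_ext rfl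
theorem act_mul (γ δ : Aut L) : act (γ * δ) = act γ * act δ := LinearMap.ext fun _ => UL_ext rfl
theorem act_pow (γ : Aut L) (k : ℕ) : act (γ ^ k) = act γ ^ k := by
  induction k with
  | zero => rw [pow_zero, pow_zero, act_one]
  | succ k ih => rw [pow_succ, pow_succ, act_mul, ih]
theorem ns_act (γ : Aut L) (n : ℕ) (x : Additive Lˣ) :
    ((Ns (act γ) n x).toMul : L) = ∏ j ∈ Finset.range n, (γ ^ j) (x.toMul : Lˣ) := by
  unfold Ns
  rw [LinearMap.sum_apply, toMul_sum, Units.coe_prod]
  refine Finset.prod_congr rfl fun j _ => ?_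
  rw [← act_pow, act_apply]
theorem act_mem_UU (γ : Aut L) {x : Additive Lˣ} (hx : x ∈ UU L) : act γ x ∈ UU L := by
  rw [mem_UU] at hx ⊢
  intro B
  rw [act_apply]
  have := hx (γ⁻¹ • B)
  rwa [Pr.smul_w, inv_inv] at this
theorem mem_UU_of_smul {x : Additive Lˣ} {n : ℤ} (hn : n ≠ 0) (h : n • x ∈ UU L) : x ∈ UU L := by
  rw [mem_UU] at h ⊢
  intro B
  have := h B
  rw [toMul_zsmul, Units.val_zpow_eq_zpow_val, B.w_zpow] at this
  exact (mul_eq_zero.1 this).resolve_left (Int.cast_ne_zero.2 hn)

/-- the inclusion of the units of the ring of integers -/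
def UL_inc (L : Type) [Field L] : Additive (𝓞 L)ˣ →ₗ[ℤ] Additive Lˣ :=
  (MonoidHom.toAdditive (Units.map (algebraMap (𝓞 L) L : 𝓞 L →* L))).toIntLinearMap

omit [NumberField L] in
theorem UL_inc_apply (u : Additive (𝓞 L)ˣ) :
    (((UL_inc L u).toMul : Lˣ) : L) = ((u.toMul : (𝓞 L)ˣ) : L) := rfl

omit [NumberField L] in
theorem UL_inc_inj : Function.Injective (UL_inc L) := by
  intro x y h
  have h1 : (((UL_inc L x).toMul : Lˣ) : L) = (((UL_inc L y).toMul : Lˣ) : L) := by rw [h]
  rw [UL_inc_apply, UL_inc_apply] at h1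
  exact Additive.toMul.injective (Units.coe_injective L h1)

theorem UL_mem_iff {x : Additive Lˣ} : x ∈ UU L ↔ ∃ u, UL_inc L u = x := by
  constructor
  · intro h
    obtain ⟨u, hu⟩ := Pr.exists_unit (Units.ne_zero x.toMul) (mem_UU.1 h)
    exact ⟨Additive.ofMul u, UL_ext hu⟩
  · rintro ⟨u, rfl⟩
    exact mem_UU.2 fun B => B.w_unit u.toMul

theorem UL_range : UU L = LinearMap.range (UL_inc L) := by
  ext x
  rw [UL_mem_iff, LinearMap.mem_range]

theorem fg_UU (L : Type) [Field L] [NumberField L] : (UU L).FG := by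
  rw [UL_range, LinearMap.range_eq_map]
  exact Module.Finite.fg_top.map _

theorem UL_llog_apply (x : Additive Lˣ) (v : InfinitePlace L) :
    llog L x v = ((v.mult * Real.log (v (x.toMul : Lˣ)) : ℝ) : ℂ) := rfl

theorem UL_llog_inc (u : Additive (𝓞 L)ˣ) (v : InfinitePlace L) :
    llog L (UL_inc L u) v = ((v.mult * Real.log (v (u.toMul : (𝓞 L)ˣ)) : ℝ) : ℂ) := rfl

theorem UL_llog_zero (u : Additive (𝓞 L)ˣ) :
    llog L (UL_inc L u) = 0 ↔ u.toMul ∈ Units.torsion L := by
  rw [Units.mem_torsion, funext_iff]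
  refine forall_congr' fun v => ?_
  rw [UL_llog_inc, Pi.zero_apply, Complex.ofReal_eq_zero,
    Units.dirichletUnitTheorem.mult_log_place_eq_zero]

theorem UL_tors_iff (u : (𝓞 L)ˣ) :
    u ∈ Units.torsion L ↔ ∃ n : ℕ, n ≠ 0 ∧ (u : L) ^ n = 1 := by
  rw [Units.torsion, CommGroup.mem_torsion, isOfFinOrder_iff_pow_eq_one]
  refine exists_congr fun n => and_congr Nat.pos_iff_ne_zero ?_
  rw [← Units.coe_pow, ← Units.coe_one, (Units.coe_injective L).eq_iff]

/-- Kronecker -/
theorem llog_eq_zero_iff {x : Additive Lˣ} (hx : x ∈ UU L) :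
    llog L x = 0 ↔ ∃ n : ℕ, n ≠ 0 ∧ ((x.toMul : Lˣ) : L) ^ n = 1 := by
  obtain ⟨u, rfl⟩ := UL_mem_iff.1 hx
  rw [UL_llog_zero, UL_tors_iff, UL_inc_apply]
theorem finite_tors (L : Type) [Field L] [NumberField L] :
    {x : Additive Lˣ | x ∈ UU L ∧ llog L x = 0}.Finite := by
  refine (Set.finite_range fun u : Units.torsion L => UL_inc L (Additive.ofMul u.1)).subset ?_
  rintro x ⟨hx, h0⟩
  obtain ⟨u, rfl⟩ := UL_mem_iff.1 hx
  exact ⟨⟨u.toMul, (UL_llog_zero u).1 h0⟩, rfl⟩

/-- restriction to the places other than the distinguished one -/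
def UL_rho (L : Type) [Field L] [NumberField L] : (InfinitePlace L → ℂ) →ₗ[ℂ]
    ({w : InfinitePlace L // w ≠ Units.dirichletUnitTheorem.w₀} → ℂ) :=
  LinearMap.funLeft ℂ ℂ Subtype.val

theorem UL_rho_llog (u : Additive (𝓞 L)ˣ) :
    UL_rho L (llog L (UL_inc L u)) = algebraMap ℝ ℂ ∘ Units.logEmbedding L u := rfl

theorem UL_lat_indep {ι : Type} [Fintype ι] (a : ι → Units.unitLattice L)
    (h : LinearIndependent ℤ a) :
    LinearIndependent ℝ fun i => (a i : Units.dirichletUnitTheorem.logSpace L) := by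
  let b := Units.basisUnitLattice L
  let c := b.ofZLatticeBasis ℝ (Units.unitLattice L)
  have h1 : LinearIndependent ℤ fun i => b.equivFun (a i) :=
    h.map' b.equivFun.toLinearMap b.equivFun.ker
  have h2 := (linearIndependent_algebraMap_comp_iff (S := ℝ)).2 h1
  refine LinearIndependent.of_comp c.equivFun.toLinearMap ?_
  have h3 : (c.equivFun.toLinearMap ∘ fun i => (a i : Units.dirichletUnitTheorem.logSpace L)) =
      fun i => algebraMap ℤ ℝ ∘ b.equivFun (a i) := by
    funext i j
    exact b.ofZLatticeBasis_repr_apply ℝ (Units.unitLattice L) (a i) j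
  rw [h3]
  exact h2

/-- Dirichlet: the fundamental system has independent logarithms (`Units.basisUnitLattice`,
`Units.fundSystem`, `Units.exist_unique_eq_mul_prod`); an independent family of units has an
integer exponent matrix with independent rows, over the integers and so over the complex numbers
(`LinearIndependent` and `algebraMap`, `linearIndependent_algebraMap_comp_iff`). -/
theorem cinj_llog (L : Type) [Field L] [NumberField L] : CInj (UU L) (llog L) := by
  intro ι _ v hv hi
  choose u hu using fun i => UL_mem_iff.1 (hv i)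
  let a : ι → Units.unitLattice L := fun i =>
    ⟨Units.logEmbedding L (u i), Submodule.mem_map_of_mem (p := ⊤) trivial⟩
  have ha : LinearIndependent ℤ a := by
    rw [Fintype.linearIndependent_iff] at hi ⊢
    intro g hg i
    have h1 : Units.logEmbedding L (Additive.ofMul (∑ i, g i • u i).toMul) = 0 := by
      rw [ofMul_toMul, map_sum]
      have := congrArg Subtype.val hg
      rw [Submodule.coe_sum] at this
      refine Eq.trans (Finset.sum_congr rfl fun i _ => ?_) this
      rw [map_zsmul]; rfl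
    rw [Units.dirichletUnitTheorem.logEmbedding_eq_zero_iff, UL_tors_iff] at h1
    obtain ⟨n, hn, h2⟩ := h1
    have h3 : (n : ℤ) • ∑ i, g i • v i = 0 := by
      have h4 : ∑ i, g i • v i = UL_inc L (∑ i, g i • u i) := by
        rw [map_sum]
        exact Finset.sum_congr rfl fun i _ => by rw [map_smul, hu]
      rw [h4]
      refine UL_ext ?_
      rw [toMul_zsmul, Units.val_zpow_eq_zpow_val, UL_inc_apply, zpow_natCast, h2]
      rfl
    have h5 : ∑ i, ((n : ℤ) * g i) • v i = 0 := by
      rw [← h3, ← zsmulAddGroupHom_apply, map_sum]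
      exact Finset.sum_congr rfl fun i _ => by rw [zsmulAddGroupHom_apply, mul_zsmul]
    exact (mul_eq_zero.1 (hi _ h5 i)).resolve_left (Int.natCast_ne_zero.2 hn)
  have h1 := (linearIndependent_algebraMap_comp_iff (S := ℂ)).2 (UL_lat_indep a ha)
  refine LinearIndependent.of_comp (UL_rho L) ?_
  have h2 : (UL_rho L ∘ fun i => llog L (v i)) =
      fun i => algebraMap ℝ ℂ ∘ (a i : Units.dirichletUnitTheorem.logSpace L) := by
    funext i
    rw [Function.comp_apply, ← hu, UL_rho_llog]
  rw [h2]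
  exact h1

theorem UL_rho_surj (f : {w : InfinitePlace L // w ≠ Units.dirichletUnitTheorem.w₀} → ℂ) :
    ∃ g ∈ Submodule.span ℂ (llog L '' UU L), UL_rho L g = f := by
  have h1 : ∀ x : Units.dirichletUnitTheorem.logSpace L,
      algebraMap ℝ ℂ ∘ x ∈ (Submodule.span ℂ (llog L '' UU L)).map (UL_rho L) := by
    intro x
    have hx : x ∈ Submodule.span ℝ
        (Units.unitLattice L : Set (Units.dirichletUnitTheorem.logSpace L)) := by
      rw [Units.dirichletUnitTheorem.unitLattice_span_eq_top]; trivial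
    induction hx using Submodule.span_induction with
    | mem x hx =>
      obtain ⟨u, -, rfl⟩ := hx
      exact ⟨_, Submodule.subset_span ⟨_, UL_mem_iff.2 ⟨u, rfl⟩, rfl⟩, UL_rho_llog u⟩
    | zero =>
      have : algebraMap ℝ ℂ ∘ (0 : Units.dirichletUnitTheorem.logSpace L) = 0 := by
        funext w; simp
      rw [this]; exact zero_mem _
    | add x y _ _ hx hy =>
      have : algebraMap ℝ ℂ ∘ (x + y) = algebraMap ℝ ℂ ∘ x + algebraMap ℝ ℂ ∘ y := by
        funext w; simp
      rw [this]; exact add_mem hx hy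
    | smul c x _ hx =>
      have : algebraMap ℝ ℂ ∘ (c • x) = (c : ℂ) • (algebraMap ℝ ℂ ∘ x) := by
        funext w; simp
      rw [this]; exact Submodule.smul_mem _ _ hx
  have h2 : f = algebraMap ℝ ℂ ∘ (fun w => (f w).re) +
      Complex.I • (algebraMap ℝ ℂ ∘ fun w => (f w).im) := by
    funext w
    simp only [Pi.add_apply, Function.comp_apply, Pi.smul_apply, smul_eq_mul,
      Complex.coe_algebraMap]
    rw [mul_comm, Complex.re_add_im]
  have h3 : f ∈ (Submodule.span ℂ (llog L '' UU L)).map (UL_rho L) := by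
    rw [h2]
    exact add_mem (h1 _) (Submodule.smul_mem _ _ (h1 _))
  exact h3

/-- product formula for one inclusion, dimension count for equality -/
theorem span_llog (L : Type) [Field L] [NumberField L] : Submodule.span ℂ (llog L '' UU L) =
    LinearMap.ker (∑ v : InfinitePlace L, LinearMap.proj v : (InfinitePlace L → ℂ) →ₗ[ℂ] ℂ) := by
  have h0 : ∀ f : InfinitePlace L → ℂ, f ∈ LinearMap.ker
      (∑ v : InfinitePlace L, LinearMap.proj v : (InfinitePlace L → ℂ) →ₗ[ℂ] ℂ) ↔
        ∑ v, f v = 0 := by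
    intro f
    rw [LinearMap.mem_ker, LinearMap.sum_apply]
    rfl
  have h1 : Submodule.span ℂ (llog L '' UU L) ≤ LinearMap.ker
      (∑ v : InfinitePlace L, LinearMap.proj v : (InfinitePlace L → ℂ) →ₗ[ℂ] ℂ) := by
    rw [Submodule.span_le]
    rintro _ ⟨x, hx, rfl⟩
    obtain ⟨u, rfl⟩ := UL_mem_iff.1 hx
    rw [SetLike.mem_coe, h0]
    simp only [UL_llog_inc]
    rw [← Complex.ofReal_sum, Units.sum_mult_mul_log, Complex.ofReal_zero]
  refine le_antisymm h1 fun f hf => ?_
  obtain ⟨g, hg, h2⟩ := UL_rho_surj (UL_rho L f)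
  have h3 := (h0 g).1 (h1 hg)
  have h4 := (h0 f).1 hf
  have h5 : ∀ w : {w : InfinitePlace L // w ≠ Units.dirichletUnitTheorem.w₀}, g w.1 = f w.1 :=
    fun w => congrFun h2 w
  have h6 : f = g := by
    funext w
    by_cases hw : w = Units.dirichletUnitTheorem.w₀
    · rw [Fintype.sum_eq_add_sum_subtype_ne _ Units.dirichletUnitTheorem.w₀] at h3 h4
      rw [Finset.sum_congr rfl fun w _ => h5 w] at h3
      rw [hw]
      exact add_right_cancel (h4.trans h3.symm)
    · exact (h5 ⟨w, hw⟩).symm
  rw [h6]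
  exact hg

/-- the permutation `v ↦ v ∘ γ` of the infinite places -/
def plc (γ : Aut L) : Equiv.Perm (InfinitePlace L) := MulAction.toPerm γ⁻¹

theorem plc_apply (γ : Aut L) (v : InfinitePlace L) (x : L) : plc γ v x = v (γ x) := rfl
theorem plc_one : plc (1 : Aut L) = 1 := by
  ext1 v
  show (1 : Aut L)⁻¹ • v = v
  rw [inv_one, one_smul]
theorem plc_mul (γ δ : Aut L) : plc (γ * δ) = plc δ * plc γ := by
  ext1 v
  show (γ * δ)⁻¹ • v = δ⁻¹ • γ⁻¹ • v
  rw [mul_inv_rev, mul_smul]
theorem plc_pow (γ : Aut L) (k : ℕ) : plc (γ ^ k) = plc γ ^ k := by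
  induction k with
  | zero => rw [pow_zero, pow_zero, plc_one]
  | succ k ih => rw [pow_succ, pow_succ', plc_mul, ih]
theorem llog_act (γ : Aut L) (x : Additive Lˣ) (v : InfinitePlace L) :
    llog L (act γ x) v = llog L x (plc γ v) := by
  have h : (plc γ v).mult = v.mult := by
    show (γ⁻¹ • v).mult = v.mult
    unfold InfinitePlace.mult
    rw [InfinitePlace.isReal_smul_iff]
  rw [UL_llog_apply, UL_llog_apply, h, act_apply, plc_apply]

theorem UL_plc_cases {γ : Aut L} {v : InfinitePlace L} (h : plc γ v = v) :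
    γ = 1 ∨ ∀ x, v.embedding (γ x) = starRingEnd ℂ (v.embedding x) := by
  have h1 : InfinitePlace.mk (v.embedding.comp (γ : L →+* L)) = InfinitePlace.mk v.embedding := by
    rw [← InfinitePlace.comap_mk, InfinitePlace.mk_embedding]
    exact h
  rcases InfinitePlace.mk_eq_iff.1 h1 with h2 | h2
  · left
    ext x
    exact v.embedding.injective (RingHom.congr_fun h2 x)
  · right
    intro x
    have h3 : starRingEnd ℂ (v.embedding (γ x)) = v.embedding x := RingHom.congr_fun h2 x
    rw [← h3, Complex.conj_conj]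

theorem sq_eq_one_of_plc {γ : Aut L} {v : InfinitePlace L} (h : plc γ v = v) : γ ^ 2 = 1 := by
  rcases UL_plc_cases h with h1 | h1
  · rw [h1, one_pow]
  · ext x
    refine v.embedding.injective ?_
    rw [pow_two, AlgEquiv.mul_apply, h1, h1, Complex.conj_conj, AlgEquiv.one_apply]
theorem eq_one_of_plc {γ : Aut L} {v : InfinitePlace L} (h : plc γ v = v) {r : ℕ} (hr : 2 < r)
    {ζ : L} (hζ : IsPrimitiveRoot ζ r) (hf : γ ζ = ζ) : γ = 1 := by
  refine (UL_plc_cases h).resolve_right fun h1 => ?_
  have h2 := h1 ζ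
  rw [hf] at h2
  have h3 : IsPrimitiveRoot (v.embedding ζ) r := hζ.map_of_injective v.embedding.injective
  have h4 : ‖v.embedding ζ‖ = 1 := h3.norm'_eq_one (by omega)
  have h5 : v.embedding ζ ^ 2 = 1 := by
    rw [pow_two]
    nth_rewrite 2 [h2]
    rw [Complex.mul_conj, Complex.normSq_eq_norm_sq, h4]
    simp
  exact absurd (Nat.le_of_dvd two_pos (h3.dvd_of_pow_eq_one 2 h5)) (by omega)

theorem UL_card_le (F : Type) [Field F] [NumberField F] :
    Fintype.card (InfinitePlace F) ≤ Module.finrank ℚ F := by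
  rw [InfinitePlace.card_eq_nrRealPlaces_add_nrComplexPlaces,
    ← InfinitePlace.card_add_two_mul_card_eq_rank]
  omega

theorem UL_conj (γ : Aut L) {v v' : InfinitePlace L}
    (h : v.comap (algebraMap (IntermediateField.fixedField (Subgroup.zpowers γ)) L) =
      v'.comap (algebraMap (IntermediateField.fixedField (Subgroup.zpowers γ)) L)) :
    ∃ k : ℕ, (plc γ ^ k) v = v' := by
  haveI : IsGalois (IntermediateField.fixedField (Subgroup.zpowers γ)) L :=
    IsGalois.of_fixed_field L (Subgroup.zpowers γ)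
  obtain ⟨σ, hσ⟩ := InfinitePlace.exists_smul_eq_of_comap_eq h
  have h1 : (σ⁻¹.restrictScalars ℚ) ∈ Subgroup.zpowers γ := by
    refine (IntermediateField.fixingSubgroup_fixedField (Subgroup.zpowers γ)).le ?_
    rw [IntermediateField.mem_fixingSubgroup_iff]
    intro x hx
    exact σ⁻¹.commutes ⟨x, hx⟩
  rw [← mem_powers_iff_mem_zpowers] at h1
  obtain ⟨k, hk⟩ := h1
  refine ⟨k, ?_⟩
  rw [← plc_pow, ← hσ]
  have hk' : γ ^ k = σ⁻¹.restrictScalars ℚ := hk
  rw [hk']
  rfl

/-- places with the same restriction to the fixed field are conjugate, so an eigenfunction is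
determined by its values at one place above each place of the fixed field -/
theorem finrank_eig_le (γ : Aut L) (ω : ℂ) :
    Module.finrank ℂ ↥(Module.End.eigenspace (LinearMap.funLeft ℂ ℂ (plc γ)) ω) ≤
      Module.finrank ℚ (Fx (Subgroup.zpowers γ)) := by
  let F := IntermediateField.fixedField (Subgroup.zpowers γ)
  have hF : Module.finrank ℚ F = Module.finrank ℚ (Fx (Subgroup.zpowers γ)) := by
    let e : F ≃+* Fx (Subgroup.zpowers γ) :=
      { toFun := fun x => ⟨x.1, (IntermediateField.mem_fixedField_iff _ _).1 x.2⟩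
        invFun := fun x => ⟨x.1, (IntermediateField.mem_fixedField_iff _ _).2 x.2⟩
        left_inv := fun _ => rfl
        right_inv := fun _ => rfl
        map_mul' := fun _ _ => rfl
        map_add' := fun _ _ => rfl }
    exact (e.toAddEquiv.toLinearEquiv (R := ℚ) fun c x => map_rat_smul e c x).finrank_eq
  rw [← hF]
  refine le_trans ?_ (UL_card_le F)
  choose s hs using InfinitePlace.comap_surjective (k := F) (K := L)
  let T : ↥(Module.End.eigenspace (LinearMap.funLeft ℂ ℂ (plc γ)) ω) →ₗ[ℂ]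
      (InfinitePlace F → ℂ) := (LinearMap.funLeft ℂ ℂ s).comp (Submodule.subtype _)
  have hT : Function.Injective T := by
    rw [injective_iff_map_eq_zero]
    intro f hf
    have h1 : ∀ v, f.1 (plc γ v) = ω * f.1 v := fun v =>
      congrFun (Module.End.mem_eigenspace_iff.1 f.2) v
    have h2 : ∀ (k : ℕ) v, f.1 ((plc γ ^ k) v) = ω ^ k * f.1 v := by
      intro k v
      induction k with
      | zero => rw [pow_zero, pow_zero, one_mul]; rfl
      | succ k ih => rw [pow_succ', Equiv.Perm.mul_apply, h1, ih, pow_succ', mul_assoc]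
    ext v
    obtain ⟨k, hk⟩ := UL_conj γ (hs (v.comap (algebraMap F L)))
    have h3 : f.1 (s (v.comap (algebraMap F L))) = 0 := congrFun hf _
    rw [← hk, h2, h3, mul_zero]
    rfl
  have := LinearMap.finrank_le_finrank_of_injective hT
  rwa [Module.finrank_fintype_fun_eq_card] at this

end Uc
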