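import Vale.Agent.P024.EIGa
import Vale.Agent.P024.UL
import Vale.Agent.P024.NF2
import Vale.Agent.P024.NFc

/-! An upper bound for twisted eigenspaces. -/

noncomputable section
namespace Uc
open NumberField
open scoped Classical

section
variable {L : Type} [Field L] [NumberField L]

/-- the valuation is divisible by `N` in the value group -/
def EIG_dv (N : ℕ) (B : Pr L) (z : L) : Prop := ∃ y : L, y ≠ 0 ∧ B.w z = N * B.w y

theorem EIG_step {δ : Aut L} {N c : ℕ} (hN : N ≠ 0) {z y : L} (hz : z ≠ 0)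
    (h : δ z = z ^ c * y ^ N) {B : Pr L} (hB : EIG_dv N B z) : EIG_dv N (δ⁻¹ • B) z := by
  obtain ⟨t, ht, hw⟩ := hB
  have hy : y ≠ 0 := by
    rintro rfl
    rw [zero_pow hN, mul_zero] at h
    exact hz ((map_eq_zero δ).1 h)
  refine ⟨δ⁻¹ (t ^ c * y), (map_ne_zero _).2 (mul_ne_zero (pow_ne_zero _ ht) hy), ?_⟩
  rw [Pr.smul_w_apply, Pr.smul_w, inv_inv, h, B.w_mul _ _ (pow_ne_zero _ hz) (pow_ne_zero _ hy),
    B.w_mul _ _ (pow_ne_zero _ ht) hy, B.w_pow, B.w_pow, B.w_pow, hw]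
  ring

theorem EIG_orbit {δ : Aut L} {N c : ℕ} (hN : N ≠ 0) {z y : L} (hz : z ≠ 0)
    (h : δ z = z ^ c * y ^ N) {B : Pr L} (hB : EIG_dv N B z) {g : Aut L}
    (hg : g ∈ Subgroup.zpowers δ) : EIG_dv N (g • B) z := by
  rw [← Subgroup.zpowers_inv, ← mem_powers_iff_mem_zpowers] at hg
  obtain ⟨k, rfl⟩ := hg
  induction k with
  | zero => simpa using hB
  | succ k ih =>
    simp only at ih ⊢
    rw [pow_succ', mul_smul]
    exact EIG_step hN hz h ih

theorem EIG_unit {δ : Aut L} {N c h : ℕ} (hN : N ≠ 0)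
    (hh : ∀ D : Pr L → ℚ, IsDv D → ∃ x : L, x ≠ 0 ∧ ∀ B : Pr L, B.w x = h * D B) {z y : L}
    (hz : z ≠ 0) (hd : δ z = z ^ c * y ^ N) (hB : ∀ B : Pr L, EIG_dv N B z) :
    ∃ u : Additive Lˣ, (u ∈ UU L ∧ ∃ y' ∈ UU L, act δ u = (c : ℤ) • u + (N : ℤ) • y') ∧
      ∃ t : L, t ≠ 0 ∧ ((u.toMul : Lˣ) : L) * t ^ N = z ^ h := by
  have hN' : (N : ℚ) ≠ 0 := by exact_mod_cast hN
  have hy : y ≠ 0 := by
    rintro rfl
    rw [zero_pow hN, mul_zero] at hd
    exact hz ((map_eq_zero δ).1 hd)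
  obtain ⟨t, ht, hw⟩ := hh (fun B => B.w z / N) ⟨(Pr.finite_supp z).subset fun B hB h0 => hB (by
    simp only [h0, zero_div]), fun B => by
      obtain ⟨s, hs, hs'⟩ := hB B
      exact ⟨s, hs, by simp only [hs']; field_simp⟩⟩
  have hu : z ^ h / t ^ N ≠ 0 := div_ne_zero (pow_ne_zero _ hz) (pow_ne_zero _ ht)
  have hδt : δ t ≠ 0 := (map_ne_zero δ).2 ht
  have hv : t ^ c * y ^ h / δ t ≠ 0 :=
    div_ne_zero (mul_ne_zero (pow_ne_zero _ ht) (pow_ne_zero _ hy)) hδt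
  have hU : Additive.ofMul (Units.mk0 _ hu) ∈ UU L := by
    rw [mem_UU]
    intro B
    rw [toMul_ofMul, Units.val_mk0, B.w_div (pow_ne_zero _ hz) (pow_ne_zero _ ht), B.w_pow,
      B.w_pow, hw]
    field_simp
    ring
  have he : act δ (Additive.ofMul (Units.mk0 _ hu)) = (c : ℤ) • Additive.ofMul (Units.mk0 _ hu) +
      (N : ℤ) • Additive.ofMul (Units.mk0 _ hv) := by
    apply Additive.toMul.injective
    apply Units.ext
    rw [act_apply]
    simp only [toMul_add, toMul_zsmul, toMul_ofMul, zpow_natCast, Units.val_mul,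
      Units.val_pow_eq_pow_val, Units.val_mk0, map_div₀, map_pow, hd]
    simp only [div_pow, mul_pow, ← pow_mul]
    field_simp
    ring
  refine ⟨_, ⟨hU, _, ?_, he⟩, t, ht, ?_⟩
  · refine mem_UU_of_smul (n := N) (by exact_mod_cast hN) ?_
    rw [eq_sub_of_add_eq' he.symm]
    exact (UU L).sub_mem (act_mem_UU δ hU) ((UU L).smul_mem _ hU)
  · rw [toMul_ofMul, Units.val_mk0, div_mul_cancel₀ _ (pow_ne_zero _ ht)]

theorem EIG_ord (B : Pr L) (N : ℕ) : ∃ o : L → ZMod N, ∀ x x' : L, x ≠ 0 → x' ≠ 0 → o x = o x' →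
    EIG_dv N B (x / x') := by
  obtain ⟨e, he, -, hk, π, hπ, hw⟩ := B.exists_ram
  choose k hk using hk
  refine ⟨fun x => (k x : ZMod N), fun x x' hx hx' h => ?_⟩
  obtain ⟨m, hm⟩ := (ZMod.intCast_eq_intCast_iff_dvd_sub _ _ _).1 h.symm
  refine ⟨π ^ m, zpow_ne_zero _ hπ, ?_⟩
  have hm' : (k x : ℚ) - k x' = N * m := by exact_mod_cast hm
  rw [B.w_div hx hx', B.w_zpow, hw, hk, hk, ← sub_div, hm']
  ring

end

/-- See the blueprint, section EIG. -/
theorem eig {L : Type} [Field L] [NumberField L] (δ : Aut L) {l : ℕ} (hl : l.Prime) (h2 : l ≠ 2) :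
    ∃ h C : ℕ, 0 < h ∧ ∀ T c : ℕ, 0 < T → (l : ℤ) ^ T ∣ (c : ℤ) ^ orderOf δ - 1 →
      ∀ S : Finset L, (∀ x ∈ S, x ≠ 0 ∧ (∃ y : L, δ x = x ^ c * y ^ l ^ T) ∧
        ∀ B : Pr L, B.p ≠ l → ∃ z : L, z ≠ 0 ∧ B.w x = l ^ T * B.w z) →
      (∀ x ∈ S, ∀ x' ∈ S, (∃ y : L, x ^ h = x' ^ h * y ^ l ^ T) → x = x') →
      S.card ≤ C * l ^ (T * (2 * Module.finrank ℚ (Fx (Subgroup.zpowers δ)))) := by
  obtain ⟨h, h0, hh⟩ := exists_class_exp L
  obtain ⟨C, hC⟩ := eiga (act δ) (orderOf_pos δ) (by rw [← act_pow, pow_orderOf_eq_one, act_one])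
    (UU L) (fun x hx => act_mem_UU δ hx) (fg_UU L) (llog L) (cinj_llog L) (finite_tors L)
    (LinearMap.funLeft ℂ ℂ (plc δ)) (fun x => funext fun v => llog_act δ x v) (finrank_eig_le δ)
    hl h2
  refine ⟨h, C, h0, fun T c hT hc S hS hsep => ?_⟩
  have hN : l ^ T ≠ 0 := pow_ne_zero _ hl.ne_zero
  have : NeZero (l ^ T) := ⟨hN⟩
  choose ext hext using Pr.exists_ext (Fx (Subgroup.zpowers δ)).subtype
  choose o ho using fun B : Pr L => EIG_ord B (l ^ T)
  obtain ⟨R, hR⟩ : ∃ R : Finset (Pr (Fx (Subgroup.zpowers δ))), ∀ B, B ∈ R ↔ B.p = l :=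
    ⟨(Pr.finite_above (Fx (Subgroup.zpowers δ)) l).toFinset, fun B => by
      rw [Set.Finite.mem_toFinset]; rfl⟩
  have hRc : R.card ≤ Module.finrank ℚ (Fx (Subgroup.zpowers δ)) :=
    Pr.card_above_le l R fun B hB => (hR B).1 hB
  have key := Finset.card_le_mul_card_image_of_maps_to (s := S) (t := Finset.univ)
    (f := fun x => fun b : R => o (ext b) x) (fun _ _ => Finset.mem_univ _)
    (C * l ^ (T * Module.finrank ℚ (Fx (Subgroup.zpowers δ)))) fun b _ => by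
      set F := S.filter fun x => (fun b : R => o (ext b) x) = b with hF
      rcases F.eq_empty_or_nonempty with h1 | ⟨x₀, hx₀⟩
      · rw [h1]
        exact Nat.zero_le _
      obtain ⟨s₀, t₀⟩ := Finset.mem_filter.1 hx₀
      obtain ⟨n₀, ⟨y₀, hy₀⟩, hw₀⟩ := hS x₀ s₀
      have hu : ∀ x ∈ F, ∃ u : Additive Lˣ,
          (u ∈ UU L ∧ ∃ y' ∈ UU L, act δ u = (c : ℤ) • u + ((l ^ T : ℕ) : ℤ) • y') ∧
          ∃ t : L, t ≠ 0 ∧ ((u.toMul : Lˣ) : L) * t ^ l ^ T = (x / x₀) ^ h := by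
        intro x hx
        obtain ⟨s₁, t₁⟩ := Finset.mem_filter.1 hx
        obtain ⟨n₁, ⟨y₁, hy₁⟩, hw₁⟩ := hS x s₁
        have hd : δ (x / x₀) = (x / x₀) ^ c * (y₁ / y₀) ^ l ^ T := by
          rw [map_div₀, hy₁, hy₀, div_pow, div_pow, mul_div_mul_comm]
        refine EIG_unit hN hh (div_ne_zero n₁ n₀) hd fun B => ?_
        by_cases hB : B.p = l
        · have hb : B.comap (Fx (Subgroup.zpowers δ)).subtype ∈ R := (hR _).2 hB
          obtain ⟨g, hg, hg'⟩ := tr_fin (Subgroup.zpowers δ)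
            (B := ext (B.comap (Fx (Subgroup.zpowers δ)).subtype)) (B' := B) fun z hz =>
              congrArg (fun A => A.w ⟨z, hz⟩) (hext (B.comap (Fx (Subgroup.zpowers δ)).subtype))
          rw [← hg']
          exact EIG_orbit hN (div_ne_zero n₁ n₀) hd
            (ho _ x x₀ n₁ n₀ (congrFun (t₁.trans t₀.symm) ⟨_, hb⟩)) hg
        · obtain ⟨z₁, a1, a2⟩ := hw₁ B hB
          obtain ⟨z₀, b1, b2⟩ := hw₀ B hB
          refine ⟨z₁ / z₀, div_ne_zero a1 b1, ?_⟩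
          rw [B.w_div n₁ n₀, B.w_div a1 b1, a2, b2]
          push_cast
          ring
      choose! u hu1 t ht hu2 using hu
      have hs : ∀ x ∈ F, ∀ x' ∈ F, ∀ y : Additive Lˣ, u x - u x' = (l : ℤ) ^ T • y → x = x' := by
        intro x hx x' hx' y hy
        refine hsep x (Finset.mem_filter.1 hx).1 x' (Finset.mem_filter.1 hx').1
          ⟨((y.toMul : Lˣ) : L) * t x / t x', ?_⟩
        have e1 : (((u x).toMul : Lˣ) : L) =
            (((u x').toMul : Lˣ) : L) * ((y.toMul : Lˣ) : L) ^ l ^ T := by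
          rw [eq_add_of_sub_eq' hy, ← Nat.cast_pow, toMul_add, toMul_zsmul, zpow_natCast,
            Units.val_mul, Units.val_pow_eq_pow_val]
        have e2 := hu2 x hx
        have e3 := hu2 x' hx'
        have e4 : x₀ ^ h ≠ 0 := pow_ne_zero _ n₀
        have e5 : t x' ^ l ^ T ≠ 0 := pow_ne_zero _ (ht x' hx')
        rw [div_pow, eq_div_iff e4] at e2 e3
        rw [← e2, ← e3, e1, div_pow, mul_pow]
        field_simp
      have hinj : Set.InjOn u F := fun x hx x' hx' he =>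
        hs x hx x' hx' 0 (by rw [he, sub_self, smul_zero])
      rw [← Finset.card_image_of_injOn hinj]
      refine hC T c hT hc _ (fun v hv => ?_) fun v hv v' hv' hy => ?_
      · obtain ⟨x, hx, rfl⟩ := Finset.mem_image.1 hv
        have := hu1 x hx
        rwa [Nat.cast_pow] at this
      · obtain ⟨x, hx, rfl⟩ := Finset.mem_image.1 hv
        obtain ⟨x', hx', rfl⟩ := Finset.mem_image.1 hv'
        obtain ⟨y, -, hy⟩ := hy
        rw [hs x hx x' hx' y hy]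
  refine key.trans ?_
  rw [Finset.card_univ, Fintype.card_fun, ZMod.card, Fintype.card_coe, ← pow_mul, mul_assoc,
    ← pow_add]
  refine Nat.mul_le_mul_left _ (Nat.pow_le_pow_right hl.pos ?_)
  rw [two_mul, mul_add]
  exact Nat.add_le_add_left (Nat.mul_le_mul_left _ hRc) _

end Uc
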