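import Vale.Agent.P024.K2a
import Vale.Agent.P024.EIG

/-! If the cyclotomic characters agree up to finite order, boundedly many primes are not hit. -/

noncomputable section
namespace Uc
open scoped Classical
variable {E₁ E₂ : Type} [Field E₁] [CharZero E₁] [Nice E₁] [Field E₂] [CharZero E₂] [Nice E₂]
  {V : Subgroup (Aut E₁)} {α : Aut E₁ → Aut E₂} {l : ℕ}

theorem K2_res_pow {W : Subgroup (Aut E₁)} (hW : IsOpen (W : Set (Aut E₁))) {g : Aut E₁}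
    (hg : g ∈ Subgroup.normalizer (W : Set (Aut E₁))) (k : ℕ) : res W (g ^ k) = res W g ^ k := by
  induction k with
  | zero =>
    rw [pow_zero, pow_zero]
    exact (res_eq_one_iff hW (Subgroup.one_mem _)).2 W.one_mem
  | succ k ih => rw [pow_succ, pow_succ, res_mul (Subgroup.pow_mem _ hg k) hg, ih]

theorem K2_pow_fix {E : Type} [Field E] [CharZero E] {g : Aut E} {z : E} (h : g z = z) (k : ℕ) :
    (g ^ k) z = z := by
  induction k with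
  | zero => rfl
  | succ k ih => rw [pow_succ, AlgEquiv.mul_apply, h, ih]

theorem K2_finrank (hV : IsOpen (V : Set (Aut E₁))) {V' : Subgroup (Aut E₁)} {δ : Aut E₁}
    (hn : δ ∈ Subgroup.normalizer (V' : Set (Aut E₁)))
    (hgen : ∀ v ∈ V, ∃ k : ℕ, (δ ^ k)⁻¹ * v ∈ V') :
    Module.finrank ℚ (Fx (Subgroup.zpowers (res V' δ))) ≤ Module.finrank ℚ (Fx V) := by
  have := numberField_Fx hV
  have hmem : ∀ x : Fx (Subgroup.zpowers (res V' δ)), ((x : Fx V') : E₁) ∈ Fx V := by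
    intro x v hv
    obtain ⟨k, hk⟩ := hgen v hv
    have h1 : δ ((x : Fx V') : E₁) = ((x : Fx V') : E₁) := by
      rw [← res_apply hn, x.2 _ (Subgroup.mem_zpowers _)]
    have h2 := (x : Fx V').2 _ hk
    have h3 : v = δ ^ k * ((δ ^ k)⁻¹ * v) := by rw [mul_inv_cancel_left]
    rw [h3, AlgEquiv.mul_apply, h2, K2_pow_fix h1]
  let φ : Fx (Subgroup.zpowers (res V' δ)) →+* Fx V :=
    ((Fx V').subtype.comp (Fx (Subgroup.zpowers (res V' δ))).subtype).codRestrict (Fx V) hmem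
  exact LinearMap.finrank_le_finrank_of_injective (f := φ.toRatAlgHom.toLinearMap) φ.injective

theorem K2_w_prod {E : Type} [Field E] [CharZero E] {P : Finset ℕ} (hP : ∀ p ∈ P, p.Prime)
    (a : P → ℕ) (B : Pr E) (p : P) (hB : B.p = p) :
    B.w ((∏ q : P, (q : ℕ) ^ a q : ℕ) : E) = a p := by
  push_cast
  rw [B.w_prod]
  · rw [Finset.sum_eq_single p]
    · rw [B.w_pow, ← hB, B.w_p, mul_one]
    · intro q _ hq
      rw [B.w_pow, Pr.w_prime (hP q q.2), mul_zero]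
      intro h
      exact hq (Subtype.ext (h.symm.trans hB))
    · intro h
      exact absurd (Finset.mem_univ p) h
  · intro q _
    exact pow_ne_zero _ (Nat.cast_ne_zero.2 (hP q q.2).ne_zero)

theorem K2_arith (hl : l.Prime) {N' a t m m' : ℕ} (hN : ¬ l ∣ N') (hm : m < l ^ t)
    (hm' : m' < l ^ t) {k : ℤ} (h : ((l ^ a * N' : ℕ) : ℤ) * (m - m') = k * (l : ℤ) ^ (a + t)) :
    m = m' := by
  have hl0 : (l : ℤ) ^ a ≠ 0 := pow_ne_zero _ (Nat.cast_ne_zero.2 hl.ne_zero)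
  have h1 : (N' : ℤ) * (m - m') = k * (l : ℤ) ^ t := by
    apply mul_left_cancel₀ hl0
    push_cast at h
    rw [pow_add] at h
    linear_combination h
  have h2 : IsCoprime ((l : ℤ) ^ t) (N' : ℤ) := by
    apply IsCoprime.pow_left
    exact Nat.isCoprime_iff_coprime.2 ((Nat.Prime.coprime_iff_not_dvd hl).2 hN)
  have h3 : (l : ℤ) ^ t ∣ (m : ℤ) - m' := h2.dvd_of_dvd_mul_left ⟨k, by rw [h1, mul_comm]⟩
  have h4 : m' ≡ m [MOD l ^ t] := (Nat.modEq_iff_dvd).2 (by exact_mod_cast h3)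
  exact (Nat.ModEq.eq_of_lt_of_lt h4 hm' hm).symm

theorem K2_modEq {E : Type} [Field E] {n : ℕ} (hn : n ≠ 0) {ζ : E} (hp : IsPrimitiveRoot ζ n)
    (i j : ℕ) : ζ ^ i = ζ ^ j ↔ i ≡ j [MOD n] := by
  rw [hp.eq_orderOf]
  exact (hp.isOfFinOrder hn).pow_eq_pow_iff_modEq

/-- the comparison of two Kummer classes at a prime of the target -/
theorem K2_key (h : Setup V α) (hl : l.Prime) {V' : Subgroup (Aut E₁)}
    (h1 : IsOpen (V' : Set (Aut E₁))) {T : ℕ}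
    (h6 : ∀ v ∈ V', chi E₂ (l ^ T) (α v) = chi E₁ (l ^ T) v) {b b' : ℕ} (hb : b ≠ 0) (hb' : b' ≠ 0)
    {z z' y : E₁} (hz : z ≠ 0) (hz' : z' ≠ 0)
    (kz : ∀ v ∈ V', v z = zt E₁ (l ^ T) ^ (kc (l ^ T) (b : E₂) (α v)).val * z)
    (kz' : ∀ v ∈ V', v z' = zt E₁ (l ^ T) ^ (kc (l ^ T) (b' : E₂) (α v)).val * z')
    (hy : y ∈ Fx V') {r : ℕ} (hr : (z ^ l ^ T) ^ r = (z' ^ l ^ T) ^ r * y ^ l ^ T)
    (B : Pr E₂) (hB : B.p ≠ l) :
    ∃ c ∈ Fx (h.img V'), (l : ℚ) ^ T * B.w c = r * (B.w (b : E₂) - B.w (b' : E₂)) := by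
  have hn : l ^ T ≠ 0 := pow_ne_zero _ hl.ne_zero
  have : NeZero (l ^ T) := ⟨hn⟩
  have hy0 : y ≠ 0 := by
    rintro rfl
    rw [zero_pow hn, mul_zero] at hr
    exact pow_ne_zero _ (pow_ne_zero _ hz) hr
  have hb2 : (b : E₂) ≠ 0 := Nat.cast_ne_zero.2 hb
  have hb2' : (b' : E₂) ≠ 0 := Nat.cast_ne_zero.2 hb'
  have hr1 := rt_ne_zero hn hb2
  have hr2 := rt_ne_zero hn hb2'
  have hden : z' ^ r * y ≠ 0 := mul_ne_zero (pow_ne_zero _ hz') hy0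
  have hξ : (z ^ r / (z' ^ r * y)) ^ l ^ T = 1 := by
    rw [div_pow, div_eq_one_iff_eq (pow_ne_zero _ hden), mul_pow, pow_right_comm z, hr,
      pow_right_comm z']
  have hnd : ¬ B.p ∣ l ^ T := fun hd =>
    hB ((Nat.prime_dvd_prime_iff_eq B.prime hl).1 (B.prime.dvd_of_dvd_pow hd))
  have hρ0 : (rt (l ^ T) (b : E₂) / rt (l ^ T) (b' : E₂)) ^ r ≠ 0 :=
    pow_ne_zero _ (div_ne_zero hr1 hr2)
  have hfix : ∀ g ∈ h.img V', g ∈ B.I → g ((rt (l ^ T) (b : E₂) / rt (l ^ T) (b' : E₂)) ^ r) =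
      (rt (l ^ T) (b : E₂) / rt (l ^ T) (b' : E₂)) ^ r := by
    intro g hg hi
    obtain ⟨v, hv, -, rfl⟩ := h.mem_img.1 hg
    have a1 : α v ∈ Fm E₂ (l ^ T) := Pr.mem_Fm_of_I hi hnd
    have a2 : v ∈ Fm E₁ (l ^ T) := by
      rw [mem_Fm_iff hn, ← h6 v hv]
      exact (mem_Fm_iff hn).1 a1
    have a3 := a2 _ hξ
    have hζ : zt E₁ (l ^ T) ≠ 0 := (zt_prim hn).ne_zero hn
    rw [map_div₀, map_mul, map_pow, map_pow, kz v hv, kz' v hv, hy v hv] at a3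
    have a4 : (zt E₁ (l ^ T) ^ (kc (l ^ T) (b : E₂) (α v)).val) ^ r =
        (zt E₁ (l ^ T) ^ (kc (l ^ T) (b' : E₂) (α v)).val) ^ r := by
      rw [mul_pow, mul_pow, div_eq_div_iff (mul_ne_zero (mul_ne_zero
        (pow_ne_zero _ (pow_ne_zero _ hζ)) (pow_ne_zero _ hz')) hy0) hden] at a3
      apply mul_right_cancel₀ (mul_ne_zero (pow_ne_zero r hz) hden)
      linear_combination a3
    have a5 : (kc (l ^ T) (b : E₂) (α v)).val * r ≡ (kc (l ^ T) (b' : E₂) (α v)).val * r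
        [MOD l ^ T] := by
      rw [← pow_mul, ← pow_mul] at a4
      exact (K2_modEq hn (zt_prim hn) _ _).1 a4
    have a6 : (zt E₂ (l ^ T) ^ (kc (l ^ T) (b : E₂) (α v)).val) ^ r =
        (zt E₂ (l ^ T) ^ (kc (l ^ T) (b' : E₂) (α v)).val) ^ r := by
      rw [← pow_mul, ← pow_mul]
      exact (K2_modEq hn (zt_prim hn) _ _).2 a5
    have hζ2 : zt E₂ (l ^ T) ≠ 0 := (zt_prim hn).ne_zero hn
    rw [map_pow, map_div₀, kc_spec hn hb2 (map_natCast _ _), kc_spec hn hb2' (map_natCast _ _),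
      div_pow, mul_pow, mul_pow, a6, mul_div_mul_left _ _ (pow_ne_zero _ (pow_ne_zero _ hζ2)),
      div_pow]
  obtain ⟨c, hc, -, hw⟩ := vd (h.isOpen_img h1) B hρ0 hfix
  refine ⟨c, hc, ?_⟩
  have e1 : B.w (b : E₂) = (l : ℚ) ^ T * B.w (rt (l ^ T) (b : E₂)) := by
    conv_lhs => rw [← rt_pow hn (b : E₂), B.w_pow]
    push_cast
    rfl
  have e2 : B.w (b' : E₂) = (l : ℚ) ^ T * B.w (rt (l ^ T) (b' : E₂)) := by
    conv_lhs => rw [← rt_pow hn (b' : E₂), B.w_pow]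
    push_cast
    rfl
  rw [hw, B.w_pow, B.w_div hr1 hr2, e1, e2]
  ring

theorem K2_unit (h : Setup V α) (hl : l.Prime) {V' : Subgroup (Aut E₁)} {δ : Aut E₁} (hδ : δ ∈ V)
    {T : ℕ} (h6 : ∀ v ∈ V', chi E₂ (l ^ T) (α v) = chi E₁ (l ^ T) v) {o : ℕ} (ho : δ ^ o ∈ V') :
    ∃ c : ℕ, (c : ZMod (l ^ T)) * (chi E₂ (l ^ T) (α δ) : (ZMod (l ^ T))ˣ) =
      (chi E₁ (l ^ T) δ : (ZMod (l ^ T))ˣ) ∧ (l : ℤ) ^ T ∣ (c : ℤ) ^ o - 1 := by
  have : NeZero (l ^ T) := ⟨pow_ne_zero _ hl.ne_zero⟩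
  set u : (ZMod (l ^ T))ˣ := chi E₁ (l ^ T) δ * (chi E₂ (l ^ T) (α δ))⁻¹ with hu
  have hc : (((u : ZMod (l ^ T)).val : ℕ) : ZMod (l ^ T)) = u := ZMod.natCast_zmod_val _
  refine ⟨(u : ZMod (l ^ T)).val, ?_, ?_⟩
  · rw [hc, ← Units.val_mul, hu, inv_mul_cancel_right]
  · have h1 := h6 _ ho
    rw [h.map_pow hδ, map_pow, map_pow] at h1
    have h2 : u ^ o = 1 := by rw [hu, mul_pow, inv_pow, h1, mul_inv_cancel]
    have h3 : ((((u : ZMod (l ^ T)).val : ℤ) ^ o - 1 : ℤ) : ZMod (l ^ T)) = 0 := by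
      rw [Int.cast_sub, Int.cast_pow, Int.cast_natCast, hc, ← Units.val_pow_eq_pow_val, h2]
      simp
    have h4 := (ZMod.intCast_zmod_eq_zero_iff_dvd _ _).1 h3
    exact_mod_cast h4

theorem K2_final (hl : l.Prime) {C a d d' m : ℕ} (hd : d' ≤ d)
    (h : ∀ t : ℕ, 0 < t → (l ^ t) ^ m ≤ C * l ^ ((a + t) * (2 * d'))) : m ≤ 2 * d := by
  by_contra hm
  have hm1 : 2 * d + 1 ≤ m := by omega
  have h1 := h (C * l ^ (a * (2 * d)) + 1) (Nat.succ_pos _)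
  set t := C * l ^ (a * (2 * d)) + 1 with ht
  have hl0 : 0 < l := hl.pos
  have h2 : (l ^ t) ^ (2 * d + 1) ≤ (l ^ t) ^ m := Nat.pow_le_pow_right (by positivity) hm1
  have h3 : l ^ ((a + t) * (2 * d')) ≤ l ^ ((a + t) * (2 * d)) :=
    Nat.pow_le_pow_right hl0 (Nat.mul_le_mul_left _ (by omega))
  have h4 : l ^ t * l ^ (t * (2 * d)) ≤ C * l ^ (a * (2 * d)) * l ^ (t * (2 * d)) := by
    calc l ^ t * l ^ (t * (2 * d)) = (l ^ t) ^ (2 * d + 1) := by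
          rw [pow_succ (l ^ t), ← pow_mul, mul_comm]
      _ ≤ C * l ^ ((a + t) * (2 * d)) := h2.trans (h1.trans (Nat.mul_le_mul_left _ h3))
      _ = C * l ^ (a * (2 * d)) * l ^ (t * (2 * d)) := by rw [add_mul, pow_add, mul_assoc]
  have h5 : l ^ t ≤ C * l ^ (a * (2 * d)) := Nat.le_of_mul_le_mul_right h4 (by positivity)
  have h6 : t < l ^ t := Nat.lt_pow_self hl.one_lt
  omega

/-- See the blueprint, section K2. -/
theorem k2 (h : Setup V α) (hl : l.Prime) (h2 : l ≠ 2) {e : ℕ} (he : 0 < e)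
    (hθ : ∀ T : ℕ, ∀ v ∈ V, chi E₂ (l ^ T) (α v) ^ e = chi E₁ (l ^ T) v ^ e) (P : Finset ℕ)
    (hP : ∀ p ∈ P, p.Prime ∧ p ≠ l ∧ ∀ (A : Pr E₁) (B : Pr E₂), B.p = p → ¬ Hit V α l A B) :
    P.card ≤ 2 * Module.finrank ℚ (Fx V) := by
  obtain ⟨V', δ, h1, h3, h4, h5, hgen, h6⟩ := k2a h hl h2 he hθ
  have := numberField_Fx h1
  have hn : δ ∈ Subgroup.normalizer (V' : Set (Aut E₁)) := by
    rw [Subgroup.mem_normalizer_iff]
    intro x
    refine ⟨fun hx => h5 δ h4 x hx, fun hx => ?_⟩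
    have := h5 δ⁻¹ (V.inv_mem h4) _ hx
    have e1 : δ⁻¹ * (δ * x * δ⁻¹) * δ⁻¹⁻¹ = x := by group
    rwa [e1] at this
  obtain ⟨r, C, hr, hmain⟩ := eig (res V' δ) hl h2
  obtain ⟨D, hD, hval⟩ := val_disc (h.isOpen_img h1)
  obtain ⟨a, N', hN', hfac⟩ :=
    Nat.exists_eq_pow_mul_and_not_dvd (mul_pos hr hD).ne' l hl.ne_one
  refine K2_final hl (C := C) (a := a) (K2_finrank h.opn hn hgen) ?_
  intro t ht
  have ho : δ ^ orderOf (res V' δ) ∈ V' := by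
    rw [← res_eq_one_iff h1 (Subgroup.pow_mem _ hn _), K2_res_pow h1 hn, pow_orderOf_eq_one]
  obtain ⟨c, hc, hcd⟩ := K2_unit h hl h4 (h6 (a + t)) ho
  have hb : ∀ ε : P → Fin (l ^ t), (∏ q : P, (q : ℕ) ^ (ε q : ℕ)) ≠ 0 := fun ε =>
    Finset.prod_ne_zero_iff.2 fun q _ => pow_ne_zero _ (hP q q.2).1.ne_zero
  have hu : ∀ ε : P → Fin (l ^ t), ∀ (A : Pr E₁) (B : Pr E₂),
      B.p ∣ (∏ q : P, (q : ℕ) ^ (ε q : ℕ)) → ¬ Hit V α l A B := by
    intro ε A B hd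
    obtain ⟨q, -, hq⟩ := (Prime.dvd_finsetProd_iff B.prime.prime _).1 hd
    exact (hP q q.2).2.2 A B
      ((Nat.prime_dvd_prime_iff_eq B.prime (hP q q.2).1).1 (B.prime.dvd_of_dvd_pow hq))
  choose z z0 z1 z2 z3 z4 using fun ε : P → Fin (l ^ t) =>
    k2b h hl h2 h1 h3 h4 h5 (h6 (a + t)) hc (hb ε) (hu ε)
  let x : (P → Fin (l ^ t)) → Fx V' := fun ε => ⟨z ε ^ l ^ (a + t), z2 ε⟩
  have key : ∀ ε ε' : P → Fin (l ^ t), (∃ y : Fx V', x ε ^ r = x ε' ^ r * y ^ l ^ (a + t)) →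
      ε = ε' := by
    rintro ε ε' ⟨y, hy⟩
    have hy' : (z ε ^ l ^ (a + t)) ^ r = (z ε' ^ l ^ (a + t)) ^ r * (y : E₁) ^ l ^ (a + t) := by
      have := congrArg (Fx V').subtype hy
      rw [map_mul, map_pow, map_pow, map_pow] at this
      exact this
    funext p
    obtain ⟨B, hB⟩ := Pr.exists_above (E := E₂) (hP p p.2).1
    obtain ⟨c', hc', hw⟩ := K2_key h hl h1 (h6 (a + t)) (hb ε) (hb ε') (z0 ε) (z0 ε') (z1 ε) (z1 ε')
      y.2 hy' B (by rw [hB]; exact (hP p p.2).2.1)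
    obtain ⟨k, hk⟩ := hval B c' hc'
    rw [K2_w_prod (fun q hq => (hP q hq).1) _ B p hB, K2_w_prod (fun q hq => (hP q hq).1) _ B p hB,
      hk] at hw
    apply Fin.ext
    refine K2_arith hl (a := a) (k := k) hN' (ε p).2 (ε' p).2 ?_
    rw [← hfac]
    have hD' : (D : ℚ) ≠ 0 := Nat.cast_ne_zero.2 hD.ne'
    have e1 : ((r * D : ℕ) : ℚ) * (((ε p : ℕ) : ℚ) - ((ε' p : ℕ) : ℚ)) = k * (l : ℚ) ^ (a + t) := by
      push_cast
      field_simp at hw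
      linear_combination -hw
    exact_mod_cast e1
  have hinj : Function.Injective x := fun ε ε' hx => key ε ε' ⟨1, by rw [hx, one_pow, mul_one]⟩
  have hS := hmain (a + t) c (by omega) hcd (Finset.univ.image x) ?_ ?_
  · rw [Finset.card_image_of_injective _ hinj, Finset.card_univ, Fintype.card_fun,
      Fintype.card_fin, Fintype.card_coe] at hS
    exact hS
  · intro x' hx'
    obtain ⟨ε, -, rfl⟩ := Finset.mem_image.1 hx'
    refine ⟨fun h0 => pow_ne_zero _ (z0 ε) (congrArg Subtype.val h0), ?_, ?_⟩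
    · obtain ⟨y, hy, hy'⟩ := z3 ε
      refine ⟨⟨y, hy⟩, Subtype.ext ?_⟩
      rw [res_apply hn]
      exact hy'
    · intro B hB
      obtain ⟨A, rfl⟩ := Pr.exists_ext (Fx V').subtype B
      obtain ⟨y, hy, hy0, hw⟩ := z4 ε A hB
      refine ⟨⟨y, hy⟩, fun h0 => hy0 (congrArg Subtype.val h0), ?_⟩
      show A.w (z ε ^ l ^ (a + t)) = (l : ℚ) ^ (a + t) * A.w y
      rw [A.w_pow, hw]
      push_cast
      rfl
  · intro x₁ hx₁ x₂ hx₂ hy
    obtain ⟨ε, -, rfl⟩ := Finset.mem_image.1 hx₁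
    obtain ⟨ε', -, rfl⟩ := Finset.mem_image.1 hx₂
    rw [key ε ε' hy]

end Uc
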