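import Vale.Agent.P024.MB
import Vale.Agent.P024.CB1
import Vale.Agent.P024.CB2
import Vale.Agent.P024.K2

/-! The independent case. -/

noncomputable section
namespace Uc
open scoped Classical
variable {Ω E : Type} [Field Ω] [CharZero Ω] [Nice Ω] [IsAlgClosed Ω] [Field E] [CharZero E]
  [Nice E] {V : Subgroup (Aut Ω)} {α : Aut Ω → Aut E}

variable {W : Subgroup (Aut E)} {r s' : ℕ} {m : Aut Ω}

/-- `exists_iod`, `IOD.good`, `full` twice, `infinite_prim`, `deg_one`, `theta`, `k2` -/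
theorem kl2b (h : Setup V α) (hm : m ∈ Mt V α) (hb : BE W r s' (α m)) (hr : V.index < r) :
    KL2 V α := by
  obtain ⟨j, V₀, ι, hι⟩ := exists_iod Ω E
  obtain ⟨V', hV', hn', hg⟩ := hι.good hb.opn
  refine ⟨(V.index).factorial, 2 * Module.finrank ℚ (Fx V),
    (full hb.opn).toFinset ∪ (full hV').toFinset, Nat.factorial_ne_zero _,
    fun l hl h2 hΛ hd J hJ => ?_⟩
  have hf : Full W l := by
    by_contra hc
    exact hΛ (Finset.mem_union_left _ ((Set.Finite.mem_toFinset _).2 ⟨hl, hc⟩))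
  have hf' : Full V' l := by
    by_contra hc
    exact hΛ (Finset.mem_union_right _ ((Set.Finite.mem_toFinset _).2 ⟨hl, hc⟩))
  have hQ := deg_one h hm hb hr hl h2 hd hf (infinite_prim hV' hn' hl hf') (by
    rintro p ⟨h1, A, rfl, φ, h3, h4⟩
    exact ⟨A.prime, h1, hg A ⟨φ, h3, h4⟩⟩)
  obtain ⟨e, he, hθ⟩ := theta h hl h2 hQ fun q hq => hq
  exact k2 h hl h2 he hθ J hJ

/-- `mb`, `exists_be`, an odd prime `l` with `Full W l`, `IOD.good` for `Ws W l 2`, `ur`, `eg` -/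
theorem case_b (h : Setup V α)
    (hB : ∀ t, t ∉ V → ¬ ∀ x ∈ V.normalCore, α x = 1 ↔ α (t⁻¹ * x * t) = 1) :
    ∃ j : E →+* Ω, Ind V α j := by
  obtain ⟨m₀, h1, h2, h3⟩ := mb h hB
  obtain ⟨W, r, s, m, hm, hr, hb⟩ := exists_be h h1 h2 h3
  obtain ⟨l, hl, hl'⟩ := Nat.infinite_setOfPred_prime.exists_notMem_finite
    ((full hb.opn).union (Set.finite_singleton 2))
  have hlp : l.Prime := hl
  have hf : Full W l := by
    by_contra hc
    exact hl' (Or.inl ⟨hlp, hc⟩)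
  have hl2 : l ≠ 2 := fun hc => hl' (Or.inr hc)
  have hW := isOpen_Ws hb.opn hlp.ne_zero 2
  obtain ⟨j, V₀, ι, hι⟩ := exists_iod Ω E
  obtain ⟨V', hV', -, hg⟩ := hι.good hW
  refine eg h (kl2b h hm hb hr) hV' (insert r (ur hW).toFinset) fun A hA hφ => ?_
  refine kl1b h hm hb hlp hl2 hf (fun hc => hA (hc ▸ Finset.mem_insert_self _ _)) (hg A hφ)
    fun B hB => ?_
  by_contra hc
  exact hA (Finset.mem_insert_of_mem ((Set.Finite.mem_toFinset _).2 ⟨B, hB, hc⟩))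

end Uc
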