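import Vale.Agent.P024.Defs

/-! The cohomological count behind the first inequality. -/

noncomputable section
namespace Uc
open scoped Classical

namespace CHAux

variable {A B : Type} [AddCommGroup A] [AddCommGroup B]

theorem ri_comap (f : A →ₗ[ℤ] B) (K : Submodule ℤ B) (S : Submodule ℤ A) :
    ri (K.comap f) S = ri K (S.map f) :=
  AddSubgroup.relIndex_comap K.toAddSubgroup f.toAddMonoidHom S.toAddSubgroup

theorem ri_mul {K L S : Submodule ℤ A} (h1 : K ≤ L) (h2 : L ≤ S) : ri K L * ri L S = ri K S :=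
  AddSubgroup.relIndex_mul_relIndex _ _ _ h1 h2

theorem ri_left {K L S : Submodule ℤ A} (h : ∀ x ∈ S, x ∈ K → x ∈ L) : ri L S ∣ ri K S := by
  unfold ri
  rw [← AddSubgroup.inf_relIndex_right K.toAddSubgroup]
  exact AddSubgroup.relIndex_dvd_of_le_left _ fun x hx => h x hx.2 hx.1

theorem ri_sup (K S : Submodule ℤ A) : ri K (S ⊔ K) = ri K S := by
  unfold ri
  rw [Submodule.sup_toAddSubgroup, AddSubgroup.relIndex_sup_right]

theorem ri_right {K S T : Submodule ℤ A} (h : S ≤ T ⊔ K) : ri K S ∣ ri K T := by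
  rw [← ri_sup K S, ← ri_sup K T, ← ri_mul (le_sup_right (a := S)) (sup_le h le_sup_right)]
  exact dvd_mul_right _ _

/-- a quotient that is covered -/
theorem ri_surj (f : A →ₗ[ℤ] B) {K S : Submodule ℤ A} {K' S' : Submodule ℤ B}
    (h1 : S' ≤ S.map f ⊔ K') (h2 : ∀ x ∈ S, x ∈ K → f x ∈ K') : ri K' S' ∣ ri K S :=
  (ri_right h1).trans (ri_comap f K' S ▸ ri_left h2)

/-- a quotient that embeds -/
theorem ri_inj (f : A →ₗ[ℤ] B) {K S : Submodule ℤ A} {K' S' : Submodule ℤ B}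
    (h1 : ∀ x ∈ S, f x ∈ S') (h2 : ∀ x ∈ S, f x ∈ K' → x ∈ K) : ri K S ∣ ri K' S' :=
  (ri_left (K := K'.comap f) h2).trans
    (ri_comap f K' S ▸ ri_right ((Submodule.map_le_iff_le_comap.2 h1).trans le_sup_left))

theorem ri_ker (f : A →ₗ[ℤ] A) {P I : Submodule ℤ A} (h : P ≤ I) (hf : ∀ x ∈ P, f x ∈ P) :
    ri P I = ri P (I ⊓ P.comap f) * ri P (I.map f ⊔ P) := by
  rw [ri_sup, ← ri_comap, ← ri_mul (L := I ⊓ P.comap f) (le_inf h hf) inf_le_left]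
  congr 1
  exact Nat.dvd_antisymm (ri_left fun x hx h => ⟨hx, h⟩) (ri_left fun x _ h => h.2)

/-- the Herbrand quotient of a finite module is one -/
theorem herb (f g : A →ₗ[ℤ] A) {P I : Submodule ℤ A} (h : P ≤ I) (hf : ∀ x ∈ P, f x ∈ P)
    (hg : ∀ x ∈ P, g x ∈ P) (hf' : ∀ x ∈ I, f x ∈ I) (hg' : ∀ x ∈ I, g x ∈ I)
    (hfg : ∀ x, f (g x) = 0) (hgf : ∀ x, g (f x) = 0) (hfin : ri P I ≠ 0) :
    ri (I.map g ⊔ P) (I ⊓ P.comap f) = ri (I.map f ⊔ P) (I ⊓ P.comap g) := by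
  have h1 := ri_ker f h hf
  have h2 := ri_ker g h hg
  rw [← ri_mul (L := I.map g ⊔ P) le_sup_right (sup_le (by
    rintro _ ⟨x, hx, rfl⟩
    exact ⟨hg' x hx, show f (g x) ∈ P by rw [hfg]; exact P.zero_mem⟩) (le_inf h hf))] at h1
  rw [← ri_mul (L := I.map f ⊔ P) le_sup_right (sup_le (by
    rintro _ ⟨x, hx, rfl⟩
    exact ⟨hf' x hx, show g (f x) ∈ P by rw [hgf]; exact P.zero_mem⟩) (le_inf h hg))] at h2
  have h3 := hfin
  rw [h1] at h3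
  refine mul_left_cancel₀ (mul_ne_zero (left_ne_zero_of_mul (left_ne_zero_of_mul h3))
    (right_ne_zero_of_mul h3)) ?_
  linear_combination h2 - h1

theorem Ns_mem {γ : Module.End ℤ A} {M : Submodule ℤ A} (hM : ∀ x ∈ M, γ x ∈ M) (n : ℕ) {x : A}
    (hx : x ∈ M) : Ns γ n x ∈ M := by
  rw [Ns, LinearMap.sum_apply]
  exact M.sum_mem fun j _ => Module.End.pow_apply_mem_of_forall_mem j hM x hx

theorem sub_Ns {γ : Module.End ℤ A} {n : ℕ} (hγ : γ ^ n = 1) (x : A) : (γ - 1) (Ns γ n x) = 0 := by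
  rw [← Module.End.mul_apply, Ns, mul_geom_sum, hγ, sub_self, LinearMap.zero_apply]

theorem Ns_sub {γ : Module.End ℤ A} {n : ℕ} (hγ : γ ^ n = 1) (x : A) : Ns γ n ((γ - 1) x) = 0 := by
  rw [← Module.End.mul_apply, Ns, geom_sum_mul, hγ, sub_self, LinearMap.zero_apply]

theorem map_Ns {γ : Module.End ℤ A} {δ : Module.End ℤ B} {f : A →ₗ[ℤ] B}
    (he : ∀ x, f (γ x) = δ (f x)) (n : ℕ) (x : A) : f (Ns γ n x) = Ns δ n (f x) := by
  rw [Ns, Ns, LinearMap.sum_apply, LinearMap.sum_apply, map_sum]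
  refine Finset.sum_congr rfl fun j hj => ?_
  clear hj
  induction j with
  | zero => rfl
  | succ j ih => rw [pow_succ', pow_succ', Module.End.mul_apply, Module.End.mul_apply, he, ih]

end CHAux

open CHAux in
/-- See the blueprint, section CH. -/
theorem ch {M₀ I₀ : Type} [AddCommGroup M₀] [AddCommGroup I₀] (γ : Module.End ℤ M₀)
    (δ : Module.End ℤ I₀) {n : ℕ} (hγ : γ ^ n = 1) (hδ : δ ^ n = 1) (M : Submodule ℤ M₀)
    (I : Submodule ℤ I₀) (hM : ∀ x ∈ M, γ x ∈ M) (hI : ∀ x ∈ I, δ x ∈ I) (dv : M₀ →ₗ[ℤ] I₀)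
    (hd : ∀ x ∈ M, dv x ∈ I) (he : ∀ x, dv (γ x) = δ (dv x))
    (h90 : ∀ x ∈ M, Ns γ n x = 0 → ∃ y ∈ M, x = γ y - y) (hfin : ri (M.map dv) I ≠ 0)
    (hh : h0 γ n (M ⊓ LinearMap.ker dv) ≠ 0)
    (hQ : ri ((M ⊓ LinearMap.ker (γ - 1)).map dv ⊔ I.map (Ns δ n))
      (I ⊓ LinearMap.ker (δ - 1)) ≠ 0) :
    h1 γ n (M ⊓ LinearMap.ker dv) ≤
      ri ((M ⊓ LinearMap.ker (γ - 1)).map dv ⊔ I.map (Ns δ n)) (I ⊓ LinearMap.ker (δ - 1)) *
        h0 γ n (M ⊓ LinearMap.ker dv) := by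
  refine Nat.le_of_dvd (Nat.pos_of_ne_zero (mul_ne_zero hQ hh)) ?_
  have ha : ∀ x, dv ((γ - 1) x) = (δ - 1) (dv x) := fun x => by simp [he]
  have hMa : ∀ x ∈ M, (γ - 1) x ∈ M := fun x hx => M.sub_mem (hM x hx) hx
  have hIb : ∀ x ∈ I, (δ - 1) x ∈ I := fun x hx => I.sub_mem (hI x hx) hx
  have hPI : M.map dv ≤ I := Submodule.map_le_iff_le_comap.2 hd
  have hFP : (M ⊓ LinearMap.ker (γ - 1)).map dv ≤ M.map dv ⊓ LinearMap.ker (δ - 1) := by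
    rintro _ ⟨x, hx, rfl⟩
    exact ⟨⟨x, hx.1, rfl⟩, show (δ - 1) (dv x) = 0 by rw [← ha, show (γ - 1) x = 0 from hx.2,
      map_zero]⟩
  have hNI : I.map (Ns δ n) ≤ I ⊓ LinearMap.ker (δ - 1) := by
    rintro _ ⟨x, hx, rfl⟩
    exact ⟨Ns_mem hI n hx, sub_Ns hδ x⟩
  have hPb : ∀ x ∈ M.map dv, (δ - 1) x ∈ M.map dv := by
    rintro _ ⟨x, hx, rfl⟩
    exact ⟨_, hMa x hx, ha x⟩
  have hPN : ∀ x ∈ M.map dv, Ns δ n x ∈ M.map dv := by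
    rintro _ ⟨x, hx, rfl⟩
    exact ⟨_, Ns_mem hM n hx, map_Ns he n x⟩
  have s1 : h1 γ n (M ⊓ LinearMap.ker dv) ∣
      ri ((M ⊓ LinearMap.ker (γ - 1)).map dv) (M.map dv ⊓ LinearMap.ker (δ - 1)) := by
    refine (ri_surj (γ - 1) (K := M ⊓ LinearMap.ker (γ - 1) ⊔ M ⊓ LinearMap.ker dv)
      (S := M ⊓ (LinearMap.ker dv).comap (γ - 1)) (fun x hx => ?_) fun x _ hx => ?_).trans
      (ri_inj dv (fun x hx => ⟨⟨x, hx.1, rfl⟩, (ha x).symm.trans hx.2⟩) ?_)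
    · obtain ⟨y, hy, rfl⟩ := h90 x hx.1.1 hx.2
      exact Submodule.mem_sup_left ⟨y, ⟨hy, hx.1.2⟩, rfl⟩
    · obtain ⟨y, hy, z, hz, rfl⟩ := Submodule.mem_sup.1 hx
      exact ⟨z, hz, by rw [map_add, show (γ - 1) y = 0 from hy.2, zero_add]⟩
    · rintro x hx ⟨y, hy, h⟩
      exact Submodule.mem_sup.2 ⟨y, hy, x - y, ⟨M.sub_mem hx.1 hy.1,
        show dv (x - y) = 0 by rw [map_sub, h, sub_self]⟩, add_sub_cancel y x⟩
  have s2 : ri ((M ⊓ LinearMap.ker (γ - 1)).map dv)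
      ((M ⊓ LinearMap.ker (γ - 1)).map dv ⊔ M.map dv ⊓ I.map (Ns δ n)) ∣
      ri (I.map (δ - 1) ⊔ M.map dv) (I ⊓ (M.map dv).comap (Ns δ n)) := by
    refine ri_surj (Ns δ n) (sup_le le_sup_right ?_) fun x _ hx => ?_
    · rintro _ ⟨h, x, hx, rfl⟩
      exact Submodule.mem_sup_left ⟨x, ⟨hx, h⟩, rfl⟩
    · obtain ⟨_, ⟨y, -, rfl⟩, _, ⟨z, hz, rfl⟩, rfl⟩ := Submodule.mem_sup.1 hx
      exact ⟨Ns γ n z, ⟨Ns_mem hM n hz, sub_Ns hγ z⟩, by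
        rw [map_add, Ns_sub hδ, zero_add, map_Ns he]⟩
  have s3 : ri ((M ⊓ LinearMap.ker (γ - 1)).map dv ⊔ M.map dv ⊓ I.map (Ns δ n))
      (M.map dv ⊓ LinearMap.ker (δ - 1)) ∣
      ri ((M ⊓ LinearMap.ker (γ - 1)).map dv ⊔ I.map (Ns δ n))
        (M.map dv ⊓ LinearMap.ker (δ - 1) ⊔ I.map (Ns δ n)) := by
    refine ri_inj LinearMap.id (fun x hx => Submodule.mem_sup_left hx) fun x hx h => ?_
    obtain ⟨y, hy, z, hz, rfl⟩ : ∃ y ∈ _, ∃ z ∈ _, y + z = x := Submodule.mem_sup.1 h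
    exact Submodule.add_mem_sup hy ⟨(Submodule.add_mem_iff_right _ (hFP hy).1).1 hx.1, hz⟩
  have s4 : ri (I.map (Ns δ n) ⊔ M.map dv) (I ⊓ LinearMap.ker (δ - 1) ⊔ M.map dv) ∣
      ri (M.map dv ⊓ LinearMap.ker (δ - 1) ⊔ I.map (Ns δ n)) (I ⊓ LinearMap.ker (δ - 1)) := by
    refine ri_surj LinearMap.id ?_ fun x _ hx => ?_
    · rw [Submodule.map_id]
      exact sup_le_sup_left le_sup_right _
    · exact (sup_le (inf_le_left.trans le_sup_right) le_sup_left :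
        _ ≤ I.map (Ns δ n) ⊔ M.map dv) hx
  have s5 : ri (I ⊓ LinearMap.ker (δ - 1) ⊔ M.map dv) (I ⊓ (M.map dv).comap (δ - 1)) ∣
      h0 γ n (M ⊓ LinearMap.ker dv) := by
    refine (ri_inj (δ - 1) (K' := (M.map dv).map (δ - 1)) (S := I ⊓ (M.map dv).comap (δ - 1))
      (S' := M.map dv ⊓ LinearMap.ker (Ns δ n)) (fun x hx => ⟨hx.2, Ns_sub hδ x⟩) ?_).trans
      ((ri_surj dv (K := M.map (γ - 1) ⊔ M ⊓ LinearMap.ker dv)
      (S := M ⊓ (LinearMap.ker dv).comap (Ns γ n)) ?_ fun x _ hx => ?_).trans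
      (ri_inj (Ns γ n) (fun x hx => ⟨⟨Ns_mem hM n hx.1, hx.2⟩, sub_Ns hγ x⟩) ?_))
    · rintro x hx ⟨y, hy, h⟩
      exact Submodule.mem_sup.2 ⟨x - y, ⟨I.sub_mem hx.1 (hPI hy),
        show (δ - 1) (x - y) = 0 by rw [map_sub, h, sub_self]⟩, y, hy, sub_add_cancel x y⟩
    · rintro _ ⟨⟨x, hx, rfl⟩, h⟩
      exact Submodule.mem_sup_left ⟨x, ⟨hx, (map_Ns he n x).trans h⟩, rfl⟩
    · obtain ⟨_, ⟨y, hy, rfl⟩, z, hz, rfl⟩ := Submodule.mem_sup.1 hx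
      exact ⟨dv y, ⟨y, hy, rfl⟩, by rw [map_add, show dv z = 0 from hz.2, add_zero, ha]⟩
    · rintro x hx ⟨u, hu, h⟩
      obtain ⟨y, hy, h2⟩ := h90 (x - u) (M.sub_mem hx.1 hu.1) (by rw [map_sub, h, sub_self])
      exact Submodule.mem_sup.2 ⟨x - u, ⟨y, hy, h2.symm⟩, u, hu, sub_add_cancel x u⟩
  have s6 := herb (δ - 1) (Ns δ n) hPI hPb hPN hIb (fun x hx => Ns_mem hI n hx) (sub_Ns hδ)
    (Ns_sub hδ) hfin
  have s7 : I ⊓ LinearMap.ker (δ - 1) ≤ I ⊓ (M.map dv).comap (δ - 1) := fun x hx =>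
    ⟨hx.1, show (δ - 1) x ∈ M.map dv by
      rw [show (δ - 1) x = 0 from hx.2]; exact Submodule.zero_mem _⟩
  rw [← s6, ← ri_mul (L := I ⊓ LinearMap.ker (δ - 1) ⊔ M.map dv) (sup_le_sup_right hNI _)
    (sup_le s7 (le_inf hPI hPb))] at s2
  rw [← ri_mul (L := (M ⊓ LinearMap.ker (γ - 1)).map dv ⊔ M.map dv ⊓ I.map (Ns δ n)) le_sup_left
    (sup_le hFP (inf_le_inf_left _ (hNI.trans inf_le_right)))] at s1
  rw [← ri_mul (L := M.map dv ⊓ LinearMap.ker (δ - 1) ⊔ I.map (Ns δ n)) (sup_le_sup_right hFP _)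
    (sup_le (inf_le_inf_right _ hPI) hNI), mul_assoc, mul_comm]
  exact s1.trans (mul_dvd_mul (s2.trans (mul_dvd_mul s4 s5)) s3)

end Uc
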