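import Vale.Agent.P024.Defs

/-! Pure group theory. -/

noncomputable section
namespace Uc
open scoped Classical

theorem Grp_fix {α : Type} [Finite α] {l n : ℕ} (hl : l.Prime) (f : Equiv.Perm α) (S : Set α)
    (hS : ∀ x, x ∈ S → f x ∈ S) (hf : ∀ x, (f ^ l ^ n) x = x) (hc : ¬ l ∣ Nat.card S) :
    ∃ x ∈ S, f x = x := by
  have := Fact.mk hl
  have := Fintype.ofFinite S
  rw [Nat.card_eq_fintype_card] at hc
  obtain ⟨x, hx⟩ := Equiv.Perm.exists_fixed_point_of_prime (n := n) hc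
    (σ := f.subtypePermOfFintype hS) (by
      rw [Equiv.Perm.subtypePerm_pow]
      ext x
      exact hf x)
  exact ⟨x, x.2, congrArg Subtype.val hx⟩

theorem Grp_ndvd {p l k : ℕ} (hp : p.Prime) (hl : l.Prime) (hpl : p ≠ l) : ¬ l ∣ p ^ k :=
  fun h => hpl ((Nat.prime_dvd_prime_iff_eq hl hp).1 (hl.dvd_of_dvd_pow h)).symm

/-- In a finite group with a normal `p`-subgroup `P`, two `l`-elements (`l ≠ p`) in the same coset
of `P` are conjugate under `P`: the permutation `x ↦ τ'⁻¹ x τ` of `P` has a fixed point. -/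
theorem cj_fin {G : Type} [Group G] [Finite G] {p l : ℕ} (hp : p.Prime) (hl : l.Prime)
    (hpl : p ≠ l) (P : Subgroup G) [P.Normal] (hP : IsPGroup p P) {τ τ' : G} {a b : ℕ}
    (h1 : τ ^ l ^ a = 1) (h2 : τ' ^ l ^ b = 1) (h : τ⁻¹ * τ' ∈ P) :
    ∃ π ∈ P, π * τ * π⁻¹ = τ' := by
  have := Fact.mk hp
  obtain ⟨k, hk⟩ := hP.exists_card_eq
  have e : ∀ (n : ℕ) (x : G), ((Equiv.mulLeft τ'⁻¹ * Equiv.mulRight τ) ^ n) x
      = (τ' ^ n)⁻¹ * x * τ ^ n := fun n x => by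
    induction n with
    | zero => simp
    | succ n ih =>
      rw [pow_succ', Equiv.Perm.mul_apply, ih]
      simp [pow_succ, mul_assoc]
  obtain ⟨x, hx, h3⟩ := Grp_fix (n := a + b) hl (Equiv.mulLeft τ'⁻¹ * Equiv.mulRight τ) P
    (fun x hx => by
      have := P.mul_mem (‹P.Normal›.conj_mem' x hx τ') (P.inv_mem h)
      simpa [mul_assoc] using this)
    (fun x => by
      rw [e, pow_add, pow_mul τ, h1, mul_comm (l ^ a), pow_mul, h2]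
      simp) (by
      rw [show Nat.card (P : Set G) = p ^ k from hk]
      exact Grp_ndvd hp hl hpl)
  refine ⟨x, hx, ?_⟩
  have h4 : τ'⁻¹ * (x * τ) = x := h3
  rw [inv_mul_eq_iff_eq_mul] at h4
  rw [h4, mul_inv_cancel_right]

/-- `zpowers σ` acts by conjugation on the `P`-conjugacy class of `τ` (by `cj_fin`), which has
`p`-power size, so there is a fixed point. -/
theorem cm_fin {G : Type} [Group G] [Finite G] {p l l' : ℕ} (hp : p.Prime) (hl : l.Prime)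
    (hl' : l'.Prime) (hpl : p ≠ l) (hpl' : p ≠ l') (P : Subgroup G) [P.Normal] (hP : IsPGroup p P)
    {τ σ : G} {a b : ℕ} (h1 : τ ^ l ^ a = 1) (h2 : σ ^ l' ^ b = 1)
    (h : τ⁻¹ * (σ * τ * σ⁻¹) ∈ P) : ∃ π ∈ P, Commute τ (π * σ * π⁻¹) := by
  have := Fact.mk hp
  obtain ⟨π, hπ, h3⟩ := cj_fin hp hl hpl P hP (b := a) h1 (by rw [conj_pow, h1]; simp) h
  obtain ⟨k, hk⟩ := (hP.map MulAut.conj).card_orbit τ
  have e : ∀ x, x ∈ MulAction.orbit (P.map MulAut.conj) τ ↔ ∃ y ∈ P, y * τ * y⁻¹ = x := fun x =>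
    ⟨by rintro ⟨⟨_, y, hy, rfl⟩, rfl⟩; exact ⟨y, hy, rfl⟩,
      by rintro ⟨y, hy, rfl⟩; exact ⟨⟨_, y, hy, rfl⟩, rfl⟩⟩
  have e2 : ∀ (n : ℕ) (x : G), ((MulAut.conj σ).toEquiv ^ n : Equiv.Perm G) x
      = σ ^ n * x * (σ ^ n)⁻¹ := fun n x => by
    induction n with
    | zero => simp
    | succ n ih =>
      rw [pow_succ', Equiv.Perm.mul_apply, ih]
      simp [pow_succ', mul_assoc]
  obtain ⟨x, hx, h4⟩ := Grp_fix (n := b) hl' (MulAut.conj σ).toEquiv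
    (MulAction.orbit (P.map MulAut.conj) τ)
    (fun x hx => by
      obtain ⟨y, hy, rfl⟩ := (e x).1 hx
      refine (e _).2 ⟨σ * y * σ⁻¹ * π, P.mul_mem (‹P.Normal›.conj_mem y hy σ) hπ, ?_⟩
      show _ = σ * (y * τ * y⁻¹) * σ⁻¹
      calc _ = σ * y * σ⁻¹ * (π * τ * π⁻¹) * (σ * y * σ⁻¹)⁻¹ := by group
        _ = _ := by rw [h3]; group)
    (fun x => by rw [e2, h2]; simp) (by rw [hk]; exact Grp_ndvd hp hl' hpl')
  obtain ⟨y, hy, rfl⟩ := (e x).1 hx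
  refine ⟨y⁻¹, P.inv_mem hy, ?_⟩
  have h5 : σ * (y * τ * y⁻¹) * σ⁻¹ = y * τ * y⁻¹ := h4
  show τ * _ = _ * τ
  calc _ = y⁻¹ * (y * τ * y⁻¹) * σ * y := by group
    _ = _ := by rw [← h5]; group

theorem exists_period {G : Type} [Group G] (V : Subgroup G) (hV : V.index ≠ 0) (φ : G) :
    ∃ f : ℕ, 0 < f ∧ f ≤ V.index ∧ ∀ j : ℕ, φ ^ j ∈ V ↔ f ∣ j := by
  have : Finite (G ⧸ V) := Nat.finite_of_card_ne_zero hV
  have := Fintype.ofFinite (G ⧸ V)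
  refine ⟨Function.minimalPeriod (φ • ·) ((1 : G) : G ⧸ V),
    Function.minimalPeriod_pos_of_mem_periodicPts ((MulAction.injective φ).mem_periodicPts _),
    Function.minimalPeriod_le_card.trans_eq Nat.card_eq_fintype_card.symm, fun j => ?_⟩
  rw [← MulAction.pow_smul_eq_iff_minimalPeriod_dvd, MulAction.Quotient.smul_coe, eq_comm,
    QuotientGroup.eq]
  simp

theorem mem_zpowers_sup {G : Type} [Group G] (H : Subgroup G) [H.Normal] (φ : G) {n : ℕ}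
    (hn : 0 < n) (hφ : φ ^ n ∈ H) {y : G} :
    y ∈ Subgroup.zpowers φ ⊔ H ↔ ∃ k : ℕ, (φ ^ k)⁻¹ * y ∈ H := by
  constructor
  · rw [Subgroup.mem_sup_of_normal_right]
    rintro ⟨_, ⟨k, rfl⟩, z, hz, rfl⟩
    have h0 : 0 ≤ k % n := Int.emod_nonneg _ (by exact_mod_cast hn.ne')
    refine ⟨(k % n).toNat, ?_⟩
    have e : φ ^ k = φ ^ (k % n).toNat * (φ ^ n) ^ (k / n) := by
      rw [← zpow_natCast, ← zpow_natCast, Int.toNat_of_nonneg h0, ← zpow_mul, ← zpow_add,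
        Int.emod_add_mul_ediv]
    show _ * (φ ^ k * z) ∈ H
    rw [e, mul_assoc, inv_mul_cancel_left]
    exact H.mul_mem (H.zpow_mem hφ _) hz
  · rintro ⟨k, hk⟩
    rw [← mul_inv_cancel_left (φ ^ k) y]
    exact Subgroup.mul_mem_sup (Subgroup.npow_mem_zpowers φ k) hk

section
variable {G : Type} [Group G] {H : Subgroup G} {ν : G → ℂˣ}

theorem ch_one (hν : ∀ x ∈ H, ∀ y ∈ H, ν (x * y) = ν x * ν y) : ν 1 = 1 := by
  have := hν 1 H.one_mem 1 H.one_mem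
  rw [mul_one] at this
  exact left_eq_mul.1 this
theorem ch_inv (hν : ∀ x ∈ H, ∀ y ∈ H, ν (x * y) = ν x * ν y) {x : G} (hx : x ∈ H) :
    ν x⁻¹ = (ν x)⁻¹ := by
  rw [eq_inv_iff_mul_eq_one, ← hν _ (H.inv_mem hx) _ hx, inv_mul_cancel, ch_one hν]
theorem ch_pow (hν : ∀ x ∈ H, ∀ y ∈ H, ν (x * y) = ν x * ν y) {x : G} (hx : x ∈ H) (k : ℕ) :
    ν (x ^ k) = ν x ^ k := by
  induction k with
  | zero => simpa using ch_one hν
  | succ k ih => rw [pow_succ, hν _ (H.pow_mem hx k) _ hx, ih, pow_succ]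
theorem ch_conj (hν : ∀ x ∈ H, ∀ y ∈ H, ν (x * y) = ν x * ν y) {x y : G} (hx : x ∈ H)
    (hy : y ∈ H) : ν (y⁻¹ * x * y) = ν x := by
  rw [hν _ (H.mul_mem (H.inv_mem hy) hx) _ hy, hν _ (H.inv_mem hy) _ hx, ch_inv hν hy,
    inv_mul_cancel_comm]
theorem Grp_iter [H.Normal] {g : G} (hi : ∀ x ∈ H, ν (g⁻¹ * x * g) = ν x) {x : G} (hx : x ∈ H)
    (j : ℕ) : ν ((g ^ j)⁻¹ * x * g ^ j) = ν x := by
  induction j with
  | zero => simp
  | succ j ih =>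
    rw [← ih, ← hi _ (‹H.Normal›.conj_mem' x hx (g ^ j))]
    simp [pow_succ, mul_assoc]
theorem Grp_cos [H.Normal] (hν : ∀ x ∈ H, ∀ y ∈ H, ν (x * y) = ν x * ν y) {g g' : G}
    (hg : g⁻¹ * g' ∈ H) {x : G} (hx : x ∈ H) : ν (g⁻¹ * x * g) = ν (g'⁻¹ * x * g') := by
  rw [← ch_conj hν (‹H.Normal›.conj_mem' x hx g) hg]
  simp [mul_assoc]
theorem Grp_pow [H.Normal] {g g' : G} (hg : g⁻¹ * g' ∈ H) (j : ℕ) : (g ^ j)⁻¹ * g' ^ j ∈ H := by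
  rw [← QuotientGroup.eq] at hg ⊢
  rw [QuotientGroup.mk_pow, QuotientGroup.mk_pow, hg]
theorem nm_mul [H.Normal] (hν : ∀ x ∈ H, ∀ y ∈ H, ν (x * y) = ν x * ν y) (g : G) (s : ℕ)
    {x y : G} (hx : x ∈ H) (hy : y ∈ H) : Nm g s ν (x * y) = Nm g s ν x * Nm g s ν y := by
  rw [Nm, Nm, Nm, ← Finset.prod_mul_distrib]
  refine Finset.prod_congr rfl fun j _ => ?_
  rw [← hν _ (‹H.Normal›.conj_mem' x hx _) _ (‹H.Normal›.conj_mem' y hy _)]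
  simp [mul_assoc]
theorem nm_conj [H.Normal] (hν : ∀ x ∈ H, ∀ y ∈ H, ν (x * y) = ν x * ν y) {g : G} {s : ℕ}
    (hg : g ^ s ∈ H) {x : G} (hx : x ∈ H) : Nm g s ν (g⁻¹ * x * g) = Nm g s ν x := by
  have h1 := Finset.prod_range_succ (fun j => ν ((g ^ j)⁻¹ * x * g ^ j)) s
  rw [Finset.prod_range_succ', ch_conj hν hx hg, pow_zero, inv_one, one_mul, mul_one,
    mul_left_inj] at h1
  rw [Nm, Nm, ← h1]
  refine Finset.prod_congr rfl fun j _ => ?_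
  simp [pow_succ', mul_assoc]
theorem nm_congr [H.Normal] (hν : ∀ x ∈ H, ∀ y ∈ H, ν (x * y) = ν x * ν y) {g g' : G}
    (hg : g⁻¹ * g' ∈ H) (s : ℕ) {x : G} (hx : x ∈ H) : Nm g s ν x = Nm g' s ν x :=
  Finset.prod_congr rfl fun j _ => Grp_cos hν (Grp_pow hg j) hx
/-- for a prime `s` the norm does not depend on the generator -/
theorem nm_gen [H.Normal] (hν : ∀ x ∈ H, ∀ y ∈ H, ν (x * y) = ν x * ν y) {g y : G} {s j : ℕ}
    (hs : s.Prime) (hg : g ^ s ∈ H) (hj : (g ^ j)⁻¹ * y ∈ H) (hy : y ∉ H) {x : G} (hx : x ∈ H) :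
    Nm y s ν x = Nm g s ν x := by
  have h1 : s.Coprime j := (Nat.Prime.coprime_iff_not_dvd hs).2 fun ⟨c, hc⟩ => hy (by
    rw [← mul_inv_cancel_left (g ^ j) y]
    exact H.mul_mem (by rw [hc, pow_mul]; exact H.pow_mem hg c) hj)
  have hm : ∀ i ∈ Finset.range s, j * i % s ∈ Finset.range s := fun i _ =>
    Finset.mem_range.2 (Nat.mod_lt _ hs.pos)
  have hinj : Set.InjOn (fun i => j * i % s) (Finset.range s : Set ℕ) := fun i hi i' hi' h =>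
    Nat.ModEq.eq_of_lt_of_lt (Nat.ModEq.cancel_left_of_coprime h1 h)
      (Finset.mem_range.1 hi) (Finset.mem_range.1 hi')
  rw [← nm_congr hν hj s hx]
  refine Finset.prod_nbij (fun i => j * i % s) hm hinj
    (Finset.surjOn_of_injOn_of_card_le _ hm hinj le_rfl) fun i _ => (Grp_cos hν ?_ hx).symm
  rw [← pow_mul]
  conv => enter [2, 2]; rw [← Nat.mod_add_div (j * i) s, pow_add, pow_mul]
  rw [inv_mul_cancel_left]
  exact H.pow_mem hg _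
theorem nm_of_inv {g : G} (s : ℕ) [H.Normal] (hi : ∀ x ∈ H, ν (g⁻¹ * x * g) = ν x) {x : G}
    (hx : x ∈ H) : Nm g s ν x = ν x ^ s := by
  rw [Nm, Finset.prod_congr rfl fun j _ => Grp_iter hi hx j, Finset.prod_const, Finset.card_range]
theorem eq_one_of_coprime {c : ℂˣ} {a r T : ℕ} (hr : r.Prime) (ha : ¬ r ∣ a) (h1 : c ^ a = 1)
    (h2 : c ^ r ^ T = 1) : c = 1 :=
  (pow_eq_one_iff_of_coprime (((Nat.Prime.coprime_iff_not_dvd hr).2 ha).pow_left T)).1 ⟨h2, h1⟩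
theorem pow_pow_eq_one {c : ℂˣ} {a r T : ℕ} (hr : r.Prime) (ha : a ≠ 0) (h1 : c ^ a = 1)
    (h2 : c ^ r ^ T = 1) : c ^ r ^ a = 1 := by
  obtain ⟨i, -, hi⟩ := (Nat.dvd_prime_pow hr).1 (orderOf_dvd_of_pow_eq_one h2)
  have h3 := Nat.le_of_dvd (Nat.pos_of_ne_zero ha) (orderOf_dvd_of_pow_eq_one h1)
  rw [← orderOf_dvd_iff_pow_eq_one, hi]
  exact pow_dvd_pow _ ((Nat.lt_pow_self hr.one_lt).le.trans (hi ▸ h3))
theorem Grp_pow_of_dvd {a b : ℂˣ} (h0 : orderOf b ≠ 0) (h : orderOf a ∣ orderOf b) :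
    ∃ k : ℕ, a = b ^ k := by
  have := NeZero.mk h0
  obtain ⟨k, -, hk⟩ := (IsPrimitiveRoot.orderOf b).eq_pow_of_mem_rootsOfUnity
    ((mem_rootsOfUnity _ a).2 (orderOf_dvd_iff_pow_eq_one.1 h))
  exact ⟨k, hk.symm⟩
/-- the `r`-power roots of unity are totally ordered by divisibility -/
theorem exists_pow_or {a b : ℂˣ} {r T : ℕ} (hr : r.Prime) (ha : a ^ r ^ T = 1)
    (hb : b ^ r ^ T = 1) : (∃ k : ℕ, a = b ^ k) ∨ ∃ k : ℕ, b = a ^ k := by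
  obtain ⟨i, -, hi⟩ := (Nat.dvd_prime_pow hr).1 (orderOf_dvd_of_pow_eq_one ha)
  obtain ⟨j, -, hj⟩ := (Nat.dvd_prime_pow hr).1 (orderOf_dvd_of_pow_eq_one hb)
  rcases le_total i j with h | h
  · exact Or.inl (Grp_pow_of_dvd (hj ▸ pow_ne_zero _ hr.ne_zero) (hi ▸ hj ▸ pow_dvd_pow r h))
  · exact Or.inr (Grp_pow_of_dvd (hi ▸ pow_ne_zero _ hr.ne_zero) (hi ▸ hj ▸ pow_dvd_pow r h))

end

/-- Extension of an invariant character over a cyclic quotient: pick `β` with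
`β ^ n = μ (φ ^ n)` and put `ν (φ ^ k * x) = β ^ k * μ x`. -/
theorem ext_char {G : Type} [Group G] (H : Subgroup G) [H.Normal] (φ : G) {n : ℕ} (hn : 0 < n)
    (hφ : ∀ j : ℕ, φ ^ j ∈ H ↔ n ∣ j) (μ : G → ℂˣ) (hμ : ∀ x ∈ H, ∀ y ∈ H, μ (x * y) = μ x * μ y)
    (hi : ∀ x ∈ H, μ (φ⁻¹ * x * φ) = μ x) :
    ∃ ν : G → ℂˣ, (∀ x ∈ Subgroup.zpowers φ ⊔ H, ∀ y ∈ Subgroup.zpowers φ ⊔ H,
      ν (x * y) = ν x * ν y) ∧ ∀ x ∈ H, ν x = μ x := by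
  have hn' : φ ^ n ∈ H := (hφ n).2 dvd_rfl
  obtain ⟨b, hb⟩ := IsAlgClosed.exists_pow_nat_eq (μ (φ ^ n) : ℂ) hn
  have hb0 : b ≠ 0 := fun h => (μ (φ ^ n)).ne_zero (by rw [← hb, h, zero_pow hn.ne'])
  obtain ⟨β, hβ⟩ : ∃ β : ℂˣ, β ^ n = μ (φ ^ n) := ⟨Units.mk0 b hb0, Units.ext hb⟩
  have key : ∀ (y : G) (k d : ℕ), (φ ^ k)⁻¹ * y ∈ H → (φ ^ (k + d))⁻¹ * y ∈ H →
      β ^ k * μ ((φ ^ k)⁻¹ * y) = β ^ (k + d) * μ ((φ ^ (k + d))⁻¹ * y) := fun y k d h1 h2 => by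
    have e : (φ ^ k)⁻¹ * y = φ ^ d * ((φ ^ (k + d))⁻¹ * y) := by
      rw [pow_add]
      group
    have h3 : φ ^ d ∈ H := (H.mul_mem_cancel_right h2).1 (e ▸ h1)
    rw [e, hμ _ h3 _ h2]
    obtain ⟨c, rfl⟩ := (hφ d).1 h3
    rw [pow_mul φ, ch_pow hμ hn', ← hβ, ← pow_mul, pow_add β, mul_assoc]
  obtain ⟨ν, hν⟩ : ∃ ν : G → ℂˣ, ∀ y (k : ℕ), (φ ^ k)⁻¹ * y ∈ H →
      ν y = β ^ k * μ ((φ ^ k)⁻¹ * y) := by
    refine ⟨fun y => if h : ∃ k : ℕ, (φ ^ k)⁻¹ * y ∈ H then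
      β ^ h.choose * μ ((φ ^ h.choose)⁻¹ * y) else 1, fun y k hk => ?_⟩
    have h : ∃ k : ℕ, (φ ^ k)⁻¹ * y ∈ H := ⟨k, hk⟩
    have h1 := h.choose_spec
    simp only [dif_pos h]
    generalize h.choose = k' at h1
    rcases le_total k k' with h2 | h2 <;> obtain ⟨d, rfl⟩ := Nat.exists_eq_add_of_le h2
    exacts [(key y k d hk h1).symm, key y k' d h1 hk]
  refine ⟨ν, fun x hx y hy => ?_, fun x hx => by simpa using hν x 0 (by simpa using hx)⟩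
  obtain ⟨i, h1⟩ := (mem_zpowers_sup H φ hn hn').1 hx
  obtain ⟨j, h2⟩ := (mem_zpowers_sup H φ hn hn').1 hy
  have e : (φ ^ (i + j))⁻¹ * (x * y)
      = (φ ^ j)⁻¹ * ((φ ^ i)⁻¹ * x) * φ ^ j * ((φ ^ j)⁻¹ * y) := by
    rw [pow_add]
    group
  have h3 := ‹H.Normal›.conj_mem' _ h1 (φ ^ j)
  rw [hν _ (i + j) (e ▸ H.mul_mem h3 h2), hν x i h1, hν y j h2, e, hμ _ h3 _ h2,
    Grp_iter hi h1, pow_add, mul_mul_mul_comm]

end Uc
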