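import Vale.Agent.P024.Val

/-! Primes of algebraic extensions of the rationals. -/

noncomputable section
namespace Uc
open scoped Classical

section Grp
variable {Γ : Type} [LinearOrderedCommGroupWithZero Γ]

/-- `γ` is the `q`-th power of `π` -/
def Val2_R (π γ : Γ) (q : ℚ) : Prop := ∃ (b : ℕ) (a : ℤ), 0 < b ∧ γ ^ b = π ^ a ∧ q = a / b

theorem Val2_le {π γ γ' : Γ} {q q' : ℚ} (h0 : 0 < π) (h1 : π < 1) (h : Val2_R π γ q)
    (h' : Val2_R π γ' q') : γ ≤ γ' ↔ q' ≤ q := by
  obtain ⟨b, a, hb, e, rfl⟩ := h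
  obtain ⟨b', a', hb', e', rfl⟩ := h'
  have hb1 : (0 : ℚ) < b := by exact_mod_cast hb
  have hb1' : (0 : ℚ) < b' := by exact_mod_cast hb'
  rw [← pow_le_pow_iff_left₀ zero_le' zero_le' (mul_pos hb hb').ne', pow_mul, e, mul_comm b b',
    pow_mul, e', ← zpow_natCast, ← zpow_natCast, ← zpow_mul, ← zpow_mul,
    zpow_le_zpow_iff_right_of_lt_one₀ h0 h1, div_le_div_iff₀ hb1' hb1]
  exact_mod_cast Iff.rfl

theorem Val2_mul {π γ γ' : Γ} {q q' : ℚ} (h0 : 0 < π) (h : Val2_R π γ q)
    (h' : Val2_R π γ' q') : Val2_R π (γ * γ') (q + q') := by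
  obtain ⟨b, a, hb, e, rfl⟩ := h
  obtain ⟨b', a', hb', e', rfl⟩ := h'
  have hb1 : (0 : ℚ) < b := by exact_mod_cast hb
  have hb1' : (0 : ℚ) < b' := by exact_mod_cast hb'
  refine ⟨b * b', a * b' + a' * b, mul_pos hb hb', ?_, ?_⟩
  · rw [mul_pow, pow_mul, e, mul_comm b b', pow_mul, e', zpow_add₀ h0.ne', zpow_mul, zpow_mul,
      zpow_natCast, zpow_natCast]
  · push_cast
    field_simp

theorem Val2_uniq {π γ : Γ} {q q' : ℚ} (h0 : 0 < π) (h1 : π < 1) (h : Val2_R π γ q)
    (h' : Val2_R π γ q') : q = q' :=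
  le_antisymm ((Val2_le h0 h1 h' h).1 le_rfl) ((Val2_le h0 h1 h h').1 le_rfl)

end Grp

namespace Pr
variable {E K : Type} [Field E] [CharZero E] [Algebra.IsAlgebraic ℚ E] [Field K]

theorem Val2_alg (z : E) : IsAlgebraic ℤ z :=
  (IsFractionRing.isAlgebraic_iff ℤ ℚ E).2 (Algebra.IsAlgebraic.isAlgebraic z)

theorem exists_nat_mul_isIntegral (z : E) : ∃ n : ℕ, n ≠ 0 ∧ IsIntegral ℤ ((n : E) * z) := by
  obtain ⟨y, hy, h⟩ := (Val2_alg z).exists_integral_multiple
  refine ⟨y.natAbs, Int.natAbs_ne_zero.2 hy, ?_⟩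
  rw [zsmul_eq_mul] at h
  rcases Int.natAbs_eq y with e | e
  · rwa [e, Int.cast_natCast] at h
  · rw [e, Int.cast_neg, Int.cast_natCast, neg_mul] at h
    simpa using h.neg

theorem Val2_prime (O : ValuationSubring E) (hO : O ≠ ⊤) :
    ∃ p : ℕ, p.Prime ∧ O.valuation p < 1 := by
  by_contra hc
  push Not at hc
  have h1 : ∀ n : ℕ, n ≠ 0 → 1 ≤ O.valuation n := by
    intro n hn
    induction n using induction_on_primes with
    | zero => exact absurd rfl hn
    | one => simp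
    | prime_mul p a hp ih =>
      rw [Nat.cast_mul, map_mul]
      exact one_le_mul (hc p hp) (ih (right_ne_zero_of_mul hn))
  refine hO (top_unique fun z _ => ?_)
  obtain ⟨n, hn, h⟩ := exists_nat_mul_isIntegral z
  have h2 : IsIntegral O ((n : E) * z) := h.tower_top
  obtain ⟨y, hy⟩ := IsIntegrallyClosed.algebraMap_eq_of_integral h2
  have h3 : O.valuation ((n : E) * z) ≤ 1 := hy ▸ O.valuation_le_one y
  rw [map_mul] at h3
  rw [← O.valuation_le_one_iff]
  exact (le_mul_of_one_le_left' (h1 n hn)).trans h3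

omit [Algebra.IsAlgebraic ℚ E] in
theorem Val2_int (O : ValuationSubring E) {p : ℕ} (hp : p.Prime) (h : O.valuation p < 1)
    {c : ℤ} (hc : c ≠ 0) : ∃ a : ℕ, O.valuation c = O.valuation p ^ a := by
  have hle : ∀ n : ℤ, O.valuation n ≤ 1 := fun n => (O.valuation_le_one_iff _).2 (intCast_mem O n)
  obtain ⟨a, m, hm, e⟩ := Nat.exists_eq_pow_mul_and_not_dvd (Int.natAbs_ne_zero.2 hc) p hp.ne_one
  have h1 : O.valuation m = 1 := by
    refine le_antisymm (by exact_mod_cast hle m) (not_lt.1 fun h2 => ?_)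
    obtain ⟨u, v, huv⟩ : IsCoprime (p : ℤ) (m : ℤ) :=
      Nat.isCoprime_iff_coprime.2 ((Nat.Prime.coprime_iff_not_dvd hp).2 hm)
    have h3 : (u : E) * p + v * m = 1 := by exact_mod_cast congrArg (Int.cast : ℤ → E) huv
    have h4 := O.valuation.map_add_lt (g := 1) (x := (u : E) * p) (y := (v : E) * m)
      (by rw [map_mul]; exact (mul_le_of_le_one_left' (hle u)).trans_lt h)
      (by rw [map_mul]; exact (mul_le_of_le_one_left' (hle v)).trans_lt h2)
    rw [h3, map_one] at h4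
    exact lt_irrefl _ h4
  have h5 : O.valuation (c.natAbs : E) = O.valuation p ^ a := by
    rw [e, Nat.cast_mul, Nat.cast_pow, map_mul, map_pow, h1, mul_one]
  refine ⟨a, ?_⟩
  rw [← h5]
  rcases Int.natAbs_eq c with e' | e'
  · conv_lhs => rw [e', Int.cast_natCast]
  · conv_lhs => rw [e', Int.cast_neg, Int.cast_natCast, Valuation.map_neg]

theorem Val2_exists (O : ValuationSubring E) {p : ℕ} (hp : p.Prime) (h : O.valuation p < 1)
    {z : E} (hz : z ≠ 0) : ∃ q, Val2_R (O.valuation p) (O.valuation z) q := by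
  obtain ⟨P, hP, hPz⟩ := Val2_alg z
  have hp0 : O.valuation p ≠ 0 := (Valuation.ne_zero_iff _).2 (Nat.cast_ne_zero.2 hp.ne_zero)
  have hz0 : O.valuation z ≠ 0 := (Valuation.ne_zero_iff _).2 hz
  let f : ℕ → E := fun i => (P.coeff i : E) * z ^ i
  have hsum : ∑ i ∈ P.support, f i = 0 := by
    rw [← hPz, Polynomial.aeval_def, Polynomial.eval₂_eq_sum, Polynomial.sum_def]
    simp [f]
  obtain ⟨j, hj, hmax⟩ := Finset.exists_max_image P.support (fun i => O.valuation (f i))
    (Polynomial.support_nonempty.2 hP)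
  have key : ∀ i ∈ P.support, ∀ k ∈ P.support, i < k → O.valuation (f i) = O.valuation (f k) →
      ∃ q, Val2_R (O.valuation p) (O.valuation z) q := by
    intro i hi k hk hik e
    obtain ⟨a, ha⟩ := Val2_int O hp h (Polynomial.mem_support_iff.1 hi)
    obtain ⟨a', ha'⟩ := Val2_int O hp h (Polynomial.mem_support_iff.1 hk)
    obtain ⟨b, rfl⟩ := Nat.exists_eq_add_of_lt hik
    simp only [f, map_mul, map_pow, ha, ha'] at e
    refine ⟨_, b + 1, (a : ℤ) - a', Nat.succ_pos b, ?_, rfl⟩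
    rw [zpow_sub₀ hp0, zpow_natCast, zpow_natCast, eq_div_iff (pow_ne_zero _ hp0)]
    apply mul_right_cancel₀ (pow_ne_zero i hz0)
    rw [e, add_assoc, pow_add _ i]
    ac_rfl
  by_contra hc
  have h1 := O.valuation.map_sum_eq_of_lt (f := f) hj fun i hi => by
    obtain ⟨hi1, hi2⟩ := Finset.mem_sdiff.1 hi
    refine lt_of_le_of_ne (hmax i hi1) fun e => hc ?_
    rcases lt_or_gt_of_ne (Finset.notMem_singleton.1 hi2) with h2 | h2
    · exact key i hi1 j hj h2 e
    · exact key j hj i hi1 h2 e.symm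
  rw [hsum, map_zero, eq_comm, Valuation.zero_iff] at h1
  exact mul_ne_zero (Int.cast_ne_zero.2 (Polynomial.mem_support_iff.1 hj)) (pow_ne_zero _ hz) h1

/-- A proper valuation subring comes from a prime. Some prime number `p` is a non-unit of `O`
(otherwise `O` contains the rationals and is integrally closed, so it is everything). For `z ≠ 0`
two terms of a rational relation for `z` have the same valuation, so `z ^ b / p ^ a` is a unit for
some `b > 0`; put `w z = a / b`. -/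
theorem exists_of_vs (O : ValuationSubring E) (hO : O ≠ ⊤) : ∃ A : Pr E, ∀ z, A.In z ↔ z ∈ O := by
  obtain ⟨p, hp, h⟩ := Val2_prime O hO
  have hp1 : (p : E) ≠ 0 := Nat.cast_ne_zero.2 hp.ne_zero
  have hp0 : 0 < O.valuation p := zero_lt_iff.2 ((Valuation.ne_zero_iff _).2 hp1)
  have hex : ∀ z : E, ∃ q : ℚ, (z = 0 → q = 0) ∧
      (z ≠ 0 → Val2_R (O.valuation p) (O.valuation z) q) := by
    intro z
    rcases eq_or_ne z 0 with hz | hz
    · exact ⟨0, fun _ => rfl, fun h => absurd hz h⟩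
    · obtain ⟨q, hq⟩ := Val2_exists O hp h hz
      exact ⟨q, fun h => absurd h hz, fun _ => hq⟩
  choose w hw0 hw using hex
  refine ⟨⟨p, w, hp, hw0 0 rfl, fun x y hx hy => ?_, fun x y hx hy hxy => ?_, ?_⟩, fun z => ?_⟩
  · refine Val2_uniq hp0 h (hw _ (mul_ne_zero hx hy)) ?_
    rw [map_mul]
    exact Val2_mul hp0 (hw x hx) (hw y hy)
  · rcases le_max_iff.1 (O.valuation.map_add x y) with h1 | h1
    · exact (min_le_left _ _).trans ((Val2_le hp0 h (hw _ hxy) (hw x hx)).1 h1)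
    · exact (min_le_right _ _).trans ((Val2_le hp0 h (hw _ hxy) (hw y hy)).1 h1)
  · exact Val2_uniq hp0 h (hw _ hp1) ⟨1, 1, one_pos, by simp, by simp⟩
  · change 0 ≤ w z ↔ z ∈ O
    rcases eq_or_ne z 0 with rfl | hz
    · exact iff_of_true (hw0 0 rfl).ge O.zero_mem
    · rw [← O.valuation_le_one_iff]
      exact (Val2_le hp0 h (hw z hz) ⟨1, 0, one_pos, by simp, by simp⟩).symm

/-- Primes extend (`LocalSubring.exists_le_valuationSubring` or
`ValuationSubring` domination, then `exists_of_vs` and `ext_le`). -/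
theorem exists_ext (i : K →+* E) (B : Pr K) : ∃ A : Pr E, A.comap i = B := by
  obtain ⟨O, hO, hloc⟩ := IsLocalRing.exists_factor_valuationRing (i.comp B.vs.subtype)
  have hne : O ≠ ⊤ := by
    rintro rfl
    have h1 : IsUnit ((i.comp B.vs.subtype).codRestrict (⊤ : ValuationSubring E).toSubring hO
        (B.p : B.vs)) := by
      rw [isUnit_iff_exists_inv]
      refine ⟨⟨(i B.p)⁻¹, trivial⟩, Subtype.ext ?_⟩
      exact mul_inv_cancel₀ ((map_ne_zero i).2 B.p_ne_zero)
    have h2 := (IsLocalRing.residue_ne_zero_iff_isUnit _).2 (hloc.map_nonunit _ h1)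
    rw [← Val_rs'] at h2
    exact h2 ((rs_eq_zero_iff (In.natCast B B.p)).2 (Sm.p B))
  obtain ⟨A, hA⟩ := exists_of_vs O hne
  exact ⟨A, (ext_le (B := A.comap i) fun z hz => (hA (i z)).2 (hO ⟨z, hz⟩)).symm⟩

theorem exists_above {p : ℕ} (hp : p.Prime) : ∃ A : Pr E, A.p = p := by
  have : Fact p.Prime := ⟨hp⟩
  let B : Pr ℚ :=
    { p := p
      w := fun x => padicValRat p x
      prime := hp
      w_zero := by simp
      w_mul := fun x y hx hy => by rw [padicValRat.mul hx hy, Int.cast_add]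
      w_add := fun x y _ _ h => by exact_mod_cast padicValRat.min_le_padicValRat_add (p := p) h
      w_p := by rw [padicValRat.self hp.one_lt, Int.cast_one] }
  obtain ⟨A, hA⟩ := exists_ext (algebraMap ℚ E) B
  exact ⟨A, congrArg Pr.p hA⟩

/-- two primes above the same prime number agree on the rationals -/
theorem w_ratCast {A B : Pr E} (h : A.p = B.p) (x : ℚ) : A.w x = B.w x := by
  have h1 : ∀ n : ℕ, A.w n = B.w n := by
    intro n
    induction n using induction_on_primes with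
    | zero => rw [Nat.cast_zero, A.w_zero, B.w_zero]
    | one => rw [Nat.cast_one, A.w_one, B.w_one]
    | prime_mul p a hp ih =>
      rcases eq_or_ne a 0 with rfl | ha
      · simpa using ih
      have hp0 : (p : E) ≠ 0 := Nat.cast_ne_zero.2 hp.ne_zero
      have ha0 : (a : E) ≠ 0 := Nat.cast_ne_zero.2 ha
      rw [Nat.cast_mul, A.w_mul _ _ hp0 ha0, B.w_mul _ _ hp0 ha0, ih]
      congr 1
      rcases eq_or_ne A.p p with e | e
      · rw [← e, A.w_p, h, B.w_p]
      · rw [w_prime hp e, w_prime hp (h ▸ e)]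
  have h2 : ∀ n : ℤ, A.w n = B.w n := by
    intro n
    obtain ⟨m, rfl | rfl⟩ := n.eq_nat_or_neg
    · rw [Int.cast_natCast, h1]
    · rw [Int.cast_neg, Int.cast_natCast, A.w_neg, B.w_neg, h1]
  rcases eq_or_ne x 0 with rfl | hx
  · rw [Rat.cast_zero, A.w_zero, B.w_zero]
  have hn : ((x.num : ℤ) : E) ≠ 0 := Int.cast_ne_zero.2 (Rat.num_ne_zero.2 hx)
  have hd : ((x.den : ℕ) : E) ≠ 0 := Nat.cast_ne_zero.2 x.den_nz
  rw [Rat.cast_def, A.w_div hn hd, B.w_div hn hd, h1, h2]

theorem Val2_kk (A : Pr E) [Fact A.p.Prime] [Algebra (ZMod A.p) A.kk] (c : A.kk) :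
    IsAlgebraic (ZMod A.p) c := by
  obtain ⟨u, rfl⟩ := IsLocalRing.residue_surjective c
  obtain ⟨P, hP, hPz⟩ := Val2_alg (u : E)
  have h1 := Polynomial.aeval_primPart_eq_zero hP hPz
  have h2 : Polynomial.aeval u P.primPart = 0 := by
    apply A.vs.subtype_injective
    rw [map_zero, ← h1]
    exact (Polynomial.aeval_algHom_apply A.vs.subtype.toIntAlgHom u _).symm
  refine ⟨P.primPart.map (algebraMap ℤ (ZMod A.p)), fun h0 => ?_, ?_⟩
  · have h3 : Polynomial.C (A.p : ℤ) ∣ P.primPart := by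
      rw [Polynomial.C_dvd_iff_dvd_coeff]
      intro i
      rw [← ZMod.intCast_zmod_eq_zero_iff_dvd]
      have := congrArg (fun Q => Polynomial.coeff Q i) h0
      simpa using this
    have h4 := P.isPrimitive_primPart _ h3
    rw [Int.isUnit_iff_natAbs_eq, Int.natAbs_natCast] at h4
    exact A.prime.ne_one h4
  · have := congrArg (IsLocalRing.residue A.vs) h2
    rw [map_zero, Polynomial.aeval_def, Polynomial.hom_eval₂] at this
    rw [Polynomial.aeval_def, Polynomial.eval₂_map, ← this]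
    congr 1
    exact RingHom.ext_int _ _

/-- the residue field is algebraic over the prime field -/
theorem exists_pow_sm {A : Pr E} {z : E} (hz : A.In z) (h : ¬ A.Sm z) :
    ∃ N : ℕ, ¬ A.p ∣ N ∧ A.Sm (z ^ N - 1) := by
  have : Fact A.p.Prime := ⟨A.prime⟩
  have := A.charP
  let _ : Algebra (ZMod A.p) A.kk := ZMod.algebra _ _
  let F := IntermediateField.adjoin (ZMod A.p) {A.rs z}
  have : FiniteDimensional (ZMod A.p) F :=
    IntermediateField.adjoin.finiteDimensional (Val2_kk A _).isIntegral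
  have : Finite F := Module.finite_of_finite (ZMod A.p)
  let _ : Fintype F := Fintype.ofFinite F
  let c : F := ⟨A.rs z, IntermediateField.mem_adjoin_simple_self _ _⟩
  have hc : c ≠ 0 := fun h0 => h ((rs_eq_zero_iff hz).1 (congrArg Subtype.val h0))
  have h1 := FiniteField.pow_card_sub_one_eq_one c hc
  have h2 : A.rs z ^ (Fintype.card F - 1) = 1 := congrArg Subtype.val h1
  refine ⟨Fintype.card F - 1, fun h3 => ?_, ?_⟩
  · have h4 : A.p ∣ Fintype.card F := by
      rw [← CharP.cast_eq_zero_iff A.kk A.p]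
      have := congrArg F.val (FiniteField.cast_card_eq_zero F)
      rwa [map_natCast, map_zero] at this
    have h5 := (Nat.dvd_sub_iff_right Fintype.card_pos h4).1 h3
    exact A.prime.not_dvd_one h5
  · rw [← rs_eq_iff (hz.pow _) (In.one A), rs_pow hz, h2, rs_one]

/-- `a z` and `b / z` are integral for suitable nonzero integers -/
theorem finite_w (z : E) : {p : ℕ | ∃ A : Pr E, A.p = p ∧ A.w z ≠ 0}.Finite := by
  obtain ⟨n, hn, h1⟩ := exists_nat_mul_isIntegral z
  obtain ⟨m, hm, h2⟩ := exists_nat_mul_isIntegral z⁻¹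
  refine (n * m).divisors.finite_toSet.subset ?_
  rintro _ ⟨A, rfl, hA⟩
  refine Nat.mem_divisors.2 ⟨?_, mul_ne_zero hn hm⟩
  by_contra hc
  have hz : z ≠ 0 := by rintro rfl; exact hA A.w_zero
  obtain ⟨a1, a2⟩ := w_natCast (A := A) fun h => hc (Dvd.dvd.mul_right h m)
  obtain ⟨b1, b2⟩ := w_natCast (A := A) fun h => hc (Dvd.dvd.mul_left h n)
  have h3 : 0 ≤ A.w _ := In.of_isIntegral A h1
  have h4 : 0 ≤ A.w _ := In.of_isIntegral A h2
  rw [A.w_mul _ _ a1 hz, a2] at h3
  rw [A.w_mul _ _ b1 (inv_ne_zero hz), b2, A.w_inv] at h4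
  exact hA (by linarith)

/-- `g` maps the valuation ring into itself, and every orbit is finite -/
theorem smul_eq_of_in {A : Pr E} {g : Aut E} (h : ∀ z, A.In z → A.In (g z)) : g • A = A := by
  have h1 : A = g⁻¹ • A := ext_le fun z hz => by
    rw [smul_in, inv_inv]
    exact h z hz
  exact (eq_inv_smul_iff.1 h1)

theorem isFrob_mk {A : Pr E} {g : Aut E} {q : ℕ} (h : ∀ z, A.In z → A.Sm (g z - z ^ q)) :
    A.IsFrob q g := by
  refine ⟨smul_eq_of_in fun z hz => ?_, h⟩
  have := (h z hz).in.add (hz.pow q)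
  rwa [sub_add_cancel] at this

theorem Wild.mem_I {A : Pr E} {g : Aut E} (h : A.Wild g) : g ∈ A.I := by
  refine isFrob_one.1 (isFrob_mk fun z hz => ?_)
  rw [pow_one]
  rcases eq_or_ne z 0 with rfl | h0
  · exact Or.inl (by simp)
  · have := (h z h0).mul_in hz
    rwa [sub_mul, div_mul_cancel₀ _ h0, one_mul] at this

/-- An element of the decomposition group acts on roots of unity as a power of the Frobenius map
(the prime field adjoined the residue of a primitive root is a finite field). -/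
theorem exists_acts_pow {A : Pr E} {g : Aut E} (hg : g ∈ A.D) {n : ℕ} (hn : ¬ A.p ∣ n) :
    ∃ a : ℕ, Acts n g (A.p ^ a) := by
  have hn0 : n ≠ 0 := by rintro rfl; exact hn (dvd_zero _)
  have : Fact A.p.Prime := ⟨A.prime⟩
  have := A.charP
  let _ : Algebra (ZMod A.p) A.kk := ZMod.algebra _ _
  obtain ⟨ρ, hρ⟩ := exists_rsHom hg
  let S : Set A.kk := {c | c ^ n = 1}
  have hS : S.Finite := by
    refine (Polynomial.nthRootsFinset n (1 : A.kk)).finite_toSet.subset fun c hc => ?_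
    exact (Polynomial.mem_nthRootsFinset (Nat.pos_of_ne_zero hn0) _).2 hc
  have : Finite S := hS
  let F := IntermediateField.adjoin (ZMod A.p) S
  have : FiniteDimensional (ZMod A.p) F :=
    IntermediateField.finiteDimensional_adjoin fun c _ => (Val2_kk A c).isIntegral
  have : Finite F := Module.finite_of_finite (ZMod A.p)
  let ρ' : A.kk →ₐ[ZMod A.p] A.kk :=
    { (ρ : A.kk →+* A.kk) with
      commutes' := fun r => DFunLike.congr_fun (RingHom.ext_zmod
        ((ρ : A.kk →+* A.kk).comp (algebraMap (ZMod A.p) A.kk)) (algebraMap (ZMod A.p) A.kk)) r }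
  have hF : F ≤ F.comap ρ' := by
    refine IntermediateField.adjoin_le_iff.2 fun c hc => ?_
    refine IntermediateField.subset_adjoin (ZMod A.p) S (?_ : ρ' c ^ n = 1)
    rw [← map_pow, show c ^ n = 1 from hc, map_one]
  let φ : F →ₐ[ZMod A.p] F := (ρ'.comp F.val).codRestrict F.toSubalgebra fun x => hF x.2
  obtain ⟨a, ha⟩ := FiniteField.exists_forall_apply_eq_pow (ZMod A.p) A.p F
    (AlgEquiv.ofBijective φ (Finite.injective_iff_bijective.1 φ.toRingHom.injective))
  rw [Nat.card_zmod] at ha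
  refine ⟨a, fun ζ hζ => ?_⟩
  have hin : A.In ζ := (w_root hn0 hζ).ge
  have hm : A.rs ζ ∈ S := by
    change A.rs ζ ^ n = 1
    rw [← rs_pow hin, hζ, rs_one]
  have h1 : ρ (A.rs ζ) = A.rs ζ ^ A.p ^ a :=
    congrArg Subtype.val (ha ⟨A.rs ζ, IntermediateField.subset_adjoin (ZMod A.p) S hm⟩)
  refine root_eq_of_sm hn (by rw [← map_pow, hζ, map_one])
    (by rw [← pow_mul, mul_comm, pow_mul, hζ, one_pow]) ?_
  rw [← rs_eq_iff (Val_in hg hin) (hin.pow _), hρ ζ hin, h1, rs_pow hin]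

end Pr

variable {E : Type} [Field E] [CharZero E] [Nice E]

/-- residues are represented by roots of unity: the `N`-th roots of unity of `E` map bijectively
onto those of the residue field -/
theorem Pr.exists_root_sm {A : Pr E} {z : E} (hz : A.In z) (h : ¬ A.Sm z) :
    ∃ (N : ℕ) (ζ : E), ¬ A.p ∣ N ∧ ζ ^ N = 1 ∧ A.Sm (z - ζ) := by
  obtain ⟨N, hN, h1⟩ := Pr.exists_pow_sm hz h
  have hN0 : N ≠ 0 := by rintro rfl; exact hN (dvd_zero _)
  have hpos := Nat.pos_of_ne_zero hN0
  obtain ⟨ζ, hζ⟩ := Nice.prim (E := E) N hN0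
  have h2 := hζ.pow_sub_pow_eq_prod_sub_mul z 1 hpos
  simp only [one_pow, mul_one] at h2
  have h3 : ∀ μ ∈ Polynomial.nthRootsFinset N (1 : E), A.In (z - μ) := fun μ hμ =>
    hz.sub (Pr.w_root hN0 ((Polynomial.mem_nthRootsFinset hpos _).1 hμ)).ge
  rw [h2, ← Pr.rs_eq_zero_iff (Pr.In.prod _ _ h3), Pr.rs_prod _ _ h3,
    Finset.prod_eq_zero_iff] at h1
  obtain ⟨μ, hμ, h4⟩ := h1
  exact ⟨N, μ, hN, (Polynomial.mem_nthRootsFinset hpos _).1 hμ,
    (Pr.rs_eq_zero_iff (h3 μ hμ)).1 h4⟩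

theorem Pr.mem_I_of_Fm {A : Pr E} {g : Aut E} (hg : g ∈ A.D)
    (h : ∀ N : ℕ, ¬ A.p ∣ N → g ∈ Fm E N) : g ∈ A.I := by
  have hs : ∀ y, A.Sm y → A.Sm (g y) := fun y hy =>
    hy.imp (fun e => by rw [e, map_zero]) fun e => by rwa [Pr.w_of_smul hg]
  refine ⟨hg, fun z hz => ?_⟩
  by_cases h1 : A.Sm z
  · exact (hs z h1).sub h1
  · obtain ⟨N, ζ, hN, hζ, h2⟩ := Pr.exists_root_sm hz h1
    have h3 := (hs _ h2).sub h2
    rwa [map_sub, h N hN ζ hζ, sub_sub_sub_cancel_right] at h3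

end Uc
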