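import Vale.Agent.P024.Top2
import Vale.Agent.P024.Val2
import Vale.Agent.P024.Grp

/-! Open homomorphisms and characters. -/

noncomputable section
namespace Uc
open scoped Classical
variable {E₁ E₂ E₃ : Type} [Field E₁] [CharZero E₁] [Nice E₁] [Field E₂] [CharZero E₂] [Nice E₂]
  [Field E₃] [CharZero E₃] [Nice E₃] {V : Subgroup (Aut E₁)} {α : Aut E₁ → Aut E₂}

namespace Setup

theorem map_one (h : Setup V α) : α 1 = 1 := h.hom.map_one
theorem map_inv (h : Setup V α) {g : Aut E₁} (hg : g ∈ V) : α g⁻¹ = (α g)⁻¹ :=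
  h.hom.map_inv ⟨g, hg⟩
theorem map_pow (h : Setup V α) {g : Aut E₁} (hg : g ∈ V) (k : ℕ) : α (g ^ k) = α g ^ k :=
  h.hom.map_pow ⟨g, hg⟩ k
theorem map_conj (h : Setup V α) {g t : Aut E₁} (hg : g ∈ V) (ht : t ∈ V) :
    α (t * g * t⁻¹) = α t * α g * (α t)⁻¹ := by
  rw [h.mul _ (V.mul_mem ht hg) _ (V.inv_mem ht), h.mul _ ht _ hg, h.map_inv ht]
theorem pre_le (h : Setup V α) (W : Subgroup (Aut E₂)) : h.pre W ≤ V :=
  fun _ hg => (h.mem_pre.1 hg).1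
theorem isOpen_pre (h : Setup V α) {W : Subgroup (Aut E₂)} (hW : IsOpen (W : Set (Aut E₂))) :
    IsOpen (h.pre W : Set (Aut E₁)) := by
  obtain ⟨V', h1, h2, h3⟩ := h.cont W hW
  exact Subgroup.isOpen_mono (fun g hg => h.mem_pre.2 ⟨h2 hg, h3 g hg⟩) h1
theorem isOpen_img (h : Setup V α) {V' : Subgroup (Aut E₁)} (hV : IsOpen (V' : Set (Aut E₁))) :
    IsOpen (h.img V' : Set (Aut E₂)) := by
  obtain ⟨W, h1, h2⟩ := h.omap (V' ⊓ V) (isOpen_inf hV h.opn) inf_le_right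
  refine Subgroup.isOpen_mono (fun w hw => ?_) h1
  obtain ⟨g, hg, e⟩ := h2 w hw
  exact h.mem_img.2 ⟨g, hg.1, hg.2, e⟩
theorem continuousOn (h : Setup V α) : ContinuousOn α V := by
  intro g hg
  refine ContinuousAt.continuousWithinAt (continuousAt_def.2 fun O hO => ?_)
  obtain ⟨O', h1, h2, h3⟩ := mem_nhds_iff.1 hO
  obtain ⟨W, h4, -, h5⟩ := exists_normal_subset h2 h3
  obtain ⟨V', h6, h7, h8⟩ := h.cont W h4
  refine mem_nhds_iff.2 ⟨(fun x => g⁻¹ * x) ⁻¹' V', fun x hx => h1 ?_,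
    h6.preimage (continuous_const.mul continuous_id), ?_⟩
  · have := h5 _ (h8 _ hx)
    rwa [← h.mul _ hg _ (h7 hx), mul_inv_cancel_left] at this
  · show g⁻¹ * g ∈ V'
    rw [inv_mul_cancel]
    exact V'.one_mem
theorem mono (h : Setup V α) {V' : Subgroup (Aut E₁)} (hV : IsOpen (V' : Set (Aut E₁)))
    (hle : V' ≤ V) : Setup V' α where
  opn := hV
  mul g hg g' hg' := h.mul g (hle hg) g' (hle hg')
  cont W hW := ⟨h.pre W ⊓ V', isOpen_inf (h.isOpen_pre hW) hV, inf_le_right,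
    fun _ hg => (h.mem_pre.1 hg.1).2⟩
  omap V'' h1 h2 := h.omap V'' h1 (h2.trans hle)
theorem comp (h : Setup V α) {W : Subgroup (Aut E₂)} {β : Aut E₂ → Aut E₃} (h' : Setup W β) :
    Setup (h.pre W) fun g => β (α g) where
  opn := h.isOpen_pre h'.opn
  mul g hg g' hg' := by
    rw [h.mul g (h.pre_le W hg) g' (h.pre_le W hg'),
      h'.mul _ (h.mem_pre.1 hg).2 _ (h.mem_pre.1 hg').2]
  cont U hU := ⟨h.pre (h'.pre U), h.isOpen_pre (h'.isOpen_pre hU),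
    fun _ hg => h.mem_pre.2 ⟨(h.mem_pre.1 hg).1, h'.pre_le U (h.mem_pre.1 hg).2⟩,
    fun _ hg => (h'.mem_pre.1 (h.mem_pre.1 hg).2).2⟩
  omap V' h1 _ := ⟨h'.img (h.img V'), h'.isOpen_img (h.isOpen_img h1), fun w hw => by
    obtain ⟨u, hu, -, rfl⟩ := h'.mem_img.1 hw
    obtain ⟨g, hg, -, rfl⟩ := h.mem_img.1 hu
    exact ⟨g, hg, rfl⟩⟩
theorem proL (h : Setup V α) {l : ℕ} {τ : Aut E₁} (hτ : τ ∈ V) (hp : ProL l τ) : ProL l (α τ) :=
  proL_iff.2 fun W hW => by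
    obtain ⟨k, hk⟩ := proL_iff.1 hp _ (h.isOpen_pre hW)
    exact ⟨k, h.map_pow hτ _ ▸ (h.mem_pre.1 hk).2⟩
/-- openness is automatic: the image of an open subgroup is compact and of finite index -/
theorem of_range (hV : IsOpen (V : Set (Aut E₁))) (hm : ∀ g ∈ V, ∀ h ∈ V, α (g * h) = α g * α h)
    (hc : ContinuousOn α V) (W : Subgroup (Aut E₂)) (hW : IsOpen (W : Set (Aut E₂)))
    (hs : ∀ w ∈ W, ∃ g ∈ V, α g = w) : Setup V α := by
  obtain ⟨φ, hφ⟩ : ∃ φ : V →* Aut E₂, ∀ g, φ g = α g :=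
    ⟨MonoidHom.mk' (fun g => α g) fun g g' => hm g g.2 g' g'.2, fun _ => rfl⟩
  refine ⟨hV, hm, fun U hU => ⟨(U.comap φ).map V.subtype, ?_, ?_, ?_⟩, fun V' h1 h2 =>
    ⟨(V'.subgroupOf V).map φ, isOpen_of_closed hW ?_ fun h0 => ?_, ?_⟩⟩
  · have e : (((U.comap φ).map V.subtype : Subgroup (Aut E₁)) : Set (Aut E₁)) =
        (V : Set (Aut E₁)) ∩ α ⁻¹' U := by
      ext g
      constructor
      · rintro ⟨x, hx, rfl⟩
        exact ⟨x.2, show α x ∈ U from hφ x ▸ hx⟩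
      · rintro ⟨a, b⟩
        exact ⟨⟨g, a⟩, show φ ⟨g, a⟩ ∈ U from (hφ ⟨g, a⟩).symm ▸ b, rfl⟩
    rw [e]
    exact hc.isOpen_inter_preimage hV hU
  · rintro _ ⟨x, -, rfl⟩
    exact x.2
  · rintro _ ⟨x, hx, rfl⟩
    exact show α x ∈ U from hφ x ▸ hx
  · have e : (((V'.subgroupOf V).map φ : Subgroup (Aut E₂)) : Set (Aut E₂)) = α '' V' := by
      ext w
      constructor
      · rintro ⟨x, hx, rfl⟩
        exact ⟨x, hx, (hφ x).symm⟩
      · rintro ⟨g, a, rfl⟩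
        exact ⟨⟨g, h2 a⟩, a, hφ _⟩
    rw [e]
    exact ((V'.isClosed_of_isOpen h1).isCompact.image_of_continuousOn (hc.mono h2)).isClosed
  · have h3 : W ≤ (⊤ : Subgroup V).map φ := fun w hw => by
      obtain ⟨g, a, rfl⟩ := hs w hw
      exact ⟨⟨g, a⟩, trivial, hφ _⟩
    have h4 := Subgroup.relIndex_eq_zero_of_le_right h3 h0
    rw [Subgroup.relIndex_map_map, top_sup_eq, Subgroup.relIndex_top_right] at h4
    have h5 := Subgroup.index_dvd_of_le (le_sup_left : V'.subgroupOf V ≤ _ ⊔ φ.ker)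
    rw [h4, zero_dvd_iff] at h5
    exact index_ne_zero h1 (Subgroup.index_eq_zero_of_relIndex_eq_zero h5)
  · rintro _ ⟨x, hx, rfl⟩
    exact ⟨x, hx, (hφ x).symm⟩
theorem isChar (h : Setup V α) {W : Subgroup (Aut E₂)} {r : ℕ} {ν : Aut E₂ → ℂˣ}
    (hν : IsChar W r ν) : IsChar (h.pre W) r fun g => ν (α g) where
  mul g hg g' hg' := by
    rw [h.mul g (h.pre_le W hg) g' (h.pre_le W hg'),
      hν.mul _ (h.mem_pre.1 hg).2 _ (h.mem_pre.1 hg').2]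
  opn := by
    obtain ⟨W', h1, h2, h3⟩ := hν.opn
    exact ⟨h.pre W', h.isOpen_pre h1,
      fun _ hg => h.mem_pre.2 ⟨(h.mem_pre.1 hg).1, h2 (h.mem_pre.1 hg).2⟩,
      fun _ hg => h3 _ (h.mem_pre.1 hg).2⟩
  ord := hν.ord.imp fun _ hT _ hg => hT _ (h.mem_pre.1 hg).2
theorem hit_smul (h : Setup V α) {l : ℕ} {A : Pr E₁} {B : Pr E₂} (hh : Hit V α l A B) {v : Aut E₁}
    (hv : v ∈ V) : Hit V α l (v • A) (α v • B) := by
  obtain ⟨h1, h2, τ, h3, h4, h5, h6, h7⟩ := hh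
  refine ⟨h1, h2, v * τ * v⁻¹, V.mul_mem (V.mul_mem hv h3) (V.inv_mem hv), Pr.conj_mem_I h4 v,
    h5.conj v, ?_, ?_⟩
  · rw [h.map_conj h3 hv]
    exact fun e => h6 (by simpa using e)
  · rw [h.map_conj h3 hv]
    exact Pr.conj_mem_I h7 _

end Setup

variable {W W' : Subgroup (Aut E₂)} {r : ℕ} {ν ν' : Aut E₂ → ℂˣ} {S : Finset ℕ}

theorem IsChar.isOpen (h : IsChar W r ν) : IsOpen (W : Set (Aut E₂)) := by
  obtain ⟨W', h1, h2, -⟩ := h.opn
  exact Subgroup.isOpen_mono h2 h1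
theorem IsChar.mono (h : IsChar W r ν) (h' : IsOpen (W' : Set (Aut E₂))) (hle : W' ≤ W) :
    IsChar W' r ν where
  mul g hg g' hg' := h.mul g (hle hg) g' (hle hg')
  opn := by
    obtain ⟨U, h1, -, h3⟩ := h.opn
    exact ⟨U ⊓ W', isOpen_inf h1 h', inf_le_right, fun g hg => h3 g hg.1⟩
  ord := h.ord.imp fun _ hT g hg => hT g (hle hg)
theorem IsChar.mul' (h : IsChar W r ν) (h' : IsChar W r ν') : IsChar W r fun g => ν g * ν' g where
  mul g hg g' hg' := by rw [h.mul g hg g' hg', h'.mul g hg g' hg', mul_mul_mul_comm]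
  opn := by
    obtain ⟨U, h1, h2, h3⟩ := h.opn
    obtain ⟨U', h4, -, h6⟩ := h'.opn
    exact ⟨U ⊓ U', isOpen_inf h1 h4, inf_le_left.trans h2, fun g hg => by
      rw [h3 g hg.1, h6 g hg.2, mul_one]⟩
  ord := by
    obtain ⟨T, hT⟩ := h.ord
    obtain ⟨T', hT'⟩ := h'.ord
    refine ⟨T + T', fun g hg => ?_⟩
    rw [mul_pow, pow_add, pow_mul, hT g hg, one_pow, pow_mul', hT' g hg, one_pow, mul_one]
theorem IsChar.inv (h : IsChar W r ν) : IsChar W r fun g => (ν g)⁻¹ where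
  mul g hg g' hg' := by rw [h.mul g hg g' hg', mul_inv]
  opn := h.opn.imp fun _ hU => ⟨hU.1, hU.2.1, fun g hg => by rw [hU.2.2 g hg, inv_one]⟩
  ord := h.ord.imp fun _ hT g hg => by rw [inv_pow, hT g hg, inv_one]
theorem IsChar.pow (h : IsChar W r ν) (k : ℕ) : IsChar W r fun g => ν g ^ k where
  mul g hg g' hg' := by rw [h.mul g hg g' hg', mul_pow]
  opn := h.opn.imp fun _ hU => ⟨hU.1, hU.2.1, fun g hg => by rw [hU.2.2 g hg, one_pow]⟩
  ord := h.ord.imp fun _ hT g hg => by rw [← pow_mul, pow_mul', hT g hg, one_pow]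
theorem IsChar.conj (h : IsChar W r ν) (hW : W.Normal) (t : Aut E₂) :
    IsChar W r fun g => ν (t⁻¹ * g * t) where
  mul g hg g' hg' := by
    rw [← h.mul _ (hW.conj_mem' g hg t) _ (hW.conj_mem' g' hg' t)]
    exact congrArg ν (by group)
  opn := by
    obtain ⟨U, h1, h2, h3⟩ := h.opn
    exact ⟨U.normalCore, isOpen_normalCore h1, U.normalCore_le.trans h2, fun g hg =>
      h3 _ (U.normalCore_le ((Subgroup.normalCore_normal U).conj_mem' g hg t))⟩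
  ord := h.ord.imp fun _ hT g hg => hT _ (hW.conj_mem' g hg t)
theorem IsChar.nm (h : IsChar W r ν) (hW : W.Normal) (t : Aut E₂) (s : ℕ) :
    IsChar W r (Nm t s ν) := by
  induction s with
  | zero => exact h.pow 0
  | succ s ih =>
    have e : Nm t (s + 1) ν = fun g => Nm t s ν g * ν ((t ^ s)⁻¹ * g * t ^ s) :=
      funext fun g => Finset.prod_range_succ _ _
    rw [e]
    exact ih.mul' (h.conj hW _)
theorem Unr.mono (h : Unr W S ν) (hle : W' ≤ W) : Unr W' S ν :=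
  fun A hA g hg hi => h A hA g (hle hg) hi
theorem Unr.mul (h : Unr W S ν) (h' : Unr W S ν') : Unr W S fun g => ν g * ν' g :=
  fun A hA g hg hi => show ν g * ν' g = 1 by rw [h A hA g hg hi, h' A hA g hg hi, mul_one]
theorem Unr.inv (h : Unr W S ν) : Unr W S fun g => (ν g)⁻¹ :=
  fun A hA g hg hi => show (ν g)⁻¹ = 1 by rw [h A hA g hg hi, inv_one]
theorem Unr.pow (h : Unr W S ν) (k : ℕ) : Unr W S fun g => ν g ^ k :=
  fun A hA g hg hi => show ν g ^ k = 1 by rw [h A hA g hg hi, one_pow]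
theorem Unr.conj (h : Unr W S ν) (hW : W.Normal) (t : Aut E₂) :
    Unr W S fun g => ν (t⁻¹ * g * t) := fun A hA g hg hi =>
  h (t⁻¹ • A) hA _ (hW.conj_mem' g hg t) (by simpa using Pr.conj_mem_I hi t⁻¹)
theorem Unr.nm (h : Unr W S ν) (hW : W.Normal) (t : Aut E₂) (s : ℕ) : Unr W S (Nm t s ν) :=
  fun A hA g hg hi => Finset.prod_eq_one fun _ _ => h.conj hW _ A hA g hg hi
/-- the `r`-part of an inertia element has the same value -/
theorem IsChar.exists_lpart (h : IsChar W r ν) (hr : r.Prime) {A : Pr E₂} {g : Aut E₂}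
    (hg : g ∈ W) (hi : g ∈ A.I) : ∃ τ ∈ W, τ ∈ A.I ∧ ProL r τ ∧ ν τ = ν g := by
  obtain ⟨τ, h1, h2⟩ := Uc.exists_lpart hr g
  obtain ⟨U, h3, h4, h5⟩ := h.opn
  obtain ⟨T, hT⟩ := h.ord
  obtain ⟨m, h6, h7⟩ := h2 U h3 T
  have e : τ = g ^ m * ((g ^ m)⁻¹ * τ) := (mul_inv_cancel_left _ _).symm
  refine ⟨τ, e ▸ W.mul_mem (W.pow_mem hg m) (h4 h7), mem_of_approx (isClosed_I A) fun U' h8 _ => ?_,
    h1, ?_⟩
  · obtain ⟨k, -, h9⟩ := h2 U' h8 0
    exact ⟨g ^ k, A.I.pow_mem hi k, h9⟩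
  · rw [e, h.mul _ (W.pow_mem hg m) _ (h4 h7), h5 _ h7, mul_one, ch_pow h.mul hg,
      pow_eq_pow_iff_modEq.2 (h6.of_dvd (orderOf_dvd_of_pow_eq_one (hT g hg))), pow_one]

theorem Ind.apply_pow {j : E₂ →+* E₁} (h : Ind V α j) {g : Aut E₁} (hg : g ∈ V) (k : ℕ) (x : E₂) :
    (g ^ k) (j x) = j ((α g ^ k) x) := by
  induction k with
  | zero => rfl
  | succ k ih => rw [pow_succ', pow_succ', AlgEquiv.mul_apply, AlgEquiv.mul_apply, ih, h g hg]
theorem Ind.proL {j : E₂ →+* E₁} (h : Ind V α j) {l : ℕ} {τ : Aut E₁} (hτ : τ ∈ V)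
    (hp : ProL l τ) : ProL l (α τ) := fun z =>
  (hp (j z)).imp fun _ hn => j.injective (by rw [← h.apply_pow hτ, hn])
theorem Ind.isFrob {j : E₂ →+* E₁} (h : Ind V α j) {A : Pr E₁} {q : ℕ} {φ : Aut E₁} (hφ : φ ∈ V)
    (hf : A.IsFrob q φ) : (A.comap j).IsFrob q (α φ) := hf.comap j (h φ hφ)
theorem Ind.mem_I {j : E₂ →+* E₁} (h : Ind V α j) {A : Pr E₁} {g : Aut E₁} (hg : g ∈ V)
    (hi : g ∈ A.I) : α g ∈ (A.comap j).I :=
  Pr.isFrob_one.1 (h.isFrob hg (Pr.isFrob_one.2 hi))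

end Uc
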