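import Vale.Agent.P024.Dec
import Vale.Agent.P024.Setup

/-! Density at infinite level; the algebraic closure. -/

noncomputable section
namespace Uc
open scoped Classical
variable {E : Type} [Field E] [CharZero E] [Nice E]

variable {Ω : Type} [Field Ω] [CharZero Ω] [Nice Ω] [IsAlgClosed Ω]

/-- an element fixed by all automorphisms over a subfield lies in the subfield -/
theorem IO_fix {K : Type} [Field K] (j : K →+* Ω) {z : Ω}
    (h : ∀ g : Aut Ω, (∀ x, g (j x) = j x) → g z = z) : ∃ x, j x = z := by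
  have : CharZero K := j.charZero
  let _ : Algebra K Ω := j.toAlgebra
  have : Algebra.IsAlgebraic K Ω := Algebra.IsAlgebraic.tower_top (K := ℚ) K
  have : IsAlgClosure K Ω := ⟨inferInstance, inferInstance⟩
  exact (InfiniteGalois.mem_range_algebraMap_iff_fixed (k := K) z).2 fun f =>
    h (f.restrictScalars ℚ) fun x => f.commutes x

theorem mem_Fx_top {z : Ω} (h : z ∈ Fx (⊤ : Subgroup (Aut Ω))) : ∃ x : ℚ, z = x := by
  obtain ⟨x, hx⟩ := IO_fix (Rat.castHom Ω) (z := z) fun g _ => h g trivial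
  exact ⟨x, hx.symm⟩
theorem trq {A B : Pr Ω} (h : A.p = B.p) : ∃ t : Aut Ω, t • A = B := by
  obtain ⟨g, -, hg⟩ := tr (H := ⊤) (A := A) (A' := B) (by simp) fun z hz => by
    obtain ⟨x, rfl⟩ := mem_Fx_top hz
    exact Pr.w_ratCast h x
  exact ⟨g, hg⟩

omit [Nice E] in
theorem IO_rat (A : Pr E) (x : ℚ) (hx : A.In (x : E)) : A.Sm ((x : E) ^ A.p - x) := by
  have hp := Fact.mk A.prime
  have hc := A.charP
  have hd0 : ((x.den : ℕ) : E) ≠ 0 := Nat.cast_ne_zero.2 x.den_ne_zero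
  have hmul : ((x.den : ℕ) : E) * (x : E) = ((x.num : ℤ) : E) := by
    rw [Rat.cast_def, mul_div_cancel₀ _ hd0]
  have hrs : ((x.den : ℕ) : A.kk) * A.rs (x : E) = ((x.num : ℤ) : A.kk) := by
    rw [← Pr.rs_natCast, ← Pr.rs_mul (Pr.In.natCast A _) hx, hmul, Pr.rs_intCast]
  have hden : ((x.den : ℕ) : A.kk) ≠ 0 := by
    intro h0
    rw [h0, zero_mul] at hrs
    have h1 : A.p ∣ x.den := (CharP.cast_eq_zero_iff A.kk A.p _).1 h0
    have h2 : (A.p : ℤ) ∣ x.num := (CharP.intCast_eq_zero_iff A.kk A.p _).1 hrs.symm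
    have h3 : A.p ∣ x.num.natAbs := Int.natCast_dvd.1 h2
    exact A.prime.one_lt.ne' (Nat.eq_one_of_dvd_coprimes x.reduced h3 h1)
  rw [← Pr.rs_eq_iff (hx.pow _) hx, Pr.rs_pow hx]
  refine mul_left_cancel₀ hden ?_
  have h4 := congrArg (frobenius A.kk A.p) hrs
  rw [map_mul, map_natCast, map_intCast, frobenius_def] at h4
  rw [h4, hrs]

theorem frq (A : Pr Ω) : ∃ φ : Aut Ω, A.IsFrob A.p φ := by
  obtain ⟨φ, -, h⟩ := exists_frob_of (H := ⊤) (by simp) A (f := 1) fun z hz hin => by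
    obtain ⟨x, rfl⟩ := mem_Fx_top hz
    rw [pow_one]
    exact IO_rat A x hin
  rw [pow_one] at h
  exact ⟨φ, h⟩
/-- two embeddings of an algebraic extension differ by an automorphism -/
theorem exists_aut_comp {K : Type} [Field K] (j j' : K →+* Ω) : ∃ u : Aut Ω, ∀ x, u (j x) = j' x := by
  have : CharZero K := j.charZero
  let _ : Algebra K Ω := j.toAlgebra
  have : Algebra.IsAlgebraic K Ω := Algebra.IsAlgebraic.tower_top (K := ℚ) K
  obtain ⟨φ, hφ⟩ := IsAlgClosed.surjective_domRestrict_of_isAlgebraic (K := ℚ) (L := K) (M := Ω)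
    (E := Ω) j'.toRatAlgHom
  refine ⟨AlgEquiv.ofBijective φ (Algebra.IsAlgebraic.algHom_bijective φ), fun x => ?_⟩
  exact congrArg (fun f : K →ₐ[ℚ] Ω => f x) hφ

/-- the stabilizer of the image -/
def IO_V (j : E →+* Ω) : Subgroup (Aut Ω) where
  carrier := {g | ∃ γ : Aut E, ∀ x, g (j x) = j (γ x)}
  mul_mem' := by
    rintro g h ⟨γ, hγ⟩ ⟨δ, hδ⟩
    exact ⟨γ * δ, fun x => by rw [AlgEquiv.mul_apply, hδ, hγ, AlgEquiv.mul_apply]⟩
  one_mem' := ⟨1, fun _ => rfl⟩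
  inv_mem' := by
    rintro g ⟨γ, hγ⟩
    refine ⟨γ⁻¹, fun x => ?_⟩
    have h1 := hγ (γ⁻¹ x)
    have h2 : γ (γ⁻¹ x) = x := γ.apply_symm_apply x
    rw [h2] at h1
    rw [← h1]
    exact g.symm_apply_apply _

/-- the restriction -/
def IO_i (j : E →+* Ω) (g : Aut Ω) : Aut E :=
  if h : ∃ γ : Aut E, ∀ x, g (j x) = j (γ x) then h.choose else 1

omit [Nice E] [Nice Ω] [IsAlgClosed Ω] in
theorem IO_ind (j : E →+* Ω) : Ind (IO_V j) (IO_i j) j := by
  intro g hg x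
  have h : ∃ γ : Aut E, ∀ x, g (j x) = j (γ x) := hg
  rw [IO_i, dif_pos h]
  exact h.choose_spec x

omit [Nice E] [Nice Ω] [IsAlgClosed Ω] in
theorem IO_uniq {j : E →+* Ω} {V : Subgroup (Aut Ω)} {ι : Aut Ω → Aut E} (h : Ind V ι j)
    {g : Aut Ω} (hg : g ∈ V) {γ : Aut E} (hγ : ∀ x, g (j x) = j (γ x)) : ι g = γ := by
  ext x
  apply j.injective
  rw [← h g hg, hγ]

omit [IsAlgClosed Ω] in
theorem IO_open (j : E →+* Ω) : IsOpen (IO_V j : Set (Aut Ω)) := by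
  obtain ⟨F, hF, hG⟩ := Nice.gal (E := E)
  have : FiniteDimensional ℚ (F.map j.toRatAlgHom) :=
    (IntermediateField.equivMap F j.toRatAlgHom).toLinearEquiv.finiteDimensional
  refine Subgroup.isOpen_mono (H₁ := (F.map j.toRatAlgHom).fixingSubgroup) ?_
    (IntermediateField.fixingSubgroup_isOpen _)
  intro g hg
  rw [IntermediateField.mem_fixingSubgroup_iff] at hg
  let _ : Algebra E Ω := j.toAlgebra
  let g' : Ω ≃ₐ[F] Ω := AlgEquiv.ofRingEquiv (f := g.toRingEquiv) fun x => hg _ ⟨x, x.2, rfl⟩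
  exact ⟨(g'.restrictNormal E).restrictScalars ℚ, fun x => (g'.restrictNormal_commutes E x).symm⟩

omit [IsAlgClosed Ω] in
theorem IO_cont (j : E →+* Ω) : ContinuousOn (IO_i j) (IO_V j) := by
  intro g₀ hg₀
  rw [ContinuousWithinAt, tendsto_nhds]
  intro O hO h0
  obtain ⟨W, hW, -, hWO⟩ := exists_normal_subset hO h0
  obtain ⟨s, hs⟩ := isOpen_iff.1 hW
  have hU : IsOpen (⋂ x ∈ s, {g : Aut Ω | g (j x) = g₀ (j x)}) :=
    isOpen_biInter_finset fun x _ => (isClopen_eval (j x) fun y => y = g₀ (j x)).isOpen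
  refine Filter.mem_of_superset (inter_mem_nhdsWithin _ (hU.mem_nhds (by simp))) ?_
  rintro g ⟨hg, hgU⟩
  have h1 : (IO_i j g₀)⁻¹ * IO_i j g ∈ W := by
    refine hs fun x hx => ?_
    have h2 : g (j x) = g₀ (j x) := Set.mem_iInter₂.1 hgU x hx
    rw [IO_ind j g hg, IO_ind j g₀ hg₀] at h2
    rw [AlgEquiv.mul_apply, j.injective h2]
    exact (IO_i j g₀).symm_apply_apply x
  have h3 := hWO _ h1
  rwa [mul_inv_cancel_left] at h3

/-- `V` is the stabilizer of the image of `j` -/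
theorem exists_iod (Ω : Type) [Field Ω] [CharZero Ω] [Nice Ω] [IsAlgClosed Ω] (E : Type) [Field E]
    [CharZero E] [Nice E] :
    ∃ (j : E →+* Ω) (V : Subgroup (Aut Ω)) (ι : Aut Ω → Aut E), IOD j V ι := by
  let j : E →+* Ω := (IsAlgClosed.lift : E →ₐ[ℚ] Ω).toRingHom
  have hs : ∀ w : Aut E, ∃ g ∈ IO_V j, IO_i j g = w := by
    intro w
    obtain ⟨u, hu⟩ := exists_aut_comp j (j.comp (w : E →+* E))
    exact ⟨u, ⟨w, hu⟩, IO_uniq (IO_ind j) ⟨w, hu⟩ hu⟩
  refine ⟨j, IO_V j, IO_i j, Setup.of_range (IO_open j) ?_ (IO_cont j) ⊤ isOpen_top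
    (fun w _ => hs w), IO_ind j, hs, fun g hg => ⟨1, hg⟩, fun z hz => IO_fix j hz⟩
  intro g hg h hh
  refine IO_uniq (IO_ind j) ((IO_V j).mul_mem hg hh) fun x => ?_
  rw [AlgEquiv.mul_apply, IO_ind j h hh, IO_ind j g hg, AlgEquiv.mul_apply]

variable {j : E →+* Ω} {V : Subgroup (Aut Ω)} {ι : Aut Ω → Aut E}

/-- lift, correct with `tr` for `stab (range j)`, and use `Pr.mem_I_of_Fm` (all roots of unity
come from `E`) -/
theorem IOD.lift_I (h : IOD j V ι) (A : Pr Ω) {i : Aut E} (hi : i ∈ (A.comap j).I) :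
    ∃ g ∈ V, g ∈ A.I ∧ ι g = i := by
  obtain ⟨g₀, hg₀, hgi⟩ := h.surj i
  have hg₀' : ∀ x, g₀ (j x) = j (i x) := fun x => by rw [h.ind g₀ hg₀, hgi]
  have h1 : (g₀ • A).comap j = A.comap j := by
    rw [Pr.comap_smul j hg₀' A]
    exact hi.1
  obtain ⟨u, hu, huA⟩ := tr (H := stab (Set.range j)) (A := g₀ • A) (A' := A) (isClosed_stab _)
    fun z hz => by
      obtain ⟨x, rfl⟩ := h.fix z fun g hg => hz g (by rintro _ ⟨x, rfl⟩; exact hg x)
      exact congrArg (fun B : Pr E => B.w x) h1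
  have hu' : ∀ x, u (j x) = j x := fun x => hu _ ⟨x, rfl⟩
  have hV : u * g₀ ∈ V := V.mul_mem (h.mem u hu') hg₀
  have hx : ∀ x, (u * g₀) (j x) = j (i x) := fun x => by rw [AlgEquiv.mul_apply, hg₀', hu']
  refine ⟨u * g₀, hV, Pr.mem_I_of_Fm (by rw [Pr.mem_D, mul_smul, huA]) fun N hN ζ hζ => ?_,
    IO_uniq h.ind hV hx⟩
  have hN0 : N ≠ 0 := by
    rintro rfl
    exact hN (dvd_zero _)
  have : NeZero N := ⟨hN0⟩
  obtain ⟨ζ₀, h0⟩ := Nice.prim (E := E) N hN0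
  obtain ⟨k, -, rfl⟩ := (h0.map_of_injective j.injective).eq_pow_of_pow_eq_one hζ
  rw [← map_pow, hx]
  refine congrArg j (Pr.mem_Fm_of_I hi hN _ ?_)
  show (ζ₀ ^ k) ^ N = 1
  rw [← pow_mul, mul_comm, pow_mul, h0.pow_eq_one, one_pow]

theorem IOD.good (h : IOD j V ι) {W : Subgroup (Aut E)} (hW : IsOpen (W : Set (Aut E))) :
    ∃ V' : Subgroup (Aut Ω), IsOpen (V' : Set (Aut Ω)) ∧ V'.Normal ∧
      ∀ A : Pr Ω, (∃ φ ∈ V', A.IsFrob A.p φ) → Good W A.p := by
  refine ⟨(h.setup.pre W).normalCore, isOpen_normalCore (h.setup.isOpen_pre hW), inferInstance, ?_⟩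
  rintro A ⟨φ, hφ, hf⟩ B hB
  obtain ⟨A', rfl⟩ := Pr.exists_ext j B
  obtain ⟨t, rfl⟩ := trq (A := A) (B := A') hB.symm
  have h1 : t * φ * t⁻¹ ∈ h.setup.pre W :=
    Subgroup.normalCore_le _ ((Subgroup.normalCore_normal _).conj_mem φ hφ t)
  rw [Setup.mem_pre] at h1
  exact ⟨_, h1.2, h.ind.isFrob h1.1 (hf.conj t)⟩

/-- descent of an inducing embedding -/
theorem IOD.desc (h : IOD j V ι) {E₂ : Type} [Field E₂] [CharZero E₂] {G : Subgroup (Aut E)}
    {α : Aut E → Aut E₂} (h1 : α 1 = 1) {j' : E₂ →+* Ω}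
    (hj : Ind (h.setup.pre G) (fun g => α (ι g)) j') : ∃ ε : E₂ →+* E, Ind G α ε := by
  have hex : ∀ x : E₂, ∃ y, j y = j' x := fun x => h.fix _ fun g hg => by
    have hV := h.mem g hg
    have hι : ι g = 1 := IO_uniq h.ind hV hg
    have h2 := hj g (h.setup.mem_pre.2 ⟨hV, by rw [hι]; exact G.one_mem⟩) x
    simp only [hι, h1] at h2
    exact h2
  choose e he using hex
  refine ⟨{ toFun := e
            map_one' := j.injective (by rw [he, map_one, map_one])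
            map_mul' := fun x y => j.injective (by rw [he, map_mul, map_mul, he, he])
            map_zero' := j.injective (by rw [he, map_zero, map_zero])
            map_add' := fun x y => j.injective (by rw [he, map_add, map_add, he, he]) }, ?_⟩
  intro g hg x
  obtain ⟨v, hv, rfl⟩ := h.surj g
  apply j.injective
  show j (ι v (e x)) = j (e (α (ι v) x))
  rw [← h.ind v hv, he, he]
  exact hj v (h.setup.mem_pre.2 ⟨hv, hg⟩) x

end Uc
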