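import Vale.Agent.P024.Top0

/-! The topological group of automorphisms. -/

noncomputable section
namespace Uc
open scoped Classical
variable {E : Type} [Field E] [CharZero E] [Nice E]

omit [Nice E] in
theorem Top1_smul_iff (A : Pr E) (g : Aut E) : g • A = A ↔ ∀ z, A.w (g z) = A.w z := by
  refine ⟨fun h z => Pr.w_of_smul h z, fun h => Pr.ext' rfl fun z => ?_⟩
  rw [Pr.smul_w, ← h (g⁻¹ z)]
  exact congrArg A.w (g.apply_symm_apply z)

theorem Top1_closed (P : E → E → Prop) : IsClosed {g : Aut E | ∀ z, P z (g z)} := by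
  have h : {g : Aut E | ∀ z, P z (g z)} = ⋂ z, {g : Aut E | P z (g z)} := by
    ext g
    simp
  rw [h]
  exact isClosed_iInter fun z => (isClopen_eval z (P z)).isClosed

/-- The decomposition group is closed. -/
theorem isClosed_D (A : Pr E) : IsClosed (A.D : Set (Aut E)) := by
  have h : (A.D : Set (Aut E)) = {g : Aut E | ∀ z, A.w (g z) = A.w z} := by
    ext g
    exact Top1_smul_iff A g
  rw [h]
  exact Top1_closed fun z y => A.w y = A.w z
theorem isClosed_I (A : Pr E) : IsClosed (A.I : Set (Aut E)) :=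
  (isClosed_D A).inter (Top1_closed fun z y => A.In z → A.Sm (y - z))
theorem isClosed_frob (A : Pr E) (q : ℕ) : IsClosed {g : Aut E | A.IsFrob q g} :=
  (isClosed_D A).inter (Top1_closed fun z y => A.In z → A.Sm (y - z ^ q))
theorem isClosed_wild (A : Pr E) : IsClosed {g : Aut E | A.Wild g} :=
  Top1_closed fun z y => z ≠ 0 → A.Sm (y / z - 1)

/-- `W` contains the fixing subgroup of a finite extension `F₁` of the field of `Nice.gal`, and
`E` is Galois over `F₁` -/
theorem numberField_Fx {W : Subgroup (Aut E)} (h : IsOpen (W : Set (Aut E))) :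
    NumberField (Fx W) := by
  obtain ⟨s, hs⟩ := isOpen_iff.1 h
  obtain ⟨F, hF, hG⟩ := Nice.gal (E := E)
  let L : IntermediateField F E := IntermediateField.adjoin F (s : Set E)
  have hL : FiniteDimensional F L :=
    IntermediateField.finiteDimensional_adjoin fun x _ => Algebra.IsIntegral.isIntegral x
  have hLQ : FiniteDimensional ℚ L := Module.Finite.trans F L
  have hle : ∀ z ∈ Fx W, z ∈ L := by
    intro z hz
    rw [← InfiniteGalois.fixedField_fixingSubgroup L, IntermediateField.mem_fixedField_iff]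
    intro σ hσ
    rw [IntermediateField.mem_fixingSubgroup_iff] at hσ
    exact hz (σ.restrictScalars ℚ) (hs fun y hy =>
      hσ y (IntermediateField.subset_adjoin F (s : Set E) hy))
  let i : Fx W →+* L := (Fx W).subtype.codRestrict L fun z => hle z z.2
  have hfin : FiniteDimensional ℚ (Fx W) :=
    Module.Finite.of_injective i.toRatAlgHom.toLinearMap i.injective
  exact ⟨⟩
theorem Fx_anti {W W' : Subgroup (Aut E)} (h : W' ≤ W) : Fx W ≤ Fx W' :=
  fun _ hz g hg => hz g (h hg)

omit [Nice E] in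
theorem Top1_maps {W : Subgroup (Aut E)} {g : Aut E}
    (hg : g ∈ Subgroup.normalizer (W : Set (Aut E))) {z : E} (hz : z ∈ Fx W) : g z ∈ Fx W := by
  intro w hw
  have h1 : g⁻¹ * w * g ∈ W := (Subgroup.mem_normalizer_iff''.1 hg w).1 hw
  have h2 := congrArg g (hz _ h1)
  rwa [← AlgEquiv.mul_apply g (g⁻¹ * w * g), ← mul_assoc, ← mul_assoc, mul_inv_cancel,
    one_mul, AlgEquiv.mul_apply] at h2

theorem res_apply {W : Subgroup (Aut E)} {g : Aut E} (hg : g ∈ Subgroup.normalizer (W : Set (Aut E)))
    (z : Fx W) : (res W g z : E) = g z := by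
  have hg' := (Subgroup.normalizer (W : Set (Aut E))).inv_mem hg
  have hex : ∃ γ : Aut (Fx W), ∀ z : Fx W, (γ z : E) = g z := by
    let e : Fx W ≃+* Fx W :=
      { toFun := fun z => ⟨g z, Top1_maps hg z.2⟩
        invFun := fun z => ⟨g⁻¹ z, Top1_maps hg' z.2⟩
        left_inv := fun z => Subtype.ext (g.symm_apply_apply z)
        right_inv := fun z => Subtype.ext (g.apply_symm_apply z)
        map_mul' := fun x y => Subtype.ext (map_mul g (x : E) y)
        map_add' := fun x y => Subtype.ext (map_add g (x : E) y) }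
    exact ⟨AlgEquiv.ofRingEquiv (f := e) fun q => by simp, fun z => rfl⟩
  rw [res, dif_pos hex]
  exact hex.choose_spec z

omit [Nice E] in
theorem Top1_nrm {W : Subgroup (Aut E)} (hW : W.Normal) (g : Aut E) :
    g ∈ Subgroup.normalizer (W : Set (Aut E)) := by
  rw [Subgroup.normalizer_eq_top]
  trivial

theorem res_apply' {W : Subgroup (Aut E)} (hW : W.Normal) (g : Aut E) (z : Fx W) :
    (res W g z : E) = g z := res_apply (Top1_nrm hW g) z
theorem res_mul {W : Subgroup (Aut E)} {g h : Aut E} (hg : g ∈ Subgroup.normalizer (W : Set (Aut E)))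
    (hh : h ∈ Subgroup.normalizer (W : Set (Aut E))) : res W (g * h) = res W g * res W h := by
  ext z
  rw [res_apply (Subgroup.mul_mem _ hg hh), AlgEquiv.mul_apply, AlgEquiv.mul_apply, res_apply hg,
    res_apply hh]
theorem exists_resHom {W : Subgroup (Aut E)} (hW : W.Normal) :
    ∃ ρ : Aut E →* Aut (Fx W), ∀ g, ρ g = res W g :=
  ⟨MonoidHom.mk' (res W) fun g h => res_mul (Top1_nrm hW g) (Top1_nrm hW h), fun _ => rfl⟩
theorem exists_level (s : Finset E) : ∃ W : Subgroup (Aut E), IsOpen (W : Set (Aut E)) ∧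
    W.Normal ∧ ∀ z ∈ s, z ∈ Fx W :=
  ⟨(stab (s : Set E)).normalCore, isOpen_normalCore (isOpen_stab s.finite_toSet), inferInstance,
    fun z hz _ hg => Subgroup.normalCore_le _ hg z hz⟩
/-- Galois correspondence for closed subgroups: at the level of an open normal `W` use
`IntermediateField.fixingSubgroup_fixedField` for the image of `H` in `Aut (Fx W)` -/
theorem mem_of_fix {H : Subgroup (Aut E)} (hH : IsClosed (H : Set (Aut E))) {g : Aut E}
    (h : ∀ z ∈ Fx H, g z = z) : g ∈ H := by
  refine mem_of_approx (C := (H : Set (Aut E))) hH fun W hW _ => ?_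
  obtain ⟨s, hs⟩ := isOpen_iff.1 hW
  obtain ⟨W', hW', hn, hsW⟩ := exists_level s
  have := numberField_Fx hW'
  obtain ⟨ρ, hρ⟩ := exists_resHom hn
  have h1 : ρ g ∈ H.map ρ := by
    rw [← IntermediateField.fixingSubgroup_fixedField (H.map ρ),
      IntermediateField.mem_fixingSubgroup_iff]
    intro z hz
    rw [IntermediateField.mem_fixedField_iff] at hz
    apply Subtype.ext
    rw [hρ, res_apply' hn]
    refine h _ fun x hx => ?_
    rw [← res_apply' hn x z, ← hρ, hz _ ⟨x, hx, rfl⟩]
  obtain ⟨x, hx, hxg⟩ := h1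
  refine ⟨x, hx, hs fun z hz => ?_⟩
  have h2 : ρ (x⁻¹ * g) = 1 := by rw [map_mul, map_inv, hxg, inv_mul_cancel]
  have h3 := res_apply' hn (x⁻¹ * g) ⟨z, hsW z hz⟩
  rw [← hρ, h2] at h3
  exact h3.symm
theorem res_eq_one_iff {W : Subgroup (Aut E)} (h : IsOpen (W : Set (Aut E))) {g : Aut E}
    (hg : g ∈ Subgroup.normalizer (W : Set (Aut E))) : res W g = 1 ↔ g ∈ W := by
  constructor
  · intro h1
    refine mem_of_fix (W.isClosed_of_isOpen h) fun z hz => ?_
    have h3 := res_apply hg ⟨z, hz⟩
    rw [h1] at h3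
    exact h3.symm
  · intro h1
    ext z
    rw [res_apply hg]
    exact z.2 g h1

end Uc
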