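import Vale.Agent.P024.Kum
import Vale.Agent.P024.Top1

/-! Roots of unity, Kummer cocycles, Hilbert 90, pro-`l` elements. -/

noncomputable section
namespace Uc
open scoped Classical
variable {E : Type} [Field E] [CharZero E] [Nice E] {n : ℕ}

/-- the character of the fixed field given by an automorphism -/
def Top2_ch (W : Subgroup (Aut E)) (t : Aut E) : Fx W →* E where
  toFun c := t c
  map_one' := map_one t
  map_mul' a b := map_mul t (a : E) b

/-- Hilbert 90. Shrink `W'` to an open normal subgroup `N`; `f` is constant on cosets and takes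
values in `Fx N`; by independence of characters (`linearIndependent_monoidHom`, `mem_of_fix`) some
`c` in `Fx N` has `b = ∑ f t * t c ≠ 0` over a transversal; then `f g * g b = b`. -/
theorem hilbert90 {W W' : Subgroup (Aut E)} (h' : IsOpen (W' : Set (Aut E))) (hle : W' ≤ W)
    (f : Aut E → E) (h0 : ∀ g ∈ W, f g ≠ 0) (hc : ∀ g ∈ W, ∀ h ∈ W, f (g * h) = f g * g (f h))
    (h1 : ∀ g ∈ W', f g = 1) : ∃ z : E, z ≠ 0 ∧ ∀ g ∈ W, g z = f g * z := by
  obtain ⟨T, t1, t2, t3⟩ := exists_transversal (W := W) h'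
  have hex : ∃ c : Fx W', ∑ t ∈ T, f t * t c ≠ 0 := by
    by_contra hne
    push Not at hne
    have hinj : Function.Injective fun t : T => Top2_ch W' t.1 := by
      intro t t' e
      refine Subtype.ext (t3 t t.2 t' t'.2 (mem_of_fix (W'.isClosed_of_isOpen h') fun z hz => ?_))
      have e1 : t.1 z = t'.1 z := DFunLike.congr_fun e ⟨z, hz⟩
      rw [AlgEquiv.mul_apply, ← e1]
      exact t.1.symm_apply_apply z
    have hli := (linearIndependent_monoidHom (Fx W') E).comp _ hinj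
    obtain ⟨t0, ht0, -⟩ := t2 1 W.one_mem
    refine h0 t0 (t1 t0 ht0) (Fintype.linearIndependent_iff.1 hli (fun t => f t.1) ?_ ⟨t0, ht0⟩)
    funext c
    rw [Finset.sum_apply, Pi.zero_apply, ← hne c, ← Finset.sum_coe_sort T]
    rfl
  obtain ⟨c, hb⟩ := hex
  refine ⟨(∑ t ∈ T, f t * t c)⁻¹, inv_ne_zero hb, fun g hg => ?_⟩
  have key := transversal_sum hle t1 t2 t3 (fun t => f t * t c) (fun g hg x hx => by
    rw [hc g hg x (hle hx), h1 x hx, map_one, mul_one, AlgEquiv.mul_apply, c.2 x hx]) hg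
  have e : f g * g (∑ t ∈ T, f t * t c) = ∑ t ∈ T, f t * t c := by
    conv_rhs => rw [← key]
    rw [map_sum, Finset.mul_sum]
    refine Finset.sum_congr rfl fun t ht => ?_
    rw [hc g hg t (t1 t ht), map_mul, AlgEquiv.mul_apply, mul_assoc]
  rw [map_inv₀]
  conv_rhs => rw [← e]
  rw [mul_inv, ← mul_assoc, mul_inv_cancel₀ (h0 g hg), one_mul]

omit [Nice E] in
theorem Top2_stab {g : Aut E} {z : E} : g ∈ stab {z} ↔ g z = z := by
  simp [mem_stab]

theorem Top2_cop {G : Type} [Group G] {S : Subgroup G} {g : G} {a b : ℕ} (h : a.Coprime b)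
    (ha : g ^ a ∈ S) (hb : g ^ b ∈ S) : g ∈ S := by
  have e := Nat.gcd_eq_gcd_ab a b
  rw [h.gcd_eq_one, Nat.cast_one] at e
  have := S.mul_mem (S.zpow_mem ha (a.gcdA b)) (S.zpow_mem hb (a.gcdB b))
  rwa [← zpow_natCast, ← zpow_natCast, ← zpow_mul, ← zpow_mul, ← zpow_add, ← e, zpow_one] at this

theorem ProL.one (l : ℕ) : ProL l (1 : Aut E) := fun z => ⟨0, by simp⟩
theorem ProL.pow {l : ℕ} {τ : Aut E} (h : ProL l τ) (k : ℕ) : ProL l (τ ^ k) := fun z => by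
  obtain ⟨m, hm⟩ := h z
  refine ⟨m, ?_⟩
  rw [← pow_mul, mul_comm, pow_mul]
  exact Top2_stab.1 (pow_mem (Top2_stab.2 hm) k)
theorem ProL.conj {l : ℕ} {τ : Aut E} (h : ProL l τ) (t : Aut E) : ProL l (t * τ * t⁻¹) :=
  fun z => by
    obtain ⟨m, hm⟩ := h (t⁻¹ z)
    refine ⟨m, ?_⟩
    rw [conj_pow, AlgEquiv.mul_apply, AlgEquiv.mul_apply, hm]
    exact t.apply_symm_apply z
theorem proL_iff {l : ℕ} {τ : Aut E} : ProL l τ ↔
    ∀ W : Subgroup (Aut E), IsOpen (W : Set (Aut E)) → ∃ k : ℕ, τ ^ l ^ k ∈ W := by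
  constructor
  · intro h W hW
    obtain ⟨s, hs⟩ := isOpen_iff.1 hW
    choose m hm using h
    refine ⟨s.sup m, hs fun z hz => ?_⟩
    obtain ⟨j, hj⟩ := Nat.exists_eq_add_of_le (Finset.le_sup (f := m) hz)
    rw [hj, pow_add, pow_mul]
    exact Top2_stab.1 (pow_mem (Top2_stab.2 (hm z)) _)
  · intro h z
    obtain ⟨k, hk⟩ := h (stab {z}) (isOpen_stab (Set.finite_singleton z))
    exact ⟨k, Top2_stab.1 hk⟩
theorem ProL.fix_of_pow {l q : ℕ} (hl : l.Prime) (hq : ¬ l ∣ q) {τ : Aut E} (h : ProL l τ) {z : E}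
    (hz : (τ ^ q) z = z) : τ z = z := by
  obtain ⟨m, hm⟩ := h z
  exact Top2_stab.1 (Top2_cop ((hl.coprime_iff_not_dvd.2 hq).pow_left m) (Top2_stab.2 hm)
    (Top2_stab.2 hz))
theorem ProL.pow_ne_one {l q : ℕ} (hl : l.Prime) (hq : ¬ l ∣ q) {τ : Aut E} (h : ProL l τ)
    (h1 : τ ≠ 1) : τ ^ q ≠ 1 := fun e =>
  h1 (AlgEquiv.ext fun z => h.fix_of_pow hl hq (by rw [e]; rfl))
theorem ProL.mem_Fm {l : ℕ} (hl : l.Prime) {τ : Aut E} (h : ProL l τ) : τ ∈ Fm E l := by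
  have := Fact.mk hl
  have h1 : τ ^ (l - 1) ∈ Fm E l := by
    rw [mem_Fm_iff hl.ne_zero, map_pow, ZMod.units_pow_card_sub_one_eq_one]
  have h2 := hl.two_le
  exact fun ζ hζ => h.fix_of_pow hl (Nat.not_dvd_of_pos_of_lt (by omega) (by omega)) (h1 ζ hζ)

/-- exponents that project onto the `l`-part modulo `n` -/
def Top2_P (l n m : ℕ) : Prop :=
  (∀ a, l ^ a ∣ n → m ≡ 1 [MOD l ^ a]) ∧ ∀ b, b ∣ n → ¬ l ∣ b → b ∣ m

theorem Top2_ex {l n : ℕ} (hl : l.Prime) (hn : n ≠ 0) (T : ℕ) :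
    ∃ m, m ≡ 1 [MOD l ^ T] ∧ Top2_P l n m := by
  obtain ⟨a, b, hb, rfl⟩ := Nat.exists_eq_pow_mul_and_not_dvd hn l hl.ne_one
  have hc := hl.coprime_iff_not_dvd.2 hb
  obtain ⟨m, h1, h2⟩ := Nat.chineseRemainder (hc.pow_left (a + T)) 1 0
  refine ⟨m, h1.of_dvd (pow_dvd_pow l (by omega)), fun a' ha' => ?_, fun b' hb' h => ?_⟩
  · exact h1.of_dvd (((hc.pow_left a').dvd_of_dvd_mul_right ha').trans (pow_dvd_pow l (by omega)))
  · exact (((hl.coprime_iff_not_dvd.2 h).pow_left a).symm.dvd_of_dvd_mul_left hb').trans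
      (Nat.modEq_zero_iff_dvd.1 h2)

theorem Top2_uniq {l n m m' : ℕ} (hl : l.Prime) (hn : n ≠ 0) (h : Top2_P l n m)
    (h' : Top2_P l n m') : m ≡ m' [MOD n] := by
  obtain ⟨a, b, hb, rfl⟩ := Nat.exists_eq_pow_mul_and_not_dvd hn l hl.ne_one
  refine (Nat.modEq_and_modEq_iff_modEq_mul ((hl.coprime_iff_not_dvd.2 hb).pow_left a)).1
    ⟨(h.1 a (dvd_mul_right _ _)).trans (h'.1 a (dvd_mul_right _ _)).symm, ?_⟩
  exact (Nat.modEq_zero_iff_dvd.2 (h.2 b (dvd_mul_left _ _) hb)).trans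
    (Nat.modEq_zero_iff_dvd.2 (h'.2 b (dvd_mul_left _ _) hb)).symm

theorem Top2_dvd {l n m : ℕ} (hl : l.Prime) (hn : n ≠ 0) (h : Top2_P l n m) :
    ∃ a, n ∣ m * l ^ a := by
  obtain ⟨a, b, hb, rfl⟩ := Nat.exists_eq_pow_mul_and_not_dvd hn l hl.ne_one
  exact ⟨a, by rw [mul_comm]; exact mul_dvd_mul_right (h.2 b (dvd_mul_left _ _) hb) _⟩

theorem Top2_closed {W : Subgroup (Aut E)} (hW : IsOpen (W : Set (Aut E))) {C : Set (Aut E)}
    (h : ∀ x ∈ C, ∀ w ∈ W, x * w ∈ C) : IsClosed C := by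
  rw [← isOpen_compl_iff, isOpen_iff_forall_mem_open]
  intro x hx
  refine ⟨(fun y => x⁻¹ * y) ⁻¹' (W : Set (Aut E)), fun y hy hyC => hx ?_,
    hW.preimage (continuous_const.mul continuous_id), by simp⟩
  have := h y hyC _ (W.inv_mem hy)
  simpa using this

/-- The `l`-part of an element. Use `exists_of_levels`: for an open normal `W` of index
`l ^ a * b` take the closed set of `τ` that are congruent modulo `W` to `g ^ m` for all `m` with
`m ≡ 1` modulo `l ^ a` and `b ∣ m` (equivalently `τ⁻¹ * g ^ m ∈ W` for one such `m`). -/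
theorem exists_lpart {l : ℕ} (hl : l.Prime) (g : Aut E) : ∃ τ : Aut E, ProL l τ ∧
    ∀ W : Subgroup (Aut E), IsOpen (W : Set (Aut E)) → ∀ T : ℕ,
      ∃ m : ℕ, m ≡ 1 [MOD l ^ T] ∧ (g ^ m)⁻¹ * τ ∈ W := by
  obtain ⟨τ, hτ⟩ := exists_of_levels
    (fun W : Subgroup (Aut E) => {τ | ∃ m, Top2_P l W.index m ∧ (g ^ m)⁻¹ * τ ∈ W})
    (fun W hW _ => Top2_closed hW fun x ⟨m, h1, h2⟩ w hw =>
      ⟨m, h1, by rw [← mul_assoc]; exact W.mul_mem h2 hw⟩)
    (fun W hW _ => by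
      obtain ⟨m, -, hm⟩ := Top2_ex hl (index_ne_zero hW) 0
      exact ⟨g ^ m, m, hm, by simp⟩)
    (fun W W' _ _ _ _ hle x ⟨m, h1, h2⟩ =>
      ⟨m, ⟨fun a ha => h1.1 a (ha.trans (Subgroup.index_dvd_of_le hle)),
        fun b hb => h1.2 b (hb.trans (Subgroup.index_dvd_of_le hle))⟩, hle h2⟩)
  have hq : ∀ W : Subgroup (Aut E), ∀ _ : W.Normal,
      (QuotientGroup.mk' W g) ^ W.index = 1 := fun W _ => by
    rw [← map_pow]
    exact (QuotientGroup.eq_one_iff _).2 (Subgroup.pow_index_mem W g)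
  refine ⟨τ, proL_iff.2 fun W hW => ?_, fun W hW T => ?_⟩
  · have hW' := isOpen_normalCore hW
    obtain ⟨m, h1, h2⟩ := hτ _ hW' inferInstance
    obtain ⟨a, c, hc⟩ := Top2_dvd hl (index_ne_zero hW') h1
    refine ⟨a, W.normalCore_le ((QuotientGroup.eq_one_iff _).1 ?_)⟩
    have e : QuotientGroup.mk' W.normalCore (g ^ m) = QuotientGroup.mk' W.normalCore τ :=
      QuotientGroup.eq.2 h2
    show QuotientGroup.mk' W.normalCore (τ ^ l ^ a) = 1
    rw [map_pow, ← e, map_pow, ← pow_mul, hc, pow_mul, hq, one_pow]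
  · have hW' := isOpen_normalCore hW
    obtain ⟨m, h1, h2⟩ := hτ _ hW' inferInstance
    obtain ⟨m', h3, h4⟩ := Top2_ex hl (index_ne_zero hW') T
    refine ⟨m', h3, W.normalCore_le (QuotientGroup.eq.1 ?_)⟩
    have e : QuotientGroup.mk' W.normalCore (g ^ m) = QuotientGroup.mk' W.normalCore τ :=
      QuotientGroup.eq.2 h2
    show QuotientGroup.mk' W.normalCore (g ^ m') = QuotientGroup.mk' W.normalCore τ
    rw [← e, map_pow, map_pow]
    exact pow_eq_pow_of_modEq (Top2_uniq hl (index_ne_zero hW') h4 h1) (hq _ _)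
/-- lifting the exponent -/
theorem lte {l : ℕ} (hl : l.Prime) (h2 : l ≠ 2) {u : ℤ} {h b T : ℕ} (h1 : (l : ℤ) ∣ u - 1)
    (hb : ¬ l ^ (b + 1) ∣ h) (hT : (l : ℤ) ^ (T + b) ∣ u ^ h - 1) : (l : ℤ) ^ T ∣ u - 1 := by
  have hu : ¬ (l : ℤ) ∣ u := fun hd => by
    have h3 : (l : ℤ) ∣ 1 := by simpa using dvd_sub hd h1
    exact hl.ne_one (by exact_mod_cast Int.eq_one_of_dvd_one (Nat.cast_nonneg l) h3)
  have e := Int.emultiplicity_pow_sub_pow hl (hl.odd_of_ne_two h2) h1 hu h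
  rw [one_pow] at e
  rw [pow_dvd_iff_le_emultiplicity] at hT ⊢
  rw [pow_dvd_iff_le_emultiplicity, not_le, Nat.cast_add, Nat.cast_one,
    ENat.lt_add_one_iff (ENat.coe_ne_top b)] at hb
  rw [e, Nat.cast_add] at hT
  exact (ENat.add_le_add_iff_right (ENat.coe_ne_top b)).1 (hT.trans (add_le_add le_rfl hb))

end Uc
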