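import Vale.Agent.P024.Val2
import Vale.Agent.P024.Top2

/-! Decomposition theory for the infinite extension. -/

noncomputable section
namespace Uc
open scoped Classical
variable {E : Type} [Field E] [CharZero E] [Nice E]

/-- compactness: `H ⊓ A.I` is the decreasing intersection of the `H ⊓ A.D ⊓ Fm N` -/
theorem iz {H : Subgroup (Aut E)} (hH : IsClosed (H : Set (Aut E))) (A : Pr E) {O : Set (Aut E)}
    (hO : IsOpen O) (h : ∀ g ∈ H, g ∈ A.I → g ∈ O) :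
    ∃ N : ℕ, ¬ A.p ∣ N ∧ ∀ g ∈ H, g ∈ A.D → g ∈ Fm E N → g ∈ O := by
  by_contra hc
  push Not at hc
  let C : {N : ℕ // ¬ A.p ∣ N} → Set (Aut E) := fun N =>
    (H : Set (Aut E)) ∩ (A.D : Set (Aut E)) ∩ (Fm E N.1 : Set (Aut E)) ∩ Oᶜ
  have hcl : ∀ N, IsClosed (C N) := fun N =>
    ((hH.inter (isClosed_D A)).inter (isClosed_stab _)).inter hO.isClosed_compl
  have : Nonempty {N : ℕ // ¬ A.p ∣ N} := ⟨⟨1, A.prime.not_dvd_one⟩⟩
  obtain ⟨g, hg⟩ := IsCompact.nonempty_iInter_of_directed_nonempty_isCompact_isClosed C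
    (fun N N' => ⟨⟨N.1 * N'.1, fun e => (A.prime.dvd_mul.1 e).elim N.2 N'.2⟩,
      fun _ hx => ⟨⟨hx.1.1, Fm_anti (dvd_mul_right _ _) hx.1.2⟩, hx.2⟩,
      fun _ hx => ⟨⟨hx.1.1, Fm_anti (dvd_mul_left _ _) hx.1.2⟩, hx.2⟩⟩)
    (fun N => by
      obtain ⟨g, h1, h2, h3, h4⟩ := hc N.1 N.2
      exact ⟨g, ⟨⟨h1, h2⟩, h3⟩, h4⟩)
    (fun N => (hcl N).isCompact) hcl
  rw [Set.mem_iInter] at hg
  have h1 := hg ⟨1, A.prime.not_dvd_one⟩
  exact h1.2 (h g h1.1.1.1 (Pr.mem_I_of_Fm h1.1.1.2 fun N hN => (hg ⟨N, hN⟩).1.2))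

/-- `iz` for the open set `A.I * W`, and `Pr.exists_acts_pow` -/
theorem df {A : Pr E} {φ g : Aut E} (hφ : A.IsFrob A.p φ) (hg : g ∈ A.D) {W : Subgroup (Aut E)}
    (hW : IsOpen (W : Set (Aut E))) : ∃ a : ℕ, ∃ i ∈ A.I, ∃ x ∈ W, g = φ ^ a * i * x := by
  have hO : IsOpen (⋃ i ∈ A.I, (fun y => i⁻¹ * y) ⁻¹' (W : Set (Aut E))) :=
    isOpen_biUnion fun i _ => hW.preimage (continuous_const_mul _)
  obtain ⟨N, hN, h⟩ := iz (H := ⊤) isClosed_univ A hO fun i _ hi =>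
    Set.mem_biUnion hi (by simp)
  obtain ⟨a, ha⟩ := Pr.exists_acts_pow hg hN
  have h1 := (hφ.pow a).acts hN
  have h2 := h ((φ ^ a)⁻¹ * g) (Subgroup.mem_top _)
    (mul_mem (inv_mem (Pr.mem_D.2 (hφ.pow a).1)) hg) (mem_Fm.2 fun ζ hζ => by
      rw [AlgEquiv.mul_apply, ha ζ hζ, ← h1 ζ hζ]
      exact (φ ^ a).symm_apply_apply ζ)
  obtain ⟨i, hi, h3⟩ := Set.mem_iUnion₂.1 h2
  exact ⟨a, i, hi, _, h3, by group⟩

theorem Dec2_orbit (y : E) : (Set.range fun g : Aut E => g y - y).Finite := by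
  have hz : IsIntegral ℚ y := Algebra.IsIntegral.isIntegral y
  refine ((Polynomial.rootSet_finite (minpoly ℚ y) E).image fun u => u - y).subset ?_
  rintro _ ⟨g, rfl⟩
  refine ⟨g y, ?_, rfl⟩
  rw [Polynomial.mem_rootSet]
  exact ⟨minpoly.ne_zero hz, by rw [Polynomial.aeval_algHom_apply, minpoly.aeval, map_zero]⟩

/-- `W` contains the stabilizer of finitely many integers; look at the differences of their
conjugates (`Pr.finite_w`) -/
theorem ur {W : Subgroup (Aut E)} (hW : IsOpen (W : Set (Aut E))) :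
    {p : ℕ | ∃ A : Pr E, A.p = p ∧ ¬ A.I ≤ W}.Finite := by
  obtain ⟨s, hs⟩ := isOpen_iff.1 hW
  choose n hn hi using fun z : E => Pr.exists_nat_mul_isIntegral z
  refine (s.finite_toSet.biUnion fun z _ =>
    (Dec2_orbit ((n z : E) * z)).biUnion fun d _ => Pr.finite_w d).subset ?_
  rintro p ⟨A, rfl, hA⟩
  by_contra hc
  refine hA fun g hg => hs fun z hz => ?_
  have h1 := (Pr.mem_I.1 hg).2 _ (Pr.In.of_isIntegral A (hi z))
  have h2 : g ((n z : E) * z) - (n z : E) * z = 0 := by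
    refine h1.resolve_right fun h3 => hc ?_
    exact Set.mem_biUnion hz (Set.mem_biUnion (Set.mem_range_self g) ⟨A, rfl, h3.ne'⟩)
  rw [map_mul, map_natCast, ← mul_sub] at h2
  exact sub_eq_zero.1 ((mul_eq_zero.1 h2).resolve_left (Nat.cast_ne_zero.2 (hn z)))

end Uc
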