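import Vale.Agent.P024.Dec
import Vale.Agent.P024.Dec2

/-! Value groups do not grow in unramified extensions. -/

noncomputable section
namespace Uc
open scoped Classical
variable {E : Type} [Field E] [CharZero E] [Nice E]

/-- Step 1. Let `D = W ⊓ A.D`; by `iz` some `D ⊓ Fm N` fixes `z`. Representatives `t` of
`D / (D ⊓ Fm N)` (`exists_transversal`) give different homomorphisms from the `N`-th roots of
unity to the residue field, so by `linearIndependent_monoidHom` some root of unity `ζ` has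
`∑ rs (t z / z) * rs (t ζ) ≠ 0`; take `c = ∑ t (z ζ)` (`transversal_sum`). -/
theorem vd1 {W : Subgroup (Aut E)} (hW : IsOpen (W : Set (Aut E))) (A : Pr E) {z : E} (hz : z ≠ 0)
    (h : ∀ g ∈ W, g ∈ A.I → g z = z) :
    ∃ c, c ≠ 0 ∧ A.w c = A.w z ∧ ∀ g ∈ W, g ∈ A.D → g c = c := by
  obtain ⟨N, hN, h1⟩ := iz (W.isClosed_of_isOpen hW) A (Top0_eval z (· = z)) h
  have hN0 : N ≠ 0 := fun h0 => hN (h0 ▸ dvd_zero _)
  obtain ⟨T, t1, t2, t3⟩ := exists_transversal (W := W ⊓ A.D) (isOpen_Fm (E := E) hN0)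
  have hin : ∀ (t : Aut E) (ζ : E), ζ ^ N = 1 → (t ζ) ^ N = 1 ∧ A.In (t ζ) := fun t ζ hζ => by
    have : (t ζ) ^ N = 1 := by rw [← map_pow, hζ, map_one]
    exact ⟨this, (Pr.w_root hN0 this).ge⟩
  let χ : Aut E → (MonoidHom.mker (powMonoidHom N : E →* E) →* A.kk) := fun t =>
    { toFun := fun ζ => A.rs (t ζ)
      map_one' := by rw [OneMemClass.coe_one, map_one, Pr.rs_one]
      map_mul' := fun a b => by
        rw [MulMemClass.coe_mul, map_mul, Pr.rs_mul (hin t a a.2).2 (hin t b b.2).2] }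
  have hinj : Function.Injective fun t : T => χ t := fun t t' htt =>
    Subtype.ext (t3 _ t.2 _ t'.2 fun ζ hζ => by
      have h2 : A.rs (t.1 ζ) = A.rs (t'.1 ζ) := DFunLike.congr_fun htt ⟨ζ, hζ⟩
      rw [Pr.rs_eq_iff (hin _ ζ hζ).2 (hin _ ζ hζ).2] at h2
      rw [AlgEquiv.mul_apply, ← Pr.root_eq_of_sm hN (hin _ ζ hζ).1 (hin _ ζ hζ).1 h2]
      exact t.1.symm_apply_apply ζ)
  have hw : ∀ t ∈ T, t z / z ≠ 0 ∧ A.w (t z / z) = 0 := fun t ht => by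
    have h2 : t z ≠ 0 := (map_ne_zero t).2 hz
    exact ⟨div_ne_zero h2 hz, by rw [A.w_div h2 hz, Pr.mem_D_iff_w.1 (t1 t ht).2, sub_self]⟩
  obtain ⟨ζ, hζ, h2⟩ : ∃ ζ : E, ζ ^ N = 1 ∧ ∑ t ∈ T, A.rs (t z / z) * A.rs (t ζ) ≠ 0 := by
    by_contra hc
    push Not at hc
    obtain ⟨t, ht, -⟩ := t2 1 (Subgroup.one_mem _)
    have h3 := Fintype.linearIndependent_iff.1 ((linearIndependent_monoidHom _ A.kk).comp _ hinj)
      (fun t : T => A.rs (t.1 z / z)) (funext fun ζ => by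
        rw [Finset.sum_apply, Pi.zero_apply, ← hc ζ ζ.2, ← Finset.sum_coe_sort T]
        rfl) ⟨t, ht⟩
    exact (Pr.not_sm_iff (hw t ht).2.ge).2 (hw t ht) ((Pr.rs_eq_zero_iff (hw t ht).2.ge).1 h3)
  have h3 : ∀ t ∈ T, A.In (t z / z * t ζ) := fun t ht =>
    Pr.In.mul (hw t ht).2.ge (hin t ζ hζ).2
  rw [← Finset.sum_congr rfl fun t ht => Pr.rs_mul (hw t ht).2.ge (hin t ζ hζ).2,
    ← Pr.rs_sum _ _ h3, Ne, Pr.rs_eq_zero_iff (Pr.In.sum _ _ h3),
    Pr.not_sm_iff (Pr.In.sum _ _ h3)] at h2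
  have e : ∑ t ∈ T, t (z * ζ) = z * ∑ t ∈ T, t z / z * t ζ := by
    rw [Finset.mul_sum]
    refine Finset.sum_congr rfl fun t _ => ?_
    rw [map_mul, ← mul_assoc, mul_div_cancel₀ _ hz]
  refine ⟨∑ t ∈ T, t (z * ζ), by rw [e]; exact mul_ne_zero hz h2.1,
    by rw [e, A.w_mul _ _ hz h2.1, h2.2, add_zero], fun g hg hg' => ?_⟩
  rw [map_sum]
  refine transversal_sum (W := W ⊓ A.D) (W' := (W ⊓ A.D) ⊓ Fm E N) inf_le_left t1
    (fun g hg => ?_) (fun t ht t' ht' h => t3 t ht t' ht' h.2) (fun g => g (z * ζ))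
    (fun g _ x hx => ?_) ⟨hg, hg'⟩
  · obtain ⟨t, ht, h4⟩ := t2 g hg
    exact ⟨t, ht, Subgroup.mul_mem _ (Subgroup.inv_mem _ (t1 t ht)) hg, h4⟩
  · show g (x (z * ζ)) = _
    rw [map_mul x, h1 x hx.1.1 hx.1.2 hx.2, hx.2 ζ hζ]

/-- Step 2. Let `H` be the stabilizer of `c` in `W`. For `g ∈ W` outside `H` the primes `g⁻¹ • A`
and `A` differ on the number field `Fx H` (by `tr`). Approximate `c` at `A` and `0` at the others
by `c₂ ∈ Fx H` and sum over a transversal of `W / H`. -/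
theorem vd2 {W : Subgroup (Aut E)} (hW : IsOpen (W : Set (Aut E))) (A : Pr E) {c : E} (hc : c ≠ 0)
    (h : ∀ g ∈ W, g ∈ A.D → g c = c) : ∃ c' ∈ Fx W, c' ≠ 0 ∧ A.w c' = A.w c := by
  obtain ⟨H, hH, hm⟩ : ∃ H : Subgroup (Aut E), IsOpen (H : Set (Aut E)) ∧
      ∀ g, g ∈ H ↔ g ∈ W ∧ g c = c :=
    ⟨W ⊓ stab {c}, isOpen_inf hW (isOpen_stab (Set.finite_singleton c)), fun g => by
      simp [mem_stab]⟩
  have := numberField_Fx hH
  obtain ⟨T, t1, t2, t3⟩ := exists_transversal (W := W) hH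
  obtain ⟨t₀, ht₀, h0⟩ := t2 1 W.one_mem
  rw [mul_one, inv_mem_iff] at h0
  obtain ⟨x, hx, -⟩ := Pr.approx (insert (A.comap (Fx H).subtype)
    (T.image fun t => (t⁻¹ • A).comap (Fx H).subtype))
    (fun B => if B = A.comap (Fx H).subtype then ⟨c, fun g hg => ((hm g).1 hg).2⟩ else 0)
    fun _ => A.w c + 1
  have h1 : A.Ge (A.w c + 1) (t₀ x - c) := by
    have := hx _ (Finset.mem_insert_self _ _)
    rw [if_pos rfl, Pr.comap_ge] at this
    rwa [x.2 t₀ h0]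
  have h2 : ∀ t ∈ T.erase t₀, A.Ge (A.w c + 1) (t x) := fun t ht => by
    obtain ⟨ht1, ht2⟩ := Finset.mem_erase.1 ht
    have h3 := hx _ (Finset.mem_insert_of_mem (Finset.mem_image_of_mem _ ht2))
    rw [if_neg, sub_zero, Pr.comap_ge] at h3
    · exact h3.imp (fun h4 => by rw [show (x : E) = 0 from h4, map_zero]) id
    intro h4
    obtain ⟨g, hg, h5⟩ := tr (H.isClosed_of_isOpen hH) (A := t⁻¹ • A) (A' := A) fun z hz =>
      congrArg (fun B : Pr (Fx H) => B.w ⟨z, hz⟩) h4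
    rw [← mul_smul] at h5
    have h6 : g * t⁻¹ ∈ W := W.mul_mem ((hm g).1 hg).1 (W.inv_mem (t1 t ht2))
    have h7 := (H.mul_mem_cancel_left hg).1 ((hm _).2 ⟨h6, h _ h6 h5⟩)
    exact ht1 (t3 t ht2 t₀ ht₀ (H.mul_mem h7 h0))
  have h3 := Pr.w_add_eq (A := A) hc ((h1.add (Pr.Ge.sum _ _ h2)).imp id (lt_add_one _).trans_le)
  rw [← add_assoc, add_sub_cancel, Finset.add_sum_erase T (fun t => t (x : E)) ht₀] at h3
  refine ⟨_, fun g hg => ?_, h3⟩
  rw [map_sum]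
  exact transversal_sum (fun g hg => ((hm g).1 hg).1) t1 t2 t3 (fun g => g (x : E))
    (fun g _ y hy => congrArg g (x.2 y hy)) hg

theorem vd {W : Subgroup (Aut E)} (hW : IsOpen (W : Set (Aut E))) (A : Pr E) {z : E} (hz : z ≠ 0)
    (h : ∀ g ∈ W, g ∈ A.I → g z = z) : ∃ c ∈ Fx W, c ≠ 0 ∧ A.w c = A.w z := by
  obtain ⟨c, h0, h1, h2⟩ := vd1 hW A hz h
  obtain ⟨c', h3, h4, h5⟩ := vd2 hW A h0 h2
  exact ⟨c', h3, h4, h5.trans h1⟩

/-- If `W ⊓ A.I` fixed all `rt (l ^ k) p` then `vd` contradicts `val_disc`. Take the `l`-part of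
an element that moves one (it fixes the `l ^ k`-th roots of unity). -/
theorem ex {W : Subgroup (Aut E)} (hW : IsOpen (W : Set (Aut E))) (A : Pr E) {l : ℕ}
    (hl : l.Prime) (hp : A.p ≠ l) : ∃ τ ∈ W, τ ∈ A.I ∧ ProL l τ ∧
      ∃ (k : ℕ) (y : E), y ^ l ^ k = A.p ∧ τ y ≠ y := by
  obtain ⟨k, hk, h1⟩ := val_disc hW
  have hn : l ^ k ≠ 0 := pow_ne_zero _ hl.ne_zero
  obtain ⟨y, hy⟩ := Nice.root (l ^ k) (A.p : E) hn
  have hy0 : y ≠ 0 := fun h => A.p_ne_zero (by rw [← hy, h, zero_pow hn])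
  obtain ⟨g, hg, hgI, h2⟩ : ∃ g ∈ W, g ∈ A.I ∧ g y ≠ y := by
    by_contra hc
    push Not at hc
    obtain ⟨c, h2, -, h3⟩ := vd hW A hy0 hc
    obtain ⟨j, hj⟩ := h1 A c h2
    have h4 := A.w_pow y (l ^ k)
    rw [hy, A.w_p, ← h3, hj, ← mul_div_assoc, eq_div_iff (by exact_mod_cast hk.ne'), one_mul] at h4
    have h5 : (k : ℤ) = (l ^ k : ℕ) * j := by exact_mod_cast h4
    exact (Nat.lt_pow_self hl.one_lt).not_ge (Nat.le_of_dvd hk (Int.natCast_dvd_natCast.1 ⟨j, h5⟩))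
  obtain ⟨τ, hτ, h3⟩ := exists_lpart hl g
  refine ⟨τ, ?_, mem_of_approx (isClosed_I A) fun W' hW' _ => ?_, hτ, k, y, hy, ?_⟩
  · obtain ⟨m, -, hm⟩ := h3 W hW 0
    exact (W.mul_mem_cancel_left (W.inv_mem (W.pow_mem hg m))).1 hm
  · obtain ⟨m, -, hm⟩ := h3 W' hW' 0
    exact ⟨_, A.I.pow_mem hgI m, hm⟩
  obtain ⟨m, hm, h4⟩ := h3 _ (isOpen_stab (Set.finite_singleton y)) k
  have h5 : (g y / y) ^ l ^ k = 1 := by
    rw [div_pow, ← map_pow, hy, map_natCast, div_self A.p_ne_zero]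
  have h6 := Pr.mem_Fm_of_I hgI (n := l ^ k)
    (fun h => hp ((Nat.prime_dvd_prime_iff_eq A.prime hl).1 (A.prime.dvd_of_dvd_pow h))) _ h5
  have h7 : ∀ i : ℕ, (g ^ i) y = (g y / y) ^ i * y := fun i => by
    induction i with
    | zero => simp
    | succ i ih =>
      rw [pow_succ', AlgEquiv.mul_apply, ih, map_mul, map_pow, h6, pow_succ, mul_assoc,
        div_mul_cancel₀ _ hy0]
  have h8 : τ y = (g ^ m) y := by
    conv_rhs => rw [← h4 y rfl]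
    rw [← AlgEquiv.mul_apply, mul_inv_cancel_left]
  rwa [h8, h7, pow_eq_pow_of_modEq hm h5, pow_one, div_mul_cancel₀ _ hy0]

theorem exists_ne_one {W : Subgroup (Aut E)} (hW : IsOpen (W : Set (Aut E))) :
    ∃ g ∈ W, g ≠ 1 := by
  obtain ⟨A, hA⟩ := Pr.exists_above (E := E) Nat.prime_two
  obtain ⟨τ, h1, -, -, -, y, -, h2⟩ := ex hW A Nat.prime_three (by omega)
  exact ⟨τ, h1, fun h => h2 (h ▸ rfl)⟩

/-- For `l` outside `val_int`: the product of the `1 - g ζ` over the orbit of a primitive root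
lies in `Fx W` and has valuation `card / (l - 1)` at a prime above `l` (`Pr.w_one_sub`), so the
orbit, which is the image subgroup of `chi`, has `l - 1` elements. -/
theorem full {W : Subgroup (Aut E)} (hW : IsOpen (W : Set (Aut E))) :
    {l : ℕ | l.Prime ∧ ¬ Full W l}.Finite := by
  refine (val_int hW).subset fun l ⟨hl, hF⟩ => ?_
  obtain ⟨A, rfl⟩ := Pr.exists_above (E := E) hl
  have := Fact.mk hl
  obtain ⟨T, t1, t2, t3⟩ := exists_transversal (W := W) (isOpen_Fm (E := E) hl.ne_zero)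
  have hζ := zt_prim (E := E) hl.ne_zero
  have h1 : ∀ t : Aut E, IsPrimitiveRoot (t (zt E A.p)) A.p := fun t =>
    hζ.map_of_injective t.injective
  refine ⟨A, rfl, ∏ t ∈ T, (1 - t (zt E A.p)), fun g hg => ?_, fun k hk => hF fun c => ?_⟩
  · simp only [map_prod, map_sub, map_one]
    refine transversal_prod (W' := W ⊓ Fm E A.p) inf_le_left t1
      (fun g hg => ?_) (fun t ht t' ht' h => t3 t ht t' ht' h.2) (fun g => 1 - g (zt E A.p))
      (fun g _ x hx => ?_) hg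
    · obtain ⟨t, ht, h4⟩ := t2 g hg
      exact ⟨t, ht, W.mul_mem (W.inv_mem (t1 t ht)) hg, h4⟩
    · show 1 - g (x _) = _
      rw [hx.2 _ hζ.pow_eq_one]
  have h2 : (0 : ℚ) < A.p - 1 := sub_pos.2 (by exact_mod_cast hl.one_lt)
  rw [A.w_prod _ _ fun t _ => sub_ne_zero.2 ((h1 t).ne_one hl.one_lt).symm,
    Finset.sum_congr rfl fun t _ => A.w_one_sub (k := 0) (by simpa using h1 t),
    Finset.sum_const, nsmul_eq_mul, pow_zero, one_mul, mul_one_div, div_eq_iff h2.ne'] at hk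
  have h3 : (T.card : ℤ) = ((A.p - 1 : ℕ) : ℤ) * k := by
    rw [Nat.cast_pred hl.pos, mul_comm]
    exact_mod_cast hk
  obtain ⟨t, ht, -⟩ := t2 1 W.one_mem
  have h4 := Nat.le_of_dvd (Finset.card_pos.2 ⟨t, ht⟩) (Int.natCast_dvd_natCast.1 ⟨k, h3⟩)
  obtain ⟨g, hg, h5⟩ := Finset.surjOn_of_injOn_of_card_le (s := T) (t := Finset.univ)
    (chi E A.p) (fun _ _ => Finset.mem_coe.2 (Finset.mem_univ _))
    (fun t ht t' ht' h => t3 t ht t' ht' ((mem_Fm_iff hl.ne_zero).2 (by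
      rw [map_mul, map_inv, h, inv_mul_cancel])))
    (by rwa [Finset.card_univ, ZMod.card_units]) (Finset.mem_coe.2 (Finset.mem_univ c))
  exact ⟨g, t1 g hg, h5⟩

end Uc
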