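import Vale.Agent.P024.FD
import Vale.Agent.P024.IO
import Vale.Agent.P024.VD

/-! The choice of the auxiliary prime. -/

noncomputable section
namespace Uc
open scoped Classical
variable {Ω : Type} [Field Ω] [CharZero Ω] [Nice Ω] [IsAlgClosed Ω]

theorem CHL_Fm_mul {M N : ℕ} (hM : M ≠ 0) (hc : M.Coprime N) {g : Aut Ω}
    (h1 : g ∈ Fm Ω M) (h2 : g ∈ Fm Ω N) (hN : N ≠ 0) : g ∈ Fm Ω (M * N) := by
  rw [mem_Fm] at *
  intro ζ hζ
  have h0 : ζ ≠ 0 := by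
    rintro rfl
    rw [zero_pow (mul_ne_zero hM hN)] at hζ
    exact zero_ne_one hζ
  have a1 := h2 (ζ ^ M) (by rw [← pow_mul, hζ])
  have a2 := h1 (ζ ^ N) (by rw [← pow_mul, mul_comm, hζ])
  rw [map_pow] at a1 a2
  have b1 : (g ζ / ζ) ^ M = 1 := by rw [div_pow, a1, div_self (pow_ne_zero _ h0)]
  have b2 : (g ζ / ζ) ^ N = 1 := by rw [div_pow, a2, div_self (pow_ne_zero _ h0)]
  have := pow_gcd_eq_one.2 ⟨b1, b2⟩
  rw [hc.gcd_eq_one, pow_one, div_eq_one_iff_eq h0] at this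
  exact this

theorem CHL_w_nat (A : Pr Ω) (n : ℕ) : ∃ k : ℤ, A.w n = k := by
  rcases eq_or_ne n 0 with rfl | hn
  · exact ⟨0, by simp [A.w_zero]⟩
  obtain ⟨e, m, hm, rfl⟩ := Nat.exists_eq_pow_mul_and_not_dvd hn A.p A.prime.ne_one
  obtain ⟨h1, h2⟩ := Pr.w_natCast (A := A) hm
  refine ⟨e, ?_⟩
  rw [Nat.cast_mul, Nat.cast_pow, A.w_mul _ _ (pow_ne_zero _ A.p_ne_zero) h1, h2, A.w_pow, A.w_p]
  simp

theorem CHL_w_rat (A : Pr Ω) (x : ℚ) : ∃ k : ℤ, A.w x = k := by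
  rcases eq_or_ne x 0 with rfl | hx
  · exact ⟨0, by simp [A.w_zero]⟩
  obtain ⟨k1, h1⟩ := CHL_w_nat A x.num.natAbs
  obtain ⟨k2, h2⟩ := CHL_w_nat A x.den
  have h3 : A.w (x.num : Ω) = k1 := by
    rcases Int.natAbs_eq x.num with h | h
    · rw [h, Int.cast_natCast, h1]
    · rw [h, Int.cast_neg, A.w_neg, Int.cast_natCast, h1]
  refine ⟨k1 - k2, ?_⟩
  rw [Rat.cast_def, A.w_div (by exact_mod_cast Rat.num_ne_zero.2 hx)
    (by exact_mod_cast x.den_ne_zero), h3, h2]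
  push_cast
  rfl

theorem CHL_comb {n τ q : ℕ} (hτ : τ ≠ 0) (hd : τ ∣ n) (hq : q ≠ 0) {x y : Aut Ω}
    (hx : x ∈ Fm Ω n) (hy : y ∈ Fm Ω n) (a b : ℕ) :
    kc τ (q : Ω) (x ^ a * y ^ b) = a * kc τ (q : Ω) x + b * kc τ (q : Ω) y := by
  have h0 : (q : Ω) ≠ 0 := by exact_mod_cast hq
  rw [kc_mul_right hτ h0 (map_natCast _ q) (map_natCast _ q)
      (Subgroup.pow_mem _ (Fm_anti hd hx) a),
    kc_pow_right hτ h0 (map_natCast _ q) (Fm_anti hd hx),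
    kc_pow_right hτ h0 (map_natCast _ q) (Fm_anti hd hy)]

theorem CHL_ne {s t : ℕ} (hs : s.Prime) (ht : t.Prime) (h : s ≠ t) : (s : ZMod t) ≠ 0 := by
  rw [Ne, ZMod.natCast_eq_zero_iff]
  exact fun hd => h ((Nat.prime_dvd_prime_iff_eq ht hs).1 hd).symm

theorem CHL_prod_ne {t : ℕ} (ht : t.Prime) (T : Finset ℕ) (τ : ℕ → ℕ)
    (h : ∀ i ∈ T, (τ i).Prime ∧ τ i ≠ t) : ((∏ i ∈ T, τ i : ℕ) : ZMod t) ≠ 0 := by
  have := Fact.mk ht
  rw [Nat.cast_prod]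
  exact Finset.prod_ne_zero_iff.2 fun i hi => CHL_ne (h i hi).1 ht (h i hi).2

theorem CHL_all {n : ℕ} (τ : ℕ → ℕ) (hi : Function.Injective τ) (hp : ∀ i, (τ i).Prime)
    (y : ℕ → Aut Ω) (T : Finset ℕ) (hT : ∀ i ∈ T, τ i ∣ n ∧ y i ∈ Fm Ω n) :
    ∃ x ∈ Fm Ω n, ∀ i ∈ T, ∃ c : ZMod (τ i), c ≠ 0 ∧
      ∀ q : ℕ, q ≠ 0 → kc (τ i) (q : Ω) x = c * kc (τ i) (q : Ω) (y i) := by
  induction T using Finset.induction_on with
  | empty => exact ⟨1, Subgroup.one_mem _, by simp⟩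
  | insert i T hiT ih =>
    obtain ⟨x, hx, h⟩ := ih fun j hj => hT j (Finset.mem_insert_of_mem hj)
    obtain ⟨hd, hy⟩ := hT i (Finset.mem_insert_self _ _)
    refine ⟨x ^ τ i * y i ^ (∏ j ∈ T, τ j),
      Subgroup.mul_mem _ (Subgroup.pow_mem _ hx _) (Subgroup.pow_mem _ hy _), fun j hj => ?_⟩
    rcases Finset.mem_insert.1 hj with rfl | hj'
    · refine ⟨_, CHL_prod_ne (hp j) T τ fun k hk => ⟨hp k, fun e => hiT (hi e ▸ hk)⟩,
        fun q hq => ?_⟩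
      rw [CHL_comb (hp j).ne_zero hd hq hx hy, ZMod.natCast_self, zero_mul, zero_add]
    · obtain ⟨c, hc, h1⟩ := h j hj'
      have := Fact.mk (hp j)
      refine ⟨τ i * c, mul_ne_zero (CHL_ne (hp i) (hp j) fun e => hiT (hi e ▸ hj')) hc,
        fun q hq => ?_⟩
      rw [CHL_comb (hp j).ne_zero (hT j hj).1 hq hx hy, h1 q hq,
        (ZMod.natCast_eq_zero_iff _ _).2 (Finset.dvd_prod_of_mem τ hj'), zero_mul, add_zero,
        mul_assoc]

/-- Independence of prime numbers modulo `t`-th powers in `Fx (Fm (M * N))`. If `y ^ t = ∏ p ^ e p`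
then at a prime `A` above `p ∈ P` (so `p ∤ N`), `y` is fixed by `Fm M ⊓ A.I`, and `vd` puts `A.w y`
in the value group of `Fx (Fm M)`. -/
theorem chl_ki {M N t : ℕ} (hM : M ≠ 0) (hN : N ≠ 0) (hc : M.Coprime N) (ht : t.Prime)
    (htd : t ∣ M * N) (P : Finset ℕ) (hP : ∀ p ∈ P, p.Prime ∧ ¬ p ∣ N)
    (hv : ∀ A : Pr Ω, A.p ∈ P → ∃ D : ℕ, ¬ t ∣ D ∧ ∀ z ∈ Fx (Fm Ω M), ∃ k : ℤ, A.w z = k / D)
    (v : ℕ → ZMod t) : ∃ x ∈ Fm Ω (M * N), ∀ p ∈ P, kc t (p : Ω) x = v p := by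
  suffices hi : ∀ e : P → ℕ, (∃ y ∈ Fx (Fm Ω (M * N)), y ^ t = ∏ i : P, ((i.1 : ℕ) : Ω) ^ e i) →
      ∀ i, t ∣ e i by
    obtain ⟨x, hx, h⟩ := ki (W := Fm Ω (M * N)) ht (Fm_anti htd) (ι := P) (fun i => (i.1 : Ω))
      (fun i => by exact_mod_cast (hP i.1 i.2).1.ne_zero) (fun i g _ => map_natCast g i.1) hi
      (fun i => v i.1)
    exact ⟨x, hx, fun p hp => h ⟨p, hp⟩⟩
  rintro e ⟨y, hy, hye⟩ i
  have hne : ∀ j : P, ((j.1 : ℕ) : Ω) ≠ 0 := fun j => by exact_mod_cast (hP j.1 j.2).1.ne_zero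
  obtain ⟨A, hA⟩ := Pr.exists_above (E := Ω) (hP i.1 i.2).1
  have hy0 : y ≠ 0 := by
    rintro rfl
    rw [zero_pow ht.ne_zero] at hye
    exact Finset.prod_ne_zero_iff.2 (fun j _ => pow_ne_zero _ (hne j)) hye.symm
  obtain ⟨c, hc1, -, hc2⟩ := vd (isOpen_Fm hM) A hy0 fun g hg hg' =>
    hy g (CHL_Fm_mul hM hc hg (Pr.mem_Fm_of_I hg' (hA ▸ (hP i.1 i.2).2)) hN)
  obtain ⟨D, hD, hD'⟩ := hv A (hA ▸ i.2)
  obtain ⟨k, hk⟩ := hD' c hc1
  have h1 : (t : ℚ) * A.w y = e i := by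
    rw [← A.w_pow, hye, A.w_prod _ _ fun j _ => pow_ne_zero _ (hne j),
      Finset.sum_eq_single i]
    · rw [A.w_pow, ← hA, A.w_p, mul_one]
    · intro j _ hj
      rw [A.w_pow, Pr.w_prime (hP j.1 j.2).1 (by rw [hA]; exact fun h => hj (Subtype.ext h.symm)),
        mul_zero]
    · simp
  have hD0 : (D : ℚ) ≠ 0 := by
    rintro h
    exact hD (by rw [Nat.cast_eq_zero.1 h]; exact dvd_zero _)
  rw [← hc2, hk] at h1
  have h2 : (t : ℤ) * k = D * e i := by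
    have : (t : ℚ) * k = D * e i := by rw [← h1]; field_simp
    exact_mod_cast this
  have h3 : t ∣ D * e i := by
    rw [← Int.natCast_dvd_natCast]
    push_cast
    exact ⟨k, h2.symm⟩
  exact (ht.dvd_mul.1 h3).resolve_left hD

/-- a Frobenius element fixes a `t`-th root of `p` iff `p` is a `t`-th power residue -/
theorem kc_frob {A : Pr Ω} {φ : Aut Ω} (hφ : A.IsFrob A.p φ) {t p : ℕ} (ht : t.Prime)
    (hd : t ∣ A.p - 1) (hp : ¬ A.p ∣ p) :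
    kc t (p : Ω) φ = 0 ↔ (p : ZMod A.p) ^ ((A.p - 1) / t) = 1 := by
  have := Fact.mk A.prime
  have := A.charP
  have hl := A.prime.two_le
  have hlt : ¬ A.p ∣ t := fun h => by
    have h1 := Nat.le_of_dvd ht.pos h
    have h2 := Nat.le_of_dvd (by omega) hd
    omega
  obtain ⟨k, hk⟩ := hd
  have hk' : A.p = t * k + 1 := by omega
  have hFm : φ ∈ Fm Ω t := fun ζ hζ => by
    rw [hφ.acts hlt ζ hζ, hk', pow_succ, pow_mul, show ζ ^ t = 1 from hζ, one_pow, one_mul]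
  obtain ⟨hp0, hpw⟩ := Pr.w_natCast (A := A) hp
  have hρ : rt t (p : Ω) ^ t = p := rt_pow ht.ne_zero _
  set ρ := rt t (p : Ω) with hρd
  have hρ0 : ρ ≠ 0 := rt_ne_zero ht.ne_zero hp0
  have hρw : A.w ρ = 0 := by
    have := A.w_pow ρ t
    rw [hρ, hpw] at this
    exact (mul_eq_zero.1 this.symm).resolve_left (by exact_mod_cast ht.ne_zero)
  have hin : A.In ρ := hρw.ge
  have hrs : A.rs ρ ≠ 0 := by
    rw [Ne, Pr.rs_eq_zero_iff hin, Pr.not_sm_iff hin]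
    exact ⟨hρ0, hρw⟩
  have hfr : A.rs (φ ρ) = (p : A.kk) ^ k * A.rs ρ := by
    rw [(Pr.isFrob_iff.1 hφ).2 ρ hin, hk', pow_succ, pow_mul, ← Pr.rs_pow hin, hρ, A.rs_natCast]
  have hcast : (p : ZMod A.p) ^ k = 1 ↔ (p : A.kk) ^ k = 1 := by
    rw [← (ZMod.castHom (dvd_refl A.p) A.kk).injective.eq_iff, map_pow, map_natCast, map_one]
  rw [kc_eq_zero_iff ht.ne_zero hp0 (map_natCast _ p) hFm hρ, hk,
    Nat.mul_div_cancel_left _ ht.pos, hcast]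
  constructor
  · intro h
    rw [h] at hfr
    exact (mul_eq_right₀ hrs).1 hfr.symm
  · intro h
    rw [h, one_mul] at hfr
    have h1 := kc_root ht.ne_zero hp0 (map_natCast _ p) hFm hρ
    set u := zt Ω t ^ (kc t (p : Ω) φ).val with hu
    have hu1 : u ^ t = 1 := by
      rw [hu, ← pow_mul, mul_comm, pow_mul, (zt_prim ht.ne_zero).pow_eq_one, one_pow]
    have hui : A.In u := (Pr.w_root ht.ne_zero hu1).ge
    rw [h1, Pr.rs_mul hui hin, mul_eq_right₀ hrs, ← A.rs_one,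
      Pr.rs_eq_iff hui (Pr.In.one A)] at hfr
    rw [h1, Pr.eq_one_of_sm hlt hu1 hfr, one_mul]

/-- See the blueprint, section CHL. -/
theorem chl (Ω : Type) [Field Ω] [CharZero Ω] [Nice Ω] [IsAlgClosed Ω] {w : ℕ} (hw : w ≠ 0) (d : ℕ)
    (J : Finset ℕ) (hJ : ∀ p ∈ J, p.Prime ∧ ¬ p ∣ 3 * w) (P : Finset ℕ) (hP : ∀ q ∈ P, q.Prime)
    (Λ : Finset ℕ) : ∃ l : ℕ, l.Prime ∧ l ∉ Λ ∧ 3 * w ∣ l - 1 ∧ ∀ p ∈ J,
      (p : ZMod l) ^ ((l - 1) / 3) ≠ 1 ∧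
      ∀ q ∈ P, q ≠ p → ∀ f a : ℕ, 0 < f → f ≤ d → (q : ZMod l) ^ f ≠ (p : ZMod l) ^ a := by
  have hM : 3 * w ≠ 0 := by omega
  obtain ⟨D₀, hD₀, hD⟩ := val_disc (isOpen_Fm (E := Ω) hM)
  set B : ℕ := d + 3 * w + D₀ + ∑ q ∈ J ∪ P, q with hB
  set t : ℕ → ℕ := fun p => Nat.nth Nat.Prime (B + p) with ht
  have htp : ∀ p, (t p).Prime := fun p => Nat.prime_nth_prime _
  have htB : ∀ p, B < t p := fun p => by
    have := Nat.add_two_le_nth_prime (B + p)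
    simp only [ht]
    omega
  have hti : Function.Injective t := fun a b h => by
    have := Nat.nth_injective Nat.infinite_setOfPred_prime h
    omega
  set N : ℕ := ∏ p ∈ J, t p with hN
  have hN0 : N ≠ 0 := Finset.prod_ne_zero_iff.2 fun p _ => (htp p).ne_zero
  have hc : (3 * w).Coprime N := Nat.Coprime.prod_right fun p _ =>
    (((htp p).coprime_iff_not_dvd).2 fun h => by
      have := Nat.le_of_dvd (by omega) h
      have := htB p
      omega).symm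
  have hQ : ∀ q ∈ J ∪ P, q.Prime ∧ ¬ q ∣ N := fun q hq => by
    have hq' : q.Prime := (Finset.mem_union.1 hq).elim (fun h => (hJ q h).1) (hP q)
    refine ⟨hq', fun h => ?_⟩
    obtain ⟨p, -, hp⟩ := (hq'.prime.dvd_finsetProd_iff _).1 h
    have h1 := (Nat.prime_dvd_prime_iff_eq hq' (htp p)).1 hp
    have h2 : q ≤ ∑ q ∈ J ∪ P, q := Finset.single_le_sum (f := fun q => q)
      (fun _ _ => Nat.zero_le _) hq
    have := htB p
    omega
  have h3d : 3 ∣ 3 * w * N := (dvd_mul_right 3 w).mul_right N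
  have htd : ∀ p ∈ J, t p ∣ 3 * w * N := fun p hp => (Finset.dvd_prod_of_mem t hp).mul_left _
  obtain ⟨x₃, hx₃, h₃⟩ := chl_ki (Ω := Ω) hM hN0 hc Nat.prime_three h3d J
    (fun p hp => hQ p (Finset.mem_union_left _ hp)) (fun A hA => ⟨1, by norm_num, fun z hz => by
      rcases eq_or_ne z 0 with rfl | hz0
      · exact ⟨0, by simp [A.w_zero]⟩
      obtain ⟨c, hc1, -, hc2⟩ := vd isOpen_top A hz0 fun g _ hg =>
        hz g (Pr.mem_Fm_of_I hg (hJ _ hA).2)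
      obtain ⟨x, rfl⟩ := mem_Fx_top hc1
      obtain ⟨k, hk⟩ := CHL_w_rat A x
      exact ⟨k, by rw [← hc2, hk]; simp⟩⟩) (fun _ => 1)
  have hy : ∀ p : ℕ, ∃ y : Aut Ω, p ∈ J → y ∈ Fm Ω (3 * w * N) ∧
      ∀ q ∈ J ∪ P, kc (t p) (q : Ω) y = if q = p then 0 else 1 := fun p => by
    by_cases hp : p ∈ J
    · obtain ⟨y, hy1, hy2⟩ := chl_ki (Ω := Ω) hM hN0 hc (htp p) (htd p hp) (J ∪ P) hQ
        (fun A _ => ⟨D₀, fun h => by
          have := Nat.le_of_dvd hD₀ h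
          have := htB p
          omega, hD A⟩) (fun q => if q = p then 0 else 1)
      exact ⟨y, fun _ => ⟨hy1, hy2⟩⟩
    · exact ⟨1, fun h => absurd h hp⟩
  choose y hy using hy
  obtain ⟨x', hx', h'⟩ := CHL_all t hti htp y J fun p hp => ⟨htd p hp, (hy p hp).1⟩
  have ht3 : ∀ p, t p ≠ 3 := fun p => by
    have := htB p
    omega
  set x : Aut Ω := x' ^ 3 * x₃ ^ N with hx
  have hxm : x ∈ Fm Ω (3 * w * N) :=
    Subgroup.mul_mem _ (Subgroup.pow_mem _ hx' _) (Subgroup.pow_mem _ hx₃ _)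
  have k3 : ∀ p ∈ J, kc 3 (p : Ω) x ≠ 0 := fun p hp => by
    rw [hx, CHL_comb (by norm_num) h3d (hJ p hp).1.ne_zero hx' hx₃, h₃ p hp, ZMod.natCast_self,
      zero_mul, zero_add, mul_one]
    exact CHL_prod_ne Nat.prime_three J t fun i _ => ⟨htp i, ht3 i⟩
  have kt : ∀ p ∈ J, ∀ q ∈ J ∪ P, kc (t p) (q : Ω) x = 0 ↔ q = p := fun p hp q hq => by
    have := Fact.mk (htp p)
    obtain ⟨c, hc0, hc1⟩ := h' p hp
    rw [hx, CHL_comb (htp p).ne_zero (htd p hp) (hQ q hq).1.ne_zero hx' hx₃,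
      hc1 q (hQ q hq).1.ne_zero, (hy p hp).2 q hq,
      (ZMod.natCast_eq_zero_iff N _).2 (Finset.dvd_prod_of_mem t hp), zero_mul, add_zero,
      mul_eq_zero_iff_left (CHL_ne Nat.prime_three (htp p) (ht3 p).symm),
      mul_eq_zero_iff_left hc0]
    split_ifs with h <;> simp [h]
  have hn0 : 3 * w * N ≠ 0 := mul_ne_zero hM hN0
  set S : Finset Ω := ((insert 3 (J.image t)) ×ˢ (J ∪ P)).image
    fun z : ℕ × ℕ => rt z.1 (z.2 : Ω) with hS
  set W' : Subgroup (Aut Ω) := (Fm Ω (3 * w * N) ⊓ stab (S : Set Ω)).normalCore with hW'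
  have hle : W' ≤ Fm Ω (3 * w * N) ⊓ stab (S : Set Ω) := Subgroup.normalCore_le _
  obtain ⟨A, φ, a, b, hA, hφ, hfr, ha, hb⟩ := fd (W := Fm Ω (3 * w * N)) (W' := W')
    (isOpen_normalCore (isOpen_inf (isOpen_Fm hn0) (isOpen_stab S.finite_toSet)))
    (Subgroup.normalCore_normal _) (hle.trans inf_le_left) hxm
    (Λ ∪ (J ∪ P) ∪ (3 * w * N).primeFactors)
  simp only [Finset.mem_union, not_or, Nat.mem_primeFactors, not_and] at hA
  have hln : ¬ A.p ∣ 3 * w * N := fun h => hA.2 A.prime h hn0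
  have hl1 : 3 * w * N ∣ A.p - 1 := by
    have h1 := (acts_iff hn0).1 (hfr.acts hln)
    rw [(mem_Fm_iff hn0).1 hφ, Units.val_one, ← Nat.cast_one, ZMod.natCast_eq_natCast_iff] at h1
    exact (Nat.modEq_iff_dvd' A.prime.one_le).1 h1
  have key : ∀ τ ∈ insert 3 (J.image t), τ.Prime → τ ∣ 3 * w * N → ∀ q ∈ J ∪ P,
      (kc τ (q : Ω) x = 0 ↔ (q : ZMod A.p) ^ ((A.p - 1) / τ) = 1) := fun τ hτ hτp hτd q hq => by
    have hq0 : (q : Ω) ≠ 0 := by exact_mod_cast (hQ q hq).1.ne_zero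
    have hz : ∀ g ∈ W', kc τ (q : Ω) g = 0 := fun g hg =>
      (kc_eq_zero_iff hτp.ne_zero hq0 (map_natCast _ q) (Fm_anti hτd (hle hg).1)
        (rt_pow hτp.ne_zero _)).2 ((hle hg).2 _ (Finset.mem_coe.2 (Finset.mem_image.2
          ⟨(τ, q), Finset.mem_product.2 ⟨hτ, hq⟩, rfl⟩)))
    have hlq : ¬ A.p ∣ q := fun h => by
      have h1 := (Nat.prime_dvd_prime_iff_eq A.prime (hQ q hq).1).1 h
      rcases Finset.mem_union.1 hq with h2 | h2
      · exact hA.1.2.1 (h1 ▸ h2)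
      · exact hA.1.2.2 (h1 ▸ h2)
    rw [← kc_frob hfr hτp (hτd.trans hl1) hlq]
    have e1 := CHL_comb hτp.ne_zero hτd (hQ q hq).1.ne_zero hxm (hle ha).1 a 1
    have e2 := CHL_comb hτp.ne_zero hτd (hQ q hq).1.ne_zero hφ (hle hb).1 b 1
    rw [pow_one, mul_inv_cancel_left, hz _ ha, mul_zero, add_zero] at e1
    rw [pow_one, mul_inv_cancel_left, hz _ hb, mul_zero, add_zero] at e2
    exact ⟨fun h => by rw [e1, h, mul_zero], fun h => by rw [e2, h, mul_zero]⟩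
  refine ⟨A.p, A.prime, hA.1.1, (dvd_mul_right _ N).trans hl1, fun p hp => ⟨fun h => ?_, ?_⟩⟩
  · exact k3 p hp ((key 3 (Finset.mem_insert_self _ _) Nat.prime_three h3d p
      (Finset.mem_union_left _ hp)).2 h)
  intro q hq hqp f a' hf hfd h
  have := Fact.mk A.prime
  have hm : t p ∈ insert 3 (J.image t) := Finset.mem_insert_of_mem (Finset.mem_image_of_mem t hp)
  have h1 := (key _ hm (htp p) (htd p hp) p (Finset.mem_union_left _ hp)).1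
    ((kt p hp p (Finset.mem_union_left _ hp)).2 rfl)
  refine hqp ((kt p hp q (Finset.mem_union_right _ hq)).1
    ((key _ hm (htp p) (htd p hp) q (Finset.mem_union_right _ hq)).2 ?_))
  have h2 : ((q : ZMod A.p) ^ ((A.p - 1) / t p)) ^ f = 1 := by
    rw [← pow_mul, mul_comm, pow_mul, h, ← pow_mul, mul_comm, pow_mul, h1, one_pow]
  have h3 : ((q : ZMod A.p) ^ ((A.p - 1) / t p)) ^ t p = 1 := by
    rw [← pow_mul, Nat.div_mul_cancel ((htd p hp).trans hl1)]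
    exact ZMod.pow_card_sub_one_eq_one
      (CHL_ne (hP q hq) A.prime fun e => hA.1.2.2 (e ▸ hq))
  have h4 : f.Coprime (t p) := (((htp p).coprime_iff_not_dvd).2 fun h => by
    have := Nat.le_of_dvd hf h
    have := htB p
    omega).symm
  have := pow_gcd_eq_one.2 ⟨h2, h3⟩
  rwa [h4.gcd_eq_one, pow_one] at this

end Uc
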