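import Vale.Agent.P024.Val2
import Vale.Agent.P024.Top2

/-! A pro-`l` inertia element determines its prime. -/

noncomputable section
namespace Uc
open scoped Classical
variable {E : Type} [Field E] [CharZero E] [Nice E] {l : ℕ} {τ : Aut E}

theorem DD_exists_step (hl : l.Prime) (h : ProL l τ) (h1 : τ ≠ 1) :
    ∃ z : E, τ z ≠ z ∧ (τ ^ l) z = z := by
  by_contra hcon
  push Not at hcon
  apply h1
  ext z₀
  have hH : τ ∈ (Subgroup.zpowers (τ ^ l)).topologicalClosure := by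
    refine mem_of_fix (Subgroup.isClosed_topologicalClosure _) fun z hz => ?_
    by_contra hne
    exact hcon z hne (hz _ (Subgroup.le_topologicalClosure _ (Subgroup.mem_zpowers _)))
  have hcl : τ ∈ closure (Subgroup.zpowers (τ ^ l) : Set (Aut E)) := hH
  obtain ⟨g, hg1, hg2⟩ := mem_closure_iff.1 hcl {g : Aut E | g z₀ = τ z₀}
    (isClopen_eval z₀ fun y => y = τ z₀).isOpen rfl
  obtain ⟨i, rfl⟩ := Subgroup.mem_zpowers_iff.1 hg2
  have h2 : τ ^ ((l : ℤ) * i - 1) ∈ stab ({z₀} : Set E) := by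
    intro y hy
    rw [Set.mem_singleton_iff.1 hy, sub_eq_neg_add, zpow_add, zpow_mul, zpow_natCast,
      AlgEquiv.mul_apply]
    have h3 : ((τ ^ l) ^ i) z₀ = τ z₀ := hg1
    rw [h3, zpow_neg_one]
    exact τ.symm_apply_apply z₀
  have h4 : τ ^ ((l : ℤ) * i - 1).natAbs ∈ stab ({z₀} : Set E) := by
    rw [← zpow_natCast]
    rcases Int.natAbs_eq ((l : ℤ) * i - 1) with e | e
    · rwa [← e]
    · have := (stab ({z₀} : Set E)).inv_mem h2
      rwa [← zpow_neg, e, neg_neg] at this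
  refine h.fix_of_pow hl (q := ((l : ℤ) * i - 1).natAbs) (fun hd => ?_) (h4 z₀ rfl)
  have h5 : (l : ℤ) ∣ (l : ℤ) * i - 1 := Int.natCast_dvd.2 hd
  have h6 : (l : ℤ) ∣ 1 := (dvd_sub_right (dvd_mul_right _ _)).1 h5
  exact hl.one_lt.ne' (Nat.dvd_one.1 (Int.natCast_dvd_natCast.1 (by exact_mod_cast h6)))

omit [Nice E] in
/-- the Lagrange resolvent -/
theorem DD_resolvent {η z : E} (hη : η ^ l = 1) (hf : τ η = η) (hz : (τ ^ l) z = z) :
    η * τ (∑ i ∈ Finset.range l, η ^ i * (τ ^ i) z) = ∑ i ∈ Finset.range l, η ^ i * (τ ^ i) z := by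
  have h1 : η * τ (∑ i ∈ Finset.range l, η ^ i * (τ ^ i) z) =
      ∑ i ∈ Finset.range l, η ^ (i + 1) * (τ ^ (i + 1)) z := by
    rw [map_sum, Finset.mul_sum]
    refine Finset.sum_congr rfl fun i _ => ?_
    rw [map_mul, map_pow, hf, pow_succ' τ, AlgEquiv.mul_apply]
    ring
  have h2 := Finset.sum_range_succ' (fun i => η ^ i * (τ ^ i) z) l
  rw [Finset.sum_range_succ, hη, hz, pow_zero, pow_zero, AlgEquiv.one_apply] at h2
  rw [h1]
  exact (add_right_cancel h2).symm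

/-- First find `z` with `τ z ≠ z`, `τ ^ l z = z`: if `τ ^ l ^ (n+1)` fixes `z₀`, the coefficients
of `∏ (X - τ ^ (l i) z₀)` over `i < l ^ n` are fixed by `τ ^ l`; if all were fixed by `τ` then
`τ z₀ = τ ^ (l i) z₀`, so `τ z₀ = z₀` by `ProL.fix_of_pow`. Then a Lagrange resolvent
`y = ∑ ζ ^ (-i) τ ^ i z` with `ζ ≠ 1` is nonzero; `x = y ^ l`. -/
theorem exists_kc_ne (hl : l.Prime) (h : ProL l τ) (h1 : τ ≠ 1) :
    ∃ x : E, x ≠ 0 ∧ τ x = x ∧ kc l x τ ≠ 0 := by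
  obtain ⟨z, hz1, hz2⟩ := DD_exists_step hl h h1
  have hm : τ ∈ Fm E l := h.mem_Fm hl
  have hζ : IsPrimitiveRoot (zt E l) l := zt_prim hl.ne_zero
  set ζ := zt E l
  have hpow : ∀ k : ℕ, (ζ ^ k) ^ l = 1 := fun k => by
    rw [← pow_mul, mul_comm, pow_mul, hζ.pow_eq_one, one_pow]
  set y : ℕ → E := fun k => ∑ i ∈ Finset.range l, (ζ ^ k) ^ i * (τ ^ i) z with hy
  have hres : ∀ k, ζ ^ k * τ (y k) = y k := fun k =>
    DD_resolvent (hpow k) (hm _ (hpow k)) hz2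
  have hsum : ∑ k ∈ Finset.range l, y k = l * z := by
    simp only [hy]
    rw [Finset.sum_comm, Finset.sum_eq_single 0]
    · simp
    · intro i hi h0
      rw [← Finset.sum_mul]
      have hc : i.Coprime l :=
        ((Nat.Prime.coprime_iff_not_dvd hl).2
          (Nat.not_dvd_of_pos_of_lt (Nat.pos_of_ne_zero h0) (Finset.mem_range.1 hi))).symm
      have h3 := (hζ.pow_of_coprime i hc).geom_sum_eq_zero hl.one_lt
      have h4 : ∑ k ∈ Finset.range l, (ζ ^ k) ^ i = ∑ k ∈ Finset.range l, (ζ ^ i) ^ k :=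
        Finset.sum_congr rfl fun k _ => by rw [← pow_mul, mul_comm, pow_mul]
      rw [h4, h3, zero_mul]
    · intro h0
      exact absurd (Finset.mem_range.2 hl.pos) h0
  have hex : ∃ k, τ (y k) ≠ y k := by
    by_contra hc
    push Not at hc
    apply hz1
    have h5 : τ (l * z) = l * z := by
      rw [← hsum, map_sum]
      exact Finset.sum_congr rfl fun k _ => hc k
    rw [map_mul, map_natCast] at h5
    exact mul_left_cancel₀ (Nat.cast_ne_zero.2 hl.ne_zero) h5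
  obtain ⟨k, hk⟩ := hex
  have hy0 : y k ≠ 0 := fun h0 => hk (by rw [h0, map_zero])
  have hfix : τ (y k ^ l) = y k ^ l := by
    conv_rhs => rw [← hres k, mul_pow, hpow k, one_mul]
    exact map_pow τ _ _
  exact ⟨y k ^ l, pow_ne_zero _ hy0, hfix, fun h0 =>
    hk ((kc_eq_zero_iff hl.ne_zero (pow_ne_zero _ hy0) hfix hm rfl).1 h0)⟩

/-- the `l`-part of the order of `p` modulo `l ^ T` is unbounded -/
theorem DD_order {p : ℕ} (hl : l.Prime) (hp : p.Prime) (hne : p ≠ l) (e : ℕ) :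
    ∃ T : ℕ, ∀ a : ℕ, (p : ZMod (l ^ T)) ^ a = 1 → l ^ e ∣ a := by
  set M := l ^ e * (l - 1) with hM
  have hM0 : M ≠ 0 := mul_ne_zero (pow_ne_zero _ hl.ne_zero) (by have := hl.one_lt; omega)
  refine ⟨p ^ M + 1, fun a ha => ?_⟩
  by_contra hd
  set o := orderOf (p : ZMod (l ^ (p ^ M + 1))) with ho
  have h1 : o ∣ a := orderOf_dvd_of_pow_eq_one ha
  have hc : p.Coprime (l ^ (p ^ M + 1)) := ((Nat.coprime_primes hp hl).2 hne).pow_right _
  have h2 : o ∣ l ^ (p ^ M) * (l - 1) := by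
    apply orderOf_dvd_of_pow_eq_one
    have := (ZMod.natCast_eq_natCast_iff _ _ _).2 (Nat.ModEq.pow_totient hc)
    rwa [Nat.totient_prime_pow_succ hl, Nat.cast_pow, Nat.cast_one] at this
  obtain ⟨o₁, o₂, h3, h4, h5⟩ := (Nat.dvd_mul).1 h2
  obtain ⟨j, -, rfl⟩ := (Nat.dvd_prime_pow hl).1 h3
  have h6 : j ≤ e := by
    by_contra hj
    exact hd (((pow_dvd_pow l (not_le.1 hj).le).trans (Dvd.intro _ h5)).trans h1)
  have h7 : o ∣ M := h5 ▸ mul_dvd_mul (pow_dvd_pow l h6) h4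
  have h8 : (p : ZMod (l ^ (p ^ M + 1))) ^ M = 1 := orderOf_dvd_iff_pow_eq_one.1 h7
  have h9 : p ^ M ≡ 1 [MOD l ^ (p ^ M + 1)] := by
    rw [← ZMod.natCast_eq_natCast_iff, Nat.cast_pow, Nat.cast_one]
    exact h8
  have h10 : 1 < p ^ M := Nat.one_lt_pow hM0 hp.one_lt
  have h11 : p ^ M + 1 < l ^ (p ^ M + 1) := Nat.lt_pow_self hl.one_lt
  have := Nat.ModEq.eq_of_lt_of_lt h9 (by omega) (by omega)
  omega

/-- `τ` acts on the `N l ^ T`-th roots of unity as `p ^ a` (`Pr.exists_acts_pow`). The order of `p`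
modulo `l ^ T` divides `a` and its `l`-part is unbounded in `T`; the order of `p` modulo `N`
divides `a l ^ n`. So it divides `a`; use `Pr.mem_I_of_Fm`. -/
theorem mem_I_of_D (hl : l.Prime) (h : ProL l τ) (hm : ∀ T, τ ∈ Fm E (l ^ T)) {B : Pr E}
    (hB : τ ∈ B.D) (hp : B.p ≠ l) : τ ∈ B.I := by
  refine Pr.mem_I_of_Fm hB fun N hN => ?_
  have hN0 : N ≠ 0 := fun h0 => hN (h0 ▸ dvd_zero _)
  obtain ⟨n, hn⟩ := h (zt E N)
  set o := orderOf (B.p : ZMod N) with ho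
  obtain ⟨T, hT⟩ := DD_order hl B.prime hp (o + n)
  have hT0 : l ^ T ≠ 0 := pow_ne_zero _ hl.ne_zero
  have hnd : ¬ B.p ∣ N * l ^ T := by
    intro hd
    rcases (Nat.Prime.dvd_mul B.prime).1 hd with h1 | h1
    · exact hN h1
    · exact hp ((Nat.prime_dvd_prime_iff_eq B.prime hl).1 (B.prime.dvd_of_dvd_pow h1))
  obtain ⟨a, ha⟩ := Pr.exists_acts_pow hB hnd
  have a1 : Acts N τ (B.p ^ a) := fun ζ hζ => ha ζ (by rw [pow_mul, hζ, one_pow])
  have a2 : Acts (l ^ T) τ (B.p ^ a) := fun ζ hζ => ha ζ (by rw [mul_comm, pow_mul, hζ, one_pow])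
  rw [acts_iff hN0] at a1
  rw [acts_iff hT0, (mem_Fm_iff hT0).1 (hm T), Units.val_one, Nat.cast_pow] at a2
  have d1 : l ^ (o + n) ∣ a := hT a a2.symm
  have a3 : Acts N (τ ^ l ^ n) 1 := (acts_iff_prim hN0 (zt_prim hN0)).2 (by rw [hn, pow_one])
  rw [acts_iff hN0, map_pow, Units.val_pow_eq_pow_val, a1, Nat.cast_pow, ← pow_mul,
    Nat.cast_one] at a3
  have d2 : o ∣ a * l ^ n := orderOf_dvd_of_pow_eq_one a3
  have ho0 : o ≠ 0 := by
    have : NeZero N := ⟨hN0⟩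
    have hu : IsUnit (B.p : ZMod N) :=
      (ZMod.isUnit_iff_coprime _ _).2 ((Nat.Prime.coprime_iff_not_dvd B.prime).2 hN)
    exact (hu.isOfFinOrder.orderOf_pos).ne'
  have d3 : o ∣ a := by
    obtain ⟨j, o', ho', hj⟩ := Nat.exists_eq_pow_mul_and_not_dvd ho0 l hl.ne_one
    have hc : (l ^ j).Coprime o' := ((Nat.Prime.coprime_iff_not_dvd hl).2 ho').pow_left _
    have hjo : j ≤ o + n := by
      have h1 : j < l ^ j := Nat.lt_pow_self hl.one_lt
      have h2 : l ^ j ≤ o := Nat.le_of_dvd (Nat.pos_of_ne_zero ho0) (Dvd.intro _ hj.symm)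
      omega
    rw [hj]
    refine hc.mul_dvd_of_dvd_of_dvd ((pow_dvd_pow l hjo).trans d1) ?_
    exact (((Nat.Prime.coprime_iff_not_dvd hl).2 ho').pow_left n).symm.dvd_of_dvd_mul_right
      ((Dvd.intro_left _ hj.symm).trans d2)
  rw [mem_Fm_iff hN0, ← Units.val_eq_one, a1, Nat.cast_pow]
  exact orderOf_dvd_iff_pow_eq_one.1 d3

omit [Nice E] in
/-- the norm along an orbit -/
theorem DD_norm {z : E} (hz : z ≠ 0) {m : ℕ} (hm : (τ ^ m) z = z) :
    τ (∏ i ∈ Finset.range m, (τ ^ i) z) = ∏ i ∈ Finset.range m, (τ ^ i) z := by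
  have h1 : τ (∏ i ∈ Finset.range m, (τ ^ i) z) = ∏ i ∈ Finset.range m, (τ ^ (i + 1)) z := by
    rw [map_prod]
    exact Finset.prod_congr rfl fun i _ => by rw [pow_succ' τ, AlgEquiv.mul_apply]
  have h2 := Finset.prod_range_succ' (fun i => (τ ^ i) z) m
  rw [Finset.prod_range_succ, hm, pow_zero, AlgEquiv.one_apply] at h2
  rw [h1]
  exact (mul_right_cancel₀ hz h2).symm

omit [Nice E] in
theorem DD_w_norm {A : Pr E} (hA : τ ∈ A.D) {z : E} (hz : z ≠ 0) (m : ℕ) :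
    A.w (∏ i ∈ Finset.range m, (τ ^ i) z) = m * A.w z := by
  rw [A.w_prod _ _ fun i _ => (map_ne_zero _).2 hz,
    Finset.sum_congr rfl fun i _ => Pr.mem_D_iff_w.1 (A.D.pow_mem hA i) z]
  simp

theorem DD_kc_unit (hl : l.Prime) (hm : τ ∈ Fm E l) {A : Pr E} (hA : τ ∈ A.I) (hp : A.p ≠ l)
    {u : E} (hu : u ≠ 0) (hf : τ u = u) (h0 : A.w u = 0) : kc l u τ = 0 := by
  have hr := rt_pow hl.ne_zero u
  refine (kc_eq_zero_iff hl.ne_zero hu hf hm hr).2 (Pr.fix_root_of_I hA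
    (fun hd => hp ((Nat.prime_dvd_prime_iff_eq A.prime hl).1 hd)) (rt_ne_zero hl.ne_zero hu) ?_
    (by rw [hr, hf]))
  have := A.w_pow (rt l u) l
  rw [hr, h0] at this
  exact (mul_eq_zero.1 this.symm).resolve_left (Nat.cast_ne_zero.2 hl.ne_zero)

/-- Let `K = Fx (zpowers τ)`. If `A ≠ B` then they differ on `K` (norms along the orbit). The
Kummer character `kc l x τ` on `K` kills units at `A` and units at `B` (`Pr.fix_root_of_I`), so it
vanishes by `Pr.approx_two`, against `exists_kc_ne`. -/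
theorem dd (hl : l.Prime) (h : ProL l τ) (h1 : τ ≠ 1) {A B : Pr E} (hA : τ ∈ A.I) (hB : τ ∈ B.D)
    (hpA : A.p ≠ l) (hpB : B.p ≠ l) : A = B := by
  by_contra hne
  have hm : ∀ T, τ ∈ Fm E (l ^ T) := fun T => Pr.mem_Fm_of_I hA fun hd =>
    hpA ((Nat.prime_dvd_prime_iff_eq A.prime hl).1 (A.prime.dvd_of_dvd_pow hd))
  have hBI : τ ∈ B.I := mem_I_of_D hl h hm hB hpB
  have hm1 : τ ∈ Fm E l := h.mem_Fm hl
  have hK : ∀ z : E, τ z = z → z ∈ Fx (Subgroup.zpowers τ) := by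
    intro z hz g hg
    have h2 : τ ∈ stab ({z} : Set E) := fun y hy => by rw [Set.mem_singleton_iff.1 hy, hz]
    exact (Subgroup.zpowers_le.2 h2) hg z rfl
  have hdiff : A.comap (Fx (Subgroup.zpowers τ)).subtype ≠
      B.comap (Fx (Subgroup.zpowers τ)).subtype := by
    intro he
    obtain ⟨z, hz, h2, h3⟩ := Pr.exists_pos_neg hne
    obtain ⟨n, hn⟩ := h z
    have h4 := congrArg (fun C : Pr (Fx (Subgroup.zpowers τ)) => C.w ⟨_, hK _ (DD_norm hz hn)⟩) he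
    have h5 : A.w (∏ i ∈ Finset.range (l ^ n), (τ ^ i) z) =
      B.w (∏ i ∈ Finset.range (l ^ n), (τ ^ i) z) := h4
    rw [DD_w_norm (A.I_le_D hA) hz, DD_w_norm hB hz] at h5
    have h6 := mul_left_cancel₀ (Nat.cast_ne_zero.2 (pow_ne_zero n hl.ne_zero)) h5
    linarith
  obtain ⟨x, hx, hfx, hk⟩ := exists_kc_ne hl h h1
  obtain ⟨u, hu, hu1, hu2⟩ := Pr.approx_two (x := ⟨x, hK x hfx⟩) hdiff
    fun h0 => hx (congrArg Subtype.val h0)
  have hu0 : (u : E) ≠ 0 := fun h0 => hu (Subtype.ext h0)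
  have hfu : τ u = u := u.2 τ (Subgroup.mem_zpowers τ)
  have hu1' : A.w u = 0 := hu1
  have hu2' : B.w u = B.w x := hu2
  have hfd : τ (x / u) = x / u := by rw [map_div₀, hfx, hfu]
  have k1 : kc l (u : E) τ = 0 := DD_kc_unit hl hm1 hA hpA hu0 hfu hu1'
  have k2 : kc l (x / u) τ = 0 := DD_kc_unit hl hm1 hBI hpB (div_ne_zero hx hu0) hfd
    (by rw [B.w_div hx hu0, hu2', sub_self])
  have k3 := kc_mul_left hl.ne_zero (div_ne_zero hx hu0) hu0 hfd hfu hm1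
  rw [div_mul_cancel₀ x hu0, k1, k2, add_zero] at k3
  exact hk k3

theorem mem_D_of_commute (hl : l.Prime) (h : ProL l τ) (h1 : τ ≠ 1) {A : Pr E} (hA : τ ∈ A.I)
    (hpA : A.p ≠ l) {σ : Aut E} (hc : Commute σ τ) : σ ∈ A.D := by
  have h2 := Pr.conj_mem_D (A.I_le_D hA) σ
  rw [hc.eq, mul_inv_cancel_right] at h2
  exact Pr.mem_D.2 (dd hl h h1 hA h2 hpA hpA).symm

end Uc
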