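import Vale.Agent.P024.DD

/-! A pro-`l` inertia element determines its prime. -/

noncomputable section
namespace Uc
open scoped Classical
variable {E : Type} [Field E] [CharZero E] [Nice E] {l : ℕ} {τ : Aut E}

/-- A compatible tower of eigenvectors: `y n = ` successive `l`-th roots of `x`. -/
theorem exists_tower (hl : l.Prime) (hm : ∀ T, τ ∈ Fm E (l ^ T)) {x : E} (hx : x ≠ 0)
    (hτ : τ x = x) (hk : kc l x τ ≠ 0) (n : ℕ) :
    ∃ y η : E, y ^ l ^ n = x ∧ IsPrimitiveRoot η (l ^ n) ∧ τ y = η * y := by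
  rcases n with _ | n
  · exact ⟨x, 1, by simp, by simp, by rw [hτ, one_mul]⟩
  have : Fact l.Prime := ⟨hl⟩
  have h0 : l ^ (n + 1) ≠ 0 := pow_ne_zero _ hl.ne_zero
  have h1 := rt_pow h0 x
  have h2 := rt_ne_zero h0 hx
  generalize rt (l ^ (n + 1)) x = y at h1 h2
  refine ⟨y, τ y / y, h1, ?_, (div_mul_cancel₀ _ h2).symm⟩
  rw [← orderOf_eq_prime_pow (x := τ y / y) (fun h3 => hk ?_)
    (by rw [div_pow, ← map_pow, h1, hτ, div_self hx])]
  · exact IsPrimitiveRoot.orderOf _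
  · rw [div_pow, ← map_pow, div_eq_one_iff_eq (pow_ne_zero _ h2)] at h3
    exact (kc_eq_zero_iff hl.ne_zero hx hτ (pow_one l ▸ hm 1)
      (by rw [← pow_mul, ← pow_succ, h1])).2 h3

/-- an eigenvector that is a unit is fixed -/
theorem DD2_eig (hl : l.Prime) (hm : τ ∈ Fm E l) {A : Pr E}
    (hu : ∀ x, x ≠ 0 → τ x = x → A.w x = 0 → kc l x τ = 0) (k : ℕ) {u ξ : E} (h0 : u ≠ 0)
    (h1 : τ u = ξ * u) (h2 : ξ ^ l ^ k = 1) (h3 : A.w u = 0) : ξ = 1 := by
  induction k generalizing u ξ with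
  | zero => simpa using h2
  | succ k ih =>
    have h4 : A.w (u ^ l) = 0 := by rw [A.w_pow, h3, mul_zero]
    have h5 : τ (u ^ l) = ξ ^ l * u ^ l := by rw [map_pow, h1, mul_pow]
    rw [ih (pow_ne_zero l h0) h5 (by rw [← pow_mul, ← pow_succ', h2]) h4, one_mul] at h5
    rw [(kc_eq_zero_iff hl.ne_zero (pow_ne_zero l h0) h5 hm rfl).1
      (hu _ (pow_ne_zero l h0) h5 h4)] at h1
    exact (mul_eq_right₀ h0).1 h1.symm

omit [Nice E] in
/-- decomposition into eigenvectors -/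
theorem DD2_dec {N : ℕ} (hN : N ≠ 0) {η : E} (hη : IsPrimitiveRoot η N) (h1 : τ η = η) {z : E}
    (hz : (τ ^ N) z = z) :
    ∃ f : ℕ → E, ∑ i ∈ Finset.range N, f i = z ∧ ∀ i, τ (f i) = η ^ i * f i := by
  have h0 : (N : E) ≠ 0 := Nat.cast_ne_zero.2 hN
  refine ⟨fun i => (∑ j ∈ Finset.range N, (η⁻¹ ^ i) ^ j * (τ ^ j) z) / N, ?_, fun i => ?_⟩
  · rw [← Finset.sum_div, div_eq_iff h0, Finset.sum_comm,
      Finset.sum_eq_single_of_mem 0 (Finset.mem_range.2 (Nat.pos_of_ne_zero hN))]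
    · simp [mul_comm]
    · intro j hj hj0
      simp only [pow_right_comm η⁻¹ _ j]
      rw [← Finset.sum_mul, geom_sum_eq (hη.inv.pow_ne_one_of_pos_of_lt hj0
        (Finset.mem_range.1 hj)), pow_right_comm, hη.inv.pow_eq_one, one_pow, sub_self, zero_div,
        zero_mul]
  · have h2 := (Finset.sum_range_succ' (fun j => (η⁻¹ ^ i) ^ j * (τ ^ j) z) N).symm.trans
      (Finset.sum_range_succ _ N)
    rw [hz, pow_right_comm _ i N, hη.inv.pow_eq_one, one_pow, pow_zero, pow_zero, AlgEquiv.one_apply,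
      add_left_inj] at h2
    beta_reduce
    rw [map_div₀, map_natCast, ← mul_div_assoc, map_sum, ← h2, Finset.mul_sum]
    congr 1
    refine Finset.sum_congr rfl fun j _ => ?_
    rw [map_mul, map_pow, map_pow, map_inv₀, h1, pow_succ' τ, AlgEquiv.mul_apply, pow_succ',
      mul_assoc, ← mul_assoc (η ^ i), ← mul_pow, mul_inv_cancel₀ (hη.ne_zero hN), one_pow, one_mul]

/-- Eigen-decomposition: if `τ ^ l ^ n` fixes `z` then `z = ∑ c i * y ^ i` over `i < l ^ n` with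
`c i = (∑ η ^ (-i j) τ ^ j z) / (l ^ n y ^ i)` fixed by `τ`. The nonzero terms have different
valuations (otherwise a power of the quotient is a fixed unit `c ^ l * x ^ b` with `l ∤ b`), so for
integral `z` all terms are integral (`Pr.w_sum_le`) and those with `i ≠ 0` are small. Use
`Pr.isFrob_mk`. -/
theorem mem_I_of_units (hl : l.Prime) (h : ProL l τ) (h1 : τ ≠ 1) (hm : ∀ T, τ ∈ Fm E (l ^ T))
    (A : Pr E) (hu : ∀ x, x ≠ 0 → τ x = x → A.w x = 0 → kc l x τ = 0) : τ ∈ A.I := by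
  have _ := h1
  refine Pr.isFrob_one.1 (Pr.isFrob_mk fun z hz => ?_)
  obtain ⟨n, hn⟩ := h z
  have h0 : l ^ n ≠ 0 := pow_ne_zero _ hl.ne_zero
  have hη := zt_prim (E := E) h0
  generalize zt E (l ^ n) = η at hη
  obtain ⟨f, rfl, hf⟩ := DD2_dec h0 hη (hm n η hη.pow_eq_one) hn
  have hp : ∀ i, (η ^ i) ^ l ^ n = 1 := fun i => by rw [pow_right_comm, hη.pow_eq_one, one_pow]
  have key := fun {u ξ : E} => DD2_eig (u := u) (ξ := ξ) hl (pow_one l ▸ hm 1) hu n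
  rw [pow_one, map_sum, ← Finset.sum_sub_distrib]
  refine Pr.Sm.sum _ _ fun i hi => ?_
  rw [hf, ← sub_one_mul]
  rcases eq_or_ne (f i) 0 with h2 | h2
  · rw [h2, mul_zero]
    exact Pr.Sm.zero A
  have h3 := (Pr.w_sum_le (A := A) _ f (fun i hi j hj h2 h3 h4 => hη.pow_inj
    (Finset.mem_range.1 hi) (Finset.mem_range.1 hj) ((div_eq_one_iff_eq
      (pow_ne_zero j (hη.ne_zero h0))).1 (key (div_ne_zero h2 h3)
        (by rw [map_div₀, hf, hf, mul_div_mul_comm]) (by rw [div_pow, hp, hp, div_one])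
        (by rw [A.w_div h2 h3, h4, sub_self])))) hi h2).2
  rcases (le_trans hz h3).eq_or_lt with h4 | h4
  · rw [key h2 (hf i) (hp i) h4.symm, sub_self, zero_mul]
    exact Pr.Sm.zero A
  · exact Pr.Sm.in_mul (Or.inr h4) (Pr.In.sub (Pr.w_root h0 (hp i)).ge (Pr.In.one A))

/-- If `A.p = l` the value group of the fixed field contains all `1 / l ^ k` (`Pr.w_one_sub`), so
it is `l`-divisible, and `kc` vanishes identically. -/
theorem p_ne_of_units (hl : l.Prime) (h : ProL l τ) (h1 : τ ≠ 1) (hm : ∀ T, τ ∈ Fm E (l ^ T))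
    (A : Pr E) (hu : ∀ x, x ≠ 0 → τ x = x → A.w x = 0 → kc l x τ = 0) : A.p ≠ l := by
  rintro rfl
  obtain ⟨x, hx, hτ, hk⟩ := exists_kc_ne hl h h1
  have h2 := rt_pow hl.ne_zero x
  have h3 := rt_ne_zero hl.ne_zero hx
  generalize rt A.p x = y at h2 h3
  obtain ⟨k, d, hd, hkd⟩ := Nat.exists_eq_pow_mul_and_not_dvd (A.w y).den_nz A.p hl.ne_one
  have hζ := zt_prim (E := E) (pow_ne_zero (k + 1) hl.ne_zero)
  generalize zt E (A.p ^ (k + 1)) = ζ at hζ
  have h4 : 1 - ζ ≠ 0 := sub_ne_zero.2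
    (hζ.ne_one (Nat.one_lt_pow (Nat.succ_ne_zero k) hl.one_lt)).symm
  have h5 : (τ y / y) ^ A.p = 1 := by rw [div_pow, ← map_pow, h2, hτ, div_self hx]
  have h6 : (τ y / y) ^ d = 1 := by
    refine DD2_eig (u := y ^ d * (1 - ζ) ^ ((1 - A.p : ℤ) * (A.w y).num)) hl (pow_one A.p ▸ hm 1)
      hu 1 (mul_ne_zero (pow_ne_zero _ h3) (zpow_ne_zero _ h4)) ?_
      (by rw [pow_one, pow_right_comm, h5, one_pow]) ?_
    · rw [map_mul, map_pow, map_zpow₀, map_sub, map_one, hm _ ζ hζ.pow_eq_one, ← mul_assoc,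
        ← mul_pow, div_mul_cancel₀ _ h3]
    · have h7 : (A.p : ℚ) ≠ 0 := Nat.cast_ne_zero.2 hl.ne_zero
      have h8 : (A.p : ℚ) - 1 ≠ 0 := sub_ne_zero.2 (by exact_mod_cast hl.ne_one)
      have h9 := (A.w y).mul_den_eq_num
      rw [hkd] at h9
      rw [A.w_mul _ _ (pow_ne_zero _ h3) (zpow_ne_zero _ h4), A.w_pow, A.w_zpow, Pr.w_one_sub hζ]
      push_cast at h9 ⊢
      rw [← h9]
      field_simp
      ring
  have h7 := pow_gcd_eq_one.2 ⟨h5, h6⟩
  rw [(hl.coprime_iff_not_dvd.2 hd).gcd_eq_one, pow_one, div_eq_one_iff_eq h3] at h7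
  exact hk ((kc_eq_zero_iff hl.ne_zero hx hτ (pow_one A.p ▸ hm 1) h2).2 h7)

end Uc
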