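import Vale.Agent.P024.NF2
import Vale.Agent.P024.NFc
import Vale.Agent.P024.Top1

/-! Decomposition theory for the infinite extension. -/

noncomputable section
namespace Uc
open scoped Classical
variable {E : Type} [Field E] [CharZero E] [Nice E]

theorem Dec_lev {H : Subgroup (Aut E)} (hH : IsClosed (H : Set (Aut E))) (P : E → E → Prop)
    (h : ∀ W : Subgroup (Aut E), IsOpen (W : Set (Aut E)) → W.Normal →
      ∃ g ∈ H, ∀ z ∈ Fx W, P z (g z)) : ∃ g ∈ H, ∀ z, P z (g z) := by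
  obtain ⟨g, hg⟩ := exists_of_levels (fun W => {g | g ∈ H ∧ ∀ z ∈ Fx W, P z (g z)})
    (fun W _ _ => by
      have e : {g : Aut E | g ∈ H ∧ ∀ z ∈ Fx W, P z (g z)} =
          (H : Set (Aut E)) ∩ ⋂ z ∈ (Fx W : Set E), {g : Aut E | P z (g z)} := by
        ext g
        simp only [Set.mem_setOf_eq, Set.mem_inter_iff, Set.mem_iInter, SetLike.mem_coe]
      rw [e]
      exact hH.inter (isClosed_biInter fun z _ => (isClopen_eval z (P z)).isClosed))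
    (fun W h1 h2 => h W h1 h2)
    (fun W W' _ _ _ _ hle g hg => ⟨hg.1, fun z hz => hg.2 z (Fx_anti hle hz)⟩)
  refine ⟨g, (hg ⊤ isOpen_top inferInstance).1, fun z => ?_⟩
  obtain ⟨W, h1, h2, h3⟩ := exists_level ({z} : Finset E)
  exact (hg W h1 h2).2 z (h3 z (Finset.mem_singleton_self z))

theorem Dec_img (H : Subgroup (Aut E)) {W : Subgroup (Aut E)} (hW : W.Normal) :
    ∃ G : Subgroup (Aut (Fx W)), (∀ z ∈ Fx G, (z : E) ∈ Fx H) ∧
      ∀ γ ∈ G, ∃ g ∈ H, ∀ z : Fx W, (γ z : E) = g z := by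
  obtain ⟨ρ, hρ⟩ := exists_resHom hW
  refine ⟨H.map ρ, fun z hz g hg => ?_, ?_⟩
  · rw [← res_apply' hW, ← hρ, hz _ (Subgroup.mem_map_of_mem ρ hg)]
  · rintro γ ⟨g, hg, rfl⟩
    exact ⟨g, hg, fun z => by rw [hρ, res_apply' hW]⟩

/-- Transitivity: `tr_fin` at the level `Fx W` for the image of `H`, then `exists_of_levels`. -/
theorem tr {H : Subgroup (Aut E)} (hH : IsClosed (H : Set (Aut E))) {A A' : Pr E}
    (h : ∀ z ∈ Fx H, A.w z = A'.w z) : ∃ g ∈ H, g • A = A' := by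
  obtain ⟨g, hg, H1⟩ := Dec_lev hH (fun z y => A'.w y = A.w z) fun W h1 h2 => by
    have := numberField_Fx h1
    obtain ⟨G, G1, G2⟩ := Dec_img H h2
    obtain ⟨γ, hγ, e⟩ := tr_fin G (B := A.comap (Fx W).subtype) (B' := A'.comap (Fx W).subtype)
      fun z hz => h z (G1 z hz)
    obtain ⟨g, hg, e'⟩ := G2 γ hγ
    refine ⟨g, hg, fun z hz => ?_⟩
    have := Pr.smul_w_apply γ (A.comap (Fx W).subtype) ⟨z, hz⟩
    rw [e] at this
    have e2 := e' ⟨z, hz⟩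
    dsimp only at e2
    rw [← e2]
    exact this
  refine ⟨g, hg, Pr.ext_le fun z hz => ?_⟩
  have e : g (g⁻¹ z) = z := g.apply_symm_apply z
  unfold Pr.In at hz ⊢
  rw [Pr.smul_w, ← H1, e] at hz
  exact hz

/-- `sd_fin` at every level, then `exists_of_levels`. -/
theorem sd {H : Subgroup (Aut E)} (hH : IsClosed (H : Set (Aut E))) (A : Pr E)
    (ρ : A.kk →+* A.kk) (h : ∀ z ∈ Fx H, A.In z → ρ (A.rs z) = A.rs z) :
    ∃ g ∈ H, g • A = A ∧ ∀ z, A.In z → A.rs (g z) = ρ (A.rs z) := by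
  obtain ⟨g, hg, H1⟩ := Dec_lev hH
    (fun z y => A.w y = A.w z ∧ (A.In z → A.rs y = ρ (A.rs z))) fun W h1 h2 => by
    have := numberField_Fx h1
    obtain ⟨G, G1, G2⟩ := Dec_img H h2
    obtain ⟨γ, hγ, e, e1⟩ := sd_fin (Fx W).subtype A G ρ fun z hz => h z (G1 z hz)
    obtain ⟨g, hg, e'⟩ := G2 γ hγ
    refine ⟨g, hg, fun z hz => ?_⟩
    have e2 := e' ⟨z, hz⟩
    dsimp only at e2
    rw [← e2]
    exact ⟨Pr.w_of_smul e ⟨z, hz⟩, e1 ⟨z, hz⟩⟩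
  exact ⟨g, hg, Pr.mem_D.1 (Pr.mem_D_iff_w.2 fun z => (H1 z).1), fun z => (H1 z).2⟩

theorem exists_frob_of {H : Subgroup (Aut E)} (hH : IsClosed (H : Set (Aut E))) (A : Pr E)
    {f : ℕ} (h : ∀ z ∈ Fx H, A.In z → A.Sm (z ^ A.p ^ f - z)) :
    ∃ φ ∈ H, A.IsFrob (A.p ^ f) φ := by
  have := A.charP
  have : ExpChar A.kk A.p := ExpChar.prime A.prime
  obtain ⟨g, hg, h1, h2⟩ := sd hH A (iterateFrobenius A.kk A.p f) fun z hz hz' => by
    rw [iterateFrobenius_def, ← Pr.rs_pow hz']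
    exact (Pr.rs_eq_iff (hz'.pow _) hz').2 (h z hz hz')
  exact ⟨g, hg, Pr.isFrob_iff.2 ⟨h1, fun z hz => by rw [h2 z hz, iterateFrobenius_def]⟩⟩

theorem exists_frob {W : Subgroup (Aut E)} (hW : IsOpen (W : Set (Aut E))) (A : Pr E) :
    ∃ f : ℕ, 0 < f ∧ ∃ φ ∈ W, A.IsFrob (A.p ^ f) φ := by
  have := numberField_Fx hW
  obtain ⟨f, hf, h⟩ := Pr.exists_res_pow (A.comap (Fx W).subtype)
  refine ⟨f, hf, exists_frob_of (W.isClosed_of_isOpen hW) A fun z hz hz' => ?_⟩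
  have := (Pr.comap_sm _).1 (h ⟨z, hz⟩ hz')
  rw [map_sub, map_pow] at this
  exact this

/-- finitely many orbits above `p` -/
theorem orb {W : Subgroup (Aut E)} (hW : IsOpen (W : Set (Aut E))) (p : ℕ) :
    ∃ X : Finset (Pr E), (∀ A ∈ X, A.p = p) ∧ ∀ A : Pr E, A.p = p → ∃ A₀ ∈ X, ∃ u ∈ W, u • A₀ = A := by
  have := numberField_Fx hW
  choose ex hex using Pr.exists_ext (Fx W).subtype
  refine ⟨(Pr.finite_above (Fx W) p).toFinset.image ex, fun A hA => ?_, fun A hA => ?_⟩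
  · obtain ⟨B, hB, rfl⟩ := Finset.mem_image.1 hA
    have h1 : B.p = p := (Pr.finite_above (Fx W) p).mem_toFinset.1 hB
    rw [← h1, ← Pr.comap_p (ex B) (Fx W).subtype, hex]
  · refine ⟨ex (A.comap (Fx W).subtype),
      Finset.mem_image_of_mem _ ((Set.Finite.mem_toFinset _).2 hA),
      tr (W.isClosed_of_isOpen hW) fun z hz => ?_⟩
    exact congrArg (fun B : Pr (Fx W) => B.w ⟨z, hz⟩) (hex (A.comap (Fx W).subtype))

theorem val_disc {W : Subgroup (Aut E)} (hW : IsOpen (W : Set (Aut E))) :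
    ∃ D : ℕ, 0 < D ∧ ∀ A : Pr E, ∀ z ∈ Fx W, ∃ k : ℤ, A.w z = k / D := by
  have := numberField_Fx hW
  refine ⟨(Module.finrank ℚ (Fx W)).factorial, Nat.factorial_pos _, fun A z hz => ?_⟩
  obtain ⟨e, e0, e1, h, -⟩ := Pr.exists_ram (A.comap (Fx W).subtype)
  obtain ⟨k, hk⟩ := h ⟨z, hz⟩
  obtain ⟨c, hc⟩ := Nat.dvd_factorial e0 e1
  have hc0 : c ≠ 0 := fun h0 => Nat.factorial_ne_zero _ (by rw [hc, h0, mul_zero])
  refine ⟨k * c, Eq.trans hk ?_⟩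
  have h1 : (e : ℚ) ≠ 0 := by exact_mod_cast e0.ne'
  have h2 : (c : ℚ) ≠ 0 := by exact_mod_cast hc0
  rw [hc]
  push_cast
  field_simp

theorem val_int {W : Subgroup (Aut E)} (hW : IsOpen (W : Set (Aut E))) :
    {p : ℕ | ∃ A : Pr E, A.p = p ∧ ∃ z ∈ Fx W, ∀ k : ℤ, A.w z ≠ k}.Finite := by
  have := numberField_Fx hW
  refine (Pr.finite_ram (Fx W)).subset ?_
  rintro p ⟨A, h1, z, hz, h2⟩
  exact ⟨A.comap (Fx W).subtype, h1, ⟨z, hz⟩, h2⟩

end Uc
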