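import Mathlib

/-! Definitions for the proof of the conjecture of Uchida. -/

noncomputable section
namespace Uc
open scoped Classical

/-- A field with no nontrivial abelian algebraic extension. -/
def SolvClosed (E : Type) [Field E] : Prop :=
  ∀ L : IntermediateField E (AlgebraicClosure E), IsAbelianGalois E L → L = ⊥

/-- The group of all automorphisms, with the Krull topology. -/
abbrev Aut (E : Type) [Field E] [CharZero E] : Type := E ≃ₐ[ℚ] E

/-- Galois over a number field, closed under radicals, with all roots of unity. -/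
class Nice (E : Type) [Field E] [CharZero E] : Prop where
  alg : Algebra.IsAlgebraic ℚ E
  gal : ∃ F : IntermediateField ℚ E, FiniteDimensional ℚ F ∧ IsGalois F E
  root : ∀ (n : ℕ) (a : E), n ≠ 0 → ∃ y : E, y ^ n = a
  prim : ∀ n : ℕ, n ≠ 0 → ∃ ζ : E, IsPrimitiveRoot ζ n

instance Nice.isAlgebraic (E : Type) [Field E] [CharZero E] [Nice E] : Algebra.IsAlgebraic ℚ E :=
  Nice.alg

/-- A finite prime: an additive valuation normalized by `w p = 1` (junk value `w 0 = 0`). -/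
structure Pr (E : Type) [Field E] where
  p : ℕ
  w : E → ℚ
  prime : p.Prime
  w_zero : w 0 = 0
  w_mul : ∀ x y, x ≠ 0 → y ≠ 0 → w (x * y) = w x + w y
  w_add : ∀ x y, x ≠ 0 → y ≠ 0 → x + y ≠ 0 → min (w x) (w y) ≤ w (x + y)
  w_p : w p = 1

namespace Pr
variable {E K : Type} [Field E] [Field K]

theorem ext' {A B : Pr E} (hp : A.p = B.p) (hw : ∀ z, A.w z = B.w z) : A = B := by
  cases A; cases B
  have := funext hw
  simp_all

/-- valuation at least `t` -/
def Ge (A : Pr E) (t : ℚ) (z : E) : Prop := z = 0 ∨ t ≤ A.w z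
/-- integral -/
def In (A : Pr E) (z : E) : Prop := 0 ≤ A.w z
/-- in the maximal ideal -/
def Sm (A : Pr E) (z : E) : Prop := z = 0 ∨ 0 < A.w z

/-- restriction along an embedding -/
def comap (A : Pr E) (i : K →+* E) : Pr K where
  p := A.p
  w x := A.w (i x)
  prime := A.prime
  w_zero := by rw [map_zero, A.w_zero]
  w_mul x y hx hy := by
    rw [map_mul, A.w_mul _ _ ((map_ne_zero i).2 hx) ((map_ne_zero i).2 hy)]
  w_add x y hx hy h := by
    rw [map_add]
    exact A.w_add _ _ ((map_ne_zero i).2 hx) ((map_ne_zero i).2 hy)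
      (by rw [← map_add]; exact (map_ne_zero i).2 h)
  w_p := by rw [map_natCast, A.w_p]

@[simp] theorem comap_p (A : Pr E) (i : K →+* E) : (A.comap i).p = A.p := rfl
@[simp] theorem comap_w (A : Pr E) (i : K →+* E) (x : K) : (A.comap i).w x = A.w (i x) := rfl

theorem w_one (A : Pr E) : A.w 1 = 0 := by
  have := A.w_mul 1 1 one_ne_zero one_ne_zero
  rw [mul_one] at this
  linarith

theorem w_neg (A : Pr E) (x : E) : A.w (-x) = A.w x := by
  have h1 : A.w (-1) = 0 := by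
    have := A.w_mul (-1) (-1) (by simp) (by simp)
    rw [neg_mul_neg, mul_one, A.w_one] at this
    linarith
  rcases eq_or_ne x 0 with rfl | hx
  · rw [neg_zero]
  · rw [← neg_one_mul, A.w_mul _ _ (by simp) hx, h1, zero_add]

theorem w_inv (A : Pr E) (x : E) : A.w x⁻¹ = -A.w x := by
  rcases eq_or_ne x 0 with rfl | hx
  · rw [inv_zero, A.w_zero, neg_zero]
  · have := A.w_mul x x⁻¹ hx (inv_ne_zero hx)
    rw [mul_inv_cancel₀ hx, A.w_one] at this
    linarith

theorem In.mul {A : Pr E} {x y : E} (hx : A.In x) (hy : A.In y) : A.In (x * y) := by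
  unfold In at *
  rcases eq_or_ne x 0 with rfl | h1
  · rw [zero_mul, A.w_zero]
  rcases eq_or_ne y 0 with rfl | h2
  · rw [mul_zero, A.w_zero]
  rw [A.w_mul _ _ h1 h2]; linarith

theorem In.add {A : Pr E} {x y : E} (hx : A.In x) (hy : A.In y) : A.In (x + y) := by
  unfold In at *
  rcases eq_or_ne x 0 with rfl | h1
  · rwa [zero_add]
  rcases eq_or_ne y 0 with rfl | h2
  · rwa [add_zero]
  rcases eq_or_ne (x + y) 0 with h3 | h3
  · rw [h3, A.w_zero]
  exact (le_min hx hy).trans (A.w_add _ _ h1 h2 h3)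

theorem Sm.add {A : Pr E} {x y : E} (hx : A.Sm x) (hy : A.Sm y) : A.Sm (x + y) := by
  rcases eq_or_ne x 0 with rfl | h1
  · rwa [zero_add]
  rcases eq_or_ne y 0 with rfl | h2
  · rwa [add_zero]
  rcases eq_or_ne (x + y) 0 with h3 | h3
  · exact Or.inl h3
  exact Or.inr ((lt_min (hx.resolve_left h1) (hy.resolve_left h2)).trans_le
    (A.w_add _ _ h1 h2 h3))

theorem Sm.neg {A : Pr E} {x : E} (hx : A.Sm x) : A.Sm (-x) :=
  hx.imp (fun h => by rw [h, neg_zero]) fun h => by rwa [A.w_neg]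

/-- the valuation ring -/
def vs (A : Pr E) : ValuationSubring E where
  carrier := {z | A.In z}
  mul_mem' := In.mul
  one_mem' := A.w_one.ge
  add_mem' := In.add
  zero_mem' := A.w_zero.ge
  neg_mem' {x} h := by
    show 0 ≤ A.w (-x)
    rw [A.w_neg]; exact h
  mem_or_inv_mem' x := by
    show 0 ≤ A.w x ∨ 0 ≤ A.w x⁻¹
    rw [A.w_inv]
    rcases le_total 0 (A.w x) with h | h
    · exact Or.inl h
    · exact Or.inr (by linarith)

/-- the residue field -/
abbrev kk (A : Pr E) : Type := IsLocalRing.ResidueField A.vs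

/-- the residue map (junk value `0` outside the valuation ring) -/
def rs (A : Pr E) (z : E) : A.kk :=
  if h : z ∈ A.vs then IsLocalRing.residue A.vs ⟨z, h⟩ else 0

/-- degree one -/
def D1 (A : Pr E) : Prop := ∀ z, A.In z → A.Sm (z ^ A.p - z)

variable [CharZero E]

instance : MulAction (Aut E) (Pr E) where
  smul g A := A.comap ((g⁻¹ : Aut E) : E →+* E)
  one_smul _ := ext' rfl fun _ => rfl
  mul_smul _ _ _ := ext' rfl fun _ => rfl

@[simp] theorem smul_p (g : Aut E) (A : Pr E) : (g • A).p = A.p := rfl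
theorem smul_w (g : Aut E) (A : Pr E) (z : E) : (g • A).w z = A.w (g⁻¹ z) := rfl

theorem w_of_smul {g : Aut E} {A : Pr E} (h : g • A = A) (z : E) : A.w (g z) = A.w z := by
  conv_lhs => rw [← h, smul_w]
  exact congrArg A.w (g.symm_apply_apply z)

/-- the decomposition group -/
def D (A : Pr E) : Subgroup (Aut E) := MulAction.stabilizer (Aut E) A

/-- the inertia group -/
def I (A : Pr E) : Subgroup (Aut E) where
  carrier := {g | g • A = A ∧ ∀ z, A.In z → A.Sm (g z - z)}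
  mul_mem' := by
    rintro g h ⟨g1, g2⟩ ⟨h1, h2⟩
    refine ⟨by rw [mul_smul, h1, g1], fun z hz => ?_⟩
    have h3 : A.In (h z) := by unfold In; rw [w_of_smul h1]; exact hz
    have := (g2 _ h3).add (h2 z hz)
    rwa [sub_add_sub_cancel] at this
  one_mem' := ⟨one_smul _ _, fun z _ => Or.inl (sub_self z)⟩
  inv_mem' := by
    rintro g ⟨g1, g2⟩
    have h1 : g⁻¹ • A = A := by rw [inv_smul_eq_iff, g1]
    refine ⟨h1, fun z hz => ?_⟩
    have h3 : A.In (g⁻¹ z) := by unfold In; rw [w_of_smul h1]; exact hz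
    have := (g2 _ h3).neg
    rw [neg_sub] at this
    have h4 : g (g⁻¹ z) = z := g.apply_symm_apply z
    rwa [h4] at this

/-- `g` acts on the residue field as the `q`-th power map -/
def IsFrob (A : Pr E) (q : ℕ) (g : Aut E) : Prop :=
  g • A = A ∧ ∀ z, A.In z → A.Sm (g z - z ^ q)

/-- wild inertia -/
def Wild (A : Pr E) (g : Aut E) : Prop := ∀ x, x ≠ 0 → A.Sm (g x / x - 1)

end Pr

section Groups
variable {E : Type} [Field E] [CharZero E]

/-- the fixed field -/
def Fx (W : Subgroup (Aut E)) : Subfield E where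
  carrier := {z | ∀ g ∈ W, g z = z}
  mul_mem' ha hb g hg := by rw [map_mul, ha g hg, hb g hg]
  one_mem' g _ := map_one g
  add_mem' ha hb g hg := by rw [map_add, ha g hg, hb g hg]
  zero_mem' g _ := map_zero g
  neg_mem' ha g hg := by rw [map_neg, ha g hg]
  inv_mem' x ha g hg := by rw [map_inv₀, ha g hg]

theorem mem_Fx {W : Subgroup (Aut E)} {z : E} : z ∈ Fx W ↔ ∀ g ∈ W, g z = z := Iff.rfl

/-- the restriction to the fixed field of `W` (junk value `1` if there is none) -/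
def res (W : Subgroup (Aut E)) (g : Aut E) : Aut (Fx W) :=
  if h : ∃ γ : Aut (Fx W), ∀ z : Fx W, (γ z : E) = g z then h.choose else 1

/-- the pointwise stabilizer of a set -/
def stab (s : Set E) : Subgroup (Aut E) where
  carrier := {g | ∀ z ∈ s, g z = z}
  mul_mem' {g h} hg hh z hz := by rw [AlgEquiv.mul_apply, hh z hz, hg z hz]
  one_mem' _ _ := rfl
  inv_mem' {g} hg z hz := by
    conv_lhs => rw [← hg z hz]
    exact g.symm_apply_apply z

theorem mem_stab {s : Set E} {g : Aut E} : g ∈ stab s ↔ ∀ z ∈ s, g z = z := Iff.rfl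

/-- the elements that fix the `n`-th roots of unity -/
def Fm (E : Type) [Field E] [CharZero E] (n : ℕ) : Subgroup (Aut E) := stab {ζ : E | ζ ^ n = 1}

theorem mem_Fm {n : ℕ} {g : Aut E} : g ∈ Fm E n ↔ ∀ ζ : E, ζ ^ n = 1 → g ζ = ζ := Iff.rfl

/-- `g` raises the `n`-th roots of unity to the power `c` -/
def Acts (n : ℕ) (g : Aut E) (c : ℕ) : Prop := ∀ ζ : E, ζ ^ n = 1 → g ζ = ζ ^ c

/-- all orbits have `l`-power size -/
def ProL (l : ℕ) (τ : Aut E) : Prop := ∀ z : E, ∃ n : ℕ, (τ ^ l ^ n) z = z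

/-- a continuous character of `r`-power order on `W` -/
structure IsChar (W : Subgroup (Aut E)) (r : ℕ) (ν : Aut E → ℂˣ) : Prop where
  mul : ∀ g ∈ W, ∀ h ∈ W, ν (g * h) = ν g * ν h
  opn : ∃ W' : Subgroup (Aut E), IsOpen (W' : Set (Aut E)) ∧ W' ≤ W ∧ ∀ g ∈ W', ν g = 1
  ord : ∃ T : ℕ, ∀ g ∈ W, ν g ^ r ^ T = 1

/-- unramified outside `S` -/
def Unr (W : Subgroup (Aut E)) (S : Finset ℕ) (ν : Aut E → ℂˣ) : Prop :=
  ∀ A : Pr E, A.p ∉ S → ∀ g ∈ W, g ∈ A.I → ν g = 1

/-- the product of the conjugates of a character -/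
def Nm {G : Type} [Group G] (g : G) (s : ℕ) (ν : G → ℂˣ) (x : G) : ℂˣ :=
  ∏ j ∈ Finset.range s, ν ((g ^ j)⁻¹ * x * g ^ j)

/-- every prime above `p` has a `p`-Frobenius element in `W` -/
def Good (W : Subgroup (Aut E)) (p : ℕ) : Prop :=
  ∀ A : Pr E, A.p = p → ∃ φ ∈ W, A.IsFrob p φ

/-- a chosen primitive root of unity -/
def zt (E : Type) [Field E] (n : ℕ) : E :=
  if h : ∃ ζ : E, IsPrimitiveRoot ζ n then h.choose else 1

/-- a chosen `n`-th root -/
def rt {E : Type} [Field E] (n : ℕ) (x : E) : E := if h : ∃ y : E, y ^ n = x then h.choose else 0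

/-- the Kummer cocycle -/
def kc (n : ℕ) (x : E) (g : Aut E) : ZMod n :=
  if h : ∃ k : ZMod n, g (rt n x) = zt E n ^ k.val * rt n x then h.choose else 0

/-- the cyclotomic character modulo `n` -/
def chi (E : Type) [Field E] [CharZero E] (n : ℕ) : Aut E →* (ZMod n)ˣ :=
  if h : n ≠ 0 ∧ IsPrimitiveRoot (zt E n) n then
    haveI : NeZero n := ⟨h.1⟩
    h.2.autToPow ℚ
  else 1

/-- the cyclotomic character modulo `l` is onto on `W` -/
def Full (W : Subgroup (Aut E)) (l : ℕ) : Prop := ∀ c : (ZMod l)ˣ, ∃ g ∈ W, chi E l g = c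

/-- the subgroup of index `s` cut out by the cyclotomic character modulo `l` -/
def Ws (W : Subgroup (Aut E)) (l s : ℕ) : Subgroup (Aut E) :=
  W ⊓ ((powMonoidHom ((l - 1) / s)).comp (chi E l)).ker

/-- the data of the independent case on the target side -/
structure BE (W : Subgroup (Aut E)) (r s : ℕ) (m : Aut E) : Prop where
  opn : IsOpen (W : Set (Aut E))
  nrm : W.Normal
  rp : r.Prime
  r2 : r ≠ 2
  sp : s.Prime
  sr : s ≠ r
  fm : W ≤ Fm E r
  mu : ∀ n : ℕ, n ≠ 0 → m ∈ Fm E n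
  ord : ∀ i : ℕ, m ^ i ∈ W ↔ s ∣ i

end Groups

section Two
variable {E₁ E₂ : Type} [Field E₁] [CharZero E₁] [Field E₂] [CharZero E₂]

/-- a continuous open homomorphism on an open subgroup -/
structure Setup (V : Subgroup (Aut E₁)) (α : Aut E₁ → Aut E₂) : Prop where
  opn : IsOpen (V : Set (Aut E₁))
  mul : ∀ g ∈ V, ∀ h ∈ V, α (g * h) = α g * α h
  cont : ∀ W : Subgroup (Aut E₂), IsOpen (W : Set (Aut E₂)) →
    ∃ V' : Subgroup (Aut E₁), IsOpen (V' : Set (Aut E₁)) ∧ V' ≤ V ∧ ∀ g ∈ V', α g ∈ W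
  omap : ∀ V' : Subgroup (Aut E₁), IsOpen (V' : Set (Aut E₁)) → V' ≤ V →
    ∃ W : Subgroup (Aut E₂), IsOpen (W : Set (Aut E₂)) ∧ ∀ w ∈ W, ∃ g ∈ V', α g = w

variable {V : Subgroup (Aut E₁)} {α : Aut E₁ → Aut E₂}

/-- the homomorphism on `V` -/
def Setup.hom (h : Setup V α) : V →* Aut E₂ :=
  MonoidHom.mk' (fun g => α g) fun g g' => h.mul g g.2 g' g'.2

/-- the preimage -/
def Setup.pre (h : Setup V α) (W : Subgroup (Aut E₂)) : Subgroup (Aut E₁) :=
  (W.comap h.hom).map V.subtype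

/-- the image -/
def Setup.img (h : Setup V α) (V' : Subgroup (Aut E₁)) : Subgroup (Aut E₂) :=
  (V'.comap V.subtype).map h.hom

theorem Setup.mem_pre (h : Setup V α) {W : Subgroup (Aut E₂)} {g : Aut E₁} :
    g ∈ h.pre W ↔ g ∈ V ∧ α g ∈ W :=
  ⟨by rintro ⟨x, hx, rfl⟩; exact ⟨x.2, hx⟩, fun hg => ⟨⟨g, hg.1⟩, hg.2, rfl⟩⟩

theorem Setup.mem_img (h : Setup V α) {V' : Subgroup (Aut E₁)} {w : Aut E₂} :
    w ∈ h.img V' ↔ ∃ g ∈ V', g ∈ V ∧ α g = w :=
  ⟨by rintro ⟨x, hx, rfl⟩; exact ⟨x, hx, x.2, rfl⟩,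
    by rintro ⟨g, h1, h2, rfl⟩; exact ⟨⟨g, h2⟩, h1, rfl⟩⟩

/-- the prime `B` of the target is hit from the prime `A` of the source -/
def Hit (V : Subgroup (Aut E₁)) (α : Aut E₁ → Aut E₂) (l : ℕ) (A : Pr E₁) (B : Pr E₂) : Prop :=
  A.p ≠ l ∧ B.p ≠ l ∧ ∃ τ ∈ V, τ ∈ A.I ∧ ProL l τ ∧ α τ ≠ 1 ∧ α τ ∈ B.I

/-- the embedding `j` induces `α` on `V` -/
def Ind (V : Subgroup (Aut E₁)) (α : Aut E₁ → Aut E₂) (j : E₂ →+* E₁) : Prop :=
  ∀ g ∈ V, ∀ x, g (j x) = j (α g x)

/-- the restriction map along a fixed embedding -/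
structure IOD (j : E₂ →+* E₁) (V : Subgroup (Aut E₁)) (ι : Aut E₁ → Aut E₂) : Prop where
  setup : Setup V ι
  ind : Ind V ι j
  surj : ∀ w, ∃ g ∈ V, ι g = w
  mem : ∀ g : Aut E₁, (∀ x, g (j x) = j x) → g ∈ V
  fix : ∀ z, (∀ g : Aut E₁, (∀ x, g (j x) = j x) → g z = z) → ∃ x, j x = z

/-- the elements killed by all other conjugates of `α` -/
def Mt (V : Subgroup (Aut E₁)) (α : Aut E₁ → Aut E₂) : Set (Aut E₁) :=
  {x | x ∈ V.normalCore ∧ ∀ t, t ∉ V → α (t⁻¹ * x * t) = 1}

end Two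

section NF

/-- congruence modulo `r ^ T` at the primes above `r` -/
def Cg {L : Type} [Field L] (r T : ℕ) (x y : L) : Prop :=
  ∀ B : Pr L, B.p = r → B.Ge T (x - y)

/-- a divisor: finite support, values in the value groups -/
def IsDv {L : Type} [Field L] (D : Pr L → ℚ) : Prop :=
  {B | D B ≠ 0}.Finite ∧ ∀ B : Pr L, ∃ z, z ≠ 0 ∧ B.w z = D B

/-- relative index of submodules -/
def ri {M : Type} [AddCommGroup M] (A B : Submodule ℤ M) : ℕ :=
  A.toAddSubgroup.relIndex B.toAddSubgroup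

/-- the norm operator -/
def Ns {M : Type} [AddCommGroup M] (γ : Module.End ℤ M) (n : ℕ) : Module.End ℤ M :=
  ∑ j ∈ Finset.range n, γ ^ j

/-- the order of the zeroth Tate cohomology of `U` -/
def h0 {M : Type} [AddCommGroup M] (γ : Module.End ℤ M) (n : ℕ) (U : Submodule ℤ M) : ℕ :=
  ri (U.map (Ns γ n)) (U ⊓ LinearMap.ker (γ - 1))

/-- the order of the first Tate cohomology of `U` -/
def h1 {M : Type} [AddCommGroup M] (γ : Module.End ℤ M) (n : ℕ) (U : Submodule ℤ M) : ℕ :=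
  ri (U.map (γ - 1)) (U ⊓ LinearMap.ker (Ns γ n))

/-- independent families in `U` stay independent over the complex numbers -/
def CInj {M X : Type} [AddCommGroup M] (U : Submodule ℤ M) (ψ : M →+ (X → ℂ)) : Prop :=
  ∀ (ι : Type) [Fintype ι] (v : ι → M), (∀ i, v i ∈ U) → LinearIndependent ℤ v →
    LinearIndependent ℂ fun i => ψ (v i)

/-- the action of an automorphism on the multiplicative group -/
def act {L : Type} [Field L] [CharZero L] (γ : Aut L) : Module.End ℤ (Additive Lˣ) :=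
  (MonoidHom.toAdditive (Units.map (γ : L →* L))).toIntLinearMap

/-- the global units -/
def UU (L : Type) [Field L] : Submodule ℤ (Additive Lˣ) :=
  (Subgroup.toAddSubgroup
    { carrier := {x : Lˣ | ∀ B : Pr L, B.w x = 0}
      mul_mem' := fun {a b} ha hb B => by
        rw [Units.val_mul, B.w_mul _ _ a.ne_zero b.ne_zero, ha B, hb B, add_zero]
      one_mem' := fun B => B.w_one
      inv_mem' := fun {a} ha B => by
        rw [Units.val_inv_eq_inv_val, B.w_inv, ha B, neg_zero] }).toIntSubmodule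

theorem mem_UU {L : Type} [Field L] {x : Additive Lˣ} :
    x ∈ UU L ↔ ∀ B : Pr L, B.w (x.toMul : Lˣ) = 0 := Iff.rfl

/-- the logarithmic map -/
def llog (L : Type) [Field L] [NumberField L] : Additive Lˣ →+ (NumberField.InfinitePlace L → ℂ) :=
  AddMonoidHom.mk' (fun x v => ((v.mult * Real.log (v (x.toMul : Lˣ)) : ℝ) : ℂ)) fun x y => by
    funext v
    rw [Pi.add_apply, toMul_add, Units.val_mul, map_mul,
      Real.log_mul (v.pos_iff.2 (Units.ne_zero _)).ne' (v.pos_iff.2 (Units.ne_zero _)).ne']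
    push_cast; ring

end NF

end Uc
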