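import Vale.Agent.P024.FS
import Vale.Agent.P024.CHL

/-! The end game. -/

noncomputable section
namespace Uc
open scoped Classical
variable {Ω E : Type} [Field Ω] [CharZero Ω] [Nice Ω] [IsAlgClosed Ω] [Field E] [CharZero E]
  [Nice E] {V : Subgroup (Aut Ω)} {α : Aut Ω → Aut E}

/-- finitely many residue characteristics hit `p` -/
def KL1 (V : Subgroup (Aut Ω)) (α : Aut Ω → Aut E) (p : ℕ) : Prop :=
  ∃ P Λ : Finset ℕ, ∀ (l : ℕ) (A : Pr Ω) (B : Pr E), l.Prime → l ≠ 2 → l ∉ Λ → B.p = p →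
    Hit V α l A B → A.p ∈ P

/-- boundedly many primes are not hit -/
def KL2 (V : Subgroup (Aut Ω)) (α : Aut Ω → Aut E) : Prop :=
  ∃ (w C : ℕ) (Λ : Finset ℕ), w ≠ 0 ∧ ∀ l : ℕ, l.Prime → l ≠ 2 → l ∉ Λ → w ∣ l - 1 →
    ∀ J : Finset ℕ, (∀ p ∈ J, p.Prime ∧ p ≠ l ∧
      ∀ (A : Pr Ω) (B : Pr E), B.p = p → ¬ Hit V α l A B) → J.card ≤ C

/-- every hit comes with a Frobenius element of bounded degree: `frq`, `exists_period`,
`hit_frob` -/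
theorem hit_data (h : Setup V α) {l : ℕ} (hl : l.Prime) {A : Pr Ω} {B : Pr E}
    (hh : Hit V α l A B) : ∃ (φ σ : Aut Ω) (f : ℕ), 0 < f ∧ f ≤ V.index ∧ A.IsFrob A.p φ ∧
      (∀ j : ℕ, φ ^ j ∈ V ↔ f ∣ j) ∧ σ ∈ V ∧ A.IsFrob (A.p ^ f) σ ∧ α σ ∈ B.D ∧
      ∀ T, Acts (l ^ T) (α σ) (A.p ^ f) := by
  obtain ⟨φ, hφ⟩ := frq A
  obtain ⟨f, h1, h2, h3⟩ := exists_period V (index_ne_zero h.opn) φ
  obtain ⟨σ, h4, h5, h6, h7⟩ := hit_frob h hl hh ((h3 f).2 dvd_rfl) (hφ.pow f)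
  exact ⟨φ, σ, f, h1, h2, hφ, h3, h4, h5, h6, h7⟩

/-- The set of primes `p ∤ 3 w` with `KL1` that are not `SelfHit` has at most `C` elements:
otherwise take `J` with `C + 1` of them, `P` the union of their sets (keep the primes), `l` from
`chl` outside all exceptional sets and `J`; some `p ∈ J` is hit from `A`; `hit_data` and
`Pr.exists_acts_pow` give `A.p ^ f = p ^ a` modulo `l`, so `A.p = p`. Then `fs`. -/
theorem eg (h : Setup V α) (h2 : KL2 V α) {V₁ : Subgroup (Aut Ω)} (h1 : IsOpen (V₁ : Set (Aut Ω)))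
    (S : Finset ℕ) (hS : ∀ A : Pr Ω, A.p ∉ S → (∃ φ ∈ V₁, A.IsFrob A.p φ) → KL1 V α A.p) :
    ∃ j : E →+* Ω, Ind V α j := by
  obtain ⟨w, C, Λ, hw, h2⟩ := h2
  have hfin : {p : ℕ | p.Prime ∧ ¬ p ∣ 3 * w ∧ KL1 V α p ∧ ¬ SelfHit V α p}.Finite := by
    by_contra hinf
    obtain ⟨J, hJ, hcard⟩ := Set.Infinite.exists_subset_card_eq hinf (C + 1)
    have hK : ∀ p : ℕ, ∃ P Λ : Finset ℕ, p ∈ J → ∀ (l : ℕ) (A : Pr Ω) (B : Pr E), l.Prime →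
        l ≠ 2 → l ∉ Λ → B.p = p → Hit V α l A B → A.p ∈ P := by
      intro p
      by_cases hp : p ∈ J
      · obtain ⟨P, Λ', h3⟩ := (hJ hp).2.2.1
        exact ⟨P, Λ', fun _ => h3⟩
      · exact ⟨∅, ∅, fun hp' => absurd hp' hp⟩
    choose P Λ' hK using hK
    obtain ⟨l, hl, hΛ, hd, hc⟩ := chl Ω hw V.index J (fun p hp => ⟨(hJ hp).1, (hJ hp).2.1⟩)
      ((J.biUnion P).filter Nat.Prime) (fun q hq => (Finset.mem_filter.1 hq).2)
      (Λ ∪ J ∪ J.biUnion Λ')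
    have h3 : 3 ∣ l - 1 := (Dvd.intro _ rfl).trans hd
    have hl2 : l ≠ 2 := by
      rintro rfl
      norm_num at h3
    simp only [Finset.mem_union, not_or, Finset.mem_biUnion, not_exists, not_and] at hΛ
    have := h2 l hl hl2 hΛ.1.1 ((Dvd.intro_left _ rfl).trans hd) J fun p hp =>
      ⟨(hJ hp).1, fun hc => hΛ.1.2 (hc ▸ hp), fun A B hB hh => ?_⟩
    · omega
    have h4 := hK p hp l A B hl hl2 (hΛ.2 p hp) hB hh
    by_cases h5 : A.p = p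
    · exact (hJ hp).2.2.2 ⟨l, A, B, hl, h3, (hc p hp).1, h5, hB, hh⟩
    obtain ⟨φ, σ, f, h6, h7, -, -, -, -, h8, h9⟩ := hit_data h hl hh
    have hnd : ¬ B.p ∣ l := fun hc => hh.2.1 ((Nat.prime_dvd_prime_iff_eq B.prime hl).1 hc)
    obtain ⟨a, ha⟩ := Pr.exists_acts_pow h8 hnd
    have h10 := (acts_iff hl.ne_zero).1 ha
    have h11 := (acts_iff hl.ne_zero).1 (show Acts l (α σ) (A.p ^ f) by simpa using h9 1)
    refine (hc p hp).2 A.p (Finset.mem_filter.2 ⟨Finset.mem_biUnion.2 ⟨p, hp, h4⟩, A.prime⟩) h5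
      f a h6 h7 ?_
    rw [← Nat.cast_pow, ← h11, h10, hB, Nat.cast_pow]
  refine fs h h1 (S ∪ hfin.toFinset ∪ (3 * w).primeFactors) fun A hA hφ => ?_
  simp only [Finset.mem_union, not_or, Set.Finite.mem_toFinset, Set.mem_ofPred_eq,
    Nat.mem_primeFactors] at hA
  by_contra hc
  exact hA.1.2 ⟨A.prime, fun hd => hA.2 ⟨A.prime, hd, by omega⟩, hS A hA.1.1 hφ, hc⟩

end Uc
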