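import Vale.Agent.P024.Defs

/-! Lattices with an automorphism of finite order. -/

noncomputable section
namespace Uc
open Polynomial
open scoped Classical
variable {Λ : Type} [AddCommGroup Λ] [Module.Free ℤ Λ] [Module.Finite ℤ Λ]

theorem Lat2_index (f : Module.End ℤ Λ) :
    (LinearMap.range f).toAddSubgroup.index = (LinearMap.det f).natAbs := by
  by_cases hd : LinearMap.det f = 0
  · rw [hd, Int.natAbs_zero]
    by_contra hm
    set m := (LinearMap.range f).toAddSubgroup.index with hm'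
    let b := Module.Free.chooseBasis ℤ Λ
    have h1 : ∀ i, ∃ y, f y = (m : ℤ) • b i := fun i => by
      have := (LinearMap.range f).toAddSubgroup.nsmul_index_mem (b i)
      rw [natCast_zsmul]
      exact this
    choose y hy using h1
    have h2 : f ∘ₗ b.constr ℤ y = (m : ℤ) • LinearMap.id := b.ext fun i => by
      simp only [LinearMap.comp_apply, Module.Basis.constr_basis, hy, LinearMap.smul_apply,
        LinearMap.id_apply]
    have h3 := congrArg LinearMap.det h2
    rw [LinearMap.det_comp, hd, zero_mul, LinearMap.det_smul, LinearMap.det_id, mul_one] at h3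
    exact pow_ne_zero _ (by exact_mod_cast hm) h3.symm
  · have hk : LinearMap.ker f = ⊥ := by
      by_contra h
      exact hd (LinearMap.det_eq_zero_iff_ker_ne_bot.2 h)
    have h1 := Submodule.natAbs_det_equiv (LinearMap.range f)
      (LinearEquiv.ofInjective f (LinearMap.ker_eq_bot.1 hk))
    have h2 : (LinearMap.range f).subtype ∘ₗ AddMonoidHom.toIntLinearMap
        ((LinearEquiv.ofInjective f (LinearMap.ker_eq_bot.1 hk) : Λ ≃ₗ[ℤ] LinearMap.range f) :
          Λ →+ LinearMap.range f) = f := LinearMap.ext fun _ => rfl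
    rw [h2] at h1
    rw [h1]
    rfl

/-- the index of the image is the value of the characteristic polynomial
(`Submodule.natAbs_det_equiv`, `LinearMap.eval_charpoly`) -/
theorem index_range (γ : Module.End ℤ Λ) (c : ℤ) :
    (LinearMap.range (γ - c • (1 : Module.End ℤ Λ))).toAddSubgroup.index =
      (γ.charpoly.eval c).natAbs := by
  rw [LinearMap.eval_charpoly, ← Lat2_index, Algebra.algebraMap_eq_smul_one, ← neg_sub,
    LinearMap.range_neg]

theorem Lat2_inj (γ : Module.End ℤ Λ) {c : ℤ} (h0 : γ.charpoly.eval c ≠ 0) :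
    Function.Injective (γ - c • (1 : Module.End ℤ Λ)) := by
  rw [← LinearMap.ker_eq_bot]
  by_contra h
  have h1 := index_range γ c
  rw [Lat2_index, LinearMap.det_eq_zero_iff_ker_ne_bot.2 h, Int.natAbs_zero] at h1
  exact h0 (Int.natAbs_eq_zero.1 h1.symm)

/-- Many solutions of `γ u = c u` modulo `r ^ T`. On the finite group `Λ / r ^ T` kernel and
cokernel of `γ - c` have the same size; the cokernel is `Q / r ^ T Q` where `Q` is finite of order
divisible by `r ^ T`, and has as many elements as the `r ^ T`-torsion of `Q`, which contains a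
subgroup of order `r ^ T` (`Sylow.exists_subgroup_card_pow_prime`). -/
theorem lat_lo (γ : Module.End ℤ Λ) {c : ℤ} {r T : ℕ} (hr : r.Prime)
    (h0 : γ.charpoly.eval c ≠ 0) (h : (r : ℤ) ^ T ∣ γ.charpoly.eval c) :
    ∃ S : Finset Λ, r ^ T ≤ S.card ∧ (∀ u ∈ S, ∃ y, γ u = c • u + (r : ℤ) ^ T • y) ∧
      ∀ u ∈ S, ∀ u' ∈ S, (∃ y, u - u' = (r : ℤ) ^ T • y) → u = u' := by
  have : Fact r.Prime := ⟨hr⟩
  set f := γ - c • (1 : Module.End ℤ Λ) with hf
  set N := (LinearMap.range f).toAddSubgroup with hN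
  have hi : Nat.card (Multiplicative (Λ ⧸ N)) = (γ.charpoly.eval c).natAbs := index_range γ c
  have : Finite (Multiplicative (Λ ⧸ N)) :=
    Nat.finite_of_card_ne_zero (by rw [hi]; exact Int.natAbs_ne_zero.2 h0)
  obtain ⟨K, hK⟩ := Sylow.exists_subgroup_card_pow_prime (G := Multiplicative (Λ ⧸ N)) r (n := T)
    (by rw [hi, ← Int.natCast_dvd]; exact_mod_cast h)
  have h1 : ∀ q : K, ∃ u y : Λ, (QuotientAddGroup.mk y : Λ ⧸ N) = Multiplicative.toAdd q.1 ∧
      f u = (r : ℤ) ^ T • y := by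
    intro q
    obtain ⟨y, hy⟩ := QuotientAddGroup.mk_surjective (Multiplicative.toAdd q.1)
    have h2 : q ^ r ^ T = 1 := by rw [← hK]; exact pow_card_eq_one'
    have h3 : (QuotientAddGroup.mk (r ^ T • y) : Λ ⧸ N) = 0 := by
      rw [QuotientAddGroup.mk_nsmul, hy, ← toAdd_pow, ← Subgroup.coe_pow, h2]
      rfl
    obtain ⟨u, hu⟩ := (QuotientAddGroup.eq_zero_iff _).1 h3
    exact ⟨u, y, hy, by rw [hu, ← natCast_zsmul, Nat.cast_pow]⟩
  choose u y hy hu using h1
  have hn : (r : ℤ) ^ T ≠ 0 := pow_ne_zero _ (by exact_mod_cast hr.ne_zero)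
  have key : ∀ q q' : K, (∃ z, u q - u q' = (r : ℤ) ^ T • z) → q = q' := by
    rintro q q' ⟨z, hz⟩
    have h2 := congrArg f hz
    rw [map_sub, hu, hu, map_smul, ← smul_sub] at h2
    have h3 : y q - y q' = f z := smul_right_injective Λ hn h2
    have h4 : (QuotientAddGroup.mk (y q) : Λ ⧸ N) = QuotientAddGroup.mk (y q') :=
      QuotientAddGroup.eq_iff_sub_mem.2 ⟨z, h3.symm⟩
    rw [hy, hy] at h4
    exact Subtype.ext (Multiplicative.toAdd.injective h4)
  let _ : Fintype K := Fintype.ofFinite K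
  refine ⟨Finset.univ.image u, ?_, fun v hv => ?_, fun v hv v' hv' e => ?_⟩
  · rw [Finset.card_image_of_injective _ fun q q' e => key q q' ⟨0, by rw [e, sub_self, smul_zero]⟩,
      Finset.card_univ, ← Nat.card_eq_fintype_card, hK]
  · obtain ⟨q, -, rfl⟩ := Finset.mem_image.1 hv
    refine ⟨y q, ?_⟩
    rw [← hu, hf]
    simp
  · obtain ⟨q, -, rfl⟩ := Finset.mem_image.1 hv
    obtain ⟨q', -, rfl⟩ := Finset.mem_image.1 hv'
    rw [key q q' e]

/-- the order of `Q / r ^ T Q` is a power of `r` that divides the order of `Q` -/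
theorem lat_hi (γ : Module.End ℤ Λ) {c : ℤ} {r T a : ℕ} (hr : r.Prime)
    (h : ¬ (r : ℤ) ^ (a + 1) ∣ γ.charpoly.eval c) (S : Finset Λ)
    (h1 : ∀ u ∈ S, ∃ y, γ u = c • u + (r : ℤ) ^ T • y)
    (h2 : ∀ u ∈ S, ∀ u' ∈ S, (∃ y, u - u' = (r : ℤ) ^ T • y) → u = u') : S.card ≤ r ^ a := by
  have : Fact r.Prime := ⟨hr⟩
  have h0 : γ.charpoly.eval c ≠ 0 := fun e => h (by rw [e]; exact dvd_zero _)
  have hinj := Lat2_inj γ h0
  set f := γ - c • (1 : Module.End ℤ Λ) with hf
  set N := (LinearMap.range f).toAddSubgroup with hN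
  have hi : Nat.card (Multiplicative (Λ ⧸ N)) = (γ.charpoly.eval c).natAbs := index_range γ c
  have : Finite (Multiplicative (Λ ⧸ N)) :=
    Nat.finite_of_card_ne_zero (by rw [hi]; exact Int.natAbs_ne_zero.2 h0)
  let K : Subgroup (Multiplicative (Λ ⧸ N)) := (powMonoidHom (r ^ T)).ker
  have hp : IsPGroup r K := fun q => ⟨T, Subtype.ext q.2⟩
  obtain ⟨k, hk⟩ := IsPGroup.iff_card.1 hp
  have hka : k ≤ a := by
    by_contra hlt
    refine h ?_
    have h3 : r ^ (a + 1) ∣ Nat.card (Multiplicative (Λ ⧸ N)) :=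
      (pow_dvd_pow r (by omega : a + 1 ≤ k)).trans (hk ▸ K.card_subgroup_dvd_card)
    rw [hi, ← Int.natCast_dvd] at h3
    exact_mod_cast h3
  choose! y hy using h1
  have hu : ∀ u ∈ S, f u = (r : ℤ) ^ T • y u := fun u hu => by
    rw [hf, LinearMap.sub_apply, hy u hu]
    simp
  let φ : S → K := fun u => ⟨Multiplicative.ofAdd (QuotientAddGroup.mk (y u.1)), by
    show Multiplicative.ofAdd (QuotientAddGroup.mk (y u.1) : Λ ⧸ N) ^ r ^ T = 1
    rw [← ofAdd_nsmul, ← QuotientAddGroup.mk_nsmul, ofAdd_eq_one, QuotientAddGroup.eq_zero_iff]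
    exact ⟨u.1, by rw [hu u.1 u.2, ← natCast_zsmul, Nat.cast_pow]⟩⟩
  have hφ : Function.Injective φ := by
    intro u u' e
    have h4 : (QuotientAddGroup.mk (y u.1) : Λ ⧸ N) = QuotientAddGroup.mk (y u'.1) :=
      Multiplicative.ofAdd.injective (congrArg Subtype.val e)
    obtain ⟨z, hz⟩ := QuotientAddGroup.eq_iff_sub_mem.1 h4
    refine Subtype.ext (h2 _ u.2 _ u'.2 ⟨z, hinj ?_⟩)
    rw [map_sub, hu _ u.2, hu _ u'.2, map_smul, hz, smul_sub]
  have h5 := Nat.card_le_card_of_injective φ hφ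
  rw [Nat.card_eq_fintype_card, Fintype.card_coe, hk] at h5
  exact h5.trans (Nat.pow_le_pow_right hr.pos hka)

end Uc
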