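import Vale.Agent.P024.Lat
import Vale.Agent.P024.Lat2

/-! An upper bound for twisted eigenspaces. -/

noncomputable section
namespace Uc
open NumberField
open scoped Classical

theorem EIGa_lte {l n T : ℕ} (hl : l.Prime) (h2 : l ≠ 2) (hn : 0 < n) (hT : 0 < T) {c : ℤ}
    (hc : (l : ℤ) ^ T ∣ c ^ n - 1) :
    ∃ k : ℤ, ¬ (l : ℤ) ^ (T + n + 1) ∣ (c + (l : ℤ) ^ T * k) ^ n - 1 := by
  by_contra h
  push Not at h
  have hp : Prime (l : ℤ) := Nat.prime_iff_prime_int.1 hl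
  have h0 := h 0
  have h1 := h 1
  rw [mul_zero, add_zero] at h0
  rw [mul_one] at h1
  have h3 := dvd_sub h1 h0
  rw [sub_sub_sub_cancel_right] at h3
  have hlT : (l : ℤ) ∣ (l : ℤ) ^ T := dvd_pow_self _ hT.ne'
  have h4 : ¬ (l : ℤ) ∣ c + (l : ℤ) ^ T := fun h5 => by
    have h6 : (l : ℤ) ∣ c ^ n := dvd_pow ((dvd_add_left hlT).1 h5) hn.ne'
    have h7 := dvd_sub h6 (hlT.trans hc)
    rw [sub_sub_cancel] at h7
    exact hp.not_dvd_one h7
  rw [pow_dvd_iff_le_emultiplicity, Int.emultiplicity_pow_sub_pow hl (hl.odd_of_ne_two h2)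
    (by rwa [add_sub_cancel_left]) h4, add_sub_cancel_left,
    emultiplicity_pow_self_of_prime hp, add_assoc, Nat.cast_add,
    ENat.add_le_add_iff_left (ENat.natCast_ne_top T), ← pow_dvd_iff_le_emultiplicity] at h3
  have h5 := Nat.le_of_dvd hn h3
  have h6 := Nat.lt_pow_self (n := n + 1) hl.one_lt
  omega

theorem EIGa_pow {l m ρ : ℕ} (hl : l.Prime) {z : ℤ} (h : ¬ (l : ℤ) ^ (m + 1) ∣ z) :
    ¬ (l : ℤ) ^ (m * ρ + 1) ∣ z ^ ρ := by
  have hp : Prime (l : ℤ) := Nat.prime_iff_prime_int.1 hl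
  rw [pow_dvd_iff_le_emultiplicity, not_le, Nat.cast_add_one,
    ENat.lt_add_one_iff (ENat.natCast_ne_top _)] at h ⊢
  rw [emultiplicity_pow hp, Nat.cast_mul, mul_comm]
  exact mul_le_mul_left h _

/-- See the blueprint, section EIG. -/
theorem eiga {M X : Type} [AddCommGroup M] [Fintype X] (γ : Module.End ℤ M) {n : ℕ} (hn : 0 < n)
    (hγ : γ ^ n = 1) (U : Submodule ℤ M) (hU : ∀ x ∈ U, γ x ∈ U) (hfg : U.FG) (ψ : M →+ (X → ℂ))
    (hψ : CInj U ψ) (ht : {x | x ∈ U ∧ ψ x = 0}.Finite) (P : Module.End ℂ (X → ℂ))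
    (hP : ∀ x, ψ (γ x) = P (ψ x)) {ρ : ℕ} (hρ : ∀ ω, Module.finrank ℂ ↥(P.eigenspace ω) ≤ ρ)
    {l : ℕ} (hl : l.Prime) (h2 : l ≠ 2) : ∃ C : ℕ, ∀ T c : ℕ, 0 < T →
      (l : ℤ) ^ T ∣ (c : ℤ) ^ n - 1 →
      ∀ S : Finset M, (∀ u ∈ S, u ∈ U ∧ ∃ y ∈ U, γ u = (c : ℤ) • u + (l : ℤ) ^ T • y) →
      (∀ u ∈ S, ∀ u' ∈ S, (∃ y ∈ U, u - u' = (l : ℤ) ^ T • y) → u = u') →
      S.card ≤ C * l ^ (T * ρ) := by
  obtain ⟨Λ, hΛ⟩ : ∃ Λ : Submodule ℤ (X → ℂ), Λ = U.map ψ.toIntLinearMap := ⟨_, rfl⟩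
  have hmem : ∀ v, v ∈ Λ ↔ ∃ u ∈ U, ψ u = v := fun v => by
    rw [hΛ]
    exact Submodule.mem_map
  have : Module.Finite ℤ Λ := Module.Finite.iff_fg.2 (hΛ ▸ hfg.map _)
  have : Module.Free ℤ Λ := Module.free_of_finite_type_torsion_free'
  have hst : ∀ v ∈ Λ, (P.restrictScalars ℤ) v ∈ Λ := fun v hv => by
    obtain ⟨u, hu, rfl⟩ := (hmem v).1 hv
    exact (hmem _).2 ⟨γ u, hU u hu, hP u⟩
  obtain ⟨g, hg⟩ : ∃ g : Module.End ℤ Λ, ∀ v, (g v : X → ℂ) = P v :=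
    ⟨(P.restrictScalars ℤ).restrict hst, fun _ => rfl⟩
  have hgn : g ^ n = 1 := by
    have key : ∀ (k : ℕ) (v : Λ) (u : M), ψ u = v → ψ ((γ ^ k) u) = (g ^ k) v := fun k => by
      induction k with
      | zero => exact fun v u h => h
      | succ k ih =>
        intro v u h
        rw [pow_succ', pow_succ', Module.End.mul_apply, Module.End.mul_apply, hg, hP, ih v u h]
    ext v : 1
    obtain ⟨u, -, hu⟩ := (hmem v).1 v.2
    refine Subtype.ext ?_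
    rw [← key n v u hu, hγ]
    exact hu
  have hci : CInj ⊤ Λ.subtype.toAddMonoidHom := fun ι _ v _ hv => by
    choose u hu hu' using fun i => (hmem (v i)).1 (v i).2
    have h1 : LinearIndependent ℤ (ψ.toIntLinearMap ∘ u) := by
      have := hv.map' Λ.subtype Λ.ker_subtype
      rwa [show Λ.subtype ∘ v = ψ.toIntLinearMap ∘ u from funext fun i => (hu' i).symm] at this
    have h3 := hψ ι u hu (h1.of_comp _)
    simp only [hu'] at h3
    exact h3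
  have hdvd : g.charpoly ∣ (Polynomial.X ^ n - 1) ^ ρ := by
    refine dvd_of_mult ((Polynomial.monic_X_pow_sub_C (1 : ℤ) hn.ne').pow ρ) g.charpoly_monic
      fun ω => ?_
    by_cases h0 : (g.charpoly.map (Int.castRingHom ℂ)).rootMultiplicity ω = 0
    · exact h0.trans_le (Nat.zero_le _)
    · rw [mult_X_pow_sub_one hn, if_pos (mult_root hn hgn h0), mult_eq g hn hgn _ hci P hg]
      exact (Submodule.finrank_mono inf_le_right).trans (hρ ω)
  refine ⟨ht.toFinset.card * l ^ (n * ρ), fun T c hT hc S h1 h3 => ?_⟩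
  obtain ⟨k, hk⟩ := EIGa_lte hl h2 hn hT hc
  have hev : ¬ (l : ℤ) ^ ((T + n) * ρ + 1) ∣ g.charpoly.eval (c + (l : ℤ) ^ T * k) := fun h =>
    EIGa_pow hl hk (h.trans (by simpa using Polynomial.eval_dvd (x := c + (l : ℤ) ^ T * k) hdvd))
  obtain ⟨f, hf⟩ : ∃ f : M → Λ, ∀ u ∈ U, (f u : X → ℂ) = ψ u :=
    ⟨fun u => if h : u ∈ U then ⟨ψ u, (hmem _).2 ⟨u, h, rfl⟩⟩ else 0, fun u hu => by
      simp only [dif_pos hu]⟩
  obtain ⟨N, hN⟩ : ∃ N : Submodule ℤ Λ, ∀ v, v ∈ N ↔ ∃ w, v = (l : ℤ) ^ T • w :=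
    ⟨LinearMap.range ((l : ℤ) ^ T • LinearMap.id), fun v =>
      ⟨fun ⟨w, h⟩ => ⟨w, h.symm⟩, fun ⟨w, h⟩ => ⟨w, h.symm⟩⟩⟩
  obtain ⟨r, hr⟩ : ∃ r : Λ ⧸ N → Λ, ∀ q, Submodule.Quotient.mk (r q) = q :=
    ⟨fun q => (N.mkQ_surjective q).choose, fun q => (N.mkQ_surjective q).choose_spec⟩
  have hhi := lat_hi g (T := T) hl hev (S.image fun u => r (Submodule.Quotient.mk (f u)))
    (fun v hv => by
      obtain ⟨u, hu, rfl⟩ := Finset.mem_image.1 hv
      obtain ⟨hu1, y, hy, e⟩ := h1 u hu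
      obtain ⟨w, hw⟩ := (hN _).1 ((Submodule.Quotient.eq N).1 (hr (Submodule.Quotient.mk (f u))))
      have e1 : g (f u) = (c : ℤ) • f u + (l : ℤ) ^ T • f y := Subtype.ext (by
        rw [hg, hf u hu1, ← hP, e, map_add, map_zsmul, map_zsmul, ← hf u hu1, ← hf y hy]
        rfl)
      rw [eq_add_of_sub_eq' hw]
      refine ⟨f y + g w - (c : ℤ) • w - k • (f u + (l : ℤ) ^ T • w), ?_⟩
      rw [map_add, map_zsmul, e1]
      module)
    (fun v hv v' hv' h => by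
      obtain ⟨u, hu, rfl⟩ := Finset.mem_image.1 hv
      obtain ⟨u', hu', rfl⟩ := Finset.mem_image.1 hv'
      have := (Submodule.Quotient.eq N).2 ((hN _).2 h)
      rw [hr, hr] at this
      rw [this])
  have hcard := Finset.card_le_mul_card_image (f := fun u => r (Submodule.Quotient.mk (f u))) S
    ht.toFinset.card (fun b hb => by
      obtain ⟨u0, hu0, rfl⟩ := Finset.mem_image.1 hb
      have key : ∀ u ∈ S.filter fun u => r (Submodule.Quotient.mk (f u)) =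
          r (Submodule.Quotient.mk (f u0)), ∃ y ∈ U, u - u0 - (l : ℤ) ^ T • y ∈ ht.toFinset := by
        intro u hu
        obtain ⟨hu1, e⟩ := Finset.mem_filter.1 hu
        have e1 := congrArg (Submodule.Quotient.mk (p := N)) e
        rw [hr, hr] at e1
        obtain ⟨w, hw⟩ := (hN _).1 ((Submodule.Quotient.eq N).1 e1)
        obtain ⟨y, hy, e2⟩ := (hmem w).1 w.2
        refine ⟨y, hy, ht.mem_toFinset.2 ⟨U.sub_mem (U.sub_mem (h1 u hu1).1 (h1 u0 hu0).1)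
          (U.smul_mem _ hy), ?_⟩⟩
        rw [map_sub, map_sub, map_zsmul, e2, ← hf u (h1 u hu1).1, ← hf u0 (h1 u0 hu0).1,
          sub_eq_zero]
        exact congrArg Subtype.val hw
      choose! y hy hy' using key
      refine Finset.card_le_card_of_injOn (fun u => u - u0 - (l : ℤ) ^ T • y u) hy'
        fun u hu u' hu' e => h3 u (Finset.mem_filter.1 hu).1 u' (Finset.mem_filter.1 hu').1
          ⟨y u - y u', U.sub_mem (hy u hu) (hy u' hu'), ?_⟩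
      rw [smul_sub]
      dsimp only at e
      linear_combination (norm := module) e)
  refine hcard.trans ((Nat.mul_le_mul_left _ hhi).trans_eq ?_)
  ring

end Uc
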