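import Vale.Agent.P024.Auto

/-! Automorphisms of open subgroups, and the extension to a normalizer. -/

noncomputable section
namespace Uc
open scoped Classical
variable {Ω E : Type} [Field Ω] [CharZero Ω] [Nice Ω] [IsAlgClosed Ω] [Field E] [CharZero E]
  [Nice E] {j : E →+* Ω} {V₀ : Subgroup (Aut Ω)} {ι : Aut Ω → Aut E} {U : Subgroup (Aut E)}
  {φ ψ : Aut E → Aut E}

variable {V : Subgroup (Aut Ω)} {α : Aut Ω → Aut E}

theorem ExtA_symm {t : Aut Ω} (ht : ∀ x ∈ V.normalCore, α x = 1 ↔ α (t⁻¹ * x * t) = 1) :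
    ∀ x ∈ V.normalCore, α x = 1 ↔ α (t⁻¹⁻¹ * x * t⁻¹) = 1 := fun x hx => by
  have := ht (t * x * t⁻¹) ((Subgroup.normalCore_normal V).conj_mem x hx t)
  rw [inv_inv, this]
  simp [mul_assoc]

theorem ExtA_phi (h : Setup V α) {t : Aut Ω}
    (ht : ∀ x ∈ V.normalCore, α x = 1 ↔ α (t⁻¹ * x * t) = 1) :
    ∃ φ : Aut E → Aut E, Setup (h.img V.normalCore) φ ∧
      ∀ x ∈ V.normalCore, φ (α x) = α (t * x * t⁻¹) := by
  have hn := Subgroup.normalCore_normal V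
  have hle := Subgroup.normalCore_le V
  have ho := isOpen_normalCore h.opn
  have hch : ∀ u : Aut E, ∃ x : Aut Ω, u ∈ h.img V.normalCore → x ∈ V.normalCore ∧ α x = u := by
    intro u
    by_cases hu : u ∈ h.img V.normalCore
    · obtain ⟨x, h1, -, h2⟩ := h.mem_img.1 hu
      exact ⟨x, fun _ => ⟨h1, h2⟩⟩
    · exact ⟨1, fun hc => absurd hc hu⟩
  choose c hc using hch
  have key : ∀ x ∈ V.normalCore, α (t * c (α x) * t⁻¹) = α (t * x * t⁻¹) := by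
    intro x hx
    obtain ⟨h1, h2⟩ := hc (α x) (h.mem_img.2 ⟨x, hx, hle hx, rfl⟩)
    have h3 : α ((c (α x))⁻¹ * x) = 1 := by
      rw [h.mul _ (hle (inv_mem h1)) _ (hle hx), h.map_inv (hle h1), h2, inv_mul_cancel]
    have h4 := (ExtA_symm ht _ (mul_mem (inv_mem h1) hx)).1 h3
    have h5 : t * x * t⁻¹ = t * c (α x) * t⁻¹ * (t⁻¹⁻¹ * ((c (α x))⁻¹ * x) * t⁻¹) := by group
    rw [h5, h.mul _ (hle (hn.conj_mem _ h1 t)) _ (hle (by
      simpa using hn.conj_mem _ (mul_mem (inv_mem h1) hx) t)), h4, mul_one]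
  refine ⟨fun u => α (t * c u * t⁻¹), ⟨h.isOpen_img ho, fun u hu u' hu' => ?_, fun W hW => ?_,
    fun U' hU' hle' => ?_⟩, key⟩
  · obtain ⟨x, h1, -, rfl⟩ := h.mem_img.1 hu
    obtain ⟨x', h2, -, rfl⟩ := h.mem_img.1 hu'
    rw [← h.mul _ (hle h1) _ (hle h2), key _ h1, key _ h2, key _ (mul_mem h1 h2),
      ← h.mul _ (hle (hn.conj_mem _ h1 t)) _ (hle (hn.conj_mem _ h2 t))]
    congr 1
    group
  · refine ⟨h.img (V.normalCore ⊓ (h.pre W).comap (MulAut.conj t).toMonoidHom),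
      h.isOpen_img (isOpen_inf ho (isOpen_conj (h.isOpen_pre hW) t)), fun u hu => ?_,
      fun u hu => ?_⟩
    · obtain ⟨x, h1, h2, rfl⟩ := h.mem_img.1 hu
      exact h.mem_img.2 ⟨x, h1.1, h2, rfl⟩
    · obtain ⟨x, h1, h2, rfl⟩ := h.mem_img.1 hu
      show α (t * c (α x) * t⁻¹) ∈ W
      rw [key x h1.1]
      exact (h.mem_pre.1 h1.2).2
  · refine ⟨h.img (V.normalCore ⊓ (h.pre U').comap (MulAut.conj t⁻¹).toMonoidHom),
      h.isOpen_img (isOpen_inf ho (isOpen_conj (h.isOpen_pre hU') t⁻¹)), fun u hu => ?_⟩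
    obtain ⟨x, h1, h2, rfl⟩ := h.mem_img.1 hu
    refine ⟨α (t⁻¹ * x * t⁻¹⁻¹), (h.mem_pre.1 h1.2).2, ?_⟩
    show α (t * c (α (t⁻¹ * x * t⁻¹⁻¹)) * t⁻¹) = α x
    rw [key _ (hn.conj_mem _ h1.1 t⁻¹)]
    congr 1
    group

/-- See the blueprint, section Auto. -/
theorem ext_one (h : Setup V α) {t : Aut Ω}
    (ht : ∀ x ∈ V.normalCore, α x = 1 ↔ α (t⁻¹ * x * t) = 1) :
    ∃ ε : Aut E, ∀ x ∈ V.normalCore, α (t * x * t⁻¹) = ε * α x * ε⁻¹ := by
  have hn := Subgroup.normalCore_normal V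
  have hle := Subgroup.normalCore_le V
  obtain ⟨φ, h1, h2⟩ := ExtA_phi h ht
  obtain ⟨ψ, h3, h4⟩ := ExtA_phi h (ExtA_symm ht)
  obtain ⟨ε, hε⟩ := auto Ω h1 h3 (fun u hu => by
      obtain ⟨x, h5, -, rfl⟩ := h.mem_img.1 hu
      exact h.mem_img.2 ⟨_, hn.conj_mem _ h5 t, hle (hn.conj_mem _ h5 t), (h2 x h5).symm⟩)
    (fun u hu => by
      obtain ⟨x, h5, -, rfl⟩ := h.mem_img.1 hu
      exact h.mem_img.2 ⟨_, hn.conj_mem _ h5 t⁻¹, hle (hn.conj_mem _ h5 t⁻¹), (h4 x h5).symm⟩)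
    (fun u hu => by
      obtain ⟨x, h5, -, rfl⟩ := h.mem_img.1 hu
      rw [h4 x h5, h2 _ (hn.conj_mem _ h5 t⁻¹)]
      congr 1
      group)
    (fun u hu => by
      obtain ⟨x, h5, -, rfl⟩ := h.mem_img.1 hu
      rw [h2 x h5, h4 _ (hn.conj_mem _ h5 t)]
      congr 1
      group)
  exact ⟨ε, fun x hx => by rw [← h2 x hx, hε _ (h.mem_img.2 ⟨x, hx, hle hx, rfl⟩)]⟩

/-- `V'` is the set of all such `t`; `α' t` is the element of `ext_one`, unique by `slim` -/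
theorem ext_a (h : Setup V α) {t : Aut Ω} (h1 : t ∉ V)
    (ht : ∀ x ∈ V.normalCore, α x = 1 ↔ α (t⁻¹ * x * t) = 1) :
    ∃ (V' : Subgroup (Aut Ω)) (α' : Aut Ω → Aut E), V < V' ∧ Setup V' α' ∧ ∀ g ∈ V, α' g = α g := by
  have hn := Subgroup.normalCore_normal V
  have hle := Subgroup.normalCore_le V
  have ho := isOpen_normalCore h.opn
  let V' : Subgroup (Aut Ω) :=
    { carrier := {t | ∀ x ∈ V.normalCore, α x = 1 ↔ α (t⁻¹ * x * t) = 1}
      mul_mem' := fun {a b} ha hb x hx => by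
        rw [ha x hx, hb _ (by simpa using hn.conj_mem _ hx a⁻¹)]
        simp [mul_assoc]
      one_mem' := fun x _ => by simp
      inv_mem' := fun {a} ha => ExtA_symm ha }
  have hch : ∀ t : Aut Ω, ∃ ε : Aut E, t ∈ V' →
      ∀ x ∈ V.normalCore, α (t * x * t⁻¹) = ε * α x * ε⁻¹ := by
    intro t
    by_cases ht : t ∈ V'
    · obtain ⟨ε, hε⟩ := ext_one h ht
      exact ⟨ε, fun _ => hε⟩
    · exact ⟨1, fun hc => absurd hc ht⟩
  choose α' hα using hch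
  have uniq : ∀ a b : Aut E, (∀ x ∈ V.normalCore, a * α x * a⁻¹ = b * α x * b⁻¹) → a = b := by
    intro a b hab
    have := slim (h.isOpen_img ho) (g := b⁻¹ * a) fun u hu => by
      obtain ⟨x, h2, -, rfl⟩ := h.mem_img.1 hu
      have h3 : a * α x = b * α x * b⁻¹ * a := by rw [← hab x h2]; group
      unfold Commute SemiconjBy
      rw [mul_assoc, h3]
      group
    exact (inv_mul_eq_one.1 this).symm
  have hVV : V ≤ V' := fun v hv x hx => by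
    have := h.map_conj (hle hx) (inv_mem hv)
    rw [inv_inv] at this
    rw [this, mul_inv_eq_one, mul_eq_left]
  have he : ∀ g ∈ V, α' g = α g := fun g hg => uniq _ _ fun x hx => by
    rw [← hα g (hVV hg) x hx, h.map_conj (hle hx) hg]
  refine ⟨V', α', lt_of_le_of_ne hVV fun hc => h1 (hc ▸ ht), ⟨Subgroup.isOpen_mono hVV h.opn,
    fun a ha b hb => uniq _ _ fun x hx => ?_, fun W hW => ?_, fun V'' h2 _ => ?_⟩, he⟩
  · rw [← hα _ (mul_mem ha hb) x hx, show a * b * x * (a * b)⁻¹ = a * (b * x * b⁻¹) * a⁻¹ by group,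
      hα a ha _ (hn.conj_mem _ hx b), hα b hb x hx]
    group
  · obtain ⟨V₁, h2, h3, h4⟩ := h.cont W hW
    exact ⟨V₁, h2, h3.trans hVV, fun g hg => by rw [he g (h3 hg)]; exact h4 g hg⟩
  · obtain ⟨W, h3, h4⟩ := h.omap (V'' ⊓ V) (isOpen_inf h2 h.opn) inf_le_right
    refine ⟨W, h3, fun w hw => ?_⟩
    obtain ⟨g, h5, h6⟩ := h4 w hw
    exact ⟨g, h5.1, by rw [he g h5.2, h6]⟩

end Uc
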