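import Vale.Agent.P024.FDn
import Vale.Agent.P024.Dec
import Vale.Agent.P024.Dec2

/-! Density at infinite level; the algebraic closure. -/

noncomputable section
namespace Uc
open scoped Classical
variable {E : Type} [Field E] [CharZero E] [Nice E]

/-- `fd_fin` for `res W' x`; extend `B` to `A`; by `tr` some `g = w * x ^ a` with `w ∈ W'` fixes
`A`; apply `sd` for `W'` to the residue map `Frobenius ∘ (action of g)⁻¹`. -/
theorem fd {W W' : Subgroup (Aut E)} (h' : IsOpen (W' : Set (Aut E))) (hn : W'.Normal)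
    (hle : W' ≤ W) {x : Aut E} (hx : x ∈ W) (S : Finset ℕ) :
    ∃ (A : Pr E) (φ : Aut E) (a b : ℕ), A.p ∉ S ∧ φ ∈ W ∧ A.IsFrob A.p φ ∧
      (x ^ a)⁻¹ * φ ∈ W' ∧ (φ ^ b)⁻¹ * x ∈ W' := by
  have := numberField_Fx h'
  have hcl : IsClosed (W' : Set (Aut E)) := W'.isClosed_of_isOpen h'
  obtain ⟨ρ, hρ⟩ := exists_resHom hn
  have hap : ∀ (g : Aut E) (z : Fx W'), g ((Fx W').subtype z) = (Fx W').subtype (ρ g z) :=
    fun g z => by
      rw [hρ]
      exact (res_apply' hn g z).symm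
  have hone : ∀ g : Aut E, ρ g = 1 ↔ g ∈ W' := fun g => by
    rw [hρ]
    exact res_eq_one_iff h' (Top1_nrm hn g)
  obtain ⟨B, a, b, hS, hB, hb⟩ := fd_fin (ρ x) S
  obtain ⟨A, rfl⟩ := Pr.exists_ext (Fx W').subtype B
  rw [← map_pow] at hB hb
  have h1 : (x ^ a • A).comap (Fx W').subtype = A.comap (Fx W').subtype :=
    (Pr.comap_smul _ (hap _) A).trans hB.1
  obtain ⟨w, hw, hwA⟩ := tr hcl (A := x ^ a • A) (A' := A) fun z hz =>
    congrArg (fun C : Pr (Fx W') => C.w ⟨z, hz⟩) h1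
  rw [← mul_smul] at hwA
  obtain ⟨r, hr⟩ := Pr.exists_rsHom hwA
  have := A.charP
  have : Fact A.p.Prime := ⟨A.prime⟩
  obtain ⟨h, hh, hhA, hh2⟩ := sd hcl A (r.symm.toRingHom.comp (frobenius A.kk A.p))
    fun z hz hin => by
      change r.symm (A.rs z ^ A.p) = A.rs z
      rw [RingEquiv.symm_apply_eq, ← hr z hin, AlgEquiv.mul_apply]
      have h2 := hB.2 ⟨z, hz⟩ hin
      rw [Pr.comap_sm, map_sub, ← hap, map_pow] at h2
      have h3 : (x ^ a) z ∈ Fx W' := Top1_maps (Top1_nrm hn _) hz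
      have h4 : A.In ((x ^ a) z) := by
        have h5 := Pr.Val_in hwA hin
        rwa [AlgEquiv.mul_apply, h3 w hw] at h5
      rw [h3 w hw, ← Pr.rs_pow hin]
      exact ((Pr.rs_eq_iff h4 (hin.pow _)).2 h2).symm
  have hφ : ρ (w * x ^ a * h) = ρ (x ^ a) := by
    rw [map_mul, map_mul, (hone w).2 hw, (hone h).2 hh, one_mul, mul_one]
  refine ⟨A, w * x ^ a * h, a, b, hS,
    W.mul_mem (W.mul_mem (hle hw) (W.pow_mem hx a)) (hle hh), ?_, ?_, ?_⟩
  · refine Pr.isFrob_iff.2 ⟨by rw [mul_smul, hhA, hwA], fun z hz => ?_⟩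
    rw [AlgEquiv.mul_apply, hr _ (Pr.Val_in hhA hz), hh2 z hz]
    exact r.apply_symm_apply _
  · rw [← hone, map_mul, map_inv, hφ, inv_mul_cancel]
  · rw [← hone, map_mul, map_inv, map_pow, hφ, hb, inv_mul_cancel]

/-- completely split primes -/
theorem exists_split {W : Subgroup (Aut E)} (hW : IsOpen (W : Set (Aut E))) (S : Finset ℕ) :
    ∃ A : Pr E, A.p ∉ S ∧ A.D ≤ W ∧ ∃ φ ∈ W, A.IsFrob A.p φ := by
  obtain ⟨A, φ, -, -, hS, hφ, hF, -⟩ := fd (isOpen_normalCore hW) W.normalCore_normal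
    W.normalCore_le W.one_mem (S ∪ (ur hW).toFinset)
  rw [Finset.mem_union, not_or, Set.Finite.mem_toFinset] at hS
  have hI : A.I ≤ W := by
    by_contra h
    exact hS.2 ⟨A, rfl, h⟩
  refine ⟨A, hS.1, fun g hg => ?_, φ, hφ, hF⟩
  obtain ⟨a, i, hi, y, hy, rfl⟩ := df hF hg hW
  exact W.mul_mem (W.mul_mem (W.pow_mem hφ a) (hI hi)) hy

/-- Kummer independence. Otherwise the image of `W` is a proper subspace, so a nonzero linear
form `e` kills it, and a root of `∏ a i ^ e i` is fixed by `W`. -/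
theorem ki {W : Subgroup (Aut E)} {t : ℕ} (ht : t.Prime) (hW : W ≤ Fm E t) {ι : Type} [Fintype ι]
    (a : ι → E) (h0 : ∀ i, a i ≠ 0) (h1 : ∀ i, a i ∈ Fx W)
    (hi : ∀ e : ι → ℕ, (∃ y ∈ Fx W, y ^ t = ∏ i, a i ^ e i) → ∀ i, t ∣ e i) (v : ι → ZMod t) :
    ∃ x ∈ W, ∀ i, kc t (a i) x = v i := by
  have : Fact t.Prime := ⟨ht⟩
  let k : W →* Multiplicative (ι → ZMod t) := MonoidHom.mk'
    (fun g => Multiplicative.ofAdd fun i => kc t (a i) g) fun g h => by
      rw [← ofAdd_add]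
      refine congrArg _ (funext fun i => ?_)
      exact kc_mul_right ht.ne_zero (h0 i) (h1 i g g.2) (h1 i h h.2) (hW g.2)
  let P : Submodule (ZMod t) (ι → ZMod t) :=
    AddSubgroup.toZModSubmodule t (Subgroup.toAddSubgroup' k.range)
  have hP : ∀ u, u ∈ P ↔ ∃ g ∈ W, ∀ i, kc t (a i) g = u i := fun u => by
    constructor
    · rintro ⟨g, hg⟩
      exact ⟨g, g.2, fun i => congrFun (Multiplicative.ofAdd.injective hg) i⟩
    · rintro ⟨g, hg, h⟩
      exact ⟨⟨g, hg⟩, congrArg Multiplicative.ofAdd (funext h)⟩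
  rw [← hP]
  by_contra hv
  obtain ⟨f, hf, hPf⟩ := P.exists_le_ker_of_lt_top
    (lt_top_iff_ne_top.2 fun h => hv (h ▸ Submodule.mem_top))
  have h2 : ∏ i, a i ^ (f (Pi.single i 1)).val ≠ 0 :=
    Finset.prod_ne_zero_iff.2 fun i _ => pow_ne_zero _ (h0 i)
  have h3 := hi (fun i => (f (Pi.single i 1)).val) ⟨rt t _, fun g hg => by
    have h4 : g (∏ i, a i ^ (f (Pi.single i 1)).val) = ∏ i, a i ^ (f (Pi.single i 1)).val := by
      rw [map_prod]
      exact Finset.prod_congr rfl fun i _ => by rw [map_pow, h1 i g hg]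
    rw [← kc_eq_zero_iff ht.ne_zero h2 h4 (hW hg) (rt_pow ht.ne_zero _),
      kc_prod_pow ht.ne_zero _ _ _ (fun i _ => h0 i) (fun i _ => h1 i g hg) (hW hg)]
    have h5 : f (fun i => kc t (a i) g) = 0 := hPf ((hP _).2 ⟨g, hg, fun _ => rfl⟩)
    rw [← h5, LinearMap.pi_apply_eq_sum_univ]
    refine Finset.sum_congr rfl fun i _ => ?_
    rw [ZMod.natCast_zmod_val, smul_eq_mul, mul_comm]
    refine congrArg _ (congrArg _ (funext fun j => ?_))
    rw [Pi.single_apply]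
    simp only [eq_comm], rt_pow ht.ne_zero _⟩
  refine hf (LinearMap.pi_ext' fun i => LinearMap.ext_ring ?_)
  have h6 := (ZMod.natCast_eq_zero_iff _ _).2 (h3 i)
  rw [ZMod.natCast_zmod_val] at h6
  exact h6

variable {Ω : Type} [Field Ω] [CharZero Ω] [Nice Ω] [IsAlgClosed Ω]

variable {j : E →+* Ω} {V : Subgroup (Aut Ω)} {ι : Aut Ω → Aut E}

/-- primes with a Frobenius element in `W` that are primitive roots modulo `l` -/
theorem infinite_prim {W : Subgroup (Aut E)} (hW : IsOpen (W : Set (Aut E))) (hn : W.Normal)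
    {l : ℕ} (hl : l.Prime) (hf : Full W l) :
    {p : ℕ | orderOf (p : ZMod l) = l - 1 ∧ ∃ A : Pr E, A.p = p ∧ ∃ φ ∈ W, A.IsFrob p φ}.Infinite := by
  intro hfin
  have : Fact l.Prime := ⟨hl⟩
  obtain ⟨c, hc⟩ := IsCyclic.exists_ofOrder_eq_natCard (α := (ZMod l)ˣ)
  rw [Nat.card_eq_fintype_card, ZMod.card_units] at hc
  obtain ⟨g, hg, rfl⟩ := hf c
  have := normal_Fm (E := E) l
  obtain ⟨A, φ, a, b, hS, hφ, hF, ha, hb⟩ := fd (W' := W ⊓ Fm E l)
    (isOpen_inf hW (isOpen_Fm hl.ne_zero)) inferInstance inf_le_left hg (insert l hfin.toFinset)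
  rw [Finset.mem_insert, not_or, Set.Finite.mem_toFinset] at hS
  refine hS.2 ⟨?_, A, rfl, φ, hφ, hF⟩
  have h1 := (acts_iff hl.ne_zero).1
    (hF.acts fun h => hS.1 ((Nat.prime_dvd_prime_iff_eq A.prime hl).1 h))
  have h2 := (mem_Fm_iff hl.ne_zero).1 ha.2
  have h3 := (mem_Fm_iff hl.ne_zero).1 hb.2
  rw [map_mul, map_inv, map_pow, inv_mul_eq_one] at h2 h3
  rw [← h1, orderOf_units, ← hc]
  refine Nat.dvd_antisymm ?_ ?_
  · rw [← h2]
    exact orderOf_pow_dvd a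
  · rw [← h3]
    exact orderOf_pow_dvd b

end Uc
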