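import Vale.Agent.P024.NF

/-! The sum over primes of degree one. -/

noncomputable section
namespace Uc
open NumberField Filter Topology
open scoped Classical

theorem fda_summable (K : Type) [Field K] [NumberField K] {s : ℝ} (hs : 1 < s) :
    Summable fun B : Pr K => (B.p : ℝ) ^ (-s) := by
  have h0 : Summable fun n : ℕ => (n : ℝ) ^ (-s) := Real.summable_nat_rpow.2 (by linarith)
  refine summable_of_sum_le (c := Module.finrank ℚ K * ∑' n : ℕ, (n : ℝ) ^ (-s))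
    (fun _ => by positivity) fun T => ?_
  rw [Finset.sum_comp (fun n : ℕ => (n : ℝ) ^ (-s)) fun B : Pr K => B.p]
  refine le_trans ?_ (mul_le_mul_of_nonneg_left
    (h0.sum_le_tsum (T.image fun B : Pr K => B.p) fun _ _ => by positivity) (Nat.cast_nonneg _))
  rw [Finset.mul_sum]
  refine Finset.sum_le_sum fun n _ => ?_
  rw [nsmul_eq_mul]
  refine mul_le_mul_of_nonneg_right ?_ (by positivity)
  exact Nat.cast_le.2 (Pr.card_above_le n _ fun B hB => (Finset.mem_filter.1 hB).2)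

section
variable {F : Type} [Field F] [NumberField F]

theorem FDa_qv {v : HS F} {p : ℕ} (hp : p.Prime) (h : (p : 𝓞 F) ∈ v.asIdeal) :
    ∃ f : ℕ, 0 < f ∧ qv v = p ^ f := by
  obtain ⟨l, f, hl, hf, hm, hq⟩ := exists_prime_below v
  have : l = p := by
    by_contra hne
    exact Ord_cop ((Nat.coprime_primes hl hp).2 hne) hm h
  exact ⟨f, hf, this ▸ hq⟩

theorem FDa_summable_qv {θ : ℝ} (hθ : 1 < θ) : Summable fun v : HS F => (qv v : ℝ) ^ (-θ) := by
  obtain ⟨Φ, e, h⟩ := exists_hs (L := F)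
  rw [← Φ.summable_iff]
  refine Summable.of_nonneg_of_le (fun _ => by simp only [Function.comp_apply]; positivity)
    (fun B => ?_) (fda_summable F hθ)
  obtain ⟨f, hf, hq⟩ := FDa_qv B.prime (h B).2.2.1
  refine Real.rpow_le_rpow_of_nonpos (by exact_mod_cast B.prime.pos) ?_ (by linarith)
  rw [hq]
  exact_mod_cast Nat.le_self_pow hf.ne' _

theorem FDa_exists {J : Ideal (𝓞 F)} (h0 : J ≠ ⊥) (h1 : J ≠ ⊤) : ∃ v : HS F, v.asIdeal ∣ J := by
  obtain ⟨M, hM, hJ⟩ := Ideal.exists_le_maximal J h1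
  exact ⟨⟨M, hM.isPrime, fun h => h0 (le_bot_iff.1 (h ▸ hJ))⟩, Ideal.dvd_iff_le.2 hJ⟩

theorem FDa_half {θ : ℝ} (hθ : 1 < θ) (v : HS F) : (qv v : ℝ) ^ (-θ) ≤ 1 / 2 := by
  have h1 : (2 : ℝ) ≤ qv v := by exact_mod_cast two_le_qv v
  calc (qv v : ℝ) ^ (-θ) ≤ (qv v : ℝ) ^ (-1 : ℝ) :=
        Real.rpow_le_rpow_of_exponent_le (by linarith) (by linarith)
    _ ≤ 1 / 2 := by
        rw [Real.rpow_neg_one, inv_eq_one_div]
        exact one_div_le_one_div_of_le (by norm_num) h1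

theorem FDa_bound {θ : ℝ} (hθ : 1 < θ) (U : Finset (HS F)) :
    ∀ T : Finset (Ideal (𝓞 F)), (∀ J ∈ T, J ≠ ⊥ ∧ ∀ w : HS F, w.asIdeal ∣ J → w ∈ U) →
      ∑ J ∈ T, (Ideal.absNorm J : ℝ) ^ (-θ) ≤
        ∏ v ∈ U, (1 + (qv v : ℝ) ^ (-θ) + 2 * ((qv v : ℝ) ^ (-θ)) ^ 2) := by
  induction U using Finset.induction_on with
  | empty =>
    intro T hT
    have h1 : T ⊆ {⊤} := fun J hJ => Finset.mem_singleton.2 (by
      by_contra h
      obtain ⟨v, hv⟩ := FDa_exists (hT J hJ).1 h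
      simpa using (hT J hJ).2 v hv)
    refine (Finset.sum_le_sum_of_subset_of_nonneg h1 fun _ _ _ => by positivity).trans ?_
    simp
  | insert v U hv ih =>
    rw [Finset.prod_insert hv]
    obtain ⟨P, hP⟩ : ∃ P, P = ∏ v ∈ U, (1 + (qv v : ℝ) ^ (-θ) + 2 * ((qv v : ℝ) ^ (-θ)) ^ 2) :=
      ⟨_, rfl⟩
    rw [← hP] at ih ⊢
    have hP0 : 0 ≤ P := by simpa using ih ∅ (by simp)
    have hg := FDa_half hθ v
    have hg0 : 0 ≤ (qv v : ℝ) ^ (-θ) := by positivity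
    have key : ∀ N : ℕ, ∀ T : Finset (Ideal (𝓞 F)), (∀ J ∈ T, Ideal.absNorm J ≤ N) →
        (∀ J ∈ T, J ≠ ⊥ ∧ ∀ w : HS F, w.asIdeal ∣ J → w ∈ insert v U) →
        ∑ J ∈ T, (Ideal.absNorm J : ℝ) ^ (-θ) ≤
          (1 + (qv v : ℝ) ^ (-θ) + 2 * ((qv v : ℝ) ^ (-θ)) ^ 2) * P := by
      intro N
      induction N with
      | zero =>
        intro T hN hT
        rw [Finset.sum_eq_zero]
        · positivity
        · intro J hJ
          exact absurd (Ideal.absNorm_eq_zero_iff.1 (Nat.le_zero.1 (hN J hJ))) (hT J hJ).1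
      | succ N ihN =>
        intro T hN hT
        have hq : ∀ J : Ideal (𝓞 F), ∃ Q, v.asIdeal ∣ J → J = v.asIdeal * Q := fun J => by
          by_cases h : v.asIdeal ∣ J
          · obtain ⟨Q, hQ⟩ := h
            exact ⟨Q, fun _ => hQ⟩
          · exact ⟨J, fun h' => absurd h' h⟩
        choose q hq using hq
        have h1 := ih (T.filter fun J => ¬ v.asIdeal ∣ J) fun J hJ => by
          obtain ⟨h2, h3⟩ := Finset.mem_filter.1 hJ
          refine ⟨(hT J h2).1, fun w hw => ?_⟩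
          rcases Finset.mem_insert.1 ((hT J h2).2 w hw) with rfl | h4
          · exact absurd hw h3
          · exact h4
        have hn : ∀ J, v.asIdeal ∣ J → Ideal.absNorm J = qv v * Ideal.absNorm (q J) :=
          fun J hJ => by rw [qv, ← map_mul, ← hq J hJ]
        have h2 := ihN ((T.filter fun J => v.asIdeal ∣ J).image q) (fun Q hQ => by
          obtain ⟨J, hJ, rfl⟩ := Finset.mem_image.1 hQ
          obtain ⟨h2, h3⟩ := Finset.mem_filter.1 hJ
          have h4 := hN J h2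
          have h5 := two_le_qv v
          rw [hn J h3] at h4
          have h6 := Nat.mul_le_mul_right (Ideal.absNorm (q J)) h5
          omega) fun Q hQ => by
          obtain ⟨J, hJ, rfl⟩ := Finset.mem_image.1 hQ
          obtain ⟨h2, h3⟩ := Finset.mem_filter.1 hJ
          refine ⟨fun h => (hT J h2).1 (by rw [hq J h3, h, Ideal.mul_bot]), fun w hw => ?_⟩
          exact (hT J h2).2 w (by rw [hq J h3]; exact hw.mul_left _)
        rw [Finset.sum_image fun J hJ J' hJ' h => by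
          rw [hq J (Finset.mem_filter.1 hJ).2, hq J' (Finset.mem_filter.1 hJ').2, h]] at h2
        have h3 : ∑ J ∈ T.filter (fun J => v.asIdeal ∣ J), (Ideal.absNorm J : ℝ) ^ (-θ) =
            (qv v : ℝ) ^ (-θ) * ∑ J ∈ T.filter (fun J => v.asIdeal ∣ J),
              (Ideal.absNorm (q J) : ℝ) ^ (-θ) := by
          rw [Finset.mul_sum]
          refine Finset.sum_congr rfl fun J hJ => ?_
          rw [hn J (Finset.mem_filter.1 hJ).2, Nat.cast_mul,
            Real.mul_rpow (Nat.cast_nonneg _) (Nat.cast_nonneg _)]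
        rw [← Finset.sum_filter_add_sum_filter_not T fun J => v.asIdeal ∣ J, h3]
        have h4 := mul_le_mul_of_nonneg_left h2 hg0
        have h5 := mul_nonneg (mul_nonneg (mul_nonneg hg0 hg0) hP0) (sub_nonneg.2 hg)
        generalize (qv v : ℝ) ^ (-θ) = x at *
        nlinarith
    intro T hT
    exact key (T.sup fun J => Ideal.absNorm J) T (fun J hJ => Finset.le_sup (f := fun J =>
      Ideal.absNorm J) hJ) hT

theorem FDa_sq {θ : ℝ} (hθ : 1 < θ) (U : Finset (HS F)) :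
    ∑ v ∈ U, ((qv v : ℝ) ^ (-θ)) ^ 2 ≤ ∑' v : HS F, (qv v : ℝ) ^ (-2 : ℝ) := by
  refine le_trans (Finset.sum_le_sum fun v _ => ?_)
    ((FDa_summable_qv (θ := 2) (by norm_num)).sum_le_tsum U fun _ _ => by positivity)
  have h1 : (2 : ℝ) ≤ qv v := by exact_mod_cast two_le_qv v
  rw [← Real.rpow_natCast, ← Real.rpow_mul (by linarith)]
  refine Real.rpow_le_rpow_of_exponent_le (by linarith) ?_
  push_cast
  linarith

theorem FDa_upper {θ : ℝ} (hθ : 1 < θ) (T : Finset (Ideal (𝓞 F))) :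
    ∑ J ∈ T, (Ideal.absNorm J : ℝ) ^ (-θ) ≤
      Real.exp (∑' v : HS F, (qv v : ℝ) ^ (-θ) + 2 * ∑' v : HS F, (qv v : ℝ) ^ (-2 : ℝ)) := by
  have h0 : ∑ J ∈ T, (Ideal.absNorm J : ℝ) ^ (-θ) =
      ∑ J ∈ T.filter (fun J => J ≠ ⊥), (Ideal.absNorm J : ℝ) ^ (-θ) := by
    rw [Finset.sum_filter]
    refine Finset.sum_congr rfl fun J _ => ?_
    split_ifs with h
    · rfl
    · rw [not_not.1 h, Ideal.absNorm_bot, Nat.cast_zero, Real.zero_rpow (by linarith)]
  have hf : (⋃ J ∈ T.filter (fun J => J ≠ ⊥), {v : HS F | v.asIdeal ∣ J}).Finite :=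
    Set.Finite.biUnion (Finset.finite_toSet _) fun J hJ =>
      Ideal.finite_factors (Finset.mem_filter.1 hJ).2
  have h1 := FDa_bound hθ hf.toFinset (T.filter fun J => J ≠ ⊥) fun J hJ =>
    ⟨(Finset.mem_filter.1 hJ).2, fun w hw => (Set.Finite.mem_toFinset _).2
      (Set.mem_biUnion (t := fun J => {v : HS F | v.asIdeal ∣ J}) (Finset.mem_coe.2 hJ) hw)⟩
  rw [h0]
  refine h1.trans ?_
  generalize hf.toFinset = U
  calc ∏ v ∈ U, (1 + (qv v : ℝ) ^ (-θ) + 2 * ((qv v : ℝ) ^ (-θ)) ^ 2)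
      ≤ ∏ v ∈ U, Real.exp ((qv v : ℝ) ^ (-θ) + 2 * ((qv v : ℝ) ^ (-θ)) ^ 2) :=
        Finset.prod_le_prod (fun _ _ => by positivity) fun _ _ => by
          rw [add_assoc, add_comm]; exact Real.add_one_le_exp _
    _ = Real.exp (∑ v ∈ U, (qv v : ℝ) ^ (-θ) + 2 * ∑ v ∈ U, ((qv v : ℝ) ^ (-θ)) ^ 2) := by
        rw [Finset.mul_sum, ← Finset.sum_add_distrib, Real.exp_sum]
    _ ≤ _ := Real.exp_le_exp.2 (add_le_add
        ((FDa_summable_qv hθ).sum_le_tsum U fun _ _ => by positivity)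
        (mul_le_mul_of_nonneg_left (FDa_sq hθ U) (by norm_num)))

theorem FDa_summable_ideal {θ : ℝ} (hθ : 1 < θ) :
    Summable fun J : Ideal (𝓞 F) => (Ideal.absNorm J : ℝ) ^ (-θ) :=
  summable_of_sum_le (fun _ => by positivity) (FDa_upper hθ)

theorem FDa_dvd_prod (S : Finset (HS F)) (w : HS F) :
    w.asIdeal ∣ ∏ v ∈ S, v.asIdeal ↔ w ∈ S := by
  rw [w.prime.dvd_finsetProd_iff]
  refine ⟨?_, fun h => ⟨w, h, dvd_rfl⟩⟩
  rintro ⟨v, hv, h⟩
  have : w = v := IsDedekindDomain.HeightOneSpectrum.ext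
    (v.isMaximal.eq_of_le w.isPrime.ne_top (Ideal.dvd_iff_le.1 h)).symm
  exact this ▸ hv

theorem FDa_lower {θ : ℝ} (hθ : 1 < θ) (U : Finset (HS F)) :
    ∏ v ∈ U, (1 + (qv v : ℝ) ^ (-θ)) ≤ ∑' J : Ideal (𝓞 F), (Ideal.absNorm J : ℝ) ^ (-θ) := by
  rw [Finset.prod_one_add]
  refine le_trans (le_of_eq ?_) ((FDa_summable_ideal hθ).sum_le_tsum
    (U.powerset.image fun S => ∏ v ∈ S, v.asIdeal) fun _ _ => by positivity)
  rw [Finset.sum_image fun S _ S' _ h => Finset.ext fun w => by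
    rw [← FDa_dvd_prod, ← FDa_dvd_prod, h]]
  refine Finset.sum_congr rfl fun S _ => ?_
  rw [map_prod, Nat.cast_prod, ← Real.finsetProd_rpow _ _ fun _ _ => Nat.cast_nonneg _]
  rfl

theorem FDa_log {θ : ℝ} (hθ : 1 < θ) :
    0 < ∑' J : Ideal (𝓞 F), (Ideal.absNorm J : ℝ) ^ (-θ) ∧
    |∑' v : HS F, (qv v : ℝ) ^ (-θ) - Real.log (∑' J : Ideal (𝓞 F), (Ideal.absNorm J : ℝ) ^ (-θ))|
      ≤ 2 * ∑' v : HS F, (qv v : ℝ) ^ (-2 : ℝ) := by
  have hpos : 0 < ∑' J : Ideal (𝓞 F), (Ideal.absNorm J : ℝ) ^ (-θ) :=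
    lt_of_lt_of_le (by simp) (FDa_lower (F := F) hθ ∅)
  have hc : 0 ≤ ∑' v : HS F, (qv v : ℝ) ^ (-2 : ℝ) := tsum_nonneg fun _ => by positivity
  refine ⟨hpos, abs_le.2 ⟨?_, ?_⟩⟩
  · have h1 := Real.tsum_le_of_sum_le (fun _ => by positivity) (FDa_upper (F := F) hθ)
    rw [← Real.log_le_iff_le_exp hpos] at h1
    linarith
  · have h1 : ∑' v : HS F, (qv v : ℝ) ^ (-θ) ≤
        Real.log (∑' J : Ideal (𝓞 F), (Ideal.absNorm J : ℝ) ^ (-θ)) +
          ∑' v : HS F, (qv v : ℝ) ^ (-2 : ℝ) := by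
      refine Real.tsum_le_of_sum_le (fun _ => by positivity) fun U => ?_
      have h2 := Real.log_le_log (Finset.prod_pos fun _ _ => by positivity) (FDa_lower hθ U)
      rw [Real.log_prod fun _ _ => by positivity] at h2
      have h3 := FDa_sq hθ U
      have h4 : ∑ v ∈ U, (qv v : ℝ) ^ (-θ) ≤
          ∑ v ∈ U, (Real.log (1 + (qv v : ℝ) ^ (-θ)) + ((qv v : ℝ) ^ (-θ)) ^ 2) := by
        refine Finset.sum_le_sum fun v _ => ?_
        have h5 : 0 ≤ (qv v : ℝ) ^ (-θ) := by positivity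
        generalize (qv v : ℝ) ^ (-θ) = x at h5
        have h6 := Real.one_sub_inv_le_log_of_pos (x := 1 + x) (by positivity)
        have h7 : (1 + x)⁻¹ ≤ 1 - x + x ^ 2 := by
          rw [inv_le_iff_one_le_mul₀ (by positivity)]
          nlinarith [pow_nonneg h5 3]
        linarith
      rw [Finset.sum_add_distrib] at h4
      linarith
    linarith

theorem FDa_zeta {θ : ℝ} (hθ : 1 < θ) : dedekindZeta F θ =
    ((∑' J : Ideal (𝓞 F), (Ideal.absNorm J : ℝ) ^ (-θ) : ℝ) : ℂ) := by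
  have h1 := (FDa_summable_ideal (F := F) hθ).hasSum.tsum_fiberwise fun J => Ideal.absNorm J
  rw [← h1.tsum_eq, Complex.ofReal_tsum, dedekindZeta, LSeries]
  refine tsum_congr fun n => ?_
  have h2 : ∑' b : (fun J : Ideal (𝓞 F) => Ideal.absNorm J) ⁻¹' {n},
      (Ideal.absNorm b.1 : ℝ) ^ (-θ) =
      ∑' _ : (fun J : Ideal (𝓞 F) => Ideal.absNorm J) ⁻¹' {n}, (n : ℝ) ^ (-θ) :=
    tsum_congr fun b => by rw [show Ideal.absNorm b.1 = n from b.2]
  have h3 : (θ : ℂ) ≠ 0 := Complex.ofReal_ne_zero.2 (by linarith)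
  rw [h2, tsum_const, LSeries.term_of_ne_zero' h3, nsmul_eq_mul, Complex.ofReal_mul,
    Complex.ofReal_cpow (Nat.cast_nonneg _), Complex.ofReal_neg, Complex.ofReal_natCast,
    Complex.ofReal_natCast, Complex.cpow_neg, div_eq_mul_inv]
  rfl

end

/-- See the blueprint, section FDa. -/
theorem fda_all (K : Type) [Field K] [NumberField K] : ∃ C δ : ℝ, 0 < δ ∧ ∀ s : ℝ, 1 < s →
    s < 1 + δ → |∑' v : HS K, (qv v : ℝ) ^ (-s) + Real.log (s - 1)| ≤ C := by
  have h1 := (Complex.continuous_re.tendsto _).comp (tendsto_sub_one_mul_dedekindZeta_nhdsGT K)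
  rw [Complex.ofReal_re] at h1
  have h2 := h1.log (dedekindZeta_residue_ne_zero K)
  have h3 := (Metric.tendsto_nhds.1 h2) 1 one_pos
  obtain ⟨u, hu, h4⟩ := mem_nhdsGT_iff_exists_Ioo_subset.1 h3
  refine ⟨2 * ∑' v : HS K, (qv v : ℝ) ^ (-2 : ℝ) + (|Real.log (dedekindZeta_residue K)| + 1),
    u - 1, sub_pos.2 hu, fun s hs hs' => ?_⟩
  have h5 : dist (Real.log ((Complex.re ∘ fun s : ℝ => ((s : ℂ) - 1) * dedekindZeta K s) s))
      (Real.log (dedekindZeta_residue K)) < 1 := h4 ⟨hs, by linarith⟩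
  obtain ⟨h6, h7⟩ := FDa_log (F := K) hs
  rw [Function.comp_apply, FDa_zeta hs, ← Complex.ofReal_one, ← Complex.ofReal_sub,
    ← Complex.ofReal_mul, Complex.ofReal_re, Real.log_mul (sub_pos.2 hs).ne' h6.ne',
    Real.dist_eq] at h5
  have h8 := le_abs_self (Real.log (dedekindZeta_residue K))
  have h9 := neg_abs_le (Real.log (dedekindZeta_residue K))
  rw [abs_lt] at h5
  rw [abs_le] at h7 ⊢
  constructor <;> linarith [h5.1, h5.2, h7.1, h7.2]

/-- primes of higher degree contribute at most `finrank * ∑ p ^ (-2)` -/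
theorem fda (K : Type) [Field K] [NumberField K] : ∃ C δ : ℝ, 0 < δ ∧ ∀ s : ℝ, 1 < s →
    s < 1 + δ → |∑' B : Pr K, (if B.D1 then (B.p : ℝ) ^ (-s) else 0) + Real.log (s - 1)| ≤ C := by
  obtain ⟨C, δ, hδ, h⟩ := fda_all K
  obtain ⟨Φ, e, hΦ⟩ := exists_hs (L := K)
  refine ⟨C + ∑' B : Pr K, (B.p : ℝ) ^ (-2 : ℝ), δ, hδ, fun s hs hs' => ?_⟩
  have h1 := h s hs hs'
  rw [← Φ.tsum_eq] at h1
  have h2 : Summable fun B : Pr K => (qv (Φ B) : ℝ) ^ (-s) :=
    (Φ.summable_iff (f := fun v : HS K => (qv v : ℝ) ^ (-s))).2 (FDa_summable_qv hs)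
  have h3 : ∀ B : Pr K, (if B.D1 then (B.p : ℝ) ^ (-s) else 0) ≤ (qv (Φ B) : ℝ) ^ (-s) := by
    intro B
    split_ifs with hB
    · rw [(hΦ B).2.2.2.2.1 hB]
    · positivity
  have h4 : ∀ B : Pr K, (qv (Φ B) : ℝ) ^ (-s) ≤
      (if B.D1 then (B.p : ℝ) ^ (-s) else 0) + (B.p : ℝ) ^ (-2 : ℝ) := by
    intro B
    split_ifs with hB
    · rw [(hΦ B).2.2.2.2.1 hB]
      exact le_add_of_nonneg_right (by positivity)
    · obtain ⟨f, hf, hq⟩ := FDa_qv B.prime (hΦ B).2.2.1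
      have h5 : f ≠ 1 := fun h5 => hB ((hΦ B).2.2.2.2.2 (by rw [hq, h5, pow_one]))
      have h6 : (1 : ℝ) ≤ B.p := by exact_mod_cast B.prime.one_le
      have h7 : (2 : ℝ) ≤ f := by exact_mod_cast (by omega : 2 ≤ f)
      rw [zero_add, hq, Nat.cast_pow, ← Real.rpow_natCast, ← Real.rpow_mul (by linarith)]
      refine Real.rpow_le_rpow_of_exponent_le h6 ?_
      nlinarith
  have h5 : Summable fun B : Pr K => if B.D1 then (B.p : ℝ) ^ (-s) else 0 :=
    Summable.of_nonneg_of_le (fun B => by split_ifs <;> positivity) h3 h2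
  have h6 := fda_summable K (s := 2) (by norm_num)
  have h7 := h5.tsum_le_tsum h3 h2
  have h8 := h2.tsum_le_tsum h4 (h5.add h6)
  rw [h5.tsum_add h6] at h8
  have h9 : 0 ≤ ∑' B : Pr K, (B.p : ℝ) ^ (-2 : ℝ) := tsum_nonneg fun _ => by positivity
  rw [abs_le] at h1 ⊢
  constructor <;> linarith [h1.1, h1.2]

end Uc
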