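import Vale.Agent.P024.NF2

/-! The density theorem of Frobenius. -/

noncomputable section
namespace Uc
open NumberField
open scoped Classical
variable {L : Type} [Field L] [NumberField L]

theorem FDc_card (δ : Aut L) :
    (Finset.univ.filter fun g : Aut L => g ∈ Subgroup.zpowers δ).card = orderOf δ := by
  rw [← Nat.card_zpowers, Nat.card_eq_fintype_card, Fintype.card_subtype]

/-- the stabilizer is generated by the Frobenius element -/
theorem FDc_stab {G : Subgroup (Aut L)} {B : Pr L} {δ : Aut L} (hI : B.I = ⊥) (hδ : δ ∈ G)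
    (hf : B.IsFrob B.p δ) :
    ((Finset.univ.filter fun g : Aut L => g ∈ G).filter fun g => g • B = B).card = orderOf δ := by
  rw [← FDc_card]
  refine congrArg Finset.card (Finset.ext fun g => ?_)
  simp only [Finset.mem_filter, Finset.mem_univ, true_and]
  constructor
  · rintro ⟨-, h⟩
    obtain ⟨a, ha⟩ := df_fin hf (show g ∈ B.D from h)
    rw [hI, Subgroup.mem_bot, inv_mul_eq_one] at ha
    rw [← ha]
    exact Subgroup.pow_mem _ (Subgroup.mem_zpowers δ) a
  · intro h
    exact ⟨Subgroup.zpowers_le.2 hδ h, Subgroup.zpowers_le.2 (show δ ∈ B.D from hf.1) h⟩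

/-- the number of Frobenius elements in `G` -/
theorem FDc_frob (G : Subgroup (Aut L)) {B : Pr L} (hI : B.I = ⊥) :
    ((Finset.univ.filter fun g : Aut L => g ∈ G).filter fun g => B.IsFrob B.p g).card =
      if (B.comap (Fx G).subtype).D1 then 1 else 0 := by
  split_ifs with h
  · obtain ⟨δ, hδ, hf⟩ := exists_frob_fin G B fun z hz hin => by
      have := (Pr.comap_sm (Fx G).subtype).1 (h ⟨z, hz⟩ hin)
      simpa using this
    rw [Finset.card_eq_one]
    refine ⟨δ, Finset.ext fun g => ?_⟩
    simp only [Finset.mem_filter, Finset.mem_univ, true_and, Finset.mem_singleton]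
    constructor
    · rintro ⟨-, hg⟩
      have := hf.inv_mul hg
      rw [hI, Subgroup.mem_bot, inv_mul_eq_one] at this
      exact this.symm
    · rintro rfl
      exact ⟨hδ, hf⟩
  · rw [Finset.card_eq_zero, Finset.filter_eq_empty_iff]
    intro g hg hf
    apply h
    intro z hz
    have h1 := (hf.2 z hz).symm
    rw [z.2 g (Finset.mem_filter.1 hg).2] at h1
    rw [Pr.comap_sm]
    simpa using h1

/-- the sum of the orders of the stabilizers over a fibre -/
theorem FDc_fib (G : Subgroup (Aut L)) {P : Finset (Pr L)} {B' : Pr (Fx G)}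
    (hP : ∀ B, B ∈ P ↔ B.comap (Fx G).subtype = B') :
    ∑ B ∈ P, ((Finset.univ.filter fun g : Aut L => g ∈ G).filter fun g => g • B = B).card =
      (Finset.univ.filter fun g : Aut L => g ∈ G).card := by
  obtain ⟨B₀, hB₀⟩ := Pr.exists_ext (Fx G).subtype B'
  rw [Finset.card_eq_sum_card_fiberwise (f := fun g : Aut L => g • B₀) (t := P)]
  · refine Finset.sum_congr rfl fun B hB => ?_
    obtain ⟨g₀, hg₀, h0⟩ := tr_fin G (B := B₀) (B' := B) fun z hz => by
      have h1 : (B₀.comap (Fx G).subtype).w ⟨z, hz⟩ = (B.comap (Fx G).subtype).w ⟨z, hz⟩ := by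
        rw [hB₀, (hP B).1 hB]
      exact h1
    refine Finset.card_nbij' (fun g => g * g₀) (fun g => g * g₀⁻¹) ?_ ?_ ?_ ?_
    · intro g hg
      simp only [Finset.coe_filter, Finset.mem_filter, Finset.mem_univ, true_and,
        Set.mem_ofPred_eq] at hg ⊢
      exact ⟨G.mul_mem hg.1 hg₀, by rw [mul_smul, h0, hg.2]⟩
    · intro g hg
      simp only [Finset.coe_filter, Finset.mem_filter, Finset.mem_univ, true_and,
        Set.mem_ofPred_eq] at hg ⊢
      refine ⟨G.mul_mem hg.1 (G.inv_mem hg₀), ?_⟩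
      rw [mul_smul, ← h0, inv_smul_smul, hg.2, h0]
    · intro g _
      simp
    · intro g _
      simp
  · intro g hg
    have hg' : g ∈ G := (Finset.mem_filter.1 hg).2
    refine (hP _).2 (hB₀ ▸ Pr.ext' rfl fun z => ?_)
    exact congrArg B₀.w (z.2 g⁻¹ (G.inv_mem hg'))

/-- Counting above one prime number `p` without inertia. Let `K = Fx G`. A prime `B` restricts to
a degree one prime of `K` iff it has a Frobenius element `δ` in `G` (`exists_frob_fin`), which is
then unique; the fibre of the restriction is the orbit of `B` (`tr_fin`, `Pr.exists_ext`), and the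
stabilizer in `G` is `zpowers δ` (`df_fin`). For commutative `G` all primes of a fibre have the same
`δ`, and the fibre has `card G / orderOf δ` elements. -/
theorem fd_count (γ : Aut L) {p : ℕ} (hp : ∀ B : Pr L, B.p = p → B.I = ⊥) :
    ∑ δ ∈ Finset.univ.filter (fun δ : Aut L => δ ∈ Subgroup.zpowers γ),
      orderOf δ * {B : Pr L | B.p = p ∧ B.IsFrob p δ}.ncard =
    orderOf γ * {B : Pr (Fx (Subgroup.zpowers γ)) | B.p = p ∧ B.D1}.ncard := by
  set G := Subgroup.zpowers γ with hG
  set GF := Finset.univ.filter fun g : Aut L => g ∈ G with hGF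
  set PF := (Pr.finite_above L p).toFinset with hPF
  have hmem : ∀ B, B ∈ PF ↔ B.p = p := fun B => by simp [hPF]
  let st : Pr L → ℕ := fun B => (GF.filter fun g => g • B = B).card
  let TF := (PF.image fun B => B.comap (Fx G).subtype).filter fun B' => B'.D1
  have hT : {B : Pr (Fx G) | B.p = p ∧ B.D1} = (TF : Set (Pr (Fx G))) := by
    ext B'
    simp only [TF, Finset.coe_filter, Finset.mem_image, Set.mem_ofPred_eq, hmem]
    refine and_congr_left fun _ => ⟨fun h => ?_, ?_⟩
    · obtain ⟨B, rfl⟩ := Pr.exists_ext (Fx G).subtype B'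
      exact ⟨B, h, rfl⟩
    · rintro ⟨B, h, rfl⟩
      exact h
  have h1 : ∀ δ ∈ GF, orderOf δ * {B : Pr L | B.p = p ∧ B.IsFrob p δ}.ncard =
      ∑ B ∈ PF, if B.IsFrob B.p δ then st B else 0 := by
    intro δ hδ
    have e : {B : Pr L | B.p = p ∧ B.IsFrob p δ} =
        ((PF.filter fun B => B.IsFrob B.p δ : Finset (Pr L)) : Set (Pr L)) := by
      ext B
      simp only [Finset.coe_filter, Set.mem_ofPred_eq, hmem]
      exact and_congr_right fun h => by rw [h]
    rw [e, Set.ncard_coe_finset, ← Finset.sum_filter, mul_comm, ← smul_eq_mul, ← Finset.sum_const]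
    refine Finset.sum_congr rfl fun B hB => ?_
    obtain ⟨h2, h3⟩ := Finset.mem_filter.1 hB
    exact (FDc_stab (hp B ((hmem B).1 h2)) (Finset.mem_filter.1 hδ).2 h3).symm
  have h2 : ∀ B ∈ PF, ∑ δ ∈ GF, (if B.IsFrob B.p δ then st B else 0) =
      if (B.comap (Fx G).subtype).D1 then st B else 0 := by
    intro B hB
    rw [← Finset.sum_filter, Finset.sum_const, FDc_frob G (hp B ((hmem B).1 hB))]
    split_ifs <;> simp
  rw [Finset.sum_congr rfl h1, Finset.sum_comm, Finset.sum_congr rfl h2, ← Finset.sum_filter, hT,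
    Set.ncard_coe_finset, ← FDc_card γ, mul_comm, ← smul_eq_mul, ← Finset.sum_const,
    ← Finset.sum_fiberwise_of_maps_to (t := TF) (g := fun B => B.comap (Fx G).subtype)]
  · refine Finset.sum_congr rfl fun B' hB' => FDc_fib G (B' := B') fun B => ?_
    obtain ⟨h3, h4⟩ := Finset.mem_filter.1 hB'
    obtain ⟨B₁, h5, h6⟩ := Finset.mem_image.1 h3
    simp only [Finset.mem_filter, hmem]
    refine ⟨fun h => h.2, fun h => ⟨⟨?_, h ▸ h4⟩, h⟩⟩
    have h7 : (B.comap (Fx G).subtype).p = (B₁.comap (Fx G).subtype).p := by rw [h, h6]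
    exact h7.trans ((hmem B₁).1 h5)
  · intro B hB
    obtain ⟨h3, h4⟩ := Finset.mem_filter.1 hB
    exact Finset.mem_filter.2 ⟨Finset.mem_image_of_mem _ h3, h4⟩

end Uc
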