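import Vale.Agent.P024.FDa
import Vale.Agent.P024.FDc

/-! The density theorem of Frobenius. -/

noncomputable section
namespace Uc
open NumberField
open scoped Classical
variable {L : Type} [Field L] [NumberField L]

/-- the sum over the primes outside `S` with Frobenius element `δ` -/
def fsum (S : Finset ℕ) (δ : Aut L) (s : ℝ) : ℝ :=
  ∑' B : Pr L, if B.p ∉ S ∧ B.IsFrob B.p δ then (B.p : ℝ) ^ (-s) else 0

theorem FDn_fib {K : Type} [Field K] [NumberField K] (P : Pr K → Prop) [DecidablePred P] {s : ℝ}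
    (hs : 1 < s) :
    HasSum (fun p : ℕ => ({B : Pr K | B.p = p ∧ P B}.ncard : ℝ) * (p : ℝ) ^ (-s))
      (∑' B : Pr K, if P B then (B.p : ℝ) ^ (-s) else 0) := by
  have h1 : Summable fun B : Pr K => if P B then (B.p : ℝ) ^ (-s) else 0 :=
    Summable.of_nonneg_of_le (fun B => by split_ifs <;> positivity)
      (fun B => by split_ifs; exacts [le_rfl, by positivity]) (fda_summable K hs)
  have h2 := h1.hasSum.tsum_fiberwise fun B => B.p
  refine (congrArg (HasSum · _) (funext fun p => ?_)).mp h2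
  rw [tsum_subtype _ fun B : Pr K => if P B then (B.p : ℝ) ^ (-s) else 0, ← Nat.card_coe_set_eq,
    ← nsmul_eq_mul, ← tsum_const, tsum_subtype _ fun _ : Pr K => (p : ℝ) ^ (-s)]
  refine tsum_congr fun B => ?_
  by_cases h : B.p = p <;> by_cases h' : P B <;> simp [h, h']

/-- bounded near `1` -/
def FDn_Bd (f : ℝ → ℝ) : Prop := ∃ C δ₀ : ℝ, 0 < δ₀ ∧ ∀ s : ℝ, 1 < s → s < 1 + δ₀ → |f s| ≤ C

theorem FDn_add {f g : ℝ → ℝ} (hf : FDn_Bd f) (hg : FDn_Bd g) : FDn_Bd fun s => f s + g s := by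
  obtain ⟨C, a, ha, h⟩ := hf
  obtain ⟨C', b, hb, h'⟩ := hg
  exact ⟨C + C', min a b, lt_min ha hb, fun s h1 h2 => (abs_add_le _ _).trans
    (add_le_add (h s h1 (by linarith [min_le_left a b])) (h' s h1 (by linarith [min_le_right a b])))⟩

theorem FDn_mul {f : ℝ → ℝ} (c : ℝ) (hf : FDn_Bd f) : FDn_Bd fun s => c * f s := by
  obtain ⟨C, a, ha, h⟩ := hf
  exact ⟨|c| * C, a, ha, fun s h1 h2 => by
    rw [abs_mul]; exact mul_le_mul_of_nonneg_left (h s h1 h2) (abs_nonneg _)⟩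

theorem FDn_congr {f g : ℝ → ℝ} (hf : FDn_Bd f) (h : ∀ s, 1 < s → g s = f s) : FDn_Bd g := by
  obtain ⟨C, a, ha, h'⟩ := hf
  exact ⟨C, a, ha, fun s h1 h2 => h s h1 ▸ h' s h1 h2⟩

theorem FDn_sum {ι : Type} (T : Finset ι) {f : ι → ℝ → ℝ} (h : ∀ i ∈ T, FDn_Bd (f i)) :
    FDn_Bd fun s => ∑ i ∈ T, f i s := by
  induction T using Finset.induction_on with
  | empty => exact ⟨0, 1, one_pos, fun s _ _ => by simp⟩
  | insert a T ha ih =>
    exact FDn_congr (FDn_add (h a (Finset.mem_insert_self _ _))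
      (ih fun i hi => h i (Finset.mem_insert_of_mem hi))) fun s _ => Finset.sum_insert ha

theorem FDn_pow (p : ℕ) : FDn_Bd fun s => (p : ℝ) ^ (-s) := by
  refine ⟨1, 1, one_pos, fun s h _ => ?_⟩
  beta_reduce
  rw [abs_of_nonneg (by positivity)]
  rcases p.eq_zero_or_pos with rfl | hp
  · rw [Nat.cast_zero, Real.zero_rpow (by linarith)]
    exact zero_le_one
  · exact Real.rpow_le_one_of_one_le_of_nonpos (by exact_mod_cast hp) (by linarith)

theorem fd_sum (γ : Aut L) (S : Finset ℕ) (hS : ∀ B : Pr L, B.p ∉ S → B.I = ⊥) :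
    ∃ C δ₀ : ℝ, 0 < δ₀ ∧ ∀ s : ℝ, 1 < s → s < 1 + δ₀ →
      |∑ δ ∈ Finset.univ.filter (fun δ : Aut L => δ ∈ Subgroup.zpowers γ),
        orderOf δ * fsum S δ s + orderOf γ * Real.log (s - 1)| ≤ C := by
  refine FDn_congr (FDn_mul (orderOf γ) (FDn_add (fda (Fx (Subgroup.zpowers γ))) (FDn_mul (-1)
    (FDn_sum S fun p _ => FDn_mul
      ({B : Pr (Fx (Subgroup.zpowers γ)) | B.p = p ∧ B.D1}.ncard : ℝ) (FDn_pow p))))) fun s hs => ?_
  have h1 := hasSum_sum (s := Finset.univ.filter fun δ : Aut L => δ ∈ Subgroup.zpowers γ)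
    fun δ _ => (FDn_fib (fun B : Pr L => B.p ∉ S ∧ B.IsFrob B.p δ) hs).mul_left (orderOf δ : ℝ)
  have h2 := ((FDn_fib (fun B : Pr (Fx (Subgroup.zpowers γ)) => B.D1) hs).sub
    (hasSum_sum_of_ne_finset_zero (s := S) (f := fun p : ℕ => if p ∈ S then
      ({B : Pr (Fx (Subgroup.zpowers γ)) | B.p = p ∧ B.D1}.ncard : ℝ) * (p : ℝ) ^ (-s) else 0)
      fun p hp => if_neg hp)).mul_left (orderOf γ : ℝ)
  rw [Finset.sum_congr rfl fun p hp => if_pos hp] at h2
  have h3 := h1.unique ((congrArg (HasSum · _) (funext fun p => ?_)).mp h2)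
  · unfold fsum
    rw [h3]
    ring
  by_cases hp : p ∈ S
  · rw [if_pos hp, sub_self, mul_zero]
    refine (Finset.sum_eq_zero fun δ _ => ?_).symm
    rw [Set.eq_empty_of_forall_notMem (s := {B : Pr L | B.p = p ∧ B.p ∉ S ∧ B.IsFrob B.p δ})
      fun B hB => hB.2.1 (hB.1 ▸ hp)]
    simp
  · have h4 := congrArg (Nat.cast : ℕ → ℝ) (fd_count γ fun B hB => hS B (hB ▸ hp))
    push_cast at h4
    rw [if_neg hp, sub_zero, ← mul_assoc, ← h4, Finset.sum_mul]
    refine Finset.sum_congr rfl fun δ _ => ?_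
    rw [mul_assoc, show {B : Pr L | B.p = p ∧ B.IsFrob p δ} =
      {B : Pr L | B.p = p ∧ B.p ∉ S ∧ B.IsFrob B.p δ} from Set.ext fun B =>
        and_congr_right fun h => by rw [h, and_iff_right hp]]

/-- strong induction on the order; `Nat.sum_totient`; the elements of `zpowers γ` are grouped by
their order `d`, and those of order `d` are the generators of `zpowers (γ ^ (n / d))` -/
theorem fd_gen (γ : Aut L) (S : Finset ℕ) (hS : ∀ B : Pr L, B.p ∉ S → B.I = ⊥) :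
    ∃ C δ₀ : ℝ, 0 < δ₀ ∧ ∀ s : ℝ, 1 < s → s < 1 + δ₀ →
      |∑ δ ∈ Finset.univ.filter (fun δ : Aut L => δ ∈ Subgroup.zpowers γ ∧ orderOf δ = orderOf γ),
        orderOf δ * fsum S δ s + Nat.totient (orderOf γ) * Real.log (s - 1)| ≤ C := by
  induction' hn : orderOf γ using Nat.strong_induction_on with n ih generalizing γ
  have n0 : 0 < n := hn ▸ orderOf_pos γ
  have h1 := FDn_sum n.properDivisors (f := fun d s => ∑ δ ∈ Finset.univ.filter
    (fun δ : Aut L => δ ∈ Subgroup.zpowers γ ∧ orderOf δ = d), orderOf δ * fsum S δ s +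
      Nat.totient d * Real.log (s - 1)) fun d hd => by
    obtain ⟨⟨m, hm⟩, h2⟩ := Nat.mem_properDivisors.1 hd
    have d0 : 0 < d := Nat.pos_of_mul_pos_right (hm ▸ n0)
    have m0 : 0 < m := Nat.pos_of_mul_pos_left (hm ▸ n0)
    have h3 : orderOf (γ ^ m) = d := by
      rw [orderOf_pow_of_dvd m0.ne' (hn ▸ hm ▸ dvd_mul_left _ _), hn, hm, Nat.mul_div_cancel _ m0]
    refine FDn_congr (ih d h2 (γ ^ m) h3) fun s _ => ?_
    rw [Finset.filter_congr fun δ _ => and_congr_left fun hδ => ⟨fun h => ?_,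
      fun h => Subgroup.zpowers_le_of_mem (Subgroup.npow_mem_zpowers γ m) h⟩]
    obtain ⟨k, rfl⟩ := mem_powers_iff_mem_zpowers.2 h
    have h4 := pow_orderOf_eq_one (γ ^ k)
    beta_reduce at hδ
    rw [hδ, ← pow_mul, ← orderOf_dvd_iff_pow_eq_one, hn, hm, mul_comm k] at h4
    obtain ⟨j, rfl⟩ := Nat.dvd_of_mul_dvd_mul_left d0 h4
    show γ ^ (m * j) ∈ _
    rw [pow_mul]
    exact Subgroup.npow_mem_zpowers _ j
  refine FDn_congr (FDn_add (fd_sum γ S hS) (FDn_mul (-1) h1)) fun s _ => ?_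
  have h2 := Finset.sum_fiberwise_of_maps_to (t := n.divisors) (g := fun δ : Aut L => orderOf δ)
    (s := Finset.univ.filter fun δ : Aut L => δ ∈ Subgroup.zpowers γ)
    (fun δ hδ => Nat.mem_divisors.2
      ⟨hn ▸ orderOf_dvd_of_mem_zpowers (Finset.mem_filter.1 hδ).2, n0.ne'⟩)
    fun δ => (orderOf δ : ℝ) * fsum S δ s
  have h3 := congrArg (Nat.cast : ℕ → ℝ) (Nat.sum_totient n)
  simp only [Finset.filter_filter] at h2
  rw [← Nat.insert_self_properDivisors n0.ne', Finset.sum_insert Nat.self_notMem_properDivisors]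
    at h2 h3
  push_cast at h3
  rw [← h2, hn, Finset.sum_add_distrib, ← Finset.sum_mul]
  linear_combination Real.log (s - 1) * h3

theorem fd_fin (γ : Aut L) (S : Finset ℕ) : ∃ (B : Pr L) (a b : ℕ), B.p ∉ S ∧
    B.IsFrob B.p (γ ^ a) ∧ (γ ^ a) ^ b = γ := by
  obtain ⟨C, a, ha, h⟩ := fd_gen γ (S ∪ (ur_fin L).toFinset) fun B hB => by
    by_contra h
    exact hB (Finset.mem_union_right _ ((Set.Finite.mem_toFinset _).2 ⟨B, rfl, h⟩))
  by_contra hc
  have h0 := Real.exp_pos (-(|C| + 1))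
  have h1 := lt_min (half_pos ha) h0
  have h2 := h (1 + min (a / 2) (Real.exp (-(|C| + 1)))) (by linarith)
    (by linarith [min_le_left (a / 2) (Real.exp (-(|C| + 1)))])
  have h3 := (Real.log_le_log h1 (min_le_right _ _)).trans_eq (Real.log_exp _)
  have h4 : (1 : ℝ) ≤ Nat.totient (orderOf γ) := by
    exact_mod_cast Nat.totient_pos.2 (orderOf_pos γ)
  rw [add_sub_cancel_left, Finset.sum_eq_zero, zero_add] at h2
  · nlinarith [(abs_le.1 h2).1, le_abs_self C, abs_nonneg C]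
  intro δ hδ
  obtain ⟨k1, k2⟩ := (Finset.mem_filter.1 hδ).2
  have k3 := Subgroup.eq_of_le_of_card_ge (Subgroup.zpowers_le_of_mem k1)
    (by rw [Nat.card_zpowers, Nat.card_zpowers, k2])
  obtain ⟨b, hb⟩ := mem_powers_iff_mem_zpowers.2 (k3 ▸ Subgroup.mem_zpowers γ)
  obtain ⟨k, rfl⟩ := mem_powers_iff_mem_zpowers.2 k1
  rw [fsum, tsum_congr fun B => if_neg fun hB =>
    hc ⟨B, k, b, fun h => hB.1 (Finset.mem_union_left _ h), hB.2, hb⟩, tsum_zero, mul_zero]

end Uc
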