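import Vale.Agent.P024.FI0
import Vale.Agent.P024.NF2

/-! The first inequality. -/

noncomputable section
namespace Uc
open NumberField
open scoped Classical

theorem FI_fix {L : Type} [Field L] [CharZero L] {γ : Aut L} {z : L} (h : γ z = z) (j : ℕ) :
    (γ ^ j) z = z := by
  induction j with
  | zero => rfl
  | succ j ih => rw [pow_succ, AlgEquiv.mul_apply, h, ih]

theorem FI_conj {k L : Type} [Field k] [Field L] [NumberField L] (ι : k →+* L) (γ : Aut L)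
    (hf : ∀ z, γ z = z ↔ ∃ y, ι y = z) (ho : 0 < orderOf γ) {B B' : Pr L}
    (h : B.comap ι = B'.comap ι) : ∃ j, j < orderOf γ ∧ γ ^ j • B = B' := by
  obtain ⟨g, hg, e⟩ := tr_fin (Subgroup.zpowers γ) (B := B) (B' := B') (by
    intro z hz
    obtain ⟨y, rfl⟩ := (hf z).1 (mem_Fx.1 hz γ (Subgroup.mem_zpowers γ))
    rw [← Pr.comap_w, ← Pr.comap_w, h])
  rw [(orderOf_pos_iff.1 ho).mem_zpowers_iff_mem_range_orderOf] at hg
  obtain ⟨j, hj, rfl⟩ := Finset.mem_image.1 hg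
  exact ⟨j, Finset.mem_range.1 hj, e⟩

theorem FI_norm {k L : Type} [Field k] [Field L] [NumberField L] (ι : k →+* L) (γ : Aut L)
    (hf : ∀ z, γ z = z ↔ ∃ y, ι y = z) (ho : 0 < orderOf γ) {r : ℕ} {x : k} (hx : x ≠ 0)
    (hr : ∀ B : Pr L, B.p = r → B.w (ι x) = 0) (B : Pr L)
    (h1 : ∀ j : ℕ, γ ^ j • B = B → γ ^ j = 1)
    (h2 : ∀ B' : Pr L, B'.w (ι x) ≠ 0 → B'.comap ι = B.comap ι) :
    ∃ D' ∈ Dv L r, ∀ B', Ns (actD γ) (orderOf γ) D' B' = B'.w (ι x) := by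
  refine ⟨fun B' => if B' = B then B.w (ι x) else 0, ⟨⟨?_, fun B' => ?_⟩, fun B' hB => ?_⟩, ?_⟩
  · refine (Set.finite_singleton B).subset fun B' hB => ?_
    by_contra h
    exact hB (if_neg h)
  · by_cases h : B' = B
    · refine ⟨ι x, (map_ne_zero ι).2 hx, ?_⟩
      simp only [h, if_true]
    · refine ⟨1, one_ne_zero, ?_⟩
      simp only [h, if_false, B'.w_one]
  · by_cases h : B' = B
    · simp only [h, if_true]
      exact hr B (h ▸ hB)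
    · simp only [h, if_false]
  intro B'
  have hu : ∀ j j' : ℕ, j ≤ j' → j' < orderOf γ → γ ^ j • B = γ ^ j' • B → j = j' := by
    intro j j' hle hlt e
    obtain ⟨d, rfl⟩ := Nat.exists_eq_add_of_le hle
    rw [pow_add, mul_smul] at e
    have h3 := h1 d (MulAction.injective _ e).symm
    have h4 := Nat.eq_zero_of_dvd_of_lt (orderOf_dvd_of_pow_eq_one h3) (by omega)
    omega
  rw [Ns, LinearMap.sum_apply, Finset.sum_apply]
  simp only [actD_pow_apply, inv_smul_eq_iff]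
  by_cases h : ∃ j, j < orderOf γ ∧ γ ^ j • B = B'
  · obtain ⟨j, hj, rfl⟩ := h
    rw [Finset.sum_eq_single_of_mem j (Finset.mem_range.2 hj), if_pos rfl]
    · have h3 := Pr.smul_w_apply (γ ^ j) B (ι x)
      rw [FI_fix ((hf _).2 ⟨x, rfl⟩)] at h3
      exact h3.symm
    · intro j' hj' hne
      refine if_neg fun e => hne ?_
      rcases le_total j j' with h3 | h3
      · exact (hu j j' h3 (Finset.mem_range.1 hj') e).symm
      · exact hu j' j h3 hj e.symm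
  · rw [Finset.sum_eq_zero fun j hj => if_neg fun e => h ⟨j, Finset.mem_range.1 hj, e.symm⟩]
    by_contra h3
    exact h (FI_conj ι γ hf ho (h2 B' (Ne.symm h3)).symm)

theorem FI_desc {k L : Type} [Field k] [Field L] [NumberField L] (ι : k →+* L) (γ : Aut L)
    (hf : ∀ z, γ z = z ↔ ∃ y, ι y = z) (ho : 0 < orderOf γ) {r : ℕ}
    (hur : ∀ B : Pr L, B.p ≠ r → ∀ z, z ≠ 0 → ∃ y : k, y ≠ 0 ∧ B.w (ι y) = B.w z)
    {D : Pr L → ℚ} (hD : D ∈ Dv L r) (hi : actD γ D = D) :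
    ∃ D₁ ∈ Dv k r, ∀ B, D B = D₁ (B.comap ι) := by
  choose ext hext using fun b : Pr k => Pr.exists_ext ι b
  have h1 : ∀ (j : ℕ) (B : Pr L), D (γ ^ j • B) = D B := by
    intro j B
    induction j with
    | zero => rw [pow_zero, one_smul]
    | succ j ih =>
      rw [pow_succ', mul_smul, ← ih]
      conv_lhs => rw [← hi, actD_apply, inv_smul_smul]
  have hinj : Function.Injective ext := fun b b' e => by rw [← hext b, e, hext]
  refine ⟨fun b => D (ext b), ⟨⟨hD.1.1.preimage hinj.injOn, fun b => ?_⟩, fun b hb => ?_⟩,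
    fun B => ?_⟩
  · by_cases h : (ext b).p = r
    · exact ⟨1, one_ne_zero, b.w_one.trans (hD.2 _ h).symm⟩
    · obtain ⟨z, hz, e⟩ := hD.1.2 (ext b)
      obtain ⟨y, hy, e'⟩ := hur _ h z hz
      refine ⟨y, hy, Eq.trans ?_ e⟩
      rw [← e', ← Pr.comap_w, hext]
  · exact hD.2 _ (by rw [← hb, ← Pr.comap_p _ ι, hext])
  · obtain ⟨j, _, e⟩ := FI_conj ι γ hf ho (hext (B.comap ι))
    refine Eq.trans ?_ (h1 j (ext (B.comap ι)))
    rw [e]

theorem FI_approx {k : Type} [Field k] [NumberField k] {r : ℕ} (hr : r.Prime) {n c : ℕ}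
    (x : Fin n → 𝓞 k) (hx : ∀ i, IsCoprime (x i) (r : 𝓞 k))
    (hd : ∀ (T : ℕ) (y : 𝓞 k), (r : 𝓞 k) ^ c ∣ y - 1 →
      ∃ m : Fin n → ℕ, (r : 𝓞 k) ^ T ∣ y - ∏ i, x i ^ m i) (T : ℕ) {y : k}
    (hy : Cg r (c + 1) y 1) : ∃ m : Fin n → ℕ, Cg r T (y / ∏ i, (x i : k) ^ m i) 1 := by
  obtain ⟨y₁, h1⟩ := Pr.exists_int_cg r (T + c) (y := y) fun B hB =>
    (Pr.w_eq_zero_of_sm_sub_one ((hy B hB).sm (by positivity))).2.ge
  obtain ⟨m, hm⟩ := hd T y₁ ((Pr.pow_dvd_iff hr c _).2 fun B hB => by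
    have h2 := ((hy B hB).mono (s := c) (by push_cast; linarith)).sub
      ((h1 B hB).mono (s := c) (by push_cast; linarith [(Nat.cast_nonneg T : (0 : ℚ) ≤ T)]))
    have h3 : ((y₁ - 1 : 𝓞 k) : k) = y - 1 - (y - y₁) := by
      push_cast
      ring
    rw [h3]
    exact h2)
  refine ⟨m, fun B hB => ?_⟩
  have h2 := (Pr.pow_dvd_iff hr T _).1 hm B hB
  have h0 : ∀ i, (x i : k) ≠ 0 := fun i => ((Pr.isCoprime_iff hr _).1 (hx i)).1
  have hP : ∏ i, (x i : k) ^ m i ≠ 0 := Finset.prod_ne_zero_iff.2 fun i _ => pow_ne_zero _ (h0 i)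
  have h3 : B.w (∏ i, (x i : k) ^ m i) = 0 := by
    rw [B.w_prod _ _ fun i _ => pow_ne_zero _ (h0 i)]
    refine Finset.sum_eq_zero fun i _ => ?_
    rw [B.w_pow, ((Pr.isCoprime_iff hr _).1 (hx i)).2 B hB, mul_zero]
  rw [div_sub_one hP, Pr.ge_div_iff hP, h3, add_zero]
  have h4 := ((h1 B hB).mono (s := T)
    (by push_cast; linarith [(Nat.cast_nonneg c : (0 : ℚ) ≤ c)])).add h2
  have h5 : y - ∏ i, (x i : k) ^ m i = y - y₁ + ((y₁ - ∏ i, x i ^ m i : 𝓞 k) : k) := by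
    push_cast
    ring
  rw [h5]
  exact h4

/-- See the blueprint, section FI. -/
theorem fi {k : Type} [Field k] [NumberField k] {r : ℕ} (hr : r.Prime) (h2 : r ≠ 2) {n c : ℕ}
    (x : Fin n → 𝓞 k) (hx : ∀ i, IsCoprime (x i) (r : 𝓞 k))
    (hd : ∀ (T : ℕ) (y : 𝓞 k), (r : 𝓞 k) ^ c ∣ y - 1 →
      ∃ m : Fin n → ℕ, (r : 𝓞 k) ^ T ∣ y - ∏ i, x i ^ m i) :
    ∃ h : ℕ, ∀ (L : Type) [Field L] [NumberField L] (ι : k →+* L) (γ : Aut L),
      (∀ z, γ z = z ↔ ∃ y, ι y = z) → Odd (orderOf γ) →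
      (∀ B : Pr L, B.p ≠ r → ∀ z, z ≠ 0 → ∃ y : k, y ≠ 0 ∧ B.w (ι y) = B.w z) →
      (∀ i, ∃ B : Pr L, (∀ j : ℕ, γ ^ j • B = B → γ ^ j = 1) ∧
        ∀ B' : Pr L, B'.w (ι (x i)) ≠ 0 → B'.comap ι = B.comap ι) → orderOf γ ≤ h := by
  obtain ⟨X₀, hX₀⟩ := ray_fin k hr c
  refine ⟨X₀.card, fun L _ _ ι γ hf ho hur hsp => ?_⟩
  obtain ⟨T, hT⟩ := fi0 γ ho hr h2
  refine (hT (X₀.image fun D₀ B => D₀ (B.comap ι)) fun D hD hi => ?_).trans Finset.card_image_le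
  have h0 : ∀ i, (x i : k) ≠ 0 := fun i => ((Pr.isCoprime_iff hr _).1 (hx i)).1
  have h1 : ∀ i, ∃ D' ∈ Dv L r, ∀ B', Ns (actD γ) (orderOf γ) D' B' = B'.w (ι (x i)) := by
    intro i
    obtain ⟨B, h3, h4⟩ := hsp i
    exact FI_norm ι γ hf ho.pos (h0 i)
      (fun B hB => ((Pr.isCoprime_iff hr _).1 (hx i)).2 (B.comap ι) hB) B h3 h4
  choose D' hD' hN using h1
  obtain ⟨D₁, hD₁, e₁⟩ := FI_desc ι γ hf ho.pos hur hD hi
  obtain ⟨D₀, h3, y, hy, h4, h5⟩ := hX₀ D₁ hD₁.1 hD₁.2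
  obtain ⟨m, hm⟩ := FI_approx hr x hx hd (T + 1) h4
  have hP : ∏ i, (x i : k) ^ m i ≠ 0 := Finset.prod_ne_zero_iff.2 fun i _ => pow_ne_zero _ (h0 i)
  have hy' : ι (y / ∏ i, (x i : k) ^ m i) ≠ 0 := (map_ne_zero ι).2 (div_ne_zero hy hP)
  refine ⟨_, Finset.mem_image_of_mem _ h3, Units.mk0 _ hy', (hf _).2 ⟨_, rfl⟩, fun B hB => ?_,
    ∑ i, m i • D' i, Submodule.sum_mem _ fun i _ => nsmul_mem (hD' i) _, ?_⟩
  · have h6 := (Pr.comap_ge ι).1 ((hm (B.comap ι) hB).mono (s := T) (by push_cast; linarith))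
    rwa [map_sub, map_one] at h6
  · funext B
    have h6 : dvr L r (Additive.ofMul (Units.mk0 _ hy')) B =
        (B.comap ι).w (y / ∏ i, (x i : k) ^ m i) := by
      rw [dvr_apply]
      split_ifs with hB
      · exact (Pr.w_eq_zero_of_sm_sub_one ((hm (B.comap ι) hB).sm (by positivity))).2.symm
      · rfl
    rw [Pi.add_apply, Pi.add_apply, h6, e₁, h5, map_sum, Finset.sum_apply, Pr.w_div _ hy hP,
      Pr.w_prod _ _ _ fun i _ => pow_ne_zero _ (h0 i)]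
    have h7 : ∀ i, Ns (actD γ) (orderOf γ) (m i • D' i) B = (B.comap ι).w ((x i : k) ^ m i) := by
      intro i
      rw [map_nsmul, Pi.smul_apply, hN, Pr.w_pow, Pr.comap_w, nsmul_eq_mul]
    simp only [h7]
    ring

end Uc
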