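import Vale.Agent.P024.Defs

/-! Lattices with an automorphism of finite order. -/

noncomputable section
namespace Uc
open Polynomial
open scoped Classical TensorProduct
variable {Λ : Type} [AddCommGroup Λ] [Module.Free ℤ Λ] [Module.Finite ℤ Λ]

theorem Lat_inj {X : Type} (ψ : Λ →+ (X → ℂ)) (hψ : CInj ⊤ ψ) :
    Function.Injective (ψ.toIntLinearMap.liftBaseChange ℂ) := by
  let b := Module.Free.chooseBasis ℤ Λ
  refine LinearMap.injective_of_linearIndependent (b.baseChange ℂ).span_eq ?_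
  have h := hψ _ b (fun _ => trivial) b.linearIndependent
  have e : (ψ.toIntLinearMap.liftBaseChange ℂ) ∘ (b.baseChange ℂ) = fun i => ψ (b i) := by
    funext i
    simp [Module.Basis.baseChange_apply]
  rwa [e]

omit [Module.Free ℤ Λ] [Module.Finite ℤ Λ] in
theorem Lat_range {X : Type} (ψ : Λ →+ (X → ℂ)) :
    LinearMap.range (ψ.toIntLinearMap.liftBaseChange ℂ) = Submodule.span ℂ (Set.range ψ) :=
  LinearMap.range_liftBaseChange ℂ _

theorem Lat_char (γ : Module.End ℤ Λ) :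
    γ.charpoly.map (Int.castRingHom ℂ) = (γ.baseChange ℂ).charpoly :=
  (LinearMap.charpoly_baseChange γ ℂ).symm

omit [Module.Free ℤ Λ] [Module.Finite ℤ Λ] in
theorem Lat_pow {γ : Module.End ℤ Λ} {N : ℕ} (hγ : γ ^ N = 1) : γ.baseChange ℂ ^ N = 1 := by
  rw [← LinearMap.baseChange_pow, hγ, LinearMap.baseChange_one]

theorem Lat_sep {N : ℕ} (hN : 0 < N) : (X ^ N - 1 : ℂ[X]).Separable :=
  X_pow_sub_one_separable_iff.2 (Nat.cast_ne_zero.2 hN.ne')

/-- Multiplicities are dimensions of eigenspaces. -/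
theorem mult_eq {X : Type} [Fintype X] (γ : Module.End ℤ Λ) {N : ℕ} (hN : 0 < N) (hγ : γ ^ N = 1)
    (ψ : Λ →+ (X → ℂ)) (hψ : CInj ⊤ ψ) (P : Module.End ℂ (X → ℂ)) (hP : ∀ x, ψ (γ x) = P (ψ x))
    (ω : ℂ) : (γ.charpoly.map (Int.castRingHom ℂ)).rootMultiplicity ω =
      Module.finrank ℂ ↥(Submodule.span ℂ (Set.range ψ) ⊓ P.eigenspace ω) := by
  have hs : Module.End.IsSemisimple (γ.baseChange ℂ) :=
    Module.End.isSemisimple_of_squarefree_aeval_eq_zero (Lat_sep hN).squarefree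
      (by rw [map_sub, map_pow, aeval_X, map_one, Lat_pow hγ, sub_self])
  have hi := Lat_inj ψ hψ
  have hc : ∀ v, ψ.toIntLinearMap.liftBaseChange ℂ (γ.baseChange ℂ v) =
      P (ψ.toIntLinearMap.liftBaseChange ℂ v) := by
    intro v
    induction v using TensorProduct.induction_on with
    | zero => simp
    | tmul c x => simp [hP]
    | add x y hx hy => simp only [map_add, hx, hy]
  rw [Lat_char, ← LinearMap.finrank_maxGenEigenspace_eq,
    hs.isFinitelySemisimple.maxGenEigenspace_eq_eigenspace, ← Lat_range,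
    (Submodule.equivMapOfInjective _ hi _).finrank_eq]
  generalize ψ.toIntLinearMap.liftBaseChange ℂ = Φ at hi hc
  have e : Submodule.map Φ (Module.End.eigenspace (γ.baseChange ℂ) ω) =
      LinearMap.range Φ ⊓ P.eigenspace ω := by
    ext y
    simp only [Submodule.mem_map, Submodule.mem_inf, Module.End.mem_eigenspace_iff,
      LinearMap.mem_range]
    constructor
    · rintro ⟨v, hv, rfl⟩
      exact ⟨⟨v, rfl⟩, by rw [← hc, hv, map_smul]⟩
    · rintro ⟨⟨v, rfl⟩, hv⟩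
      exact ⟨v, hi (by rw [hc, hv, map_smul]), rfl⟩
  rw [e]

theorem finrank_eq_span {X : Type} [Fintype X] (ψ : Λ →+ (X → ℂ)) (hψ : CInj ⊤ ψ) :
    Module.finrank ℤ Λ = Module.finrank ℂ ↥(Submodule.span ℂ (Set.range ψ)) := by
  rw [← Lat_range, LinearMap.finrank_range_of_inj (Lat_inj ψ hψ), Module.finrank_baseChange]

theorem dvd_of_mult {f g : ℤ[X]} (hf : f.Monic) (hg : g.Monic)
    (h : ∀ ω : ℂ, (g.map (Int.castRingHom ℂ)).rootMultiplicity ω ≤
      (f.map (Int.castRingHom ℂ)).rootMultiplicity ω) : g ∣ f := by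
  have _ := hf
  rw [← map_dvd_map (Int.castRingHom ℂ) (RingHom.injective_int _) hg]
  refine (IsAlgClosed.splits _).dvd_of_roots_le_roots (hg.map _).ne_zero
    (Multiset.le_iff_count.2 fun ω => ?_)
  rw [count_roots, count_roots]
  exact h ω

theorem mult_root {γ : Module.End ℤ Λ} {N : ℕ} (hN : 0 < N) (hγ : γ ^ N = 1) {ω : ℂ}
    (h : (γ.charpoly.map (Int.castRingHom ℂ)).rootMultiplicity ω ≠ 0) : ω ^ N = 1 := by
  have _ := hN
  rw [Lat_char] at h
  have h1 : (γ.baseChange ℂ).charpoly.IsRoot ω := by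
    by_contra h1
    exact h (rootMultiplicity_eq_zero h1)
  obtain ⟨v, hv⟩ :=
    ((Module.End.hasEigenvalue_iff_isRoot_charpoly _ _).2 h1).exists_hasEigenvector
  have h2 := hv.pow_apply N
  rw [Lat_pow hγ, Module.End.one_apply] at h2
  exact smul_left_injective ℂ hv.2 (h2.symm.trans (one_smul ℂ v).symm)

theorem Lat_rm_pow (p : ℂ[X]) (ρ : ℕ) (ω : ℂ) :
    (p ^ ρ).rootMultiplicity ω = ρ * p.rootMultiplicity ω := by
  rw [← count_roots, ← count_roots, roots_pow, Multiset.count_nsmul]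

theorem Lat_rm {N : ℕ} (hN : 0 < N) (ω : ℂ) :
    (X ^ N - 1 : ℂ[X]).rootMultiplicity ω = if ω ^ N = 1 then 1 else 0 := by
  split_ifs with h
  · refine le_antisymm (rootMultiplicity_le_one_of_separable (Lat_sep hN) ω) ?_
    exact (rootMultiplicity_pos (Lat_sep hN).ne_zero).2 (by simp [h])
  · exact rootMultiplicity_eq_zero (by simpa [sub_eq_zero] using h)

theorem mult_X_pow_sub_one {N : ℕ} (hN : 0 < N) (ρ : ℕ) (ω : ℂ) :
    (((X ^ N - 1 : ℤ[X]) ^ ρ).map (Int.castRingHom ℂ)).rootMultiplicity ω =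
      if ω ^ N = 1 then ρ else 0 := by
  rw [Polynomial.map_pow, Polynomial.map_sub, Polynomial.map_pow, map_X, Polynomial.map_one,
    Lat_rm_pow, Lat_rm hN]
  split_ifs <;> simp

theorem mult_geom {N : ℕ} (hN : 0 < N) (ρ : ℕ) (ω : ℂ) :
    (((∑ j ∈ Finset.range N, X ^ j : ℤ[X]) ^ ρ).map (Int.castRingHom ℂ)).rootMultiplicity ω =
      if ω ^ N = 1 ∧ ω ≠ 1 then ρ else 0 := by
  have h := Lat_rm hN ω
  have h0 := (Lat_sep hN).ne_zero
  rw [← mul_geom_sum] at h h0
  rw [rootMultiplicity_mul h0, ← C_1, rootMultiplicity_X_sub_C] at h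
  simp only [Polynomial.map_pow, Polynomial.map_sum, map_X]
  rw [Lat_rm_pow]
  generalize rootMultiplicity ω (∑ j ∈ Finset.range N, X ^ j : ℂ[X]) = k at h
  by_cases h1 : ω = 1
  · subst h1
    simp only [one_pow, if_true] at h
    simp [show k = 0 by omega]
  · rw [if_neg h1, zero_add] at h
    rw [h]
    by_cases h2 : ω ^ N = 1 <;> simp [h1, h2]

end Uc
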