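import Vale.Agent.P024.Herb
import Vale.Agent.P024.Lat
import Vale.Agent.P024.Lat2

/-! The Herbrand quotient of a lattice. -/

noncomputable section
namespace Uc
open Polynomial
open scoped Classical

section
variable {M X : Type} [AddCommGroup M]

theorem HUa_fin {U V : Submodule ℤ M} (hfg : U.FG) (h : V ≤ U) : Module.Finite ℤ V :=
  Module.Finite.iff_fg.2 (hfg.of_le h)

theorem HUa_free {U V : Submodule ℤ M} (hfg : U.FG) (h : V ≤ U) (ψ : M →+ (X → ℂ))
    (hinj : ∀ x ∈ U, ψ x = 0 → x = 0) : Module.Free ℤ V := by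
  have := HUa_fin hfg h
  have : Module.IsTorsionFree ℤ V := Module.IsTorsionFree.of_smul_eq_zero fun r m hm => by
    have h1 : r • ψ m = 0 := by
      rw [← map_zsmul, ← Submodule.coe_smul, hm, Submodule.coe_zero, map_zero]
    exact (smul_eq_zero.1 h1).imp id fun h2 => Subtype.ext (hinj _ (h m.2) h2)
  infer_instance

/-- the restriction of the map to a submodule -/
def HUa_res (ψ : M →+ (X → ℂ)) (V : Submodule ℤ M) : V →+ (X → ℂ) :=
  ψ.comp V.subtype.toAddMonoidHom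

theorem HUa_cinj {U V : Submodule ℤ M} (h : V ≤ U) {ψ : M →+ (X → ℂ)} (hψ : CInj U ψ) :
    CInj ⊤ (HUa_res ψ V) := fun ι _ v _ hv =>
  hψ ι (fun i => v i) (fun i => h (v i).2) (hv.map' V.subtype V.ker_subtype)

theorem HUa_pow {γ : Module.End ℤ M} {ψ : M →+ (X → ℂ)} {P : Module.End ℂ (X → ℂ)}
    (hP : ∀ x, ψ (γ x) = P (ψ x)) (j : ℕ) (x : M) : ψ ((γ ^ j) x) = (P ^ j) (ψ x) := by
  induction j with
  | zero => rfl
  | succ j ih => rw [pow_succ', pow_succ', Module.End.mul_apply, Module.End.mul_apply, hP, ih]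

theorem HUa_Ns {γ : Module.End ℤ M} {ψ : M →+ (X → ℂ)} {P : Module.End ℂ (X → ℂ)}
    (hP : ∀ x, ψ (γ x) = P (ψ x)) (n : ℕ) (x : M) :
    ψ (Ns γ n x) = (∑ j ∈ Finset.range n, P ^ j) (ψ x) := by
  rw [Ns, LinearMap.sum_apply, LinearMap.sum_apply, map_sum]
  exact Finset.sum_congr rfl fun j _ => HUa_pow hP j x

theorem HUa_eig {P : Module.End ℂ (X → ℂ)} {ω : ℂ} {v : X → ℂ} (hv : P v = ω • v) (n : ℕ) :
    (∑ j ∈ Finset.range n, P ^ j) v = (∑ j ∈ Finset.range n, ω ^ j) • v := by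
  rw [LinearMap.sum_apply, Finset.sum_smul]
  refine Finset.sum_congr rfl fun j hj => ?_
  clear hj
  induction j with
  | zero => simp
  | succ j ih => rw [pow_succ, Module.End.mul_apply, hv, map_smul, ih, smul_smul, pow_succ']

theorem HUa_mem {γ : Module.End ℤ M} {U : Submodule ℤ M} (hU : ∀ x ∈ U, γ x ∈ U) (n : ℕ) {x : M}
    (hx : x ∈ U) : Ns γ n x ∈ U := by
  rw [Ns, LinearMap.sum_apply]
  refine U.sum_mem fun j hj => ?_
  clear hj
  induction j with
  | zero => exact hx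
  | succ j ih => rw [pow_succ', Module.End.mul_apply]; exact hU _ ih

theorem HUa_Nγ {γ : Module.End ℤ M} {n : ℕ} (hγ : γ ^ n = 1) (x : M) :
    Ns γ n (γ x) = Ns γ n x := by
  have h := LinearMap.congr_fun (geom_sum_mul γ n) x
  rw [hγ, sub_self, Module.End.mul_apply, LinearMap.sub_apply, map_sub, LinearMap.zero_apply,
    sub_eq_zero] at h
  exact h

theorem HUa_NN {γ : Module.End ℤ M} {n : ℕ} (hγ : γ ^ n = 1) (x : M) :
    Ns γ n (Ns γ n x) = n • Ns γ n x := by
  have h : ∀ j : ℕ, Ns γ n ((γ ^ j) x) = Ns γ n x := fun j => by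
    induction j with
    | zero => rfl
    | succ j ih => rw [pow_succ', Module.End.mul_apply, HUa_Nγ hγ, ih]
  have h1 : Ns γ n x = ∑ j ∈ Finset.range n, (γ ^ j) x := LinearMap.sum_apply _ _ _
  calc Ns γ n (Ns γ n x) = Ns γ n (∑ j ∈ Finset.range n, (γ ^ j) x) := by rw [← h1]
    _ = _ := by simp only [map_sum, h, Finset.sum_const, Finset.card_range]

end

/-- See the blueprint, section HUa. -/
theorem hua {M X : Type} [AddCommGroup M] [Fintype X] [Nonempty X] (γ : Module.End ℤ M) {n : ℕ}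
    (hn : 0 < n) (hγ : γ ^ n = 1) (U : Submodule ℤ M) (hU : ∀ x ∈ U, γ x ∈ U) (hfg : U.FG)
    (ψ : M →+ (X → ℂ)) (hinj : ∀ x ∈ U, ψ x = 0 → x = 0) (hψ : CInj U ψ)
    (hs : Submodule.span ℂ (ψ '' U) = LinearMap.ker (∑ x : X, LinearMap.proj x : (X → ℂ) →ₗ[ℂ] ℂ))
    (π : Equiv.Perm X) (hπ : π ^ n = 1) (hf : ∀ (x : X) (j : ℕ), (π ^ j) x = x → n ∣ j)
    (he : ∀ x v, ψ (γ x) v = ψ x (π v)) : h0 γ n U ≠ 0 ∧ n * h0 γ n U ≤ h1 γ n U := by
  have := HUa_fin hfg le_rfl
  have := HUa_free hfg le_rfl ψ hinj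
  obtain ⟨i, hi, e0, e1⟩ := herb γ hn hγ U hU
  set U0 := U ⊓ LinearMap.ker (γ - 1) with hU0
  set U1 := U ⊓ LinearMap.ker (Ns γ n) with hU1
  have := HUa_fin hfg (show U0 ≤ U from inf_le_left)
  have := HUa_free hfg (show U0 ≤ U from inf_le_left) ψ hinj
  have := HUa_fin hfg (show U1 ≤ U from inf_le_left)
  have := HUa_free hfg (show U1 ≤ U from inf_le_left) ψ hinj
  set P : Module.End ℂ (X → ℂ) := LinearMap.funLeft ℂ ℂ π with hPd
  have hP : ∀ x, ψ (γ x) = P (ψ x) := fun x => funext fun v => he x v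
  set ρ := Module.finrank ℂ ↥(P.eigenspace 1) with hρ
  have hker : ∀ v : X → ℂ, v ∈ Submodule.span ℂ (ψ '' U) ↔ ∑ x, v x = 0 := fun v => by
    rw [hs, LinearMap.mem_ker, LinearMap.sum_apply]
    rfl
  have hnC : (n : ℂ) ≠ 0 := by exact_mod_cast hn.ne'
  have ha : Module.finrank ℤ U0 < ρ := by
    rw [finrank_eq_span (HUa_res ψ U0) (HUa_cinj inf_le_left hψ)]
    refine Submodule.finrank_lt_finrank_of_lt (lt_of_le_of_ne (Submodule.span_le.2 ?_) fun h => ?_)
    · rintro _ ⟨x, rfl⟩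
      have h1 : γ x - x = 0 := x.2.2
      rw [SetLike.mem_coe, Module.End.mem_eigenspace_iff, one_smul]
      show P (ψ x) = ψ x
      rw [← hP, sub_eq_zero.1 h1]
    · have h1 : (fun _ => 1 : X → ℂ) ∈ P.eigenspace 1 := by
        rw [Module.End.mem_eigenspace_iff, one_smul]
        rfl
      rw [← h] at h1
      have h2 := (hker _).1 (Submodule.span_mono (s := Set.range (HUa_res ψ U0))
        (by rintro _ ⟨x, rfl⟩; exact ⟨x, x.2.1, rfl⟩) h1)
      simp at h2
  have hst : ∀ x ∈ U1, γ x ∈ U1 := fun x hx =>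
    ⟨hU x hx.1, by
      have h1 : Ns γ n x = 0 := hx.2
      show Ns γ n (γ x) = 0
      rw [HUa_Nγ hγ, h1]⟩
  let γ1 : Module.End ℤ U1 := γ.restrict hst
  have hγ1 : γ1 ^ n = 1 := by
    have h : ∀ (j : ℕ) (x : U1), ((γ1 ^ j) x : M) = (γ ^ j) x := fun j x => by
      induction j with
      | zero => rfl
      | succ j ih =>
        rw [pow_succ', pow_succ', Module.End.mul_apply, Module.End.mul_apply, ← ih]
        rfl
    ext x
    rw [h, hγ]
    rfl
  have hm := mult_eq γ1 hn hγ1 (HUa_res ψ U1) (HUa_cinj inf_le_left hψ) P fun x => hP x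
  have hle : ∀ ω : ℂ, ω ^ n = 1 → ω ≠ 1 →
      P.eigenspace ω ≤ Submodule.span ℂ (Set.range (HUa_res ψ U1)) := by
    intro ω h1 h2 v hv
    rw [Module.End.mem_eigenspace_iff] at hv
    have h3 : ∑ x, v x = 0 := by
      have h4 : ∑ x, P v x = ∑ x, v x := Equiv.sum_comp π v
      rw [hv] at h4
      simp only [Pi.smul_apply, smul_eq_mul, ← Finset.mul_sum] at h4
      by_contra h5
      exact h2 (mul_right_cancel₀ h5 (h4.trans (one_mul _).symm))
    have h5 : ∑ j ∈ Finset.range n, ω ^ j = 0 := by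
      have := geom_sum_mul ω n
      rw [h1, sub_self] at this
      exact (mul_eq_zero.1 this).resolve_right (sub_ne_zero.2 h2)
    have h6 : (Submodule.span ℂ (ψ '' U)).map
        ((n : ℂ) • (1 : Module.End ℂ (X → ℂ)) - ∑ j ∈ Finset.range n, P ^ j)
        ≤ Submodule.span ℂ (Set.range (HUa_res ψ U1)) := by
      rw [Submodule.map_span]
      refine Submodule.span_mono ?_
      rintro _ ⟨_, ⟨u, hu, rfl⟩, rfl⟩
      refine ⟨⟨n • u - Ns γ n u, U.sub_mem (U.nsmul_mem hu n) (HUa_mem hU n hu), ?_⟩, ?_⟩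
      · show Ns γ n (n • u - Ns γ n u) = 0
        rw [map_sub, map_nsmul, HUa_NN hγ, sub_self]
      · show ψ (n • u - Ns γ n u) = _
        rw [map_sub, map_nsmul, HUa_Ns hP, LinearMap.sub_apply, LinearMap.smul_apply,
          Module.End.one_apply, Nat.cast_smul_eq_nsmul]
    have h7 := h6 ⟨v, (hker v).2 h3, rfl⟩
    rw [LinearMap.sub_apply, HUa_eig hv, h5, zero_smul, sub_zero, LinearMap.smul_apply,
      Module.End.one_apply] at h7
    exact (Submodule.smul_mem_iff _ hnC).1 h7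
  have hdvd : (∑ j ∈ Finset.range n, Polynomial.X ^ j : Polynomial ℤ) ^ ρ ∣ γ1.charpoly := by
    refine dvd_of_mult γ1.charpoly_monic ((monic_geom_sum_X hn.ne').pow ρ) fun ω => ?_
    rw [mult_geom hn]
    split_ifs with h
    · rw [hm, inf_eq_right.2 (hle ω h.1 h.2)]
      exact eig_free π hn hπ hf h.1
    · exact Nat.zero_le _
  have hne : γ1.charpoly.eval 1 ≠ 0 := by
    intro h
    have h1 : 0 < (γ1.charpoly.map (Int.castRingHom ℂ)).rootMultiplicity 1 := by
      rw [rootMultiplicity_pos (γ1.charpoly_monic.map _).ne_zero, IsRoot, eval_one_map, h, map_zero]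
    have h2 : Submodule.span ℂ (Set.range (HUa_res ψ U1)) ⊓ P.eigenspace 1 = ⊥ := by
      rw [eq_bot_iff]
      rintro v ⟨h3, h4⟩
      have h5 : Submodule.span ℂ (Set.range (HUa_res ψ U1))
          ≤ LinearMap.ker (∑ j ∈ Finset.range n, P ^ j) := by
        refine Submodule.span_le.2 ?_
        rintro _ ⟨x, rfl⟩
        have h6 : Ns γ n x = 0 := x.2.2
        show (∑ j ∈ Finset.range n, P ^ j) (ψ x) = 0
        rw [← HUa_Ns hP, h6, map_zero]
      have h7 : (∑ j ∈ Finset.range n, P ^ j) v = 0 := h5 h3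
      rw [HUa_eig (Module.End.mem_eigenspace_iff.1 h4)] at h7
      simpa [hn.ne'] using h7
    rw [hm, h2, finrank_bot] at h1
    exact lt_irrefl _ h1
  have hidx : ri (U1.map (γ - 1)) U1 = (γ1.charpoly.eval 1).natAbs := by
    rw [← index_range γ1 1]
    refine congrArg AddSubgroup.index (AddSubgroup.ext fun x => ?_)
    constructor
    · rintro ⟨y, hy, h⟩
      exact ⟨⟨y, hy⟩, Subtype.ext (by simpa [γ1] using h)⟩
    · rintro ⟨y, h⟩
      exact ⟨y, y.2, by simpa [γ1] using congrArg Subtype.val h⟩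
  have hge : n ^ ρ ≤ h1 γ n U * i := by
    rw [e1, hidx]
    refine Nat.le_of_dvd (Int.natAbs_pos.2 hne) (Int.natCast_dvd.1 ?_)
    have := eval_dvd (x := (1 : ℤ)) hdvd
    simpa [eval_finsetSum] using this
  refine ⟨fun h => ?_, Nat.le_of_mul_le_mul_right ?_ (Nat.pos_of_ne_zero hi)⟩
  · rw [h, zero_mul] at e0
    exact (pow_pos hn _).ne e0
  · rw [mul_assoc, e0, ← pow_succ']
    exact (Nat.pow_le_pow_right hn ha).trans hge

end Uc
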