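import Vale.Agent.P024.H1M
import Vale.Agent.P024.HUa
import Vale.Agent.P024.CH
import Vale.Agent.P024.NF3

/-! The first inequality. -/

noncomputable section
namespace Uc
open NumberField
open scoped Classical

/-- divisors prime to `r` -/
def Dv (L : Type) [Field L] (r : ℕ) : Submodule ℤ (Pr L → ℚ) where
  carrier := {D | IsDv D ∧ ∀ B : Pr L, B.p = r → D B = 0}
  add_mem' := by
    rintro D D' ⟨⟨h1, h2⟩, h3⟩ ⟨⟨h4, h5⟩, h6⟩
    refine ⟨⟨(h1.union h4).subset fun B hB => ?_, fun B => ?_⟩, fun B hB => ?_⟩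
    · by_contra h
      rw [Set.mem_union, not_or] at h
      have h7 : D B = 0 := not_not.1 h.1
      have h8 : D' B = 0 := not_not.1 h.2
      exact hB (by rw [Pi.add_apply, h7, h8, add_zero])
    · obtain ⟨z, hz, e⟩ := h2 B
      obtain ⟨z', hz', e'⟩ := h5 B
      exact ⟨z * z', mul_ne_zero hz hz', by rw [B.w_mul _ _ hz hz', e, e', Pi.add_apply]⟩
    · rw [Pi.add_apply, h3 B hB, h6 B hB, add_zero]
  zero_mem' := ⟨⟨Set.finite_empty.subset fun _ hB => (hB rfl).elim,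
    fun B => ⟨1, one_ne_zero, B.w_one⟩⟩, fun _ _ => rfl⟩
  smul_mem' := by
    rintro n D ⟨⟨h1, h2⟩, h3⟩
    refine ⟨⟨h1.subset fun B hB h => hB ?_, fun B => ?_⟩, fun B hB => ?_⟩
    · rw [Pi.smul_apply, h, smul_zero]
    · obtain ⟨z, hz, e⟩ := h2 B
      exact ⟨z ^ n, zpow_ne_zero n hz, by rw [B.w_zpow, e, Pi.smul_apply, zsmul_eq_mul]⟩
    · rw [Pi.smul_apply, h3 B hB, smul_zero]

/-- the divisor away from `r` -/
def dvr (L : Type) [Field L] (r : ℕ) : Additive Lˣ →ₗ[ℤ] (Pr L → ℚ) :=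
  (AddMonoidHom.mk' (fun x B => if B.p = r then 0 else B.w (x.toMul : Lˣ)) (by
    intro x y
    funext B
    rw [Pi.add_apply]
    split_ifs
    · rw [add_zero]
    · rw [toMul_add, Units.val_mul, B.w_mul _ _ (Units.ne_zero _) (Units.ne_zero _)])).toIntLinearMap

/-- the action on divisors -/
def actD {L : Type} [Field L] [CharZero L] (γ : Aut L) : Module.End ℤ (Pr L → ℚ) :=
  LinearMap.funLeft ℤ ℚ fun B => γ⁻¹ • B

theorem mem_Dv {L : Type} [Field L] {r : ℕ} {D : Pr L → ℚ} :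
    D ∈ Dv L r ↔ IsDv D ∧ ∀ B : Pr L, B.p = r → D B = 0 := Iff.rfl

theorem dvr_apply {L : Type} [Field L] (r : ℕ) (x : Additive Lˣ) (B : Pr L) :
    dvr L r x B = if B.p = r then 0 else B.w (x.toMul : Lˣ) := rfl

theorem actD_apply {L : Type} [Field L] [CharZero L] (γ : Aut L) (D : Pr L → ℚ) (B : Pr L) :
    actD γ D B = D (γ⁻¹ • B) := rfl

theorem actD_pow_apply {L : Type} [Field L] [CharZero L] (γ : Aut L) (k : ℕ) (D : Pr L → ℚ)
    (B : Pr L) : (actD γ ^ k) D B = D ((γ ^ k)⁻¹ • B) := by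
  induction k generalizing D with
  | zero => rw [pow_zero, pow_zero, inv_one, one_smul, Module.End.one_apply]
  | succ k ih => rw [pow_succ, Module.End.mul_apply, ih, actD_apply, pow_succ, mul_inv_rev, mul_smul]

theorem actD_mem_Dv {L : Type} [Field L] [CharZero L] (γ : Aut L) {r : ℕ} {D : Pr L → ℚ}
    (h : D ∈ Dv L r) : actD γ D ∈ Dv L r := by
  obtain ⟨⟨h1, h2⟩, h3⟩ := h
  refine ⟨⟨?_, fun B => ?_⟩, fun B hB => h3 _ hB⟩
  · exact h1.preimage (f := fun B : Pr L => γ⁻¹ • B) (MulAction.injective γ⁻¹).injOn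
  · obtain ⟨z, hz, e⟩ := h2 (γ⁻¹ • B)
    refine ⟨γ z, (map_ne_zero γ).2 hz, ?_⟩
    rw [actD_apply, ← e, Pr.smul_w, inv_inv]

theorem dvr_mem_Dv {L : Type} [Field L] [NumberField L] (r : ℕ) (x : Additive Lˣ) :
    dvr L r x ∈ Dv L r := by
  refine ⟨⟨(Pr.finite_supp ((x.toMul : Lˣ) : L)).subset fun B hB h => hB ?_, fun B => ?_⟩,
    fun B hB => by rw [dvr_apply, if_pos hB]⟩
  · rw [dvr_apply, h, ite_self]
  · rw [dvr_apply]
    split_ifs
    · exact ⟨1, one_ne_zero, B.w_one⟩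
    · exact ⟨_, Units.ne_zero _, rfl⟩

theorem dvr_act {L : Type} [Field L] [NumberField L] (γ : Aut L) (r : ℕ) (x : Additive Lˣ) :
    dvr L r (act γ x) = actD γ (dvr L r x) := by
  funext B
  rw [actD_apply, dvr_apply, dvr_apply, act_apply, Pr.smul_p, Pr.smul_w, inv_inv]

theorem FI0_ri {M : Type} [AddCommGroup M] (A I : Submodule ℤ M) (X : Finset M)
    (h : ∀ D ∈ I, ∃ D₀ ∈ X, D - D₀ ∈ A) : ri A I ≠ 0 ∧ ri A I ≤ X.card := by
  have h1 : ∀ q : I.toAddSubgroup ⧸ A.toAddSubgroup.addSubgroupOf I.toAddSubgroup,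
      ∃ D₀ : X, (q.out : M) - D₀ ∈ A := by
    intro q
    obtain ⟨D₀, h2, h3⟩ := h q.out q.out.2
    exact ⟨⟨D₀, h2⟩, h3⟩
  choose f hf using h1
  have h2 : Function.Injective f := by
    intro q q' e
    rw [← q.out_eq, ← q'.out_eq]
    refine QuotientAddGroup.eq.2 ?_
    rw [AddSubgroup.mem_addSubgroupOf]
    have h3 := A.sub_mem (hf q') (hf q)
    rw [e] at h3
    have h4 : ((-q.out + q'.out : I.toAddSubgroup) : M) =
        (q'.out : M) - f q' - ((q.out : M) - f q') := by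
      push_cast
      abel
    rw [h4]
    exact h3
  have h3 := Finite.of_injective f h2
  refine ⟨Nat.card_pos.ne', (Nat.card_le_card_of_injective f h2).trans ?_⟩
  rw [Nat.card_eq_fintype_card, Fintype.card_coe]

theorem FI0_tors {L : Type} [Field L] [NumberField L] {r : ℕ} (hr : r.Prime) (h2 : r ≠ 2) {z : L}
    (hz : Cg r 1 z 1) {n : ℕ} (hn : n ≠ 0) (h : z ^ n = 1) : z = 1 := by
  obtain ⟨B, hB⟩ := Pr.exists_above (E := L) hr
  have h1 : B.Ge 1 (z - 1) := by simpa using hz B hB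
  have hs : B.Sm (z - 1) := h1.sm one_pos
  obtain ⟨k, m, hm, rfl⟩ := Nat.exists_eq_pow_mul_and_not_dvd hn r hr.ne_one
  have hin : B.In z := (Pr.w_eq_zero_of_sm_sub_one hs).2.ge
  have h3 : B.Sm (z ^ r ^ k - 1) := by
    rw [← Pr.rs_eq_iff (hin.pow _) (Pr.In.one B), Pr.rs_pow hin,
      (Pr.rs_eq_iff hin (Pr.In.one B)).2 hs, Pr.rs_one, one_pow]
  have h4 : z ^ r ^ k = 1 := Pr.eq_one_of_sm (A := B) (hB ▸ hm) (by rw [← pow_mul, h]) h3
  obtain ⟨j, _, hj⟩ := (Nat.dvd_prime_pow hr).1 (orderOf_dvd_of_pow_eq_one h4)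
  rcases j with _ | j
  · exact orderOf_eq_one_iff.1 (by simpa using hj)
  by_contra h5
  have h6 : IsPrimitiveRoot z (B.p ^ (j + 1)) := by
    rw [hB, ← hj]
    exact IsPrimitiveRoot.orderOf z
  have h7 := Pr.w_one_sub h6
  have h8 := h1.resolve_left (sub_ne_zero.2 h5)
  rw [Pr.w_sub_comm, h7, hB] at h8
  have h9 : (3 : ℚ) ≤ r := by
    have := hr.two_le
    exact_mod_cast (by omega : 3 ≤ r)
  have h10 : (1 : ℚ) ≤ (r : ℚ) ^ j := one_le_pow₀ (by linarith)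
  rw [le_div_iff₀ (by nlinarith)] at h8
  nlinarith

/-- The units in `M` are torsion free (`Pr.w_one_sub`, `Pr.eq_one_of_sm`: a root of unity that is
`1` modulo `r` is trivial for odd `r`) and contain a power of every unit (`exists_pow_cg`); the
action on places is free because the order is odd; apply `hua`. -/
theorem hu {L : Type} [Field L] [NumberField L] (γ : Aut L) (ho : Odd (orderOf γ)) {r T : ℕ}
    (hr : r.Prime) (h2 : r ≠ 2) (M : Submodule ℤ (Additive Lˣ)) (a1 : ∀ x ∈ M, act γ x ∈ M)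
    (a3 : ∀ x ∈ M, Cg r 1 ((x.toMul : Lˣ) : L) 1)
    (a4 : ∀ x : Additive Lˣ, Cg r T ((x.toMul : Lˣ) : L) 1 → x ∈ M) :
    h0 (act γ) (orderOf γ) (M ⊓ LinearMap.ker (dvr L r)) ≠ 0 ∧
    orderOf γ * h0 (act γ) (orderOf γ) (M ⊓ LinearMap.ker (dvr L r)) ≤
      h1 (act γ) (orderOf γ) (M ⊓ LinearMap.ker (dvr L r)) := by
  have hle : M ⊓ LinearMap.ker (dvr L r) ≤ UU L := by
    rintro x ⟨hx1, hx2⟩
    rw [mem_UU]
    intro B
    by_cases hB : B.p = r
    · have h1 : B.Ge 1 (((x.toMul : Lˣ) : L) - 1) := by simpa using a3 x hx1 B hB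
      exact (Pr.w_eq_zero_of_sm_sub_one (h1.sm one_pos)).2
    · have h1 := congrFun (LinearMap.mem_ker.1 hx2) B
      rwa [dvr_apply, if_neg hB] at h1
  refine hua (act γ) ho.pos (by rw [← act_pow, pow_orderOf_eq_one, act_one]) _ ?_
    ((fg_UU L).of_le hle) (llog L) ?_ ?_ ?_ (plc γ)
    (by rw [← plc_pow, pow_orderOf_eq_one, plc_one]) ?_ (llog_act γ)
  · rintro x ⟨hx1, hx2⟩
    refine ⟨a1 x hx1, LinearMap.mem_ker.2 ?_⟩
    rw [dvr_act, LinearMap.mem_ker.1 hx2, map_zero]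
  · intro x hx h
    obtain ⟨n, hn, h1⟩ := (llog_eq_zero_iff (hle hx)).1 h
    have h3 := FI0_tors hr h2 (a3 x hx.1) hn h1
    exact toMul_eq_one.1 (Units.ext h3)
  · intro ι _ v hv hl
    exact cinj_llog L ι v (fun i => hle (hv i)) hl
  · rw [← span_llog]
    refine le_antisymm (Submodule.span_mono (Set.image_mono hle)) (Submodule.span_le.2 ?_)
    rintro _ ⟨x, hx, rfl⟩
    obtain ⟨e, he, h1⟩ := exists_pow_cg L hr T
    have h3 : e • x ∈ M ⊓ LinearMap.ker (dvr L r) := by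
      refine ⟨a4 _ ?_, LinearMap.mem_ker.2 ?_⟩
      · rw [toMul_nsmul, Units.val_pow_eq_pow_val]
        exact h1 _ (Units.ne_zero _) fun B _ => mem_UU.1 hx B
      · have h4 : dvr L r x = 0 := by
          funext B
          rw [dvr_apply, mem_UU.1 hx B, ite_self, Pi.zero_apply]
        rw [map_nsmul, h4, smul_zero]
    have h4 : llog L x = (e : ℂ)⁻¹ • llog L (e • x) := by
      rw [map_nsmul, ← Nat.cast_smul_eq_nsmul ℂ, smul_smul,
        inv_mul_cancel₀ (Nat.cast_ne_zero.2 he.ne'), one_smul]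
    rw [h4]
    exact Submodule.smul_mem _ _ (Submodule.subset_span ⟨_, h3, rfl⟩)
  · intro v j hj
    rw [← plc_pow] at hj
    have h1 := sq_eq_one_of_plc hj
    rw [← pow_mul] at h1
    exact (Nat.coprime_two_right.2 ho).dvd_of_dvd_mul_right (orderOf_dvd_of_pow_eq_one h1)

/-- `h1m`, `hu`, `ray_fin`, `ch` -/
theorem fi0 {L : Type} [Field L] [NumberField L] (γ : Aut L) (ho : Odd (orderOf γ)) {r : ℕ}
    (hr : r.Prime) (h2 : r ≠ 2) : ∃ T : ℕ, ∀ X : Finset (Pr L → ℚ),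
      (∀ D ∈ Dv L r, actD γ D = D → ∃ D₀ ∈ X, ∃ y : Lˣ, γ y = y ∧ Cg r T (y : L) 1 ∧
        ∃ D' ∈ Dv L r, D = D₀ + dvr L r (Additive.ofMul y) + Ns (actD γ) (orderOf γ) D') →
      orderOf γ ≤ X.card := by
  obtain ⟨M, T, a1, a3, a4, a5⟩ := h1m γ hr
  refine ⟨T, fun X hX => ?_⟩
  obtain ⟨b1, b2⟩ := hu γ ho hr h2 M a1 a3 a4
  have hfin : ri (M.map (dvr L r)) (Dv L r) ≠ 0 := by
    obtain ⟨Y, hY⟩ := ray_fin L hr T
    refine (FI0_ri _ _ Y fun D hD => ?_).1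
    obtain ⟨D₀, h3, x, hx, h4, h5⟩ := hY D hD.1 hD.2
    refine ⟨D₀, h3, Additive.ofMul (Units.mk0 x hx), a4 _ fun B hB => ?_, ?_⟩
    · exact (h4 B hB).mono (by push_cast; linarith)
    · funext B
      rw [dvr_apply, Pi.sub_apply, h5 B, add_sub_cancel_left]
      split_ifs with hB
      · exact (Pr.w_eq_zero_of_sm_sub_one ((h4 B hB).sm (by positivity))).2.symm
      · rfl
  obtain ⟨c1, c2⟩ := FI0_ri ((M ⊓ LinearMap.ker (act γ - 1)).map (dvr L r) ⊔
      (Dv L r).map (Ns (actD γ) (orderOf γ))) (Dv L r ⊓ LinearMap.ker (actD γ - 1)) X (by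
    rintro D ⟨hD1, hD2⟩
    obtain ⟨D₀, h3, y, h4, h5, D', h6, h7⟩ := hX D hD1 (by
      have h8 := LinearMap.mem_ker.1 hD2
      rwa [LinearMap.sub_apply, Module.End.one_apply, sub_eq_zero] at h8)
    refine ⟨D₀, h3, ?_⟩
    rw [h7, add_assoc, add_sub_cancel_left]
    refine Submodule.add_mem_sup ⟨Additive.ofMul y, ⟨a4 _ h5, LinearMap.mem_ker.2 ?_⟩, rfl⟩
      ⟨D', h6, rfl⟩
    rw [LinearMap.sub_apply, Module.End.one_apply, sub_eq_zero]
    refine Additive.toMul.injective (Units.ext ?_)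
    rw [act_apply]
    exact h4)
  have c3 := ch (act γ) (actD γ) (n := orderOf γ)
    (by rw [← act_pow, pow_orderOf_eq_one, act_one]) (by
      ext1 D
      funext B
      rw [actD_pow_apply, pow_orderOf_eq_one, inv_one, one_smul, Module.End.one_apply])
    M (Dv L r) a1 (fun _ => actD_mem_Dv γ) (dvr L r) (fun x _ => dvr_mem_Dv r x) (dvr_act γ r)
    a5 hfin b1 c1
  exact (Nat.le_of_mul_le_mul_right (b2.trans c3) (Nat.pos_of_ne_zero b1)).trans c2

end Uc
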