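import Vale.Agent.P024.Defs

/-! Pure group theory. -/

noncomputable section
namespace Uc
open scoped Classical

section
variable {G A : Type} [Group G] [AddCommGroup A] {H : Subgroup G} {c : G → A}

lemma fsg_one (h : ∀ x ∈ H, ∀ y ∈ H, c (x * y) = c x + c y) : c 1 = 0 := by
  have := h 1 H.one_mem 1 H.one_mem
  rw [mul_one] at this
  exact left_eq_add.1 this

lemma fsg_inv (h : ∀ x ∈ H, ∀ y ∈ H, c (x * y) = c x + c y) {x : G} (hx : x ∈ H) :
    c x⁻¹ = -c x := by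
  have := h x hx x⁻¹ (H.inv_mem hx)
  rw [mul_inv_cancel, fsg_one h] at this
  exact eq_neg_of_add_eq_zero_right this.symm

lemma fsg_conj [hN : H.Normal] (h : ∀ x ∈ H, ∀ y ∈ H, c (x * y) = c x + c y) (s : G) {y : G}
    (hy : y ∈ H) :
    c ((s : G ⧸ H).out * y * ((s : G ⧸ H).out)⁻¹) = c (s * y * s⁻¹) := by
  obtain ⟨z, hz⟩ := QuotientGroup.mk_out_eq_mul H s
  have h1 := hN.conj_mem _ z.2 s
  have h2 := hN.conj_mem _ hy s
  have e : s * z * y * (s * z)⁻¹ = s * z * s⁻¹ * (s * y * s⁻¹) * (s * z * s⁻¹)⁻¹ := by group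
  rw [hz, e, h _ (H.mul_mem h1 h2) _ (H.inv_mem h1), h _ h1 _ h2, fsg_inv h h1]
  abel

/-- the elements on which two conjugated characters agree -/
def fsgK (H : Subgroup G) [hN : H.Normal] (ca cb : G → A)
    (ha : ∀ x ∈ H, ∀ y ∈ H, ca (x * y) = ca x + ca y)
    (hb : ∀ x ∈ H, ∀ y ∈ H, cb (x * y) = cb x + cb y) (s t : G) : Subgroup G where
  carrier := {y | y ∈ H ∧ ca (t * y * t⁻¹) = cb (s * y * s⁻¹)}
  mul_mem' := by
    rintro x y ⟨hx, ex⟩ ⟨hy, ey⟩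
    refine ⟨H.mul_mem hx hy, ?_⟩
    rw [← conj_mul, ← conj_mul, ha _ (hN.conj_mem _ hx t) _ (hN.conj_mem _ hy t),
      hb _ (hN.conj_mem _ hx s) _ (hN.conj_mem _ hy s), ex, ey]
  one_mem' := ⟨H.one_mem, by simp [fsg_one ha, fsg_one hb]⟩
  inv_mem' := by
    rintro x ⟨hx, ex⟩
    refine ⟨H.inv_mem hx, ?_⟩
    rw [← conj_inv, ← conj_inv, fsg_inv ha (hN.conj_mem _ hx t), fsg_inv hb (hN.conj_mem _ hx s),
      ex]

lemma fsg_idx [hN : H.Normal] (K : Subgroup G) (g : G) :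
    (K.comap (MulAut.conj g).toMonoidHom).relIndex H = K.relIndex H := by
  rw [Subgroup.relIndex_comap]
  congr 1
  ext y
  constructor
  · rintro ⟨x, hx, rfl⟩
    exact hN.conj_mem _ hx g
  · intro hy
    exact ⟨g⁻¹ * y * g, hN.conj_mem' _ hy g, by simp [mul_assoc]⟩

end

/-- The counting step of the final argument. The sets
`{y ∈ H | ca (t y t⁻¹) = cb (s y s⁻¹)}` are subgroups that depend only on the classes of `s`, `t`
modulo `H`; they cover `H`, so one has index at most `m ^ 2` in `H`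
(`Subgroup.exists_index_le_card_of_leftCoset_cover`). Put `u = t s⁻¹`, `H' = s H(s,t) s⁻¹`. For
`g ∈ V` and `y ∈ H' ⊓ g⁻¹ H' g`, `x = cb y` satisfies `eb * x (b⁻¹ a γ, j) = ea * x (γ, j)`. If
`b⁻¹ a ≠ 1` this is the kernel of a surjection onto `Fin k → ZMod 3`, of index `3 ^ k`, but the
image of `H' ⊓ g⁻¹ H' g` has index at most `m ^ 5`. -/
theorem fsg {G Γ : Type} [Group G] [Group Γ] {k : ℕ} (H P V : Subgroup G) [H.Normal] [V.Normal]
    (hH : H.index ≠ 0) (hP : H ≤ P) (hV : H ≤ V) (a b : G → Γ) (ea eb : G → (ZMod 3)ˣ)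
    (ca cb : G → Γ × Fin k → ZMod 3)
    (ha : ∀ x ∈ H, ∀ y ∈ H, ca (x * y) = ca x + ca y)
    (hb : ∀ x ∈ P, ∀ y ∈ P, cb (x * y) = cb x + cb y)
    (hs : ∀ v, ∃ x ∈ P, cb x = v)
    (qa : ∀ g ∈ V, ∀ y ∈ H, ∀ γ j, ca (g * y * g⁻¹) (a g * γ, j) = ea g * ca y (γ, j))
    (qb : ∀ g ∈ V, ∀ y ∈ H, ∀ γ j, cb (g * y * g⁻¹) (b g * γ, j) = eb g * cb y (γ, j))
    (cov : ∀ y ∈ H, ∃ s t : G, ca (t * y * t⁻¹) = cb (s * y * s⁻¹))
    (hk : H.index ^ 5 < 3 ^ k) : ∃ u : G, ∀ g ∈ V, a (u * g * u⁻¹) = b g := by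
  have hN : H.Normal := inferInstance
  have hVN : V.Normal := inferInstance
  have hb' : ∀ x ∈ H, ∀ y ∈ H, cb (x * y) = cb x + cb y := fun x hx y hy =>
    hb x (hP hx) y (hP hy)
  have : H.FiniteIndex := ⟨hH⟩
  have : Fintype (G ⧸ H) := Fintype.ofFinite _
  obtain ⟨i, -, hi1, hi2⟩ := Subgroup.exists_index_le_card_of_leftCoset_cover
    (H := fun i : (G ⧸ H) × (G ⧸ H) => (fsgK H ca cb ha hb' i.1.out i.2.out).subgroupOf H)
    (g := fun _ => 1) (s := Finset.univ) (by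
      refine Set.eq_univ_of_forall fun y => ?_
      obtain ⟨s, t, e⟩ := cov y y.2
      refine Set.mem_iUnion₂.2 ⟨((s : G ⧸ H), (t : G ⧸ H)), Finset.mem_univ _, ?_⟩
      exact ⟨y, ⟨y.2, (fsg_conj ha t y.2).trans (e.trans (fsg_conj hb' s y.2).symm)⟩, one_mul y⟩)
  generalize i.1.out = s at hi1 hi2
  generalize i.2.out = t at hi1 hi2
  set K := fsgK H ca cb ha hb' s t with hK
  have k1 : K.relIndex H ≠ 0 := hi1.index_ne_zero
  have k2 : K.relIndex H ≤ H.index ^ 2 := by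
    rw [Finset.card_univ, Fintype.card_prod, ← Nat.card_eq_fintype_card] at hi2
    rw [sq]; exact hi2
  refine ⟨t * s⁻¹, fun g hg => ?_⟩
  by_contra hne
  set u := t * s⁻¹ with hu
  set d := (b g)⁻¹ * a (u * g * u⁻¹) with hd
  have hd1 : d ≠ 1 := fun h => hne (inv_mul_eq_one.1 h).symm
  set L := K.comap (MulAut.conj s⁻¹).toMonoidHom ⊓ K.comap (MulAut.conj (s⁻¹ * g)).toMonoidHom
    with hL
  have l1 : L.relIndex H ≠ 0 :=
    Subgroup.relIndex_inf_ne_zero (by rwa [fsg_idx]) (by rwa [fsg_idx])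
  have l2 : L.relIndex H ≤ H.index ^ 4 := by
    refine Subgroup.relIndex_inf_le.trans ?_
    rw [fsg_idx, fsg_idx]
    exact (Nat.mul_le_mul k2 k2).trans_eq (by ring)
  have hmem : ∀ y : G, s⁻¹ * y * s⁻¹⁻¹ ∈ K → y ∈ H ∧ ca (u * y * u⁻¹) = cb y := fun y hy => by
    obtain ⟨h1, h2⟩ := hy
    refine ⟨by simpa [mul_assoc] using hN.conj_mem _ h1 s, ?_⟩
    have e1 : t * (s⁻¹ * y * s⁻¹⁻¹) * t⁻¹ = u * y * u⁻¹ := by rw [hu]; group
    have e2 : s * (s⁻¹ * y * s⁻¹⁻¹) * s⁻¹ = y := by group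
    rwa [e1, e2] at h2
  have hLH : L ≤ H := fun y hy => (hmem y hy.1).1
  have hT : H.relIndex ⊤ ≠ 0 := by rwa [Subgroup.relIndex_top_right]
  have p1 : H.relIndex P ≠ 0 := fun h => hT (Subgroup.relIndex_eq_zero_of_le_right le_top h)
  have p2 : H.relIndex P ≤ H.index := by
    rw [← Subgroup.relIndex_top_right]
    exact Subgroup.relIndex_le_of_le_right le_top hT
  have p3 := Subgroup.relIndex_mul_relIndex L H P hLH hP
  let φ : P →* Multiplicative (Fin k → ZMod 3) := MonoidHom.mk'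
    (fun y => Multiplicative.ofAdd fun j =>
      eb g * cb y (d, j) - ea (u * g * u⁻¹) * cb y (1, j)) fun x y => by
      rw [← ofAdd_add]
      congr 1
      funext j
      simp only [Subgroup.coe_mul, hb _ x.2 _ y.2, Pi.add_apply]
      ring
  have hφ : Function.Surjective φ := fun v => by
    obtain ⟨x, hx, e⟩ := hs fun z =>
      if z.1 = d then ((eb g)⁻¹ : (ZMod 3)ˣ) * Multiplicative.toAdd v z.2 else 0
    refine ⟨⟨x, hx⟩, ?_⟩
    change Multiplicative.ofAdd _ = v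
    rw [← ofAdd_toAdd v]
    congr 1
    funext j
    simp only [e, if_true, if_neg hd1.symm, mul_zero, sub_zero, Units.mul_inv_cancel_left]
  have hker : L.subgroupOf P ≤ φ.ker := fun y hy => by
    obtain ⟨h1, h2⟩ := hmem y hy.1
    have h3 : s⁻¹ * g * y * (s⁻¹ * g)⁻¹ ∈ K := hy.2
    have e1 : s⁻¹ * g * y * (s⁻¹ * g)⁻¹ = s⁻¹ * (g * y * g⁻¹) * s⁻¹⁻¹ := by group
    rw [e1] at h3
    have h4 := (hmem _ h3).2
    have e2 : u * (g * y * g⁻¹) * u⁻¹ = u * g * u⁻¹ * (u * y * u⁻¹) * (u * g * u⁻¹)⁻¹ := by group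
    rw [MonoidHom.mem_ker]
    change Multiplicative.ofAdd _ = Multiplicative.ofAdd 0
    congr 1
    funext j
    have h5 := qa _ (hVN.conj_mem _ hg u) _ (hN.conj_mem _ h1 u) 1 j
    have h6 := qb g hg y h1 d j
    rw [← e2, h4, h2, mul_one] at h5
    rw [hd, mul_inv_cancel_left, h5] at h6
    rw [Pi.zero_apply, sub_eq_zero, hd]
    exact h6.symm
  have i1 : φ.ker.index = 3 ^ k := by
    rw [Subgroup.index_ker, MonoidHom.range_eq_top.2 hφ, Subgroup.card_top]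
    simp [Nat.card_eq_fintype_card]
  have i2 : φ.ker.index ≤ L.relIndex P :=
    Nat.le_of_dvd (Nat.pos_of_ne_zero (p3 ▸ Nat.mul_ne_zero l1 p1)) (Subgroup.index_dvd_of_le hker)
  have i3 := Nat.mul_le_mul l2 p2
  rw [p3, ← pow_succ] at i3
  exact absurd (i1 ▸ i2.trans i3) (not_le.2 hk)

end Uc
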