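import Vale.Agent.P024.Tame0
import Vale.Agent.P024.Grp

/-! Tame inertia. -/

noncomputable section
namespace Uc
open scoped Classical
variable {E : Type} [Field E] [CharZero E] [Nice E] {A : Pr E}

theorem Tame_setup (A : Pr E) (W N : Subgroup (Aut E)) (hN : IsOpen (N : Set (Aut E)))
    [N.Normal] :
    ∃ (G : Type) (_ : Group G) (_ : Finite G) (f : ↥(W ⊓ A.I) →* G) (P : Subgroup G),
      P.Normal ∧ IsPGroup A.p P ∧ (∀ x, f x = 1 ↔ (x : Aut E) ∈ N) ∧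
      (∀ y, y ∈ P ↔ ∃ x : ↥(W ⊓ A.I), A.Wild x ∧ f x = y) := by
  obtain ⟨Q, hQ⟩ := exists_wild_subgroup A
  have : N.FiniteIndex := ⟨index_ne_zero hN⟩
  have hn : (Q.subgroupOf (W ⊓ A.I)).Normal := ⟨fun x hx t => by
    rw [Subgroup.mem_subgroupOf, hQ] at hx ⊢
    exact hx.conj (A.I_le_D t.2.2)⟩
  refine ⟨↥(W ⊓ A.I) ⧸ N.subgroupOf (W ⊓ A.I), inferInstance, inferInstance,
    QuotientGroup.mk' _, (Q.subgroupOf (W ⊓ A.I)).map (QuotientGroup.mk' _),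
    hn.map _ (QuotientGroup.mk'_surjective _), ?_, fun x => ?_, fun y => ?_⟩
  · rintro ⟨y, x, hx, rfl⟩
    have hx' : A.Wild (x : Aut E) := (hQ _).1 (Subgroup.mem_subgroupOf.1 hx)
    obtain ⟨k, hk⟩ := proL_iff.1 hx'.proL N hN
    refine ⟨k, Subtype.ext ?_⟩
    show (QuotientGroup.mk' _ x) ^ A.p ^ k = 1
    rw [← map_pow, QuotientGroup.mk'_apply, QuotientGroup.eq_one_iff, Subgroup.mem_subgroupOf]
    exact hk
  · rw [QuotientGroup.mk'_apply, QuotientGroup.eq_one_iff, Subgroup.mem_subgroupOf]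
  · constructor
    · rintro ⟨x, hx, rfl⟩
      exact ⟨x, (hQ _).1 (Subgroup.mem_subgroupOf.1 hx), rfl⟩
    · rintro ⟨x, hx, rfl⟩
      exact ⟨x, Subgroup.mem_subgroupOf.2 ((hQ _).2 hx), rfl⟩

theorem Tame_closed {W : Subgroup (Aut E)} (hW : IsOpen (W : Set (Aut E))) (A : Pr E) :
    IsClosed ((W : Set (Aut E)) ∩ (A.I : Set (Aut E))) :=
  (Subgroup.isClosed_of_isOpen W hW).inter (isClosed_I A)

omit [Nice E] in
theorem Tame_cont (τ : Aut E) : Continuous fun x : Aut E => x * τ * x⁻¹ := by fun_prop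

/-- `cj_fin` in the image of `W ⊓ A.I` in `Aut E ⧸ N`, then `exists_eq_of_levels` -/
theorem cj {W : Subgroup (Aut E)} (hW : IsOpen (W : Set (Aut E))) {l : ℕ} (hl : l.Prime)
    (hp : A.p ≠ l) {τ τ' : Aut E} (h1 : τ ∈ W) (h2 : τ' ∈ W) (h3 : τ ∈ A.I) (h4 : τ' ∈ A.I)
    (h5 : ProL l τ) (h6 : ProL l τ') (h : A.Wild (τ⁻¹ * τ')) :
    ∃ π ∈ W, π ∈ A.I ∧ π * τ * π⁻¹ = τ' := by
  obtain ⟨π, hπ, he⟩ := exists_eq_of_levels (Tame_closed hW A) (f := fun x => x * τ * x⁻¹)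
    (g := fun _ => τ') (Tame_cont τ) continuous_const fun N hN hn => by
      obtain ⟨G, _, _, f, P, hP1, hP2, hf, hP⟩ := Tame_setup A W N hN
      obtain ⟨a, ha⟩ := proL_iff.1 h5 N hN
      obtain ⟨b, hb⟩ := proL_iff.1 h6 N hN
      let t : ↥(W ⊓ A.I) := ⟨τ, h1, h3⟩
      let t' : ↥(W ⊓ A.I) := ⟨τ', h2, h4⟩
      obtain ⟨π, hπ, he⟩ := cj_fin A.prime hl hp P hP2 (τ := f t) (τ' := f t') (a := a) (b := b)
        (by rw [← map_pow, hf]; exact ha) (by rw [← map_pow, hf]; exact hb)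
        ((hP _).2 ⟨t⁻¹ * t', h, by rw [map_mul, map_inv]⟩)
      obtain ⟨x, -, rfl⟩ := (hP _).1 hπ
      refine ⟨x, x.2, ?_⟩
      have h7 : f ((x * t * x⁻¹)⁻¹ * t') = 1 := by
        rw [map_mul, map_inv, map_mul, map_mul, map_inv, he, inv_mul_cancel]
      exact (hf _).1 h7
  exact ⟨π, hπ.1, hπ.2, he⟩

theorem st {W : Subgroup (Aut E)} (hW : IsOpen (W : Set (Aut E))) {l q : ℕ} (hl : l.Prime)
    (hp : A.p ≠ l) {τ φ : Aut E} (h1 : τ ∈ W) (h2 : τ ∈ A.I) (h3 : ProL l τ) (h4 : φ ∈ W)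
    (h5 : A.IsFrob q φ) : ∃ σ ∈ W, A.IsFrob q σ ∧ σ * τ * σ⁻¹ = τ ^ q := by
  have h6 : φ * τ * φ⁻¹ ∈ A.I := by
    have := Pr.conj_mem_I h2 φ
    rwa [h5.1] at this
  obtain ⟨π, hπ1, hπ2, he⟩ := cj hW hl hp (W.pow_mem h1 q)
    (W.mul_mem (W.mul_mem h4 h1) (W.inv_mem h4)) (A.I.pow_mem h2 q) h6 (h3.pow q) (h3.conj φ)
    (wild_frob h5 h2)
  refine ⟨π⁻¹ * φ, W.mul_mem (W.inv_mem hπ1) h4, h5.I_mul (A.I.inv_mem hπ2), ?_⟩
  calc π⁻¹ * φ * τ * (π⁻¹ * φ)⁻¹ = π⁻¹ * (φ * τ * φ⁻¹) * π := by group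
    _ = τ ^ q := by rw [← he]; group

theorem cm {W : Subgroup (Aut E)} (hW : IsOpen (W : Set (Aut E))) {l l' : ℕ} (hl : l.Prime)
    (hl' : l'.Prime) (hp : A.p ≠ l) (hp' : A.p ≠ l') {τ σ : Aut E} (h1 : τ ∈ W) (h2 : τ ∈ A.I)
    (h3 : ProL l τ) (h4 : σ ∈ W) (h5 : σ ∈ A.I) (h6 : ProL l' σ) :
    ∃ i ∈ W, i ∈ A.I ∧ Commute τ (i * σ * i⁻¹) := by
  obtain ⟨π, hπ, he⟩ := exists_eq_of_levels (Tame_closed hW A)
    (f := fun x => τ * (x * σ * x⁻¹)) (g := fun x => x * σ * x⁻¹ * τ)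
    (continuous_const.mul (Tame_cont σ)) ((Tame_cont σ).mul continuous_const)
    fun N hN hn => by
      obtain ⟨G, _, _, f, P, hP1, hP2, hf, hP⟩ := Tame_setup A W N hN
      obtain ⟨a, ha⟩ := proL_iff.1 h3 N hN
      obtain ⟨b, hb⟩ := proL_iff.1 h6 N hN
      let t : ↥(W ⊓ A.I) := ⟨τ, h1, h2⟩
      let s : ↥(W ⊓ A.I) := ⟨σ, h4, h5⟩
      obtain ⟨π, hπ, he⟩ := cm_fin A.prime hl hl' hp hp' P hP2 (τ := f t) (σ := f s) (a := a)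
        (b := b) (by rw [← map_pow, hf]; exact ha) (by rw [← map_pow, hf]; exact hb)
        ((hP _).2 ⟨t⁻¹ * (s * t * s⁻¹), wild_comm h5 h2, by
          rw [map_mul, map_inv, map_mul, map_mul, map_inv]⟩)
      obtain ⟨x, -, rfl⟩ := (hP _).1 hπ
      refine ⟨x, x.2, ?_⟩
      have h7 : f ((t * (x * s * x⁻¹))⁻¹ * (x * s * x⁻¹ * t)) = 1 := by
        simp only [map_mul, map_inv]
        rw [he.eq, inv_mul_cancel]
      exact (hf _).1 h7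
  exact ⟨π, hπ.1, hπ.2, he⟩

end Uc
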