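import Vale.Agent.P024.HH
import Vale.Agent.P024.Tame
import Vale.Agent.P024.Setup
import Vale.Agent.P024.Dec

/-! Hits. -/

noncomputable section
namespace Uc
open scoped Classical
variable {E₁ E₂ : Type} [Field E₁] [CharZero E₁] [Nice E₁] [Field E₂] [CharZero E₂] [Nice E₂]
  {V : Subgroup (Aut E₁)} {α : Aut E₁ → Aut E₂} {l : ℕ}

/-- `exists_frob`, `st`, `hit_main` -/
theorem hl (h : Setup V α) (hl : l.Prime) (h2 : l ≠ 2) {A : Pr E₁} (hp : A.p ≠ l) {τ : Aut E₁}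
    (h1 : τ ∈ V) (h3 : τ ∈ A.I) (h4 : ProL l τ) (h5 : α τ ≠ 1) :
    ∃ B : Pr E₂, B.p ≠ l ∧ α τ ∈ B.I := by
  obtain ⟨f, hf, φ, h6, h7⟩ := exists_frob h.opn A
  obtain ⟨σ, h8, -, h9⟩ := st h.opn hl hp h1 h3 h4 h6 h7
  refine hit_main (σ := α σ) (q := A.p ^ f) hl h2 ?_ (fun hc => hp ?_) (h.proL h1 h4) h5 ?_
  · exact A.prime.two_le.trans (Nat.le_self_pow hf.ne' _)
  · exact ((Nat.prime_dvd_prime_iff_eq hl A.prime).1 (hl.dvd_of_dvd_pow hc)).symm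
  · rw [← h.map_conj h1 h8, h9, h.map_pow h1]

/-- `st`, `acts_of_rel` -/
theorem hit_frob (h : Setup V α) (hl : l.Prime) {A : Pr E₁} {B : Pr E₂} (hh : Hit V α l A B)
    {f : ℕ} {φ : Aut E₁} (h1 : φ ∈ V) (h3 : A.IsFrob (A.p ^ f) φ) :
    ∃ σ ∈ V, A.IsFrob (A.p ^ f) σ ∧ α σ ∈ B.D ∧ ∀ T, Acts (l ^ T) (α σ) (A.p ^ f) := by
  obtain ⟨hp, hp', τ, h4, h5, h6, h7, h8⟩ := hh
  obtain ⟨σ, h9, h10, h11⟩ := st h.opn hl hp h4 h5 h6 h1 h3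
  refine ⟨σ, h9, h10, acts_of_rel hl (fun hc => hp ?_) (h.proL h4 h6) h7 ?_ h8 hp'⟩
  · exact ((Nat.prime_dvd_prime_iff_eq hl A.prime).1 (hl.dvd_of_dvd_pow hc)).symm
  · rw [← h.map_conj h4 h9, h11, h.map_pow h4]

/-- pull-backs of characters unramified outside `l` are unramified outside `l` -/
theorem up (h : Setup V α) (hl : l.Prime) (h2 : l ≠ 2) {W : Subgroup (Aut E₂)} {ν : Aut E₂ → ℂˣ}
    (hν : IsChar W l ν) (hu : Unr W {l} ν) : Unr (h.pre W) {l} fun g => ν (α g) := by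
  intro A hA g hg hi
  obtain ⟨τ, h1, h3, h4, h5⟩ := (h.isChar hν).exists_lpart hl hg hi
  show ν (α g) = 1
  rw [← h5]
  obtain ⟨h6, h7⟩ := h.mem_pre.1 h1
  by_cases h8 : α τ = 1
  · rw [h8, ch_one hν.mul]
  · obtain ⟨B, h9, h10⟩ := Uc.hl h hl h2 (by simpa using hA) h6 h3 h4 h8
    exact hu B (by simpa using h9) _ h7 h10

/-- An inertia element whose image moves a root of `b` gives a hit: take its `l`-part `τ`; then
`α τ` still moves `ρ` (on `pre (Fm (l ^ T))` the map `g ↦ α g ρ / ρ` is a homomorphism), it lies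
in some `B.I` by `hl`, and `B.w b ≠ 0` by `Pr.fix_root_of_I`. -/
theorem hit_of_move (h : Setup V α) (hl : l.Prime) (h2 : l ≠ 2) {A : Pr E₁} (hp : A.p ≠ l)
    {g : Aut E₁} (h1 : g ∈ V) (h3 : g ∈ A.I) {T : ℕ} (h4 : α g ∈ Fm E₂ (l ^ T)) {ρ : E₂} {b : ℕ}
    (hb : b ≠ 0) (hρ : ρ ^ l ^ T = b) (h5 : α g ρ ≠ ρ) :
    ∃ B : Pr E₂, B.p ∣ b ∧ Hit V α l A B := by
  have hn : l ^ T ≠ 0 := pow_ne_zero _ hl.ne_zero
  have hb' : (b : E₂) ≠ 0 := Nat.cast_ne_zero.2 hb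
  obtain ⟨τ, h6, h7⟩ := exists_lpart hl g
  have hI : τ ∈ A.I := mem_of_approx (isClosed_I A) fun W hW _ => by
    obtain ⟨n, -, hn⟩ := h7 W hW 0
    exact ⟨g ^ n, pow_mem h3 n, hn⟩
  obtain ⟨m, h8, h9⟩ := h7 _ (h.isOpen_pre (isOpen_stab (Set.finite_singleton ρ))) T
  obtain ⟨h10, h11⟩ := h.mem_pre.1 h9
  have hV : τ ∈ V := by simpa using mul_mem (pow_mem h1 m) h10
  have h12 : α τ ρ ≠ ρ := by
    intro hc
    have h13 : α τ = α g ^ m * α ((g ^ m)⁻¹ * τ) := by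
      rw [← h.map_pow h1, ← h.mul _ (pow_mem h1 m) _ h10, mul_inv_cancel_left]
    rw [h13, AlgEquiv.mul_apply, h11 ρ rfl] at hc
    have h14 := (kc_eq_zero_iff hn hb' (map_natCast _ b) (pow_mem h4 m) hρ).2 hc
    rw [kc_pow_right hn hb' (map_natCast _ b) h4, (ZMod.natCast_eq_natCast_iff _ _ _).2 h8,
      Nat.cast_one, one_mul] at h14
    exact h5 ((kc_eq_zero_iff hn hb' (map_natCast _ b) h4 hρ).1 h14)
  have h13 : α τ ≠ 1 := fun hc => h12 (by rw [hc]; rfl)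
  obtain ⟨B, h14, h15⟩ := Uc.hl h hl h2 hp hV hI h6 h13
  refine ⟨B, ?_, hp, h14, τ, hV, hI, h6, h13, h15⟩
  by_contra hc
  have hρ0 : ρ ≠ 0 := by
    rintro rfl
    rw [zero_pow hn] at hρ
    exact hb' hρ.symm
  refine h12 (Pr.fix_root_of_I h15 (n := l ^ T) (fun hd => h14 ?_) hρ0 ?_
    (by rw [hρ, map_natCast]))
  · exact (Nat.prime_dvd_prime_iff_eq B.prime hl).1 (B.prime.dvd_of_dvd_pow hd)
  · have h16 := B.w_pow ρ (l ^ T)
    rw [hρ, (Pr.w_natCast hc).2] at h16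
    exact (mul_eq_zero.1 h16.symm).resolve_left (Nat.cast_ne_zero.2 hn)

end Uc
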