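import Vale.Agent.P024.FD
import Vale.Agent.P024.VD
import Vale.Agent.P024.DD
import Vale.Agent.P024.Setup

/-! Kummer coordinates, primeness, uniqueness. -/

noncomputable section
namespace Uc
open scoped Classical
variable {E : Type} [Field E] [CharZero E] [Nice E]

theorem UQ_comap {E₂ : Type} [Field E₂] [CharZero E₂] [Nice E₂] {V : Subgroup (Aut E)}
    (hV : IsOpen (V : Set (Aut E))) {α : Aut E → Aut E₂} {j j' : E₂ →+* E} (h : Ind V α j)
    (h' : Ind V α j') (A : Pr E) : A.comap j = A.comap j' := by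
  obtain ⟨l, hl, hp⟩ : ∃ l : ℕ, l.Prime ∧ A.p ≠ l := by
    by_cases h2 : A.p = 2
    · exact ⟨3, Nat.prime_three, by omega⟩
    · exact ⟨2, Nat.prime_two, h2⟩
  obtain ⟨τ, hτ, hi, hL, k, y, hy, hne⟩ := ex hV A hl hp
  have h1 : α τ ≠ 1 := by
    intro e
    have hk : l ^ k ≠ 0 := pow_ne_zero _ hl.ne_zero
    obtain ⟨y₂, hy₂⟩ := Nice.root (E := E₂) (l ^ k) (A.p : E₂) hk
    have h2 : j y₂ ^ l ^ k = A.p := by rw [← map_pow, hy₂, map_natCast]
    have h3 : j y₂ ≠ 0 := by
      intro h0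
      rw [h0, zero_pow hk] at h2
      exact A.p_ne_zero h2.symm
    have h4 : τ (j y₂) = j y₂ := by
      rw [h τ hτ, e]
      rfl
    have h5 : τ ∈ Fm E (l ^ k) := Pr.mem_Fm_of_I hi fun hd =>
      hp ((Nat.prime_dvd_prime_iff_eq A.prime hl).1 (A.prime.dvd_of_dvd_pow hd))
    have h6 : τ (y / j y₂) = y / j y₂ :=
      h5 _ (by
        show (y / j y₂) ^ l ^ k = 1
        rw [div_pow, hy, h2, div_self A.p_ne_zero])
    rw [map_div₀, h4] at h6
    exact hne ((div_left_inj' h3).1 h6)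
  exact dd hl (h.proL hτ hL) h1 (h.mem_I hτ hi) (Pr.I_le_D _ (h'.mem_I hτ hi)) hp hp

/-- Uniqueness. For a prime `A` take `τ` from `ex`; `α τ ≠ 1` (the image of a root of `p` is a root
of unity times `y`), it lies in the inertia groups of both restrictions, so they agree by `dd`. If
`j x ≠ j' x` take a prime that splits for the stabilizer of `j x` and avoids the primes of
`Pr.finite_w` for `j x`, `j x - j' x`; `Pr.exists_nat_of_sm` gives `a` with `j (x - a)` small. -/
theorem uq {E₂ : Type} [Field E₂] [CharZero E₂] [Nice E₂] {V : Subgroup (Aut E)}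
    (hV : IsOpen (V : Set (Aut E))) {α : Aut E → Aut E₂} {j j' : E₂ →+* E} (h : Ind V α j)
    (h' : Ind V α j') : j = j' := by
  refine RingHom.ext fun x => ?_
  by_contra hne
  obtain ⟨A, hS, _, φ, hφ, hf⟩ := exists_split (isOpen_stab (Set.finite_singleton (j x)))
    ((Pr.finite_w (j x)).union (Pr.finite_w (j x - j' x))).toFinset
  rw [Set.Finite.mem_toFinset, Set.mem_union, not_or] at hS
  have h1 : A.w (j x) = 0 := by
    by_contra h0
    exact hS.1 ⟨A, rfl, h0⟩
  have h2 : A.w (j x - j' x) = 0 := by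
    by_contra h0
    exact hS.2 ⟨A, rfl, h0⟩
  have h3 : A.In (j x) := h1.ge
  have h4 := hf.2 _ h3
  rw [hφ (j x) rfl] at h4
  obtain ⟨a, ha⟩ := Pr.exists_nat_of_sm h3 h4.symm
  have h5 : (A.comap j).Sm (x - a) := by
    rw [Pr.comap_sm, map_sub, map_natCast]
    exact ha
  rw [UQ_comap hV h h' A, Pr.comap_sm, map_sub, map_natCast] at h5
  rcases ha.trans h5.symm with h6 | h6
  · exact hne (sub_eq_zero.1 h6)
  · exact h6.ne' h2

/-- from an open normal subgroup to the whole group: `v⁻¹ ∘ j ∘ α v` also induces `α` -/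
theorem ind_ext {E₂ : Type} [Field E₂] [CharZero E₂] [Nice E₂] {V V₁ : Subgroup (Aut E)}
    {α : Aut E → Aut E₂} (h : Setup V α) (h1 : IsOpen (V₁ : Set (Aut E))) (hn : V₁.Normal)
    (hle : V₁ ≤ V) {j : E₂ →+* E} (hj : Ind V₁ α j) : Ind V α j := by
  intro v hv x
  have h2 : Ind V₁ α ((((v⁻¹ : Aut E) : E →+* E).comp j).comp (α v : E₂ →+* E₂)) := by
    intro g hg y
    show g (v⁻¹ (j (α v y))) = v⁻¹ (j (α v (α g y)))
    have h3 := hj _ (hn.conj_mem g hg v) (α v y)
    rw [h.map_conj (hle hg) hv] at h3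
    have e1 : (α v * α g * (α v)⁻¹) (α v y) = α v (α g y) := by
      rw [← AlgEquiv.mul_apply, inv_mul_cancel_right, AlgEquiv.mul_apply]
    rw [e1] at h3
    rw [← h3, ← AlgEquiv.mul_apply, ← AlgEquiv.mul_apply v⁻¹, mul_assoc, inv_mul_cancel_left]
  have h4 : j x = v⁻¹ (j (α v x)) := RingHom.congr_fun (uq h1 hj h2) x
  rw [h4]
  exact v.apply_symm_apply _

end Uc
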