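import Vale.Agent.P024.QW
import Vale.Agent.P024.UQ
import Vale.Agent.P024.Hit
import Vale.Agent.P024.IO
import Vale.Agent.P024.FSG

/-! The final step. -/

noncomputable section
namespace Uc
open scoped Classical
variable {Ω E : Type} [Field Ω] [CharZero Ω] [Nice Ω] [IsAlgClosed Ω] [Field E] [CharZero E]
  [Nice E] {V : Subgroup (Aut Ω)} {α : Aut Ω → Aut E}

/-- the prime `p` is hit from above `p`, at a prime `l` modulo which `p` is not a cube -/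
def SelfHit (V : Subgroup (Aut Ω)) (α : Aut Ω → Aut E) (p : ℕ) : Prop :=
  ∃ (l : ℕ) (A : Pr Ω) (B : Pr E), l.Prime ∧ 3 ∣ l - 1 ∧ (p : ZMod l) ^ ((l - 1) / 3) ≠ 1 ∧
    A.p = p ∧ B.p = p ∧ Hit V α l A B

theorem mod_three {l p a : ℕ} (hl : l.Prime) (h3 : 3 ∣ l - 1) (hp : (p : ZMod l) ≠ 0)
    (hc : (p : ZMod l) ^ ((l - 1) / 3) ≠ 1) (h : (p : ZMod l) ^ a = p) : (a : ZMod 3) = 1 := by
  haveI := Fact.mk hl
  have h1 : ((p : ZMod l) ^ ((l - 1) / 3)) ^ 3 = 1 := by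
    rw [← pow_mul, Nat.div_mul_cancel h3]
    exact ZMod.pow_card_sub_one_eq_one hp
  have h2 : ((p : ZMod l) ^ ((l - 1) / 3)) ^ a = (p : ZMod l) ^ ((l - 1) / 3) := by
    rw [← pow_mul, mul_comm, pow_mul, h]
  generalize (p : ZMod l) ^ ((l - 1) / 3) = u at hc h1 h2
  have hu : u ≠ 0 := by
    rintro rfl
    simp at h1
  rw [← Nat.div_add_mod a 3, pow_add, pow_mul, h1, one_pow, one_mul] at h2
  have h4 : a % 3 = 1 := by
    have h5 : a % 3 = 0 ∨ a % 3 = 1 ∨ a % 3 = 2 := by omega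
    rcases h5 with h5 | h5 | h5
    · rw [h5, pow_zero] at h2
      exact absurd h2.symm hc
    · exact h5
    · rw [h5, pow_two] at h2
      exact absurd (mul_left_cancel₀ hu (h2.trans (mul_one u).symm)) hc
  rw [← ZMod.natCast_mod a 3, h4, Nat.cast_one]

theorem FS_pow {G M : Type} [Group G] [AddCommGroup M] {W W' : Subgroup G} (hle : W' ≤ W)
    {c : G → M} (c0 : ∀ x ∈ W', c x = 0) (cm : ∀ x ∈ W, ∀ y ∈ W, c (x * y) = c x + c y)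
    {x z : G} (hx : x ∈ W) (hz : z ∈ W') (n : ℕ) : c (x ^ n * z) = n • c x := by
  induction n with
  | zero => rw [pow_zero, one_mul, c0 z hz, zero_smul]
  | succ n ih =>
    rw [pow_succ', mul_assoc, cm x hx _ (W.mul_mem (W.pow_mem hx n) (hle hz)), ih, succ_nsmul']

omit [IsAlgClosed Ω] in
theorem FS_conj (h : Setup V α) {W W' : Subgroup (Aut E)} (hle : W' ≤ W) {M : Type}
    [AddCommGroup M] {c : Aut E → M} (c0 : ∀ x ∈ W', c x = 0)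
    (cm : ∀ x ∈ W, ∀ y ∈ W, c (x * y) = c x + c y) {φ y t : Aut Ω} {b : ℕ}
    (h1 : t * φ * t⁻¹ ∈ h.pre W) (h2 : t * ((φ ^ b)⁻¹ * y) * t⁻¹ ∈ h.pre W') :
    c (α (t * y * t⁻¹)) = b • c (α (t * φ * t⁻¹)) := by
  have e : t * y * t⁻¹ = (t * φ * t⁻¹) ^ b * (t * ((φ ^ b)⁻¹ * y) * t⁻¹) := by
    rw [conj_pow]
    group
  obtain ⟨a1, a2⟩ := h.mem_pre.1 h1
  obtain ⟨b1, b2⟩ := h.mem_pre.1 h2
  rw [e, h.mul _ (V.pow_mem a1 b) _ b1, h.map_pow a1, FS_pow hle c0 cm a2 b2]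

theorem FS_loc {B : Pr E} {l : ℕ} (hl : l.Prime) (h3 : 3 ∣ l - 1)
    (hc : (B.p : ZMod l) ^ ((l - 1) / 3) ≠ 1) (hB : B.p ≠ l) {W W' : Subgroup (Aut E)}
    (h' : IsOpen (W' : Set (Aut E))) (hle : W' ≤ W) (hI : B.I ≤ W') {Y : Type}
    {c : Aut E → Y → ZMod 3} (c0 : ∀ x ∈ W', c x = 0)
    (cm : ∀ x ∈ W, ∀ y ∈ W, c (x * y) = c x + c y) {ψ g : Aut E} (hψ : B.IsFrob B.p ψ)
    (hW : ψ ∈ W) (hg : g ∈ B.D) (ha : Acts l g B.p) : c g = c ψ := by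
  have hl0 : l ≠ 0 := hl.ne_zero
  have hd : ¬ B.p ∣ l := fun hd => hB ((Nat.prime_dvd_prime_iff_eq B.prime hl).1 hd)
  obtain ⟨a, i, hi, x, hx, e⟩ := df hψ hg (isOpen_inf h' (isOpen_Fm (E := E) hl0))
  have e1 := (acts_iff hl0).1 ha
  have e2 := (acts_iff hl0).1 (hψ.acts hd)
  have e3 := (mem_Fm_iff hl0).1 (Pr.mem_Fm_of_I hi hd)
  have e4 := (mem_Fm_iff hl0).1 (Subgroup.mem_inf.1 hx).2
  rw [e, map_mul, map_mul, e3, e4, mul_one, mul_one, map_pow, Units.val_pow_eq_pow_val, e2] at e1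
  have hp : (B.p : ZMod l) ≠ 0 := fun h0 =>
    hB ((Nat.prime_dvd_prime_iff_eq hl B.prime).1 ((ZMod.natCast_eq_zero_iff _ _).1 h0)).symm
  have e5 := mod_three hl h3 hp hc e1
  rw [e, mul_assoc, FS_pow hle c0 cm hW (W'.mul_mem (hI hi) (Subgroup.mem_inf.1 hx).1),
    ← Nat.cast_smul_eq_nsmul (ZMod 3), e5, one_smul]

/-- See the blueprint, section FS. -/
theorem fsc (h : Setup V α) {j : E →+* Ω} {V₀ : Subgroup (Aut Ω)} {ι : Aut Ω → Aut E}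
    (hι : IOD j V₀ ι) {V₁ : Subgroup (Aut Ω)} (S : Finset ℕ)
    (hS : ∀ A : Pr Ω, A.p ∉ S → (∃ φ ∈ V₁, A.IsFrob A.p φ) → SelfHit V α A.p)
    {W W' : Subgroup (Aut E)} (h' : IsOpen (W' : Set (Aut E))) (hle : W' ≤ W) {Y : Type}
    (c : Aut E → Y → ZMod 3) (c0 : ∀ x ∈ W', c x = 0)
    (cm : ∀ x ∈ W, ∀ y ∈ W, c (x * y) = c x + c y) {H : Subgroup (Aut Ω)}
    (hH : IsOpen (H : Set (Aut Ω))) (hn : H.Normal) (h1 : H ≤ V₁) (h2 : H ≤ h.pre W)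
    (h3 : H ≤ hι.setup.pre W) {y : Aut Ω} (hy : y ∈ H) :
    ∃ s t : Aut Ω, c (α (t * y * t⁻¹)) = c (ι (s * y * s⁻¹)) := by
  obtain ⟨H', o1, n1, l1, l2, l3⟩ : ∃ H' : Subgroup (Aut Ω), IsOpen (H' : Set (Aut Ω)) ∧
      H'.Normal ∧ H' ≤ H ∧ H' ≤ h.pre W' ∧ H' ≤ hι.setup.pre W' :=
    ⟨(H ⊓ (h.pre W' ⊓ hι.setup.pre W')).normalCore,
      isOpen_normalCore (isOpen_inf hH (isOpen_inf (h.isOpen_pre h') (hι.setup.isOpen_pre h'))),
      inferInstance, (Subgroup.normalCore_le _).trans inf_le_left,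
      (Subgroup.normalCore_le _).trans (inf_le_right.trans inf_le_left),
      (Subgroup.normalCore_le _).trans (inf_le_right.trans inf_le_right)⟩
  obtain ⟨A, φ, a, b, hA, hφ, hf, -, hb⟩ :=
    fd o1 n1 l1 hy (S ∪ ((ur o1).toFinset ∪ (ur h').toFinset))
  simp only [Finset.mem_union, Set.Finite.mem_toFinset, Set.mem_ofPred_eq, not_or, not_exists,
    not_and, not_not] at hA
  obtain ⟨hA1, hA2, hA3⟩ := hA
  obtain ⟨l, A', B, hl, hl3, hc, p1, p2, hh⟩ := hS A hA1 ⟨φ, h1 hφ, hf⟩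
  obtain ⟨t, rfl⟩ := trq p1.symm
  obtain ⟨A'', rfl⟩ := Pr.exists_ext j B
  obtain ⟨s, rfl⟩ := trq (A := A) (B := A'') p2.symm
  have m1 := h.mem_pre.1 (h2 (hn.conj_mem φ hφ t))
  have m2 := hι.setup.mem_pre.1 (h3 (hn.conj_mem φ hφ s))
  have f1 : (t • A).IsFrob ((t • A).p ^ 1) (t * φ * t⁻¹) := by
    rw [pow_one]
    exact hf.conj t
  obtain ⟨σ, s1, s2, s3, s4⟩ := hit_frob h hl hh m1.1 f1
  have m3 := h.mem_pre.1 (l2 (hA2 (t • A) rfl (f1.inv_mul s2)))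
  have e1 : c (α σ) = c (α (t * φ * t⁻¹)) := by
    have e : σ = t * φ * t⁻¹ * ((t * φ * t⁻¹)⁻¹ * σ) := (mul_inv_cancel_left _ _).symm
    rw [e, h.mul _ m1.1 _ m3.1, cm _ m1.2 _ (hle m3.2), c0 _ m3.2, add_zero]
  have e2 : c (α σ) = c (ι (s * φ * s⁻¹)) :=
    FS_loc (B := (s • A).comap j) hl hl3 hc hh.2.1 h' hle (hA3 _ rfl) c0 cm
      (hι.ind.isFrob m2.1 (hf.conj s)) m2.2 s3 (by simpa using s4 1)
  refine ⟨s, t, ?_⟩
  rw [FS_conj h hle c0 cm (h2 (hn.conj_mem φ hφ t)) (l2 (n1.conj_mem _ hb t)),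
    FS_conj hι.setup hle c0 cm (h3 (hn.conj_mem φ hφ s)) (l3 (n1.conj_mem _ hb s)), ← e1, e2]

theorem FS_level (h : Setup V α) {j : E →+* Ω} {V₀ : Subgroup (Aut Ω)} {ι : Aut Ω → Aut E}
    (hι : IOD j V₀ ι) {V₁ : Subgroup (Aut Ω)} (h1 : IsOpen (V₁ : Set (Aut Ω))) (S : Finset ℕ)
    (hS : ∀ A : Pr Ω, A.p ∉ S → (∃ φ ∈ V₁, A.IsFrob A.p φ) → SelfHit V α A.p)
    {W : Subgroup (Aut E)} (hW : IsOpen (W : Set (Aut E))) [W.Normal] (h3 : W ≤ Fm E 3) :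
    ∃ u : Aut Ω, ∀ g ∈ (V ⊓ V₀).normalCore, (α (u * g * u⁻¹))⁻¹ * ι g ∈ W := by
  obtain ⟨H, o1, n1, l1, l2, l3⟩ : ∃ H : Subgroup (Aut Ω), IsOpen (H : Set (Aut Ω)) ∧
      H.Normal ∧ H ≤ V₁ ∧ H ≤ h.pre W ∧ H ≤ hι.setup.pre W :=
    ⟨(V₁ ⊓ (h.pre W ⊓ hι.setup.pre W)).normalCore,
      isOpen_normalCore (isOpen_inf h1 (isOpen_inf (h.isOpen_pre hW) (hι.setup.isOpen_pre hW))),
      inferInstance, (Subgroup.normalCore_le _).trans inf_le_left,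
      (Subgroup.normalCore_le _).trans (inf_le_right.trans inf_le_left),
      (Subgroup.normalCore_le _).trans (inf_le_right.trans inf_le_right)⟩
  obtain ⟨c, W', w1, w2, w3, w4, w5, w6⟩ := qw hW h3 (H.index ^ 5)
  have v1 : (V ⊓ V₀).normalCore ≤ V := (Subgroup.normalCore_le _).trans inf_le_left
  have v2 : (V ⊓ V₀).normalCore ≤ V₀ := (Subgroup.normalCore_le _).trans inf_le_right
  obtain ⟨u, hu⟩ := fsg (Γ := Aut E ⧸ W) H (hι.setup.pre W) (V ⊓ V₀).normalCore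
    (index_ne_zero o1) l3
    (Subgroup.normal_le_normalCore.2 (le_inf (l2.trans (h.pre_le W)) (l3.trans (hι.setup.pre_le W))))
    (fun g => (α g : Aut E ⧸ W)) (fun g => (ι g : Aut E ⧸ W)) (fun g => chi E 3 (α g))
    (fun g => chi E 3 (ι g)) (fun g => c (α g)) (fun g => c (ι g))
    (fun x hx y hy => by
      obtain ⟨a1, a2⟩ := h.mem_pre.1 (l2 hx)
      obtain ⟨b1, b2⟩ := h.mem_pre.1 (l2 hy)
      rw [h.mul x a1 y b1, w4 _ a2 _ b2])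
    (fun x hx y hy => by
      obtain ⟨a1, a2⟩ := hι.setup.mem_pre.1 hx
      obtain ⟨b1, b2⟩ := hι.setup.mem_pre.1 hy
      rw [hι.setup.mul x a1 y b1, w4 _ a2 _ b2])
    (fun v => by
      obtain ⟨x, hx, rfl⟩ := w5 v
      obtain ⟨g, hg, rfl⟩ := hι.surj x
      exact ⟨g, hι.setup.mem_pre.2 ⟨hg, hx⟩, rfl⟩)
    (fun g hg y hy γ i => by
      obtain ⟨b1, b2⟩ := h.mem_pre.1 (l2 hy)
      rw [h.map_conj b1 (v1 hg)]
      exact w6 _ _ b2 γ i)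
    (fun g hg y hy γ i => by
      obtain ⟨b1, b2⟩ := hι.setup.mem_pre.1 (l3 hy)
      rw [hι.setup.map_conj b1 (v2 hg)]
      exact w6 _ _ b2 γ i)
    (fun y hy => fsc h hι S hS w1 w2 c w3 w4 o1 n1 l1 l2 l3 hy)
    (Nat.lt_pow_self (by norm_num))
  exact ⟨u, fun g hg => QuotientGroup.eq.1 (hu g hg)⟩

omit [IsAlgClosed Ω] in
theorem FS_lim (h : Setup V α) {V₂ : Subgroup (Aut Ω)} (hn : V₂.Normal) (hle : V₂ ≤ V)
    {ι : Aut Ω → Aut E} (hl : ∀ W : Subgroup (Aut E), IsOpen (W : Set (Aut E)) → W.Normal →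
      ∃ u : Aut Ω, ∀ g ∈ V₂, (α (u * g * u⁻¹))⁻¹ * ι g ∈ W) :
    ∃ u : Aut Ω, ∀ g ∈ V₂, α (u * g * u⁻¹) = ι g := by
  haveI : Nonempty {W : Subgroup (Aut E) // IsOpen (W : Set (Aut E)) ∧ W.Normal} :=
    ⟨⟨⊤, isOpen_top, inferInstance⟩⟩
  have hc : ∀ W : {W : Subgroup (Aut E) // IsOpen (W : Set (Aut E)) ∧ W.Normal},
      IsClosed {u : Aut Ω | ∀ g ∈ V₂, (α (u * g * u⁻¹))⁻¹ * ι g ∈ W.1} := by
    intro W
    simp only [Set.setOf_forall]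
    refine isClosed_iInter fun g => isClosed_iInter fun hg => ?_
    have h1 : Continuous fun u : Aut Ω => α (u * g * u⁻¹) :=
      h.continuousOn.comp_continuous (by fun_prop) fun u => hle (hn.conj_mem g hg u)
    exact (W.1.isClosed_of_isOpen W.2.1).preimage (h1.inv.mul continuous_const)
  obtain ⟨u, hu⟩ := IsCompact.nonempty_iInter_of_directed_nonempty_isCompact_isClosed
    (fun W : {W : Subgroup (Aut E) // IsOpen (W : Set (Aut E)) ∧ W.Normal} =>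
      {u : Aut Ω | ∀ g ∈ V₂, (α (u * g * u⁻¹))⁻¹ * ι g ∈ W.1})
    (fun W W' => ⟨⟨W.1 ⊓ W'.1, isOpen_inf W.2.1 W'.2.1,
      haveI := W.2.2; haveI := W'.2.2; inferInstance⟩,
      fun _ hu g hg => (hu g hg).1, fun _ hu g hg => (hu g hg).2⟩)
    (fun W => hl W.1 W.2.1 W.2.2) (fun W => (hc W).isCompact) hc
  refine ⟨u, fun g hg => inv_mul_eq_one.1 (eq_one_of_forall fun W h1 h2 => ?_)⟩
  exact Set.mem_iInter.1 hu ⟨W, h1, h2⟩ g hg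

/-- See the blueprint, section FS. -/
theorem fs (h : Setup V α) {V₁ : Subgroup (Aut Ω)} (h1 : IsOpen (V₁ : Set (Aut Ω))) (S : Finset ℕ)
    (hS : ∀ A : Pr Ω, A.p ∉ S → (∃ φ ∈ V₁, A.IsFrob A.p φ) → SelfHit V α A.p) :
    ∃ j : E →+* Ω, Ind V α j := by
  obtain ⟨j, V₀, ι, hι⟩ := exists_iod Ω E
  have v1 : (V ⊓ V₀).normalCore ≤ V := (Subgroup.normalCore_le _).trans inf_le_left
  have v2 : (V ⊓ V₀).normalCore ≤ V₀ := (Subgroup.normalCore_le _).trans inf_le_right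
  have hn : (V ⊓ V₀).normalCore.Normal := inferInstance
  obtain ⟨u, hu⟩ := FS_lim h hn v1 (ι := ι) fun W hW hN => by
    haveI := normal_Fm (E := E) 3
    obtain ⟨u, hu⟩ := FS_level h hι h1 S hS (isOpen_inf hW (isOpen_Fm (E := E) three_ne_zero))
      inf_le_right
    exact ⟨u, fun g hg => (hu g hg).1⟩
  refine ⟨(u : Ω →+* Ω).comp j, ind_ext h (isOpen_normalCore (isOpen_inf h.opn hι.setup.opn)) hn v1
    fun g hg x => ?_⟩
  have hg' : u⁻¹ * g * u⁻¹⁻¹ ∈ (V ⊓ V₀).normalCore := hn.conj_mem g hg u⁻¹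
  have e1 := hu _ hg'
  have e2 := hι.ind _ (v2 hg') x
  rw [show u * (u⁻¹ * g * u⁻¹⁻¹) * u⁻¹ = g by group] at e1
  rw [← e1, inv_inv] at e2
  show g (u (j x)) = u (j (α g x))
  rw [← e2]
  exact (u.apply_symm_apply _).symm

end Uc
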