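import Vale.Agent.P024.UL

/-! A cohomologically trivial group of principal units. -/

noncomputable section
namespace Uc
open NumberField
open scoped Classical
variable {L : Type} [Field L] [NumberField L]

/-- valuation at least `t` at all primes above `r` -/
def H1M_G (r : ℕ) (t : ℚ) (x : L) : Prop := ∀ B : Pr L, B.p = r → B.Ge t x

namespace H1M_G
variable {r : ℕ} {s t : ℚ} {x y : L}

omit [NumberField L] in
theorem mono (h : H1M_G r t x) (hst : s ≤ t) : H1M_G r s x := fun B hB => (h B hB).mono hst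
omit [NumberField L] in
theorem zero : H1M_G r t (0 : L) := fun B _ => Pr.Ge.zero B t
omit [NumberField L] in
theorem add (h : H1M_G r t x) (h' : H1M_G r t y) : H1M_G r t (x + y) :=
  fun B hB => (h B hB).add (h' B hB)
omit [NumberField L] in
theorem neg (h : H1M_G r t x) : H1M_G r t (-x) := fun B hB => (h B hB).neg
omit [NumberField L] in
theorem mul (h : H1M_G r s x) (h' : H1M_G r t y) : H1M_G r (s + t) (x * y) :=
  fun B hB => (h B hB).mul (h' B hB)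
omit [NumberField L] in
theorem sum {ι : Type} (S : Finset ι) (f : ι → L) (h : ∀ i ∈ S, H1M_G r t (f i)) :
    H1M_G r t (∑ i ∈ S, f i) := fun B hB => Pr.Ge.sum S f fun i hi => h i hi B hB
theorem aut (h : H1M_G r t x) (σ : Aut L) : H1M_G r t (σ x) := fun B hB => by
  have h1 := h (σ⁻¹ • B) hB
  rcases h1 with h1 | h1
  · exact Or.inl (by rw [h1, map_zero])
  · exact Or.inr (by rwa [Pr.smul_w, inv_inv] at h1)
omit [NumberField L] in
theorem pw (m : ℕ) : H1M_G r m ((r : L) ^ m) := fun B hB => Or.inr (by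
  rw [B.w_pow, ← hB, B.w_p, mul_one])
omit [NumberField L] in
theorem pw_inv (m : ℕ) : H1M_G r (-m) ((r : L) ^ m)⁻¹ := fun B hB => Or.inr (by
  rw [B.w_inv, B.w_pow, ← hB, B.w_p, mul_one])
omit [NumberField L] in
theorem one : H1M_G r 0 (1 : L) := by simpa using pw (L := L) (r := r) 0
omit [NumberField L] in
theorem inv (h : H1M_G r 1 (x - 1)) : H1M_G r 0 x⁻¹ := fun B hB => Or.inr (by
  rw [B.w_inv, (Pr.w_eq_zero_of_sm_sub_one ((h B hB).sm one_pos)).2, neg_zero])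
theorem ne (hr : r.Prime) (h : H1M_G r 1 (x - 1)) : x ≠ 0 := by
  obtain ⟨B, hB⟩ := Pr.exists_above (E := L) hr
  exact (Pr.w_eq_zero_of_sm_sub_one ((h B hB).sm one_pos)).1
theorem bound (r : ℕ) (x : L) : ∃ m : ℕ, H1M_G r (-m) x := by
  obtain ⟨c, hc⟩ := ((Pr.finite_above L r).image fun B => -B.w x).bddAbove
  obtain ⟨m, hm⟩ := exists_nat_ge c
  refine ⟨m, fun B hB => Or.inr ?_⟩
  have := hc (Set.mem_image_of_mem _ hB)
  linarith
omit [NumberField L] in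
theorem iff_in : H1M_G r 0 x ↔ ∀ B : Pr L, B.p = r → B.In x :=
  forall₂_congr fun _ _ => Pr.ge_zero_iff

end H1M_G

theorem H1M_basis (γ : Aut L) : ∃ (θ : L) (d : Fin (orderOf γ) → L),
    (∀ c : Fin (orderOf γ) → L, (∀ i, γ (c i) = c i) → ∑ i, c i * (γ ^ (i : ℕ)) θ = 0 → c = 0) ∧
    ∀ x : L, (∀ i, γ (∑ k : Fin (orderOf γ), (γ ^ (k : ℕ)) (x * d i)) =
        ∑ k : Fin (orderOf γ), (γ ^ (k : ℕ)) (x * d i)) ∧
      x = ∑ i, (∑ k : Fin (orderOf γ), (γ ^ (k : ℕ)) (x * d i)) * (γ ^ (i : ℕ)) θ := by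
  let K := IntermediateField.fixedField (Subgroup.zpowers γ)
  have : IsGalois K L := IsGalois.of_fixed_field L (Subgroup.zpowers γ)
  let e : Fin (orderOf γ) ≃ Gal(L/K) := (finEquivZPowers (isOfFinOrder_of_finite γ)).trans
    (IntermediateField.subgroupEquivAlgEquiv (Subgroup.zpowers γ)).toEquiv
  have he : ∀ i x, e i x = (γ ^ (i : ℕ)) x := fun i x => rfl
  have hK : ∀ x : L, x ∈ K ↔ γ x = x := fun x => by
    rw [IntermediateField.mem_fixedField_iff]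
    refine ⟨fun h => h γ (Subgroup.mem_zpowers γ), fun h f hf => ?_⟩
    exact (Subgroup.zpowers_le (H := MulAction.stabilizer (Aut L) x)).2 h hf
  let b := (IsGalois.normalBasis K L).reindex e.symm
  have hb : ∀ i, b i = (γ ^ (i : ℕ)) (IsGalois.normalBasis K L 1) := fun i => by
    simp only [b, Module.Basis.reindex_apply, Equiv.symm_symm]
    rw [IsGalois.normalBasis_apply, he]
  have hrep : ∀ x i, (b.repr x i : L) =
      ∑ k : Fin (orderOf γ), (γ ^ (k : ℕ)) (x * b.traceDual i) := fun x i => by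
    have h1 := b.traceDual.traceDual_repr_apply x i
    rw [Module.Basis.traceDual_traceDual, Algebra.traceForm_apply] at h1
    rw [h1]
    refine (trace_eq_sum_automorphisms (K := K) (x * b.traceDual i)).trans ?_
    rw [← e.sum_comp]
    rfl
  refine ⟨IsGalois.normalBasis K L 1, b.traceDual, fun c hc h => ?_, fun x => ⟨fun i => ?_, ?_⟩⟩
  · have h1 := Fintype.linearIndependent_iff.1 b.linearIndependent
      (fun i => ⟨c i, (hK _).2 (hc i)⟩) (by simp only [hb]; exact h)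
    funext i
    exact congrArg Subtype.val (h1 i)
  · rw [← hrep]; exact (hK _).1 (b.repr x i).2
  · conv_lhs => rw [← b.sum_repr x]
    refine Finset.sum_congr rfl fun i _ => ?_
    rw [← hrep, ← hb]; rfl

/-- a normal basis that is integral above `r`, and a bound for the coordinates
(`IsGalois.normalBasis`; the coordinates are traces against the dual basis) -/
theorem exists_nb (γ : Aut L) {r : ℕ} (hr : r.Prime) : ∃ (θ : L) (j : ℕ),
    (∀ B : Pr L, B.p = r → B.In θ) ∧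
    (∀ c : Fin (orderOf γ) → L, (∀ i, γ (c i) = c i) → ∑ i, c i * (γ ^ (i : ℕ)) θ = 0 → c = 0) ∧
    ∀ x : L, (∀ B : Pr L, B.p = r → B.Ge j x) → ∃ c : Fin (orderOf γ) → L, (∀ i, γ (c i) = c i) ∧
      (∀ i, ∀ B : Pr L, B.p = r → B.In (c i)) ∧ x = ∑ i, c i * (γ ^ (i : ℕ)) θ := by
  obtain ⟨θ, d, h1, h2⟩ := H1M_basis γ
  obtain ⟨m, hm⟩ := H1M_G.bound r θ
  choose v hv using fun i => H1M_G.bound r (d i)
  have hr0 : (r : L) ^ m ≠ 0 := pow_ne_zero _ (Nat.cast_ne_zero.2 hr.ne_zero)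
  refine ⟨r ^ m * θ, m + ∑ i, v i, ?_, fun c hc h => ?_, fun x hx => ?_⟩
  · exact H1M_G.iff_in.1 (by simpa using (H1M_G.pw m).mul hm)
  · refine h1 c hc (mul_left_cancel₀ hr0 ?_)
    rw [mul_zero, ← h, Finset.mul_sum]
    exact Finset.sum_congr rfl fun i _ => by rw [map_mul, map_pow, map_natCast]; ring
  · refine ⟨fun i => ((r : L) ^ m)⁻¹ * ∑ k : Fin (orderOf γ), (γ ^ (k : ℕ)) (x * d i),
      fun i => ?_, fun i => H1M_G.iff_in.1 ?_, ?_⟩
    · rw [map_mul, (h2 x).1, map_inv₀, map_pow, map_natCast]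
    · refine ((H1M_G.pw_inv m).mul
        (H1M_G.sum _ _ fun k _ => (H1M_G.mul hx (hv i)).aut _)).mono ?_
      have : (v i : ℚ) ≤ ∑ i, (v i : ℚ) :=
        Finset.single_le_sum (f := fun i => (v i : ℚ)) (fun _ _ => Nat.cast_nonneg _)
          (Finset.mem_univ i)
      push_cast
      linarith
    · refine (h2 x).2.trans (Finset.sum_congr rfl fun i _ => ?_)
      rw [map_mul (γ ^ (i : ℕ)) _ θ, map_pow, map_natCast]
      field_simp

/-- the lattice spanned by the normal basis -/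
structure H1M_Lat (γ : Aut L) (r j : ℕ) (Λ : AddSubgroup L) : Prop where
  int : ∀ a ∈ Λ, H1M_G r 0 a
  big : ∀ a, H1M_G r j a → a ∈ Λ
  act : ∀ a ∈ Λ, γ a ∈ Λ
  tr : ∀ a ∈ Λ, ∀ a' ∈ Λ, ∑ k ∈ Finset.range (orderOf γ), (γ ^ k) a = r * a' →
    ∃ b ∈ Λ, ∃ b' ∈ Λ, a = γ b - b + r * b'

theorem H1M_fix {γ : Aut L} {c : L} (h : γ c = c) (k : ℕ) : (γ ^ k) c = c := by
  induction k with
  | zero => rfl
  | succ k ih => rw [pow_succ, AlgEquiv.mul_apply, h, ih]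

theorem H1M_lat (γ : Aut L) {r : ℕ} (hr : r.Prime) : ∃ j Λ, H1M_Lat γ r j Λ := by
  obtain ⟨θ, j, h1, h2, h3⟩ := exists_nb γ hr
  have hn : 0 < orderOf γ := orderOf_pos γ
  let S : Set L := {z | ∃ (c : L) (k : ℕ), γ c = c ∧ H1M_G r 0 c ∧ z = c * (γ ^ k) θ}
  have hS : ∀ (c : L) (k : ℕ), γ c = c → H1M_G r 0 c → c * (γ ^ k) θ ∈ AddSubgroup.closure S :=
    fun c k a b => AddSubgroup.subset_closure ⟨c, k, a, b, rfl⟩
  have hform : ∀ a ∈ AddSubgroup.closure S, ∃ c : Fin (orderOf γ) → L, (∀ i, γ (c i) = c i) ∧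
      (∀ i, H1M_G r 0 (c i)) ∧ a = ∑ i, c i * (γ ^ (i : ℕ)) θ := by
    intro a ha
    induction ha using AddSubgroup.closure_induction with
    | mem x hx =>
      obtain ⟨c, k, a1, a2, rfl⟩ := hx
      refine ⟨fun i => if i = ⟨k % orderOf γ, Nat.mod_lt _ hn⟩ then c else 0, fun i => ?_,
        fun i => ?_, ?_⟩
      · dsimp only
        split_ifs
        exacts [a1, map_zero _]
      · dsimp only
        split_ifs
        exacts [a2, H1M_G.zero]
      · simp only [ite_mul, zero_mul, Finset.sum_ite_eq', Finset.mem_univ, if_true,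
          pow_mod_orderOf]
    | zero => exact ⟨0, fun _ => map_zero _, fun _ => H1M_G.zero, by simp⟩
    | add x y _ _ hx hy =>
      obtain ⟨c, a1, a2, rfl⟩ := hx
      obtain ⟨c', b1, b2, rfl⟩ := hy
      exact ⟨c + c', fun i => by simp [a1, b1], fun i => (a2 i).add (b2 i), by
        simp [add_mul, Finset.sum_add_distrib]⟩
    | neg x _ hx =>
      obtain ⟨c, a1, a2, rfl⟩ := hx
      exact ⟨-c, fun i => by simp [a1], fun i => (a2 i).neg, by simp⟩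
  have hdec : ∀ a ∈ AddSubgroup.closure S, ∃ s, γ s = s ∧ ∃ b ∈ AddSubgroup.closure S,
      a = γ b - b + s * θ := by
    intro a ha
    induction ha using AddSubgroup.closure_induction with
    | mem x hx =>
      obtain ⟨c, k, a1, a2, rfl⟩ := hx
      refine ⟨c, a1, ∑ l ∈ Finset.range k, c * (γ ^ l) θ,
        AddSubgroup.sum_mem _ fun l _ => hS c l a1 a2, ?_⟩
      have := Finset.sum_range_sub (fun l => c * (γ ^ l) θ) k
      rw [map_sum, ← Finset.sum_sub_distrib]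
      simp only [map_mul, a1, ← AlgEquiv.mul_apply, ← pow_succ']
      rw [this]; simp
    | zero => exact ⟨0, map_zero _, 0, zero_mem _, by simp⟩
    | add x y _ _ hx hy =>
      obtain ⟨s, a1, b, a2, rfl⟩ := hx
      obtain ⟨s', b1, b', b2, rfl⟩ := hy
      exact ⟨s + s', by rw [map_add, a1, b1], b + b', add_mem a2 b2, by rw [map_add]; ring⟩
    | neg x _ hx =>
      obtain ⟨s, a1, b, a2, rfl⟩ := hx
      exact ⟨-s, by rw [map_neg, a1], -b, neg_mem a2, by rw [map_neg]; ring⟩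
  refine ⟨j, AddSubgroup.closure S, fun a ha => ?_, fun a ha => ?_, fun a ha => ?_,
    fun a ha a' ha' h => ?_⟩
  · obtain ⟨c, -, a2, rfl⟩ := hform a ha
    exact H1M_G.sum _ _ fun i _ => by
      simpa using (a2 i).mul ((H1M_G.iff_in.2 h1).aut (γ ^ (i : ℕ)))
  · obtain ⟨c, a1, a2, rfl⟩ := h3 a ha
    exact AddSubgroup.sum_mem _ fun i _ => hS _ _ (a1 i) (H1M_G.iff_in.2 (a2 i))
  · obtain ⟨c, a1, a2, rfl⟩ := hform a ha
    rw [map_sum]
    refine AddSubgroup.sum_mem _ fun i _ => ?_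
    rw [map_mul, a1, ← AlgEquiv.mul_apply, ← pow_succ']
    exact hS _ _ (a1 i) (a2 i)
  · obtain ⟨s, a1, b, a2, rfl⟩ := hdec a ha
    obtain ⟨c, b1, b2, rfl⟩ := hform a' ha'
    have e1 : ∑ k ∈ Finset.range (orderOf γ), (γ ^ k) (γ b - b + s * θ) =
        ∑ i : Fin (orderOf γ), s * (γ ^ (i : ℕ)) θ := by
      have := Finset.sum_range_sub (fun l => (γ ^ l) b) (orderOf γ)
      simp only [map_add, map_sub, map_mul, H1M_fix a1, ← AlgEquiv.mul_apply, ← pow_succ]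
      rw [Finset.sum_add_distrib, this, pow_orderOf_eq_one, pow_zero, sub_self, zero_add,
        Finset.sum_range]
    have e2 := h2 (fun i => s - r * c i) (fun i => by rw [map_sub, map_mul, a1, b1, map_natCast])
      (by
        simp only [sub_mul, Finset.sum_sub_distrib, mul_assoc]
        rw [← Finset.mul_sum _ _ (r : L), ← h, e1, sub_self])
    have e3 : s = r * c ⟨0, hn⟩ := sub_eq_zero.1 (congrFun e2 ⟨0, hn⟩)
    refine ⟨b, a2, c ⟨0, hn⟩ * (γ ^ 0) θ, hS _ _ (b1 _) (b2 _), ?_⟩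
    rw [e3, pow_zero, AlgEquiv.one_apply, mul_assoc]

/-- congruent to `1 + r ^ t a` modulo `r ^ (t + 1) Λ` -/
def H1M_E (r : ℕ) (Λ : AddSubgroup L) (t : ℕ) (x a : L) : Prop :=
  ∃ a' ∈ Λ, x = 1 + r ^ t * (a + r * a')

/-- the filtration -/
def H1M_P (r : ℕ) (Λ : AddSubgroup L) (t : ℕ) (x : L) : Prop := ∃ a ∈ Λ, x = 1 + r ^ t * a

namespace H1M_Lat
variable {γ : Aut L} {r j t : ℕ} {Λ : AddSubgroup L} (h : H1M_Lat γ r j Λ) (hr : r.Prime)
  {x y a b : L}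
include h

omit h in
theorem rmul (ha : a ∈ Λ) : (r : L) * a ∈ Λ := by
  rw [← nsmul_eq_mul]; exact nsmul_mem ha r

omit h in
theorem toP (hx : H1M_E r Λ t x a) (ha : a ∈ Λ) : H1M_P r Λ t x := by
  obtain ⟨a', h1, rfl⟩ := hx
  exact ⟨_, add_mem ha (rmul h1), rfl⟩

omit h [NumberField L] in
theorem toE (a : L) : H1M_E r Λ t (1 + r ^ t * a) a := ⟨0, zero_mem _, by ring⟩

theorem ge (hx : H1M_P r Λ t x) : H1M_G r t (x - 1) := by
  obtain ⟨a, h1, rfl⟩ := hx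
  simpa using (H1M_G.pw t).mul (h.int a h1)

theorem Pact (hx : H1M_P r Λ t x) : H1M_P r Λ t (γ x) := by
  obtain ⟨a, h1, rfl⟩ := hx
  exact ⟨γ a, h.act a h1, by simp⟩

theorem Eact (hx : H1M_E r Λ t x a) : H1M_E r Λ t (γ x) (γ a) := by
  obtain ⟨a', h1, rfl⟩ := hx
  exact ⟨γ a', h.act a' h1, by simp⟩

include hr

theorem small {z : L} (hz : H1M_G r (t + j) z) : ∃ a ∈ Λ, z = r ^ t * a := by
  have hr0 : (r : L) ^ t ≠ 0 := pow_ne_zero _ (Nat.cast_ne_zero.2 hr.ne_zero)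
  refine ⟨((r : L) ^ t)⁻¹ * z, h.big _ ?_, by field_simp⟩
  simpa using (H1M_G.pw_inv t).mul hz

theorem ofG (hx : H1M_G r (t + j) (x - 1)) : H1M_P r Λ t x := by
  obtain ⟨a, h1, h2⟩ := h.small hr hx
  exact ⟨a, h1, by rw [← h2]; ring⟩

theorem small2 (ht : j + 1 ≤ t) {z : L} (hz : H1M_G r 0 z) :
    ∃ a ∈ Λ, r ^ t * (r ^ t * z) = r ^ t * (r * a) := by
  have h1 : H1M_G r ((1 : ℕ) + j) ((r : L) ^ t * z) := by
    refine ((H1M_G.pw t).mul hz).mono ?_
    have : ((j + 1 : ℕ) : ℚ) ≤ t := by exact_mod_cast ht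
    push_cast at this ⊢
    linarith
  obtain ⟨a, a1, a2⟩ := h.small hr h1
  exact ⟨a, a1, by rw [a2, pow_one]⟩

theorem Emul (ht : j + 1 ≤ t) (hx : H1M_E r Λ t x a) (hy : H1M_E r Λ t y b) (ha : a ∈ Λ)
    (hb : b ∈ Λ) : H1M_E r Λ t (x * y) (a + b) := by
  obtain ⟨a', a1, rfl⟩ := hx
  obtain ⟨b', b1, rfl⟩ := hy
  obtain ⟨w, w1, w2⟩ := h.small2 hr ht (z := (a + r * a') * (b + r * b')) (by
    simpa using (h.int _ (add_mem ha (rmul a1))).mul (h.int _ (add_mem hb (rmul b1))))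
  exact ⟨a' + b' + w, add_mem (add_mem a1 b1) w1, by linear_combination w2⟩

theorem ge1 (ht : j + 1 ≤ t) (hx : H1M_P r Λ t x) : H1M_G r 1 (x - 1) :=
  (h.ge hx).mono (by exact_mod_cast (by omega : 1 ≤ t))

theorem Einv (ht : j + 1 ≤ t) (hx : H1M_E r Λ t x a) (ha : a ∈ Λ) : H1M_E r Λ t x⁻¹ (-a) := by
  have h1 := h.ge1 hr ht (toP hx ha)
  have h0 := h1.ne hr
  obtain ⟨a', a1, e⟩ := hx
  have h2 := h.int _ (add_mem ha (rmul (r := r) a1))
  obtain ⟨w, w1, w2⟩ := h.small2 hr ht (z := (a + r * a') * (a + r * a') * x⁻¹) (by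
    simpa using (h2.mul h2).mul h1.inv)
  refine ⟨-a' + w, add_mem (neg_mem a1) w1, ?_⟩
  have h3 : x * x⁻¹ = 1 := mul_inv_cancel₀ h0
  linear_combination w2 + (1 - (r : L) ^ t * (a + r * a')) * h3
    - (1 - (r : L) ^ t * (a + r * a')) * x⁻¹ * e

theorem Pmul (ht : j + 1 ≤ t) (hx : H1M_P r Λ t x) (hy : H1M_P r Λ t y) :
    H1M_P r Λ t (x * y) := by
  obtain ⟨a, a1, rfl⟩ := hx
  obtain ⟨b, b1, rfl⟩ := hy
  exact toP (h.Emul hr ht (toE a) (toE b) a1 b1) (add_mem a1 b1)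

theorem Pinv (ht : j + 1 ≤ t) (hx : H1M_P r Λ t x) : H1M_P r Λ t x⁻¹ := by
  obtain ⟨a, a1, rfl⟩ := hx
  exact toP (h.Einv hr ht (toE a) a1) (neg_mem a1)

omit h hr in
theorem Pmono {s : ℕ} (hs : s ≤ t) (hx : H1M_P r Λ t x) : H1M_P r Λ s x := by
  obtain ⟨a, a1, rfl⟩ := hx
  obtain ⟨k, rfl⟩ := Nat.exists_eq_add_of_le hs
  refine ⟨r ^ k * a, ?_, by ring⟩
  rw [← Nat.cast_pow, ← nsmul_eq_mul]; exact nsmul_mem a1 _

theorem Enorm (ht : j + 1 ≤ t) (hx : H1M_E r Λ t x a) (ha : a ∈ Λ) (m : ℕ) :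
    H1M_E r Λ t (∏ k ∈ Finset.range m, (γ ^ k) x) (∑ k ∈ Finset.range m, (γ ^ k) a) ∧
      ∑ k ∈ Finset.range m, (γ ^ k) a ∈ Λ := by
  have h1 : ∀ k : ℕ, H1M_E r Λ t ((γ ^ k) x) ((γ ^ k) a) ∧ (γ ^ k) a ∈ Λ := fun k => by
    induction k with
    | zero => exact ⟨hx, ha⟩
    | succ k ih =>
      rw [pow_succ', AlgEquiv.mul_apply, AlgEquiv.mul_apply]
      exact ⟨h.Eact ih.1, h.act _ ih.2⟩
  induction m with
  | zero => exact ⟨⟨0, zero_mem _, by simp⟩, by simp⟩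
  | succ m ih =>
    rw [Finset.prod_range_succ, Finset.sum_range_succ]
    exact ⟨h.Emul hr ht ih.1 (h1 m).1 ih.2 (h1 m).2, add_mem ih.2 (h1 m).2⟩

omit h hr in
theorem shift (x : L) (m : ℕ) : x * γ (∏ k ∈ Finset.range m, (γ ^ k) x) =
    ∏ k ∈ Finset.range (m + 1), (γ ^ k) x := by
  rw [Finset.prod_range_succ', map_prod, mul_comm]
  simp only [← AlgEquiv.mul_apply, ← pow_succ', pow_zero, AlgEquiv.one_apply]

omit h hr in
theorem norm_act (y : L) : ∏ k ∈ Finset.range (orderOf γ), (γ ^ k) (γ y) =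
    ∏ k ∈ Finset.range (orderOf γ), (γ ^ k) y := by
  rcases eq_or_ne y 0 with rfl | hy
  · rw [map_zero]
  refine mul_left_cancel₀ hy ?_
  have h1 := shift (γ := γ) y (orderOf γ)
  rw [Finset.prod_range_succ, pow_orderOf_eq_one, AlgEquiv.one_apply, mul_comm _ y,
    map_prod] at h1
  rw [← h1]
  simp only [← AlgEquiv.mul_apply, ← pow_succ', ← pow_succ]

theorem step (ht : j + 1 ≤ t) (hx : H1M_P r Λ t x)
    (hN : ∏ k ∈ Finset.range (orderOf γ), (γ ^ k) x = 1) :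
    ∃ y, H1M_P r Λ t y ∧ H1M_P r Λ (t + 1) (x * y * (γ y)⁻¹) := by
  have hr0 : (r : L) ^ t ≠ 0 := pow_ne_zero _ (Nat.cast_ne_zero.2 hr.ne_zero)
  obtain ⟨a, a1, rfl⟩ := hx
  obtain ⟨⟨a', a2, a3⟩, -⟩ := h.Enorm hr ht (toE a) a1 (orderOf γ)
  rw [hN] at a3
  have a4 : ∑ k ∈ Finset.range (orderOf γ), (γ ^ k) a = r * -a' :=
    mul_left_cancel₀ hr0 (by linear_combination -a3)
  obtain ⟨b, b1, b', b2, e⟩ := h.tr a a1 _ (neg_mem a2) a4
  refine ⟨1 + r ^ t * b, ⟨b, b1, rfl⟩, ?_⟩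
  obtain ⟨w, w1, w2⟩ := h.Emul hr ht (h.Emul hr ht (toE a) (toE b) a1 b1)
    (h.Einv hr ht (h.Eact (toE b)) (h.act b b1)) (add_mem a1 b1) (neg_mem (h.act b b1))
  exact ⟨b' + w, add_mem b2 w1, by rw [w2, e]; ring⟩

theorem base {v : ℕ} (hv : H1M_G r (-v) ((orderOf γ : L))⁻¹) (hx : H1M_P r Λ (2 * j + 1 + v) x)
    (hN : ∏ k ∈ Finset.range (orderOf γ), (γ ^ k) x = 1) :
    ∃ y, H1M_P r Λ (j + 1) y ∧ x * y = γ y := by
  have hn : (orderOf γ : L) ≠ 0 := Nat.cast_ne_zero.2 (orderOf_pos γ).ne'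
  obtain ⟨a, a1, e⟩ := hx
  have h1 : ∀ m, H1M_G r (2 * j + 1 + v : ℕ) (∏ k ∈ Finset.range m, (γ ^ k) x - 1) := fun m => by
    obtain ⟨b1, b2⟩ := h.Enorm hr (t := 2 * j + 1 + v) (by omega) (e ▸ toE a) a1 m
    exact h.ge (toP b1 b2)
  set y := ∑ m ∈ Finset.range (orderOf γ), ∏ k ∈ Finset.range m, (γ ^ k) x with hy
  have h2 : x * γ y = y := by
    rw [hy, map_sum, Finset.mul_sum]
    simp only [shift]
    have := Finset.sum_range_sub (fun m => ∏ k ∈ Finset.range m, (γ ^ k) x) (orderOf γ)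
    rw [hN, Finset.prod_range_zero, sub_self, Finset.sum_sub_distrib] at this
    exact sub_eq_zero.1 this
  have h3 : H1M_P r Λ (j + 1) ((orderOf γ : L)⁻¹ * y) := by
    refine h.ofG hr ?_
    have h4 := hv.mul (H1M_G.sum (Finset.range (orderOf γ)) _ fun m _ => h1 m)
    rw [Finset.sum_sub_distrib, ← hy, Finset.sum_const, Finset.card_range, nsmul_eq_mul, mul_one,
      mul_sub, inv_mul_cancel₀ hn] at h4
    refine h4.mono (le_of_eq ?_)
    push_cast; ring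
  have h5 : y ≠ 0 := right_ne_zero_of_mul ((h.ge1 hr le_rfl h3).ne hr)
  have h6 : γ y ≠ 0 := (map_ne_zero γ).2 h5
  refine ⟨_, h.Pinv hr le_rfl h3, ?_⟩
  rw [map_inv₀, map_mul, map_inv₀, map_natCast]
  field_simp
  exact h2

theorem main (hx : H1M_P r Λ (j + 1) x) (hN : ∏ k ∈ Finset.range (orderOf γ), (γ ^ k) x = 1) :
    ∃ y, H1M_P r Λ (j + 1) y ∧ x * y = γ y := by
  obtain ⟨v, hv⟩ := H1M_G.bound r ((orderOf γ : L))⁻¹
  have key : ∀ d t, j + 1 ≤ t → t + d = 2 * j + 1 + v → ∀ x, H1M_P r Λ t x →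
      ∏ k ∈ Finset.range (orderOf γ), (γ ^ k) x = 1 → ∃ y, H1M_P r Λ (j + 1) y ∧ x * y = γ y := by
    intro d
    induction d with
    | zero => exact fun t _ e x hx hN => h.base hr hv (by rwa [← e]) hN
    | succ d ih =>
      intro t ht e x hx hN
      obtain ⟨y, y1, y2⟩ := h.step hr ht hx hN
      have y0 : y ≠ 0 := (h.ge1 hr ht y1).ne hr
      have y3 : γ y ≠ 0 := (map_ne_zero γ).2 y0
      obtain ⟨z, z1, z2⟩ := ih (t + 1) (by omega) (by omega) _ y2 (by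
        simp only [map_mul, map_inv₀, Finset.prod_mul_distrib, Finset.prod_inv_distrib]
        rw [hN, norm_act, one_mul, mul_inv_cancel₀]
        exact Finset.prod_ne_zero_iff.2 fun k _ => (map_ne_zero _).2 y0)
      refine ⟨y * z, h.Pmul hr le_rfl (Pmono ht y1) z1, ?_⟩
      rw [map_mul, ← z2]
      field_simp
  exact key (j + v) (j + 1) le_rfl (by omega) x hx hN

end H1M_Lat

/-- See the blueprint, section H1M. -/
theorem h1m (γ : Aut L) {r : ℕ} (hr : r.Prime) : ∃ (M : Submodule ℤ (Additive Lˣ)) (T : ℕ),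
    (∀ x ∈ M, act γ x ∈ M) ∧ (∀ x ∈ M, Cg r 1 ((x.toMul : Lˣ) : L) 1) ∧
    (∀ x : Additive Lˣ, Cg r T ((x.toMul : Lˣ) : L) 1 → x ∈ M) ∧
    ∀ x ∈ M, Ns (act γ) (orderOf γ) x = 0 → ∃ y ∈ M, x = act γ y - y := by
  obtain ⟨j, Λ, h⟩ := H1M_lat γ hr
  let G : Subgroup Lˣ :=
    { carrier := {x | H1M_P r Λ (j + 1) (x : L)}
      mul_mem' := fun ha hb => h.Pmul hr le_rfl ha hb
      one_mem' := ⟨0, zero_mem _, by simp⟩
      inv_mem' := fun {x} ha => by
        show H1M_P r Λ (j + 1) ((x⁻¹ : Lˣ) : L)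
        rw [Units.val_inv_eq_inv_val]; exact h.Pinv hr le_rfl ha }
  have hG : ∀ x : Additive Lˣ, x ∈ (Subgroup.toAddSubgroup G).toIntSubmodule ↔
      H1M_P r Λ (j + 1) ((x.toMul : Lˣ) : L) := fun x => Iff.rfl
  refine ⟨(Subgroup.toAddSubgroup G).toIntSubmodule, j + 1 + j, fun x hx => ?_, fun x hx => ?_,
    fun x hx => ?_, fun x hx hN => ?_⟩
  · rw [hG, act_apply]; exact h.Pact ((hG x).1 hx)
  · exact fun B hB => by simpa using h.ge1 hr le_rfl ((hG x).1 hx) B hB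
  · exact (hG x).2 (h.ofG hr fun B hB => by simpa using hx B hB)
  · have h1 := ns_act γ (orderOf γ) x
    rw [hN] at h1
    obtain ⟨y, y1, y2⟩ := h.main hr ((hG x).1 hx) h1.symm
    have y0 : y ≠ 0 := (h.ge1 hr le_rfl y1).ne hr
    refine ⟨Additive.ofMul (Units.mk0 y y0), (hG _).2 y1, eq_sub_of_add_eq ?_⟩
    refine Additive.toMul.injective (Units.ext ?_)
    rw [act_apply]
    exact y2

end Uc
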