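import Vale.Agent.P024.Kum

/-! The local characterisation of primes. -/

noncomputable section
namespace Uc
open scoped Classical

theorem Heis_abs {G : Type} [Group G] {l q : ℕ} (hl : l.Prime) (h2 : l ≠ 2) (hq : q ≡ 1 [MOD l])
    (S : Subgroup G) (a b h : G → ZMod l) (ha : ∀ s ∈ S, ∀ t ∈ S, a (s * t) = a s + a t)
    (hb : ∀ s ∈ S, ∀ t ∈ S, b (s * t) = b s + b t)
    (hh : ∀ s ∈ S, ∀ t ∈ S, h (s * t) = h s + h t - a t * b s) {σ τ : G} (hσ : σ ∈ S) (hτ : τ ∈ S)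
    (e : σ * τ * σ⁻¹ = τ ^ q) : a τ * b σ = b τ * a σ := by
  haveI : Fact l.Prime := ⟨hl⟩
  have a1 : a 1 = 0 := by
    have h1 := ha 1 S.one_mem 1 S.one_mem
    rw [mul_one] at h1
    linear_combination -h1
  have b1 : b 1 = 0 := by
    have h1 := hb 1 S.one_mem 1 S.one_mem
    rw [mul_one] at h1
    linear_combination -h1
  have c1 : h 1 = 0 := by
    have h1 := hh 1 S.one_mem 1 S.one_mem
    rw [mul_one, a1] at h1
    linear_combination -h1
  have key : ∀ k : ℕ, b (τ ^ k) = k * b τ ∧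
      2 * h (τ ^ k) = 2 * k * h τ - k * (k - 1) * (a τ * b τ) := by
    intro k
    induction k with
    | zero => simp [b1, c1]
    | succ k ih =>
      rw [pow_succ, hb _ (S.pow_mem hτ k) _ hτ, hh _ (S.pow_mem hτ k) _ hτ, ih.1]
      push_cast
      exact ⟨by ring, by linear_combination ih.2⟩
  have q1 : (q : ZMod l) = 1 := by
    have h1 := (ZMod.natCast_eq_natCast_iff q 1 l).2 hq
    rwa [Nat.cast_one] at h1
  have t2 : (2 : ZMod l) ≠ 0 := by
    intro h0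
    have h1 : ((2 : ℕ) : ZMod l) = 0 := by exact_mod_cast h0
    rw [ZMod.natCast_eq_zero_iff] at h1
    exact h2 ((Nat.prime_dvd_prime_iff_eq hl Nat.prime_two).1 h1)
  obtain ⟨k1, k2⟩ := key q
  rw [q1] at k1 k2
  have k3 : h (τ ^ q) = h τ := mul_left_cancel₀ t2 (by linear_combination k2)
  have e1 : σ * τ = τ ^ q * σ := by rw [← e, inv_mul_cancel_right]
  have e2 := hh σ hσ τ hτ
  rw [e1, hh _ (S.pow_mem hτ q) _ hσ, k1, k3] at e2
  linear_combination e2

variable {E : Type} [Field E] [CharZero E] [Nice E] {l q : ℕ} {σ τ : Aut E}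

theorem Heis_sum (hl : l ≠ 0) {ι : Type} (s : Finset ι) (c : ι → ZMod l) :
    zt E l ^ (∑ i ∈ s, c i).val = ∏ i ∈ s, zt E l ^ (c i).val := by
  induction s using Finset.induction_on with
  | empty => simp
  | insert i s hi ih => rw [Finset.sum_insert hi, Finset.prod_insert hi, zt_pow_add hl, ih]

theorem Heis_prod (hl : l ≠ 0) [NeZero l] (x : E) :
    ∏ i : ZMod l, (1 - zt E l ^ i.val * rt l x) = 1 - x := by
  have h1 := X_pow_sub_C_eq_prod (zt_prim (E := E) hl) (Nat.pos_of_ne_zero hl) (rt_pow hl x)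
  have h2 := congrArg (Polynomial.eval 1) h1
  simp only [Polynomial.eval_sub, Polynomial.eval_pow, Polynomial.eval_X, Polynomial.eval_C,
    one_pow, Polynomial.eval_prod] at h2
  rw [h2]
  refine Finset.prod_bij (fun i _ => i.val) (fun i _ => Finset.mem_range.2 (ZMod.val_lt i))
    (fun i _ j _ e => ZMod.val_injective l e) (fun k hk => ⟨(k : ZMod l), Finset.mem_univ _, ?_⟩)
    fun _ _ => rfl
  exact ZMod.val_cast_of_lt (Finset.mem_range.1 hk)

/-- The Heisenberg computation. See the blueprint, section HH. -/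
theorem heis (hl : l.Prime) (h2 : l ≠ 2) (hq : q ≡ 1 [MOD l]) (hσ : σ ∈ Fm E l) (hτ : τ ∈ Fm E l)
    (h : σ * τ * σ⁻¹ = τ ^ q) {x : E} (h0 : x ≠ 0) (h1 : x ≠ 1) (hx : σ x = x) (hx' : τ x = x) :
    kc l x τ * kc l (1 - x) σ = kc l (1 - x) τ * kc l x σ := by
  have hn : l ≠ 0 := hl.ne_zero
  haveI : NeZero l := ⟨hn⟩
  have h1' : 1 - x ≠ 0 := sub_ne_zero.2 h1.symm
  obtain ⟨S, hS⟩ : ∃ S : Subgroup (Aut E), ∀ s, s ∈ S ↔ s ∈ Fm E l ∧ s x = x :=
    ⟨Fm E l ⊓ stab {x}, fun s => by simp [Subgroup.mem_inf, mem_stab]⟩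
  obtain ⟨u, hu⟩ : ∃ u : ZMod l → E, ∀ i, u i = 1 - zt E l ^ i.val * rt l x := ⟨_, fun _ => rfl⟩
  have hp : ∏ i, u i = 1 - x := by
    simp only [hu]
    exact Heis_prod hn x
  have hu0 : ∀ i, u i ≠ 0 := fun i =>
    Finset.prod_ne_zero_iff.1 (hp ▸ h1') i (Finset.mem_univ i)
  have hz : ∀ s ∈ S, ∀ k : ℕ, s (zt E l ^ k) = zt E l ^ k := by
    intro s hs k
    rw [map_pow, mem_Fm.1 ((hS s).1 hs).1 _ (zt_prim hn).pow_eq_one]
  have hsu : ∀ s ∈ S, ∀ i, s (u i) = u (i + kc l x s) := by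
    intro s hs i
    rw [hu, hu, map_sub, map_one, map_mul, hz s hs, kc_spec hn h0 ((hS s).1 hs).2, zt_pow_add hn,
      mul_assoc]
  have hc : ∀ s ∈ S, ∀ i, ∃ k : ZMod l,
      s (rt l (u i)) = zt E l ^ k.val * rt l (u (i + kc l x s)) := by
    intro s hs i
    have h3 := rt_ne_zero hn (hu0 (i + kc l x s))
    have h4 : (s (rt l (u i)) / rt l (u (i + kc l x s))) ^ l = 1 := by
      rw [div_pow, ← map_pow, rt_pow hn, rt_pow hn, hsu s hs, div_self (hu0 _)]
    obtain ⟨k, hk⟩ := exists_zt_pow hn h4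
    exact ⟨k, by rw [← hk, div_mul_cancel₀ _ h3]⟩
  choose! c hc using hc
  have ha : ∀ s ∈ S, ∀ t ∈ S, kc l x (s * t) = kc l x s + kc l x t := fun s hs t ht =>
    kc_mul_right hn h0 ((hS s).1 hs).2 ((hS t).1 ht).2 ((hS s).1 hs).1
  have hcc : ∀ s ∈ S, ∀ t ∈ S, ∀ i, c (s * t) i = c t i + c s (i + kc l x t) := by
    intro s hs t ht i
    refine zt_pow_inj (E := E) hn (mul_right_cancel₀
      (rt_ne_zero hn (hu0 (i + kc l x (s * t)))) ?_)
    rw [← hc _ (S.mul_mem hs ht), AlgEquiv.mul_apply, hc t ht, map_mul, hz s hs, hc s hs,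
      zt_pow_add hn, ha s hs t ht, mul_assoc, add_assoc, add_comm (kc l x t)]
  have hb : ∀ s ∈ S, kc l (1 - x) s = ∑ i, c s i := by
    intro s hs
    refine kc_eq hn h1' ((hS s).1 hs).1 (ρ := ∏ i, rt l (u i)) ?_ ?_
    · rw [← Finset.prod_pow, ← hp]
      exact Finset.prod_congr rfl fun i _ => rt_pow hn _
    · rw [map_prod, Heis_sum hn, Finset.prod_congr rfl fun i _ => hc s hs i,
        Finset.prod_mul_distrib]
      congr 1
      exact Equiv.prod_comp (Equiv.addRight (kc l x s)) fun i => rt l (u i)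
  refine Heis_abs hl h2 hq S (kc l x) (kc l (1 - x)) (fun s => ∑ i, i * c s i) ha ?_ ?_
    ((hS σ).2 ⟨hσ, hx⟩) ((hS τ).2 ⟨hτ, hx'⟩) h
  · intro s hs t ht
    refine kc_mul_right hn h1' ?_ ?_ ((hS s).1 hs).1
    · rw [map_sub, map_one, ((hS s).1 hs).2]
    · rw [map_sub, map_one, ((hS t).1 ht).2]
  · intro s hs t ht
    have e1 : ∑ i, (i + kc l x t) * c s (i + kc l x t) = ∑ i, i * c s i :=
      Equiv.sum_comp (Equiv.addRight (kc l x t)) fun i => i * c s i
    have e2 : ∑ i, c s (i + kc l x t) = ∑ i, c s i :=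
      Equiv.sum_comp (Equiv.addRight (kc l x t)) fun i => c s i
    show ∑ i, i * c (s * t) i = ∑ i, i * c s i + ∑ i, i * c t i - kc l x t * kc l (1 - x) s
    rw [hb s hs, ← e1, ← e2, Finset.mul_sum, ← Finset.sum_add_distrib, ← Finset.sum_sub_distrib]
    refine Finset.sum_congr rfl fun i _ => ?_
    rw [hcc s hs t ht]
    ring

end Uc
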