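import Vale.Agent.P024.DD2
import Vale.Agent.P024.AEJ
import Vale.Agent.P024.Heis

/-! The local characterisation of primes. -/

noncomputable section
namespace Uc
open scoped Classical
variable {E : Type} [Field E] [CharZero E] [Nice E] {l q : ℕ} {σ τ : Aut E}

theorem HH_pow_eq {M : Type} [Monoid M] {ζ : M} {m a b : ℕ} (h : ζ ^ m = 1) (hab : a ≡ b [MOD m]) :
    ζ ^ a = ζ ^ b := by
  rw [pow_eq_pow_mod a h, pow_eq_pow_mod b h, show a % m = b % m from hab]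

theorem HH_modEq {M : Type} [CommRing M] [IsDomain M] {ζ : M} {m a b : ℕ} (hm : m ≠ 0)
    (h : IsPrimitiveRoot ζ m) (hab : ζ ^ a = ζ ^ b) : a ≡ b [MOD m] := by
  rw [pow_eq_pow_mod a h.pow_eq_one, pow_eq_pow_mod b h.pow_eq_one] at hab
  exact h.pow_inj (Nat.mod_lt _ (Nat.pos_of_ne_zero hm)) (Nat.mod_lt _ (Nat.pos_of_ne_zero hm)) hab

omit [Nice E] in
theorem HH_pow_apply {y η : E} (h : τ y = η * y) (hη : τ η = η) (k : ℕ) :
    (τ ^ k) y = η ^ k * y := by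
  induction k with
  | zero => simp
  | succ k ih => rw [pow_succ', AlgEquiv.mul_apply, ih, map_mul, map_pow, hη, h]; ring

omit [Nice E] in
theorem HH_mem_Fx {g : Aut E} {z : E} : z ∈ Fx (Subgroup.zpowers g) ↔ g z = z := by
  refine ⟨fun h => h g (Subgroup.mem_zpowers g), fun h g' hg' => ?_⟩
  have h1 : Subgroup.zpowers g ≤ stab {z} :=
    Subgroup.zpowers_le_of_mem (by rintro _ rfl; exact h)
  exact h1 hg' z rfl

theorem HH_conj_pow {G : Type} [Group G] {σ τ : G} (h : σ * τ * σ⁻¹ = τ ^ q) (k : ℕ) :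
    σ ^ k * τ * (σ ^ k)⁻¹ = τ ^ q ^ k := by
  induction k with
  | zero => simp
  | succ k ih =>
    rw [pow_succ' q, pow_mul, ← h, conj_pow, ← ih, pow_succ']
    group

omit [Nice E] in
/-- comparison of eigenvalues -/
theorem HH_eig (h : σ * τ * σ⁻¹ = τ ^ q) {y η : E} (hy : y ≠ 0) (h1 : τ y = η * y) (h2 : τ η = η)
    (h3 : τ (σ y / y) = σ y / y) : σ η = η ^ q := by
  have h4 : σ y ≠ 0 := (map_ne_zero σ).2 hy
  have h5 : τ (σ y) = η * σ y := by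
    conv_lhs => rw [← div_mul_cancel₀ (σ y) hy, map_mul, h3, h1]
    field_simp
  have h6 := HH_pow_apply h5 h2 q
  rw [← h, AlgEquiv.mul_apply, AlgEquiv.mul_apply, show σ⁻¹ (σ y) = y from σ.symm_apply_apply y,
    h1, map_mul] at h6
  exact mul_right_cancel₀ h4 h6

/-- `chi τ ^ (q - 1) = 1` at all levels, `ProL.mem_Fm` and `lte` -/
theorem mem_Fm_of_rel (hl : l.Prime) (h2 : l ≠ 2) (hq : 2 ≤ q) (hτ : ProL l τ)
    (h : σ * τ * σ⁻¹ = τ ^ q) (T : ℕ) : τ ∈ Fm E (l ^ T) := by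
  obtain ⟨b, c, hc, hb⟩ := Nat.exists_eq_pow_mul_and_not_dvd (n := q - 1) (by omega) l hl.ne_one
  have hb' : ¬ l ^ (b + 1) ∣ q - 1 := by
    rw [hb, pow_succ]
    exact fun h' => hc (Nat.dvd_of_mul_dvd_mul_left (pow_pos hl.pos b) h')
  obtain ⟨n, hn⟩ : ∃ n, n = l ^ (T + 1 + b) := ⟨_, rfl⟩
  have hn0 : n ≠ 0 := hn ▸ pow_ne_zero _ hl.ne_zero
  have : NeZero n := ⟨hn0⟩
  have h1 : chi E n τ ^ (q - 1) = 1 := by
    have h3 := congrArg (chi E n) h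
    rw [map_mul, map_mul, map_inv, mul_inv_cancel_comm, map_pow,
      show q = (q - 1) + 1 by omega, pow_succ] at h3
    exact (mul_eq_right.1 h3.symm)
  obtain ⟨u, hu⟩ : ∃ u, u = ((chi E n τ : (ZMod n)ˣ) : ZMod n).val := ⟨_, rfl⟩
  have h3 : (l : ℤ) ^ (T + 1 + b) ∣ (u : ℤ) ^ (q - 1) - 1 := by
    rw [← Nat.cast_pow, ← hn, ← ZMod.intCast_zmod_eq_zero_iff_dvd]
    push_cast
    rw [hu, ZMod.natCast_zmod_val, ← Units.val_pow_eq_pow_val, h1, Units.val_one, sub_self]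
  have h4 : ∀ k ≤ T + 1 + b, ∀ ζ : E, ζ ^ l ^ k = 1 → τ ζ = ζ ^ u := by
    intro k hk ζ hζ
    rw [hu]
    refine chi_spec hn0 τ ?_
    obtain ⟨j, hj⟩ := Nat.exists_eq_add_of_le hk
    rw [hn, hj, pow_add, pow_mul, hζ, one_pow]
  have h5 : (l : ℤ) ∣ (u : ℤ) - 1 := by
    have h6 := zt_prim (E := E) hl.ne_zero
    have h7 := h4 1 (by omega) _ (by rw [pow_one]; exact h6.pow_eq_one)
    rw [hτ.mem_Fm hl _ h6.pow_eq_one] at h7
    have h8 := HH_modEq hl.ne_zero h6 ((pow_one _).trans h7)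
    simpa using h8.dvd
  have h6 := lte hl h2 h5 hb' h3
  intro ζ hζ
  have hζ' : ζ ^ l ^ T = 1 := hζ
  rw [h4 T (by omega) ζ hζ']
  have h7 : 1 ≡ u [MOD l ^ T] := by
    rw [Nat.modEq_iff_dvd]
    push_cast
    exact (pow_dvd_pow _ (Nat.le_succ T)).trans h6
  rw [← HH_pow_eq hζ' h7, pow_one]

theorem HH_rigid (hl : l.Prime) (h2 : l ≠ 2) (hq : 2 ≤ q) (hlq : q ≡ 1 [MOD l]) (hτ : ProL l τ)
    (hσ : σ ∈ Fm E l) (h : σ * τ * σ⁻¹ = τ ^ q) {x : E} (h0 : x ≠ 0) (hx' : σ x = x) (hx : τ x = x)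
    (hk : kc l x τ ≠ 0) : kc l (1 - x) τ = 0 ∨ kc l (1 - x) τ = kc l x τ := by
  have hm := mem_Fm_of_rel hl h2 hq hτ h
  have hm1 : τ ∈ Fm E l := hτ.mem_Fm hl
  obtain ⟨e, c, hc, he⟩ := Nat.exists_eq_pow_mul_and_not_dvd (n := q - 1) (by omega) l hl.ne_one
  obtain ⟨y, η, hy, hη, h1⟩ := exists_tower hl hm h0 hx hk (e + 1)
  have hn : l ^ (e + 1) ≠ 0 := pow_ne_zero _ hl.ne_zero
  have hy0 : y ≠ 0 := by
    rintro rfl
    exact h0 (by rw [← hy, zero_pow hn])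
  have h3 : τ η = η := hm _ _ hη.pow_eq_one
  have h4 : σ η = η ^ q := by
    refine HH_eig h hy0 h1 h3 (hm (e + 1) _ ?_)
    show (σ y / y) ^ l ^ (e + 1) = 1
    rw [div_pow, ← map_pow, hy, hx', div_self h0]
  have h5 : (η ^ l) ^ l ^ e = 1 := by rw [← pow_mul, ← pow_succ', hη.pow_eq_one]
  have h6 : η ^ l ≠ 0 := pow_ne_zero _ (hη.ne_zero hn)
  have h7 : σ (η ^ l) = η ^ l := by
    have h8 : q ≡ 1 [MOD l ^ e] :=
      ((Nat.modEq_iff_dvd' (by omega)).2 ⟨c, he⟩).symm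
    rw [map_pow, h4, ← pow_mul, mul_comm, pow_mul, HH_pow_eq h5 h8, pow_one]
  have h8 : τ (η ^ l) = η ^ l := by rw [map_pow, h3]
  have h9 : kc l (η ^ l) σ ≠ 0 := by
    rw [Ne, kc_eq_zero_iff hl.ne_zero h6 h7 hσ rfl, h4]
    intro h10
    have h11 := (Nat.modEq_iff_dvd' (by omega)).1
      (HH_modEq hn hη (h10.trans (pow_one η).symm)).symm
    rw [he, pow_succ] at h11
    exact hc (Nat.dvd_of_mul_dvd_mul_left (pow_pos hl.pos e) h11)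
  have h10 : kc l (η ^ l) τ = 0 := (kc_eq_zero_iff hl.ne_zero h6 h8 hm1 rfl).2 h3
  have hs : ∀ z : (Fx (Subgroup.zpowers σ) ⊓ Fx (Subgroup.zpowers τ) : Subfield E),
      σ (z : E) = z ∧ τ (z : E) = z := fun z => ⟨HH_mem_Fx.1 z.2.1, HH_mem_Fx.1 z.2.2⟩
  exact rigid_of_pair (K := (Fx (Subgroup.zpowers σ) ⊓ Fx (Subgroup.zpowers τ) : Subfield E)) hl
    (fun z => kc l (z : E) τ) (fun z => kc l (z : E) σ)
    (fun a b ha hb => kc_mul_left hl.ne_zero (fun h => ha (Subtype.ext h))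
      (fun h => hb (Subtype.ext h)) (hs a).2 (hs b).2 hm1)
    (fun a b ha hb => kc_mul_left hl.ne_zero (fun h => ha (Subtype.ext h))
      (fun h => hb (Subtype.ext h)) (hs a).1 (hs b).1 hσ)
    (fun a ha ha' => heis hl h2 hlq hσ hm1 h (fun h => ha (Subtype.ext h))
      (fun h => ha' (Subtype.ext h)) (hs a).1 (hs a).2)
    (η := ⟨η ^ l, HH_mem_Fx.2 h7, HH_mem_Fx.2 h8⟩) (e := e) (Subtype.ext (by simpa using h5))
    h10 h9 (x := ⟨x, HH_mem_Fx.2 hx', HH_mem_Fx.2 hx⟩) (fun h => h0 (congrArg Subtype.val h)) hk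

/-- See the blueprint, section HH. -/
theorem rigid_of_rel (hl : l.Prime) (h2 : l ≠ 2) (hq : 2 ≤ q) (hlq : ¬ l ∣ q) (hτ : ProL l τ)
    (h : σ * τ * σ⁻¹ = τ ^ q) {x : E} (h0 : x ≠ 0) (hx : τ x = x) (hk : kc l x τ ≠ 0) :
    kc l (1 - x) τ = 0 ∨ kc l (1 - x) τ = kc l x τ := by
  have := Fact.mk hl
  obtain ⟨N, hN, hfix⟩ := exists_pow_fix x
  have h1 : σ ^ (l - 1) ∈ Fm E l := by
    rw [mem_Fm_iff hl.ne_zero, map_pow, ZMod.units_pow_card_sub_one_eq_one]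
  have h3 : (l - 1) * N ≠ 0 := Nat.mul_ne_zero (by have := hl.two_le; omega) hN.ne'
  have h4 : q ^ ((l - 1) * N) ≡ 1 [MOD l] := by
    have h5 := Nat.ModEq.pow_totient ((Nat.Prime.coprime_iff_not_dvd hl).2 hlq).symm
    rw [Nat.totient_prime hl] at h5
    have h6 := h5.pow N
    rwa [one_pow, ← pow_mul] at h6
  refine HH_rigid hl h2 (hq.trans (Nat.le_self_pow h3 q)) h4 hτ (σ := σ ^ ((l - 1) * N)) ?_
    (HH_conj_pow h _) h0 ?_ hx hk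
  · rw [pow_mul]; exact pow_mem h1 N
  · rw [pow_mul]; exact hfix _

/-- `dd` for `τ ^ q` gives `σ • A = A`; compare the eigenvalues of `τ` on `y` and `σ⁻¹ y` -/
theorem acts_of_rel (hl : l.Prime) (hlq : ¬ l ∣ q) (hτ : ProL l τ) (h1 : τ ≠ 1)
    (h : σ * τ * σ⁻¹ = τ ^ q) {A : Pr E} (hA : τ ∈ A.I) (hp : A.p ≠ l) :
    σ ∈ A.D ∧ ∀ T, Acts (l ^ T) σ q := by
  have h2 : σ • A = A := by
    have h3 := Pr.conj_mem_I hA σ
    rw [h] at h3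
    exact dd hl (hτ.pow q) (hτ.pow_ne_one hl hlq h1) h3 (A.I_le_D (pow_mem hA q)) hp hp
  have hd : ∀ T, ¬ A.p ∣ l ^ T := fun T hd =>
    hp ((Nat.prime_dvd_prime_iff_eq A.prime hl).1 (A.prime.dvd_of_dvd_pow hd))
  have hm : ∀ T, τ ∈ Fm E (l ^ T) := fun T => Pr.mem_Fm_of_I hA (hd T)
  refine ⟨h2, fun T => ?_⟩
  obtain ⟨x, h0, hx, hk⟩ := exists_kc_ne hl hτ h1
  obtain ⟨y, η, hy, hη, h3⟩ := exists_tower hl hm h0 hx hk T
  have hn : l ^ T ≠ 0 := pow_ne_zero _ hl.ne_zero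
  have hy0 : y ≠ 0 := by
    rintro rfl
    exact h0 (by rw [← hy, zero_pow hn])
  have h4 : σ y ≠ 0 := (map_ne_zero σ).2 hy0
  have h5 : τ (σ x) = σ x := by
    refine hτ.fix_of_pow hl hlq ?_
    rw [← h, AlgEquiv.mul_apply, AlgEquiv.mul_apply, show σ⁻¹ (σ x) = x from σ.symm_apply_apply x,
      hx]
  rw [acts_iff_prim hn hη]
  refine HH_eig h hy0 h3 (hm _ _ hη.pow_eq_one)
    (Pr.fix_root_of_I hA (hd T) (div_ne_zero h4 hy0) ?_ ?_)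
  · rw [A.w_div h4 hy0, Pr.w_of_smul h2, sub_self]
  · rw [div_pow, ← map_pow, hy, map_div₀, h5, hx]

/-- `aej` on `Fx (zpowers τ)`, `Pr.exists_of_vs`, `Pr.exists_ext`, `mem_I_of_units`,
`p_ne_of_units` -/
theorem hit_main (hl : l.Prime) (h2 : l ≠ 2) (hq : 2 ≤ q) (hlq : ¬ l ∣ q) (hτ : ProL l τ)
    (h1 : τ ≠ 1) (h : σ * τ * σ⁻¹ = τ ^ q) : ∃ A : Pr E, A.p ≠ l ∧ τ ∈ A.I := by
  have hm := mem_Fm_of_rel hl h2 hq hτ h
  have hm1 : τ ∈ Fm E l := hτ.mem_Fm hl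
  obtain ⟨x, h0, hx, hk⟩ := exists_kc_ne hl hτ h1
  obtain ⟨O, hO, hu⟩ := aej (K := Fx (Subgroup.zpowers τ)) hl h2 (fun z => kc l (z : E) τ)
    (fun a b ha hb => kc_mul_left hl.ne_zero (fun h => ha (Subtype.ext h))
      (fun h => hb (Subtype.ext h)) (HH_mem_Fx.1 a.2) (HH_mem_Fx.1 b.2) hm1)
    ⟨⟨x, HH_mem_Fx.2 hx⟩, fun h => h0 (congrArg Subtype.val h), hk⟩
    (fun a ha hk' => rigid_of_rel hl h2 hq hlq hτ h (fun h => ha (Subtype.ext h))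
      (HH_mem_Fx.1 a.2) hk')
  have : Algebra.IsAlgebraic ℚ (Fx (Subgroup.zpowers τ)) :=
    Algebra.IsAlgebraic.of_injective (Fx (Subgroup.zpowers τ)).subtype.toRatAlgHom
      (Fx (Subgroup.zpowers τ)).subtype.injective
  obtain ⟨B, hB⟩ := Pr.exists_of_vs O hO
  obtain ⟨A, rfl⟩ := Pr.exists_ext (Fx (Subgroup.zpowers τ)).subtype B
  have key : ∀ z, z ≠ 0 → τ z = z → A.w z = 0 → kc l z τ = 0 := by
    intro z hz hz' hw
    refine hu ⟨z, HH_mem_Fx.2 hz'⟩ (fun h => hz (congrArg Subtype.val h)) ((hB _).1 ?_)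
      ((hB _).1 ?_)
    · exact hw.ge
    · show 0 ≤ A.w z⁻¹
      rw [A.w_inv, hw, neg_zero]
  exact ⟨A, p_ne_of_units hl hτ h1 hm A key, mem_I_of_units hl hτ h1 hm A key⟩

end Uc
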