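import Vale.Agent.P024.Defs

/-! The Herbrand quotient of a lattice. -/

noncomputable section
namespace Uc
open Polynomial
open scoped Classical

theorem Herb_ri_map {M : Type} [AddCommGroup M] (f : Module.End ℤ M) {S U : Submodule ℤ M}
    (h1 : S ≤ U) (h2 : U ⊓ LinearMap.ker f ≤ S) : ri (S.map f) (U.map f) = ri S U := by
  have e1 : ri (S.map f) (U.map f) = ri ((S.map f).comap f) U :=
    (AddSubgroup.relIndex_comap (S.map f).toAddSubgroup f.toAddMonoidHom U.toAddSubgroup).symm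
  have e2 : ri ((S.map f).comap f ⊓ U) U = ri ((S.map f).comap f) U :=
    AddSubgroup.inf_relIndex_right ((S.map f).comap f).toAddSubgroup U.toAddSubgroup
  have e3 : (S.map f).comap f ⊓ U = S := by
    rw [Submodule.comap_map_eq, sup_inf_assoc_of_le _ h1, inf_comm, sup_eq_left.2 h2]
  rw [e1, ← e2, e3]

theorem Herb_ri_mul {M : Type} [AddCommGroup M] {A B C : Submodule ℤ M} (h1 : A ≤ B)
    (h2 : B ≤ C) : ri B C * ri A B = ri A C := by
  rw [mul_comm]
  exact AddSubgroup.relIndex_mul_relIndex A.toAddSubgroup B.toAddSubgroup C.toAddSubgroup h1 h2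

/-- Let `i` be the index of `U^γ ⊔ U_N` in `U` (finite: it contains `n U`). `N` maps `U / U_N`
isomorphically onto `N U` and `U^γ` onto `n U^γ`, so `h0 * i = n ^ a`. `γ - 1` maps `U / U^γ` onto
`(γ - 1) U`, so `h1 * i` is the index of `(γ - 1) U_N` in `U_N`. -/
theorem herb {M : Type} [AddCommGroup M] (γ : Module.End ℤ M) {n : ℕ} (hn : 0 < n)
    (hγ : γ ^ n = 1) (U : Submodule ℤ M) (hU : ∀ x ∈ U, γ x ∈ U) [Module.Free ℤ U]
    [Module.Finite ℤ U] : ∃ i : ℕ, i ≠ 0 ∧
      h0 γ n U * i = n ^ Module.finrank ℤ ↥(U ⊓ LinearMap.ker (γ - 1)) ∧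
      h1 γ n U * i = ri ((U ⊓ LinearMap.ker (Ns γ n)).map (γ - 1)) (U ⊓ LinearMap.ker (Ns γ n)) := by
  set U₀ := U ⊓ LinearMap.ker (γ - 1) with hU₀
  set U₁ := U ⊓ LinearMap.ker (Ns γ n) with hU₁
  have hp : ∀ j : ℕ, ∀ x ∈ U, (γ ^ j) x ∈ U := fun j x hx => by
    induction j with
    | zero => simpa using hx
    | succ j ih => rw [pow_succ', Module.End.mul_apply]; exact hU _ ih
  have hN : ∀ x ∈ U, Ns γ n x ∈ U := fun x hx => by
    rw [Ns, LinearMap.sum_apply]
    exact U.sum_mem fun j _ => hp j x hx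
  have z1 : (γ - 1) * Ns γ n = 0 := by rw [Ns, mul_geom_sum, hγ, sub_self]
  have z2 : Ns γ n * (γ - 1) = 0 := by rw [Ns, geom_sum_mul, hγ, sub_self]
  have hfix : ∀ x ∈ U₀, Ns γ n x = n • x := fun x hx => by
    have h1 : γ x = x := sub_eq_zero.1 (by simpa using hx.2)
    have h2 : ∀ j : ℕ, (γ ^ j) x = x := fun j => by
      induction j with
      | zero => simp
      | succ j ih => rw [pow_succ', Module.End.mul_apply, ih, h1]
    rw [Ns, LinearMap.sum_apply]
    simp [h2]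
  have hS : U₀ ⊔ U₁ ≤ U := sup_le inf_le_left inf_le_left
  have m1 : (U₀ ⊔ U₁).map (Ns γ n) = U₀.map (Ns γ n) := by
    rw [Submodule.map_sup, sup_eq_left]
    rintro _ ⟨x, hx, rfl⟩
    rw [LinearMap.mem_ker.1 hx.2]
    exact zero_mem _
  have m2 : (U₀ ⊔ U₁).map (γ - 1) = U₁.map (γ - 1) := by
    rw [Submodule.map_sup, sup_eq_right]
    rintro _ ⟨x, hx, rfl⟩
    rw [LinearMap.mem_ker.1 hx.2]
    exact zero_mem _
  have i1 := Herb_ri_map (Ns γ n) hS le_sup_right
  have i2 := Herb_ri_map (γ - 1) hS le_sup_left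
  rw [m1] at i1
  rw [m2] at i2
  have l1 : U.map (Ns γ n) ≤ U₀ := by
    rintro _ ⟨x, hx, rfl⟩
    exact ⟨hN x hx, by
      rw [SetLike.mem_coe, LinearMap.mem_ker, ← Module.End.mul_apply, z1, LinearMap.zero_apply]⟩
  have l2 : U.map (γ - 1) ≤ U₁ := by
    rintro _ ⟨x, hx, rfl⟩
    exact ⟨U.sub_mem (hU x hx) hx, by
      rw [SetLike.mem_coe, LinearMap.mem_ker, ← Module.End.mul_apply, z2, LinearMap.zero_apply]⟩
  have hinj : Function.Injective (Submodule.inclusion (inf_le_left : U₀ ≤ U)) :=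
    Submodule.inclusion_injective _
  have fin0 : Module.Finite ℤ U₀ := Module.Finite.of_injective _ hinj
  have tf0 : Module.IsTorsionFree ℤ U₀ := hinj.moduleIsTorsionFree _ (by simp)
  have e0 : ri (U₀.map (Ns γ n)) U₀ = n ^ Module.finrank ℤ U₀ := by
    have e1 : (U₀.map (Ns γ n)).toAddSubgroup
        = U₀.toAddSubgroup.map (nsmulAddMonoidHom (α := M) n) := by
      ext y
      constructor
      · rintro ⟨x, hx, rfl⟩
        exact ⟨x, hx, (hfix x hx).symm⟩
      · rintro ⟨x, hx, rfl⟩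
        exact ⟨x, hx, hfix x hx⟩
    have : Module.Finite ℤ U₀.toAddSubgroup.toIntSubmodule := fin0
    have : Module.Free ℤ U₀.toAddSubgroup.toIntSubmodule := (inferInstance : Module.Free ℤ U₀)
    rw [ri, e1]
    exact AddSubgroup.relIndex_map_nsmul n U₀.toAddSubgroup
  have k0 : h0 γ n U * ri (U₀ ⊔ U₁) U = n ^ Module.finrank ℤ U₀ := by
    rw [← i1, ← e0]
    exact Herb_ri_mul (Submodule.map_mono inf_le_left) l1
  refine ⟨ri (U₀ ⊔ U₁) U, fun h => ?_, k0, ?_⟩
  · rw [h, mul_zero] at k0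
    exact pow_ne_zero _ hn.ne' k0.symm
  · rw [← i2]
    exact Herb_ri_mul (Submodule.map_mono inf_le_left) l2

theorem Herb_pow {X : Type} (π : Equiv.Perm X) {n : ℕ}
    (hf : ∀ (x : X) (j : ℕ), (π ^ j) x = x → n ∣ j) {ω : ℂ} (hω : ω ^ n = 1) (r : X) {a b : ℕ}
    (h : (π ^ a) r = (π ^ b) r) : ω ^ a = ω ^ b := by
  wlog hab : a ≤ b generalizing a b
  · exact (this h.symm (le_of_not_ge hab)).symm
  obtain ⟨c, rfl⟩ := Nat.exists_eq_add_of_le' hab
  rw [pow_add, Equiv.Perm.mul_apply] at h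
  obtain ⟨d, rfl⟩ := hf _ _ h.symm
  rw [pow_add, pow_mul, hω, one_pow, one_mul]

/-- For a free action there is a nowhere vanishing eigenfunction, and multiplication by it embeds
the invariant functions into the eigenspace. -/
theorem eig_free {X : Type} [Fintype X] (π : Equiv.Perm X) {n : ℕ} (hn : 0 < n) (h1 : π ^ n = 1)
    (hf : ∀ (x : X) (j : ℕ), (π ^ j) x = x → n ∣ j) {ω : ℂ} (hω : ω ^ n = 1) :
    Module.finrank ℂ ↥(Module.End.eigenspace (LinearMap.funLeft ℂ ℂ π) 1) ≤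
      Module.finrank ℂ ↥(Module.End.eigenspace (LinearMap.funLeft ℂ ℂ π) ω) := by
  have hω0 : ω ≠ 0 := fun h => by
    rw [h, zero_pow hn.ne'] at hω
    exact zero_ne_one hω
  let r : X → X := fun x => (Quotient.mk (Equiv.Perm.SameCycle.setoid π) x).out
  have hr : ∀ x, ∃ j : ℕ, (π ^ j) (r x) = x := fun x => by
    have : π.SameCycle (r x) x := Quotient.mk_out (s := Equiv.Perm.SameCycle.setoid π) x
    obtain ⟨j, -, hj⟩ := this.exists_pow_eq'
    exact ⟨j, hj⟩
  have hr' : ∀ x, r (π x) = r x := fun x => by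
    have : Quotient.mk (Equiv.Perm.SameCycle.setoid π) (π x) = Quotient.mk _ x :=
      Quotient.sound (Equiv.Perm.sameCycle_apply_left.2 (Equiv.Perm.SameCycle.refl π x))
    simp only [r, this]
  choose j hj using hr
  have hφ : ∀ x, ω ^ j (π x) = ω * ω ^ j x := fun x => by
    rw [← pow_succ']
    refine Herb_pow π hf hω (r x) ?_
    rw [pow_succ', Equiv.Perm.mul_apply, hj, ← hr', hj]
  let L : (X → ℂ) →ₗ[ℂ] (X → ℂ) := LinearMap.mulLeft ℂ fun x => ω ^ j x
  have hL : ∀ v ∈ Module.End.eigenspace (LinearMap.funLeft ℂ ℂ π) 1,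
      L v ∈ Module.End.eigenspace (LinearMap.funLeft ℂ ℂ π) ω := fun v hv => by
    rw [Module.End.mem_eigenspace_iff] at hv ⊢
    funext x
    have := congrFun hv x
    simp only [LinearMap.funLeft_apply, one_smul] at this
    simp [L, LinearMap.funLeft_apply, hφ, this, mul_assoc]
  refine LinearMap.finrank_le_finrank_of_injective (f := L.restrict hL) ?_
  intro v w h
  apply Subtype.ext
  funext x
  have := congrFun (congrArg Subtype.val h) x
  simpa [L, LinearMap.restrict_apply, hω0] using this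

end Uc
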