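import Vale.Agent.P024.Hit
import Vale.Agent.P024.VD

/-! If the cyclotomic characters agree up to finite order, boundedly many primes are not hit. -/

noncomputable section
namespace Uc
open scoped Classical
variable {E₁ E₂ : Type} [Field E₁] [CharZero E₁] [Nice E₁] [Field E₂] [CharZero E₂] [Nice E₂]
  {V : Subgroup (Aut E₁)} {α : Aut E₁ → Aut E₂} {l : ℕ}

/-- the quotient of the two cyclotomic characters -/
def K2a_th (h : Setup V α) (n : ℕ) : V →* (ZMod n)ˣ :=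
  (chi E₂ n).comp h.hom / (chi E₁ n).comp V.subtype

theorem K2a_th_apply (h : Setup V α) (n : ℕ) (v : V) :
    K2a_th h n v = chi E₂ n (α v) / chi E₁ n v := rfl

theorem K2a_lift (hl : l.Prime) (h2 : l ≠ 2) {e T : ℕ} (he : 0 < e) (u : (ZMod (l ^ (T + 1 + e)))ˣ)
    (hu : u ^ e = 1) (d1 : l ∣ l ^ (T + 1 + e)) (d2 : l ^ T ∣ l ^ (T + 1 + e))
    (h1 : ZMod.unitsMap d1 u = 1) : ZMod.unitsMap d2 u = 1 := by
  have : NeZero (l ^ (T + 1 + e)) := ⟨pow_ne_zero _ hl.ne_zero⟩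
  obtain ⟨a, ha⟩ := ZMod.intCast_surjective (u : ZMod (l ^ (T + 1 + e)))
  have k1 : (l : ℤ) ∣ a - 1 := by
    rw [Units.ext_iff, ZMod.unitsMap_val, ← ha, ZMod.cast_intCast d1] at h1
    rw [← ZMod.intCast_zmod_eq_zero_iff_dvd]
    push_cast
    rw [h1, Units.val_one, sub_self]
  have k2 : (l : ℤ) ^ (T + 1 + e) ∣ a ^ e - 1 := by
    rw [← Nat.cast_pow, ← ZMod.intCast_zmod_eq_zero_iff_dvd]
    push_cast
    rw [ha, ← Units.val_pow_eq_pow_val, hu, Units.val_one, sub_self]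
  have k3 : ¬ l ^ (e + 1) ∣ e := fun hd =>
    absurd (Nat.le_of_dvd he hd) (not_le.2 ((Nat.lt_succ_self e).trans
      (Nat.lt_pow_self hl.one_lt)))
  have k4 : (l : ℤ) ^ T ∣ a - 1 := (pow_dvd_pow _ (Nat.le_succ T)).trans (lte hl h2 k1 k3 k2)
  rw [← Nat.cast_pow, ← ZMod.intCast_zmod_eq_zero_iff_dvd] at k4
  push_cast at k4
  rw [Units.ext_iff, ZMod.unitsMap_val, ← ha, ZMod.cast_intCast d2, Units.val_one]
  exact sub_eq_zero.1 k4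

/-- `V' = {v ∈ V | chi l (α v) = chi l v}`; on it the characters agree at all levels by `lte`,
`chi_cast`; `V / V'` embeds in the cyclic group `(ZMod l)ˣ`. -/
theorem k2a (h : Setup V α) (hl : l.Prime) (h2 : l ≠ 2) {e : ℕ} (he : 0 < e)
    (hθ : ∀ T : ℕ, ∀ v ∈ V, chi E₂ (l ^ T) (α v) ^ e = chi E₁ (l ^ T) v ^ e) :
    ∃ (V' : Subgroup (Aut E₁)) (δ : Aut E₁), IsOpen (V' : Set (Aut E₁)) ∧ V' ≤ V ∧ δ ∈ V ∧
      (∀ v ∈ V, ∀ x ∈ V', v * x * v⁻¹ ∈ V') ∧ (∀ v ∈ V, ∃ k : ℕ, (δ ^ k)⁻¹ * v ∈ V') ∧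
      ∀ T : ℕ, ∀ v ∈ V', chi E₂ (l ^ T) (α v) = chi E₁ (l ^ T) v := by
  have hl0 := hl.ne_zero
  have : Fact l.Prime := ⟨hl⟩
  have hm : ∀ v : Aut E₁, v ∈ (K2a_th h l).ker.map V.subtype ↔
      ∃ hv : v ∈ V, K2a_th h l ⟨v, hv⟩ = 1 := fun v =>
    ⟨by rintro ⟨x, hx, rfl⟩; exact ⟨x.2, hx⟩, by rintro ⟨hv, hx⟩; exact ⟨⟨v, hv⟩, hx, rfl⟩⟩
  obtain ⟨⟨g, δ, rfl⟩, hg⟩ := IsCyclic.exists_monoid_generator (α := (K2a_th h l).range)
  refine ⟨(K2a_th h l).ker.map V.subtype, δ, ?_, Subgroup.map_subtype_le _, δ.2, ?_, ?_, ?_⟩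
  · refine Subgroup.isOpen_mono ?_ (isOpen_inf (h.isOpen_pre (isOpen_Fm hl0)) (isOpen_Fm hl0))
    rintro v ⟨hv, hv'⟩
    obtain ⟨h1, h3⟩ := h.mem_pre.1 hv
    refine (hm v).2 ⟨h1, ?_⟩
    rw [K2a_th_apply, (mem_Fm_iff hl0).1 h3, (mem_Fm_iff hl0).1 hv', div_one]
  · rintro v hv _ ⟨x, hx, rfl⟩
    have k1 := (K2a_th h l).normal_ker.conj_mem x hx ⟨v, hv⟩
    exact Subgroup.mem_map_of_mem V.subtype k1
  · intro v hv
    obtain ⟨k, hk⟩ := hg ⟨_, ⟨v, hv⟩, rfl⟩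
    have hk' : K2a_th h l δ ^ k = K2a_th h l ⟨v, hv⟩ := congrArg Subtype.val hk
    have k1 : (δ ^ k)⁻¹ * ⟨v, hv⟩ ∈ (K2a_th h l).ker := by
      rw [MonoidHom.mem_ker, map_mul, map_inv, map_pow, hk', inv_mul_cancel]
    exact ⟨k, Subgroup.mem_map_of_mem V.subtype k1⟩
  · intro T v hv
    obtain ⟨hv, h1⟩ := (hm v).1 hv
    have n0 : l ^ (T + 1 + e) ≠ 0 := pow_ne_zero _ hl0
    have d1 : l ∣ l ^ (T + 1 + e) := dvd_pow_self _ (by omega)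
    have d2 : l ^ T ∣ l ^ (T + 1 + e) := pow_dvd_pow _ (by omega)
    have := K2a_lift hl h2 he (chi E₂ _ (α v) / chi E₁ _ v)
      (by rw [div_pow, hθ _ v hv, div_self']) d1 d2
      (by rw [map_div, chi_cast n0, chi_cast n0]; exact h1)
    rwa [map_div, chi_cast n0, chi_cast n0, div_eq_one] at this

/-- powers of the chosen root of unity -/
def K2a_Z (E : Type) [Field E] (n : ℕ) (a : ZMod n) : E := zt E n ^ a.val

section Z
variable {E : Type} [Field E] [CharZero E] [Nice E] {n : ℕ}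

theorem K2a_Z_add (hn : n ≠ 0) (a b : ZMod n) :
    K2a_Z E n (a + b) = K2a_Z E n a * K2a_Z E n b := zt_pow_add hn a b

theorem K2a_Z_zero : K2a_Z E n 0 = 1 := by simp [K2a_Z]

theorem K2a_Z_pow (hn : n ≠ 0) (a : ZMod n) : K2a_Z E n a ^ n = 1 := by
  rw [K2a_Z, ← pow_mul, mul_comm, pow_mul, (zt_prim hn).pow_eq_one, one_pow]

theorem K2a_Z_ne (hn : n ≠ 0) (a : ZMod n) : K2a_Z E n a ≠ 0 := fun h => by
  have := K2a_Z_pow (E := E) hn a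
  rw [h, zero_pow hn] at this
  exact zero_ne_one this

theorem K2a_Z_nat (hn : n ≠ 0) (a : ZMod n) (c : ℕ) :
    K2a_Z E n (c * a) = K2a_Z E n a ^ c := by
  induction c with
  | zero => simp [K2a_Z_zero]
  | succ c ih => rw [Nat.cast_succ, add_mul, one_mul, K2a_Z_add hn, ih, pow_succ]

theorem K2a_Z_map (hn : n ≠ 0) (g : Aut E) (a : ZMod n) :
    g (K2a_Z E n a) = K2a_Z E n (((chi E n g : (ZMod n)ˣ) : ZMod n) * a) := by
  rw [chi_spec hn g (K2a_Z_pow hn a), mul_comm]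
  exact (zt_pow_mul hn _ _).symm

theorem K2a_kc_zero (hn : n ≠ 0) {x : E} (hx : x ≠ 0) {g : Aut E} (hg : g (rt n x) = rt n x) :
    kc n x g = 0 := by
  have h1 : g x = x := by
    conv_lhs => rw [← rt_pow hn x, map_pow, hg, rt_pow hn]
  have h2 := kc_spec hn hx h1
  rw [hg] at h2
  refine zt_pow_inj (E := E) hn ?_
  rw [ZMod.val_zero, pow_zero]
  exact (mul_eq_right₀ (rt_ne_zero hn hx)).1 h2.symm

end Z

/-- The Kummer class of `b` pulled back. See the blueprint, section K2. -/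
theorem k2b (h : Setup V α) (hl : l.Prime) (h2 : l ≠ 2) {V' : Subgroup (Aut E₁)} {δ : Aut E₁}
    (h1 : IsOpen (V' : Set (Aut E₁))) (h3 : V' ≤ V) (h4 : δ ∈ V)
    (h5 : ∀ v ∈ V, ∀ x ∈ V', v * x * v⁻¹ ∈ V') {T : ℕ}
    (h6 : ∀ v ∈ V', chi E₂ (l ^ T) (α v) = chi E₁ (l ^ T) v) {c : ℕ}
    (hc : (c : ZMod (l ^ T)) * (chi E₂ (l ^ T) (α δ) : (ZMod (l ^ T))ˣ) =
      (chi E₁ (l ^ T) δ : (ZMod (l ^ T))ˣ)) {b : ℕ} (hb : b ≠ 0)
    (hu : ∀ (A : Pr E₁) (B : Pr E₂), B.p ∣ b → ¬ Hit V α l A B) :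
    ∃ z : E₁, z ≠ 0 ∧ (∀ v ∈ V', v z = zt E₁ (l ^ T) ^ (kc (l ^ T) (b : E₂) (α v)).val * z) ∧
      z ^ l ^ T ∈ Fx V' ∧ (∃ y ∈ Fx V', δ (z ^ l ^ T) = (z ^ l ^ T) ^ c * y ^ l ^ T) ∧
      ∀ A : Pr E₁, A.p ≠ l → ∃ y ∈ Fx V', y ≠ 0 ∧ A.w z = A.w y := by
  have hn : l ^ T ≠ 0 := pow_ne_zero _ hl.ne_zero
  have hb' : (b : E₂) ≠ 0 := Nat.cast_ne_zero.2 hb
  have hk : ∀ g g' : Aut E₂, kc (l ^ T) (b : E₂) (g * g') = kc (l ^ T) (b : E₂) g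
      + ((chi E₂ (l ^ T) g : (ZMod (l ^ T))ˣ) : ZMod (l ^ T)) * kc (l ^ T) (b : E₂) g' :=
    fun g g' => kc_cocycle hn hb' (map_natCast g b) (map_natCast g' b)
  obtain ⟨z, hz, hv⟩ := hilbert90 (W := V') (W' := V' ⊓ h.pre (stab {rt (l ^ T) (b : E₂)}))
    (isOpen_inf h1 (h.isOpen_pre (isOpen_stab (Set.finite_singleton _)))) inf_le_left
    (fun v => K2a_Z E₁ (l ^ T) (kc (l ^ T) (b : E₂) (α v))) (fun g _ => K2a_Z_ne hn _)
    (fun g hg g' hg' => by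
      rw [h.mul g (h3 hg) g' (h3 hg'), hk, K2a_Z_add hn, K2a_Z_map hn, h6 g hg])
    (fun g hg => by
      rw [K2a_kc_zero hn hb' ((h.mem_pre.1 hg.2).2 _ rfl), K2a_Z_zero])
  refine ⟨z, hz, hv, fun v hv' => ?_, ?_, fun A hA => ?_⟩
  · rw [map_pow, hv v hv', mul_pow, K2a_Z_pow hn, one_mul]
  · set κ := kc (l ^ T) (b : E₂) (α δ) with hκ
    have hZ := K2a_Z_ne (E := E₁) hn κ
    refine ⟨δ z / (z * K2a_Z E₁ (l ^ T) κ) ^ c, fun v hv' => ?_, ?_⟩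
    · have m1 : δ⁻¹ * v * δ ∈ V' := by simpa using h5 δ⁻¹ (inv_mem h4) v hv'
      have e1 : v (δ z) = δ ((δ⁻¹ * v * δ) z) := by
        rw [← AlgEquiv.mul_apply, ← AlgEquiv.mul_apply]
        congr 1
        group
      have e2 : α δ * α (δ⁻¹ * v * δ) = α v * α δ := by
        rw [← h.mul _ h4 _ (h3 m1), ← h.mul _ (h3 hv') _ h4]
        congr 1
        group
      have e3 := congrArg (kc (l ^ T) (b : E₂)) e2
      rw [hk, hk, ← hκ, h6 v hv'] at e3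
      have e4 : ((chi E₁ (l ^ T) δ : (ZMod (l ^ T))ˣ) : ZMod (l ^ T))
          * kc (l ^ T) (b : E₂) (α (δ⁻¹ * v * δ)) + c * κ = c * (kc (l ^ T) (b : E₂) (α v)
          + ((chi E₁ (l ^ T) v : (ZMod (l ^ T))ˣ) : ZMod (l ^ T)) * κ) := by
        rw [← hc, ← e3]; ring
      have e5 := congrArg (K2a_Z E₁ (l ^ T)) e4
      rw [K2a_Z_add hn, K2a_Z_nat hn, K2a_Z_nat hn, K2a_Z_add hn] at e5
      rw [map_div₀, map_pow, map_mul, e1, hv _ m1, hv v hv', map_mul, K2a_Z_map hn, K2a_Z_map hn,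
        div_eq_div_iff (pow_ne_zero _ (mul_ne_zero (mul_ne_zero (K2a_Z_ne hn _) hz)
          (K2a_Z_ne hn _))) (pow_ne_zero _ (mul_ne_zero hz hZ))]
      simp only [mul_pow] at e5 ⊢
      linear_combination δ z * z ^ c * e5
    · rw [map_pow, div_pow, ← pow_mul _ c, mul_comm c, pow_mul, mul_pow, K2a_Z_pow hn, mul_one]
      field_simp
  · obtain ⟨y, hy, hy0, hw⟩ := vd h1 A hz fun g hg hI => by
      have p1 : ¬ A.p ∣ l ^ T := fun hd =>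
        hA ((Nat.prime_dvd_prime_iff_eq A.prime hl).1 (A.prime.dvd_of_dvd_pow hd))
      have p2 : α g ∈ Fm E₂ (l ^ T) := by
        rw [mem_Fm_iff hn, h6 g hg, ← mem_Fm_iff hn]
        exact Pr.mem_Fm_of_I hI p1
      have p3 : α g (rt (l ^ T) (b : E₂)) = rt (l ^ T) (b : E₂) := by
        by_contra hne
        obtain ⟨B, hB, hh⟩ := hit_of_move h hl h2 hA (h3 hg) hI p2 hb (rt_pow hn _) hne
        exact hu A B hB hh
      rw [hv g hg, K2a_kc_zero hn hb' p3, K2a_Z_zero, one_mul]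
    exact ⟨y, hy, hy0, hw.symm⟩

end Uc
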