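import Vale.Agent.P024.Top0

/-! Roots of unity, Kummer cocycles, Hilbert 90, pro-`l` elements. -/

set_option linter.unusedSectionVars false

noncomputable section
namespace Uc
open scoped Classical
variable {E : Type} [Field E] [CharZero E] [Nice E] {n : ℕ}

theorem Kum_val {M : Type} [Monoid M] {ζ : M} (h : ζ ^ n = 1) (c : ℕ) :
    ζ ^ (c : ZMod n).val = ζ ^ c := by
  rw [ZMod.val_natCast, ← pow_eq_pow_mod c h]
theorem Kum_add {M : Type} [Monoid M] (hn : n ≠ 0) {ζ : M} (h : ζ ^ n = 1) (a b : ZMod n) :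
    ζ ^ (a + b).val = ζ ^ a.val * ζ ^ b.val := by
  have : NeZero n := ⟨hn⟩
  rw [ZMod.val_add, ← pow_eq_pow_mod _ h, pow_add]
theorem Kum_inj {M : Type} [CommMonoid M] (hn : n ≠ 0) {ζ : M} (h : IsPrimitiveRoot ζ n)
    {a b : ZMod n} (e : ζ ^ a.val = ζ ^ b.val) : a = b :=
  have : NeZero n := ⟨hn⟩
  ZMod.val_injective n (h.pow_inj (ZMod.val_lt a) (ZMod.val_lt b) e)

theorem zt_prim (hn : n ≠ 0) : IsPrimitiveRoot (zt E n) n := by
  have h := Nice.prim (E := E) n hn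
  rw [zt, dif_pos h]
  exact h.choose_spec
theorem rt_pow (hn : n ≠ 0) (x : E) : rt n x ^ n = x := by
  have h := Nice.root n x hn
  rw [rt, dif_pos h]
  exact h.choose_spec
theorem rt_ne_zero (hn : n ≠ 0) {x : E} (hx : x ≠ 0) : rt n x ≠ 0 := fun h =>
  hx (by rw [← rt_pow hn x, h, zero_pow hn])
theorem exists_zt_pow (hn : n ≠ 0) {ζ : E} (h : ζ ^ n = 1) :
    ∃ k : ZMod n, ζ = zt E n ^ k.val := by
  have : NeZero n := ⟨hn⟩
  obtain ⟨i, -, rfl⟩ := (zt_prim hn).eq_pow_of_pow_eq_one h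
  exact ⟨i, (Kum_val (zt_prim hn).pow_eq_one i).symm⟩
theorem zt_pow_inj (hn : n ≠ 0) {a b : ZMod n} (h : zt E n ^ a.val = zt E n ^ b.val) : a = b :=
  Kum_inj hn (zt_prim hn) h
theorem zt_pow_add (hn : n ≠ 0) (a b : ZMod n) :
    zt E n ^ (a + b).val = zt E n ^ a.val * zt E n ^ b.val :=
  Kum_add hn (zt_prim hn).pow_eq_one a b
theorem zt_pow_mul (hn : n ≠ 0) (a b : ZMod n) :
    zt E n ^ (a * b).val = (zt E n ^ a.val) ^ b.val := by
  rw [ZMod.val_mul, ← pow_eq_pow_mod _ (zt_prim hn).pow_eq_one, pow_mul]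
theorem Kum_root (hn : n ≠ 0) (k : ℕ) : (zt E n ^ k) ^ n = 1 := by
  rw [← pow_mul, mul_comm, pow_mul, (zt_prim hn).pow_eq_one, one_pow]
theorem isOpen_Fm (hn : n ≠ 0) : IsOpen (Fm E n : Set (Aut E)) := by
  have : NeZero n := ⟨hn⟩
  refine isOpen_stab ((Set.finite_range fun k : ZMod n => zt E n ^ k.val).subset fun ζ h => ?_)
  obtain ⟨k, hk⟩ := exists_zt_pow hn h
  exact ⟨k, hk.symm⟩
theorem normal_Fm (n : ℕ) : (Fm E n).Normal := by
  refine ⟨fun g hg t => mem_Fm.2 fun ζ h => ?_⟩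
  rw [AlgEquiv.mul_apply, AlgEquiv.mul_apply,
    mem_Fm.1 hg (t⁻¹ ζ) (by rw [← map_pow, h, map_one])]
  exact t.apply_symm_apply ζ
theorem Fm_anti {m : ℕ} (h : m ∣ n) : Fm E n ≤ Fm E m := by
  obtain ⟨k, rfl⟩ := h
  exact fun g hg => mem_Fm.2 fun ζ h => mem_Fm.1 hg ζ (by rw [pow_mul, h, one_pow])
theorem Kum_acts (hn : n ≠ 0) {ζ : E} (hζ : IsPrimitiveRoot ζ n) {g : Aut E} {c : ℕ}
    (h : g ζ = ζ ^ c) : Acts n g c := by
  have : NeZero n := ⟨hn⟩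
  intro ξ hξ
  obtain ⟨i, -, rfl⟩ := hζ.eq_pow_of_pow_eq_one hξ
  rw [map_pow, h, ← pow_mul, ← pow_mul, mul_comm]
theorem chi_spec (hn : n ≠ 0) (g : Aut E) {ζ : E} (h : ζ ^ n = 1) :
    g ζ = ζ ^ ((chi E n g : (ZMod n)ˣ) : ZMod n).val := by
  have : NeZero n := ⟨hn⟩
  refine Kum_acts hn (zt_prim hn) ?_ ζ h
  rw [chi, dif_pos ⟨hn, zt_prim hn⟩]
  exact ((zt_prim hn).autToPow_spec ℚ g).symm
theorem acts_iff (hn : n ≠ 0) {g : Aut E} {c : ℕ} :
    Acts n g c ↔ ((chi E n g : (ZMod n)ˣ) : ZMod n) = c := by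
  have h1 := (zt_prim (E := E) hn).pow_eq_one
  constructor
  · intro h
    refine zt_pow_inj (E := E) hn ?_
    rw [← chi_spec hn g h1, h _ h1, Kum_val h1]
  · intro h ζ hζ
    rw [chi_spec hn g hζ, h, Kum_val hζ]
theorem acts_iff_prim (hn : n ≠ 0) {ζ : E} (hζ : IsPrimitiveRoot ζ n) {g : Aut E} {c : ℕ} :
    Acts n g c ↔ g ζ = ζ ^ c :=
  ⟨fun h => h ζ hζ.pow_eq_one, Kum_acts hn hζ⟩
theorem Kum_one {g : Aut E} : g ∈ Fm E n ↔ Acts n g 1 := by
  simp only [mem_Fm, Acts, pow_one]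
theorem mem_Fm_iff (hn : n ≠ 0) {g : Aut E} : g ∈ Fm E n ↔ chi E n g = 1 := by
  rw [Kum_one, acts_iff hn, Nat.cast_one, Units.val_eq_one]
theorem chi_cast (hn : n ≠ 0) {m : ℕ} (h : m ∣ n) (g : Aut E) :
    ZMod.unitsMap h (chi E n g) = chi E m g := by
  have : NeZero n := ⟨hn⟩
  have hm : m ≠ 0 := ne_zero_of_dvd_ne_zero hn h
  have h1 : Acts m g ((chi E n g : (ZMod n)ˣ) : ZMod n).val := fun ζ hζ =>
    chi_spec hn g (by obtain ⟨k, rfl⟩ := h; rw [pow_mul, hζ, one_pow])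
  refine Units.ext ?_
  rw [(acts_iff hm).1 h1, ZMod.unitsMap_def, Units.coe_map, MonoidHom.coe_coe, ZMod.castHom_apply,
    ZMod.cast_eq_val]
theorem commutator_mem_Fm (hn : n ≠ 0) (g h : Aut E) : g * h * g⁻¹ * h⁻¹ ∈ Fm E n := by
  rw [mem_Fm_iff hn, map_mul, map_mul, map_mul, map_inv, map_inv, mul_inv_cancel_comm,
    mul_inv_cancel]
theorem pow_mem_Fm {r : ℕ} (hr : r.Prime) {g : Aut E} (hg : g ∈ Fm E r) (T : ℕ) :
    g ^ r ^ T ∈ Fm E (r ^ T) := by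
  have hn : r ^ T ≠ 0 := pow_ne_zero _ hr.ne_zero
  have : NeZero (r ^ T) := ⟨hn⟩
  rcases T.eq_zero_or_pos with rfl | hT
  · exact mem_Fm.2 fun ζ h => by
      rw [pow_zero, pow_one] at h
      rw [h, map_one]
  have h1 : Acts r g ((chi E (r ^ T) g : (ZMod (r ^ T))ˣ) : ZMod (r ^ T)).val := fun ζ hζ =>
    chi_spec hn g (by
      obtain ⟨k, hk⟩ := dvd_pow_self r hT.ne'
      rw [hk, pow_mul, hζ, one_pow])
  have h2 := ((acts_iff hr.ne_zero).1 h1).symm.trans ((acts_iff hr.ne_zero).1 (Kum_one.1 hg))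
  rw [ZMod.natCast_eq_natCast_iff', Nat.mod_eq_of_lt hr.one_lt] at h2
  rw [mem_Fm_iff hn, map_pow, ← Units.val_eq_one, Units.val_pow_eq_pow_val,
    ← ZMod.natCast_zmod_val ((chi E (r ^ T) g : (ZMod (r ^ T))ˣ) : ZMod (r ^ T))]
  generalize ((chi E (r ^ T) g : (ZMod (r ^ T))ˣ) : ZMod (r ^ T)).val = c at h2
  rw [← Nat.mod_add_div c r, h2, ← Nat.cast_pow, ← Nat.cast_one (R := ZMod (r ^ T)),
    ZMod.natCast_eq_natCast_iff]
  exact pow_pow_modEq_one r T _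

theorem Kum_kc (hn : n ≠ 0) {x : E} (hx : x ≠ 0) {g : Aut E} {k : ZMod n}
    (h : g (rt n x) = zt E n ^ k.val * rt n x) : kc n x g = k := by
  have h1 : ∃ k : ZMod n, g (rt n x) = zt E n ^ k.val * rt n x := ⟨k, h⟩
  rw [kc, dif_pos h1]
  exact zt_pow_inj hn (mul_right_cancel₀ (rt_ne_zero hn hx) (h1.choose_spec.symm.trans h))
theorem kc_spec (hn : n ≠ 0) {x : E} (hx : x ≠ 0) {g : Aut E} (hg : g x = x) :
    g (rt n x) = zt E n ^ (kc n x g).val * rt n x := by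
  obtain ⟨k, hk⟩ := exists_zt_pow hn (ζ := g (rt n x) / rt n x)
    (by rw [div_pow, ← map_pow, rt_pow hn, hg, div_self hx])
  rw [div_eq_iff (rt_ne_zero hn hx)] at hk
  rwa [Kum_kc hn hx hk]
theorem kc_root (hn : n ≠ 0) {x : E} (hx : x ≠ 0) {g : Aut E} (hg : g x = x) (hm : g ∈ Fm E n)
    {ρ : E} (hρ : ρ ^ n = x) : g ρ = zt E n ^ (kc n x g).val * ρ := by
  have h1 := mem_Fm.1 hm (ρ / rt n x) (by rw [div_pow, rt_pow hn, hρ, div_self hx])
  have h2 : ρ = ρ / rt n x * rt n x := (div_mul_cancel₀ ρ (rt_ne_zero hn hx)).symm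
  rw [h2, map_mul, h1, kc_spec hn hx hg, mul_left_comm]
theorem kc_eq (hn : n ≠ 0) {x : E} (hx : x ≠ 0) {g : Aut E} (hm : g ∈ Fm E n)
    {ρ : E} (hρ : ρ ^ n = x) {k : ZMod n} (h : g ρ = zt E n ^ k.val * ρ) : kc n x g = k := by
  have hg : g x = x := by rw [← hρ, map_pow, h, mul_pow, Kum_root hn, one_mul]
  have h0 : ρ ≠ 0 := fun h0 => hx (by rw [← hρ, h0, zero_pow hn])
  exact zt_pow_inj hn (mul_right_cancel₀ h0 ((kc_root hn hx hg hm hρ).symm.trans h))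
theorem kc_eq_zero_iff (hn : n ≠ 0) {x : E} (hx : x ≠ 0) {g : Aut E} (hg : g x = x)
    (hm : g ∈ Fm E n) {ρ : E} (hρ : ρ ^ n = x) : kc n x g = 0 ↔ g ρ = ρ := by
  constructor
  · intro h
    rw [kc_root hn hx hg hm hρ, h, ZMod.val_zero, pow_zero, one_mul]
  · intro h
    exact kc_eq hn hx hm hρ (by rw [ZMod.val_zero, pow_zero, one_mul, h])
theorem Kum_chi (hn : n ≠ 0) (g : Aut E) (a : ZMod n) : g (zt E n ^ a.val) =
    zt E n ^ (((chi E n g : (ZMod n)ˣ) : ZMod n) * a).val := by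
  rw [mul_comm, zt_pow_mul hn, chi_spec hn g (Kum_root hn _)]
theorem kc_cocycle (hn : n ≠ 0) {x : E} (hx : x ≠ 0) {g h : Aut E} (hg : g x = x) (hh : h x = x) :
    kc n x (g * h) = kc n x g + ((chi E n g : (ZMod n)ˣ) : ZMod n) * kc n x h := by
  refine Kum_kc hn hx ?_
  rw [AlgEquiv.mul_apply, kc_spec hn hx hh, map_mul, kc_spec hn hx hg, Kum_chi hn, zt_pow_add hn]
  ring
theorem kc_mul_right (hn : n ≠ 0) {x : E} (hx : x ≠ 0) {g h : Aut E} (hg : g x = x) (hh : h x = x)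
    (hm : g ∈ Fm E n) : kc n x (g * h) = kc n x g + kc n x h := by
  rw [kc_cocycle hn hx hg hh, (mem_Fm_iff hn).1 hm, Units.val_one, one_mul]
theorem kc_pow_right (hn : n ≠ 0) {x : E} (hx : x ≠ 0) {g : Aut E} (hg : g x = x)
    (hm : g ∈ Fm E n) (k : ℕ) : kc n x (g ^ k) = k * kc n x g := by
  induction k with
  | zero => exact Kum_kc hn hx (by simp)
  | succ k ih =>
    have h1 : (g ^ k) x = x := (MulAction.stabilizer (Aut E) x).pow_mem hg k
    rw [pow_succ', kc_mul_right hn hx hg h1 hm, ih]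
    push_cast
    ring
theorem kc_mul_left (hn : n ≠ 0) {x y : E} (hx : x ≠ 0) (hy : y ≠ 0) {g : Aut E} (hgx : g x = x)
    (hgy : g y = y) (hm : g ∈ Fm E n) : kc n (x * y) g = kc n x g + kc n y g := by
  refine kc_eq hn (mul_ne_zero hx hy) hm (ρ := rt n x * rt n y)
    (by rw [mul_pow, rt_pow hn, rt_pow hn]) ?_
  rw [map_mul, kc_spec hn hx hgx, kc_spec hn hy hgy, zt_pow_add hn]
  ring
theorem kc_pow_self (hn : n ≠ 0) {y : E} (hy : y ≠ 0) {g : Aut E} (hg : g y = y)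
    (hm : g ∈ Fm E n) : kc n (y ^ n) g = 0 :=
  kc_eq hn (pow_ne_zero n hy) hm rfl (by rw [ZMod.val_zero, pow_zero, one_mul, hg])
theorem Kum_kc_one (hn : n ≠ 0) {g : Aut E} (hm : g ∈ Fm E n) : kc n (1 : E) g = 0 := by
  simpa using kc_pow_self hn one_ne_zero (map_one g) hm
theorem Kum_kc_pow (hn : n ≠ 0) {x : E} (hx : x ≠ 0) {g : Aut E} (hg : g x = x)
    (hm : g ∈ Fm E n) (k : ℕ) : kc n (x ^ k) g = k * kc n x g := by
  induction k with
  | zero => rw [pow_zero, Kum_kc_one hn hm, Nat.cast_zero, zero_mul]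
  | succ k ih =>
    rw [pow_succ, kc_mul_left hn (pow_ne_zero k hx) hx (by rw [map_pow, hg]) hg hm, ih]
    push_cast
    ring
theorem kc_prod_pow (hn : n ≠ 0) {ι : Type} (s : Finset ι) (a : ι → E) (e : ι → ℕ)
    (ha : ∀ i ∈ s, a i ≠ 0) {g : Aut E} (hg : ∀ i ∈ s, g (a i) = a i) (hm : g ∈ Fm E n) :
    kc n (∏ i ∈ s, a i ^ e i) g = ∑ i ∈ s, e i * kc n (a i) g := by
  induction s using Finset.induction_on with
  | empty => rw [Finset.prod_empty, Finset.sum_empty, Kum_kc_one hn hm]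
  | insert j s hj ih =>
    have ha' : ∀ i ∈ s, a i ≠ 0 := fun i hi => ha i (Finset.mem_insert_of_mem hi)
    have hg' : ∀ i ∈ s, g (a i) = a i := fun i hi => hg i (Finset.mem_insert_of_mem hi)
    have h1 := ha j (Finset.mem_insert_self j s)
    have h2 := hg j (Finset.mem_insert_self j s)
    rw [Finset.prod_insert hj, Finset.sum_insert hj, kc_mul_left hn (pow_ne_zero _ h1)
      (Finset.prod_ne_zero_iff.2 fun i hi => pow_ne_zero _ (ha' i hi)) (by rw [map_pow, h2])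
      (by rw [map_prod]; exact Finset.prod_congr rfl fun i hi => by rw [map_pow, hg' i hi]) hm,
      ih ha' hg', Kum_kc_pow hn h1 h2 hm]
theorem kc_conj (hn : n ≠ 0) {x : E} (hx : x ≠ 0) {g : Aut E} (hg : g x = x) (hm : g ∈ Fm E n)
    (t : Aut E) :
    kc n (t x) (t * g * t⁻¹) = ((chi E n t : (ZMod n)ˣ) : ZMod n) * kc n x g := by
  refine kc_eq hn ((map_ne_zero t).2 hx) ((normal_Fm n).conj_mem g hm t) (ρ := t (rt n x))
    (by rw [← map_pow, rt_pow hn]) ?_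
  have h1 : t⁻¹ (t (rt n x)) = rt n x := t.symm_apply_apply _
  rw [AlgEquiv.mul_apply, AlgEquiv.mul_apply, h1, kc_spec hn hx hg, map_mul, Kum_chi hn]
/-- an injective character of a cyclic group -/
theorem exists_emb (hn : n ≠ 0) : ∃ e : ZMod n → ℂˣ, Function.Injective e ∧ e 0 = 1 ∧
    ∀ a b, e (a + b) = e a * e b := by
  have h := (Complex.isPrimitiveRoot_exp n hn).isUnit_unit hn
  exact ⟨fun a => _ ^ a.val, fun _ _ e => Kum_inj hn h e, by simp, Kum_add hn h.pow_eq_one⟩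

end Uc
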