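import Vale.Agent.P024.QW
import Vale.Agent.P024.VD
import Vale.Agent.P024.Setup

/-! The independent case. -/

noncomputable section
namespace Uc
open scoped Classical
variable {Ω E : Type} [Field Ω] [CharZero Ω] [Nice Ω] [IsAlgClosed Ω] [Field E] [CharZero E]
  [Nice E] {V : Subgroup (Aut Ω)} {α : Aut Ω → Aut E}

theorem MB_ne (h : Setup V α) {t : Aut Ω}
    (hB : ¬ ∀ x ∈ V.normalCore, α x = 1 ↔ α (t⁻¹ * x * t) = 1) :
    ∃ x ∈ V.normalCore, α (t⁻¹ * x * t) = 1 ∧ α x ≠ 1 := by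
  have hn := Subgroup.normalCore_normal V
  have hle := Subgroup.normalCore_le V
  by_contra hc
  push Not at hc
  refine hB fun x hx => ⟨fun h1 => ?_, hc x hx⟩
  obtain ⟨n, hn0, hn1⟩ := exists_pow_mem h.opn
  have key : ∀ k : ℕ, ∀ y ∈ V.normalCore, α ((t ^ k)⁻¹ * y * t ^ k) = 1 → α y = 1 := by
    intro k
    induction k with
    | zero => intro y _ hy; simpa using hy
    | succ k ih =>
      intro y hy h2
      refine ih y hy (hc _ (by simpa using hn.conj_mem _ hy (t ^ k)⁻¹) ?_)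
      rw [← h2, pow_succ, mul_inv_rev]
      simp only [mul_assoc]
  obtain ⟨n, rfl⟩ : ∃ k, n = k + 1 := ⟨n - 1, by omega⟩
  refine key n _ (by simpa using hn.conj_mem _ hx t⁻¹) ?_
  have h2 := h.map_conj (hle hx) (inv_mem (hn1 t))
  rw [h1, mul_one, mul_inv_cancel] at h2
  rw [← h2]
  congr 1
  rw [pow_succ']
  group

theorem MB_comm (h : Setup V α) {a b : Aut Ω} (ha : a ∈ V) (hb : b ∈ V) :
    α (a * b * a⁻¹ * b⁻¹) = α a * α b * (α a)⁻¹ * (α b)⁻¹ := by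
  rw [h.mul _ (mul_mem (mul_mem ha hb) (inv_mem ha)) _ (inv_mem hb), h.map_conj hb ha,
    h.map_inv hb]

theorem MB_conj (h : Setup V α) {a b : Aut Ω} (ha : a ∈ V.normalCore) (hb : b ∈ V.normalCore)
    (t : Aut Ω) (h1 : α (t⁻¹ * a * t) = 1 ∨ α (t⁻¹ * b * t) = 1) :
    α (t⁻¹ * (a * b * a⁻¹ * b⁻¹) * t) = 1 := by
  have hn := Subgroup.normalCore_normal V
  have hle := Subgroup.normalCore_le V
  have := MB_comm h (hle (hn.conj_mem _ ha t⁻¹)) (hle (hn.conj_mem _ hb t⁻¹))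
  rw [inv_inv] at this
  rw [show t⁻¹ * (a * b * a⁻¹ * b⁻¹) * t =
    t⁻¹ * a * t * (t⁻¹ * b * t) * (t⁻¹ * a * t)⁻¹ * (t⁻¹ * b * t)⁻¹ by group, this]
  rcases h1 with h1 | h1 <;> simp [h1]

theorem MB_step (h : Setup V α) {a b : Aut Ω} (ha : a ∈ V.normalCore) (hb : b ∈ V.normalCore)
    (h1 : α a ≠ 1) (h2 : α b ≠ 1) : ∃ x ∈ V.normalCore, α x ≠ 1 ∧
      (∀ n : ℕ, n ≠ 0 → α x ∈ Fm E n) ∧
      ∀ t : Aut Ω, α (t⁻¹ * a * t) = 1 ∨ α (t⁻¹ * b * t) = 1 → α (t⁻¹ * x * t) = 1 := by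
  have hle := Subgroup.normalCore_le V
  obtain ⟨u, hu, h3⟩ := pr (h.isOpen_img (isOpen_normalCore h.opn)) h1 h2
  obtain ⟨y, hy, -, rfl⟩ := h.mem_img.1 hu
  have h4 : a * y * a⁻¹ * y⁻¹ ∈ V.normalCore :=
    mul_mem (mul_mem (mul_mem ha hy) (inv_mem ha)) (inv_mem hy)
  refine ⟨(a * y * a⁻¹ * y⁻¹) * b * (a * y * a⁻¹ * y⁻¹)⁻¹ * b⁻¹,
    mul_mem (mul_mem (mul_mem h4 hb) (inv_mem h4)) (inv_mem hb), fun hc => h3 ?_, fun n hn => ?_,
    fun t ht => MB_conj h h4 hb t (ht.imp_left fun ht => MB_conj h ha hy t (Or.inl ht))⟩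
  · rw [MB_comm h (hle h4) (hle hb), MB_comm h (hle ha) (hle hy)] at hc
    exact commutatorElement_eq_one_iff_commute.1 hc
  · rw [MB_comm h (hle h4) (hle hb)]
    exact commutator_mem_Fm hn _ _

/-- See the blueprint, section CB. -/
theorem mb (h : Setup V α)
    (hB : ∀ t, t ∉ V → ¬ ∀ x ∈ V.normalCore, α x = 1 ↔ α (t⁻¹ * x * t) = 1) :
    ∃ m ∈ Mt V α, α m ≠ 1 ∧ ∀ n : ℕ, n ≠ 0 → α m ∈ Fm E n := by
  have hn := Subgroup.normalCore_normal V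
  have hle := Subgroup.normalCore_le V
  have key : ∀ T : Finset (Aut Ω), ∃ x ∈ V.normalCore, α x ≠ 1 ∧
      ∀ t ∈ T, t ∉ V → α (t⁻¹ * x * t) = 1 := by
    intro T
    induction T using Finset.induction_on with
    | empty =>
      obtain ⟨u, hu, h1⟩ := exists_ne_one (h.isOpen_img (isOpen_normalCore h.opn))
      obtain ⟨x, hx, -, rfl⟩ := h.mem_img.1 hu
      exact ⟨x, hx, h1, by simp⟩
    | insert t T _ ih =>
      obtain ⟨x, hx, h1, h2⟩ := ih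
      by_cases ht : t ∈ V
      · refine ⟨x, hx, h1, fun t' ht' h3 => ?_⟩
        rcases Finset.mem_insert.1 ht' with rfl | ht'
        · exact absurd ht h3
        · exact h2 t' ht' h3
      obtain ⟨y, hy, h3, h4⟩ := MB_ne h (hB t ht)
      obtain ⟨z, hz, h5, -, h6⟩ := MB_step h hx hy h1 h4
      refine ⟨z, hz, h5, fun t' ht' h7 => h6 t' ?_⟩
      rcases Finset.mem_insert.1 ht' with rfl | ht'
      · exact Or.inr h3
      · exact Or.inl (h2 t' ht' h7)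
  obtain ⟨T, -, hT, -⟩ := exists_transversal (W := ⊤) h.opn
  obtain ⟨x, hx, h1, h2⟩ := key T
  obtain ⟨z, hz, h3, h4, h5⟩ := MB_step h hx hx h1 h1
  refine ⟨z, ⟨hz, fun t ht => h5 t (Or.inl ?_)⟩, h3, h4⟩
  obtain ⟨t₀, h6, h7⟩ := hT t (Subgroup.mem_top t)
  have h8 : t₀ ∉ V := fun hc => ht (by simpa using mul_mem hc h7)
  have h9 := h.map_conj (hle (hn.conj_mem _ hx t₀⁻¹)) (inv_mem h7)
  rw [inv_inv t₀, h2 t₀ h6 h8, mul_one, mul_inv_cancel] at h9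
  rw [← h9]
  congr 1
  group

/-- Take primes `r₁ ≠ r₂` larger than `V.index + 2`, `W` open normal inside `Fm (r₁ r₂)` without
`α m`, `n` from `exists_period`, `s` a prime factor, `m ^ (n / s)`. -/
theorem exists_be (h : Setup V α) {m : Aut Ω} (hm : m ∈ Mt V α) (h1 : α m ≠ 1)
    (h2 : ∀ n : ℕ, n ≠ 0 → α m ∈ Fm E n) : ∃ (W : Subgroup (Aut E)) (r s : ℕ) (m' : Aut Ω),
      m' ∈ Mt V α ∧ V.index < r ∧ BE W r s (α m') := by
  have hn := Subgroup.normalCore_normal V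
  have hle := Subgroup.normalCore_le V
  obtain ⟨r₁, h3, hr₁⟩ := Nat.exists_infinite_primes (V.index + 3)
  obtain ⟨r₂, h4, hr₂⟩ := Nat.exists_infinite_primes (r₁ + 1)
  obtain ⟨W₀, h5, h6, h7⟩ : ∃ W : Subgroup (Aut E), IsOpen (W : Set (Aut E)) ∧ W.Normal ∧
      α m ∉ W := by
    by_contra hc
    push Not at hc
    exact h1 (eq_one_of_forall hc)
  have h8 : r₁ * r₂ ≠ 0 := mul_ne_zero hr₁.ne_zero hr₂.ne_zero
  have hW := isOpen_inf h5 (isOpen_Fm (E := E) h8)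
  have := normal_Fm (E := E) (r₁ * r₂)
  obtain ⟨n, h9, -, h10⟩ := exists_period _ (index_ne_zero hW) (α m)
  have h11 : n ≠ 1 := by
    rintro rfl
    exact h7 (by simpa using ((h10 1).2 dvd_rfl).1)
  have hs := Nat.minFac_prime h11
  obtain ⟨k, hk⟩ := Nat.minFac_dvd n
  generalize n.minFac = s at hs hk
  have hk0 : 0 < k := Nat.pos_of_ne_zero (by rintro rfl; omega)
  obtain ⟨r, h12, h13, h14, h15⟩ : ∃ r : ℕ, r.Prime ∧ V.index + 3 ≤ r ∧ s ≠ r ∧ r ∣ r₁ * r₂ := by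
    by_cases hc : s = r₁
    · exact ⟨r₂, hr₂, by omega, by omega, Dvd.intro_left _ rfl⟩
    · exact ⟨r₁, hr₁, h3, hc, Dvd.intro _ rfl⟩
  have he : α (m ^ k) = α m ^ k := h.map_pow (hle hm.1) k
  refine ⟨W₀ ⊓ Fm E (r₁ * r₂), r, s, m ^ k, ⟨pow_mem hm.1 k, fun t ht => ?_⟩, by omega,
    ⟨hW, inferInstance, h12, by omega, hs, h14, inf_le_right.trans (Fm_anti h15),
      fun n hn => he ▸ pow_mem (h2 n hn) k, fun i => ?_⟩⟩
  · have h16 := h.map_pow (hle (hn.conj_mem _ hm.1 t⁻¹)) k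
    rw [conj_pow, inv_inv, hm.2 t ht, one_pow] at h16
    exact h16
  · rw [he, ← pow_mul, h10, hk, mul_comm k i]
    exact Nat.mul_dvd_mul_iff_right hk0

end Uc
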