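import Vale.Agent.P024.Setup

/-! From the hypotheses of the conjecture to the working setting. -/

noncomputable section
namespace Uc
open scoped Classical Topology

theorem RC_prim {E : Type} [Field E] [CharZero E] (h : SolvClosed E) {n : ℕ} (hn : n ≠ 0) :
    ∃ ζ : E, IsPrimitiveRoot ζ n := by
  have : NeZero n := ⟨hn⟩
  obtain ⟨ζ, hζ⟩ := HasEnoughRootsOfUnity.exists_primitiveRoot (AlgebraicClosure E) n
  have h1 := hζ.intermediateField_adjoin_isCyclotomicExtension E
  have h2 := h (IntermediateField.adjoin E {ζ}) (IsCyclotomicExtension.isAbelianGalois {n} E _)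
  have h3 := IntermediateField.mem_adjoin_simple_self E ζ
  rw [h2, IntermediateField.mem_bot] at h3
  obtain ⟨z, rfl⟩ := h3
  exact ⟨z, hζ.of_map_of_injective (algebraMap E (AlgebraicClosure E)).injective⟩

open Polynomial in
theorem RC_root {E : Type} [Field E] [CharZero E] (h : SolvClosed E) {n : ℕ} (a : E) (hn : n ≠ 0) :
    ∃ y : E, y ^ n = a := by
  have : NeZero n := ⟨hn⟩
  rcases eq_or_ne a 0 with rfl | ha
  · exact ⟨0, zero_pow hn⟩
  obtain ⟨ζ, hζ⟩ := RC_prim h hn
  have hp : (X ^ n - C a : E[X]) ≠ 0 := X_pow_sub_C_ne_zero (Nat.pos_of_ne_zero hn) a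
  have hr : ∀ β, β ∈ (X ^ n - C a : E[X]).rootSet (AlgebraicClosure E) ↔
      β ^ n = algebraMap E _ a := fun β => by
    rw [mem_rootSet_of_ne hp]
    simp [sub_eq_zero]
  obtain ⟨L, hL⟩ : ∃ L, L = IntermediateField.adjoin E
    ((X ^ n - C a : E[X]).rootSet (AlgebraicClosure E)) := ⟨_, rfl⟩
  have h1 : (X ^ n - C a : E[X]).IsSplittingField E L := by
    rw [hL]
    exact IntermediateField.adjoin_rootSet_isSplittingField (IsAlgClosed.splits _)
  have h2 : Normal E L := Normal.of_isSplittingField (X ^ n - C a)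
  have h3 : IsGalois E L := {}
  have h4 : ∀ (σ : Gal(L/E)) (β : L), β ^ n = algebraMap E L a →
      ∃ c : E, σ β = algebraMap E L c * β := by
    intro σ β hβ
    have k0 : algebraMap E L a ≠ 0 := (_root_.map_ne_zero _).2 ha
    have k1 : β ≠ 0 := fun e => k0 (by rw [← hβ, e, zero_pow hn])
    have k2 : (σ β / β) ^ n = 1 := by
      rw [div_pow, ← map_pow, hβ, σ.commutes, div_self k0]
    obtain ⟨i, -, hi⟩ := (hζ.map_of_injective (algebraMap E L).injective).eq_pow_of_pow_eq_one k2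
    exact ⟨ζ ^ i, by rw [map_pow, hi, div_mul_cancel₀ _ k1]⟩
  have h5 : IsMulCommutative Gal(L/E) := by
    refine ⟨⟨fun σ τ => AlgEquiv.coe_toAlgHom_injective
      (IntermediateField.algHom_ext_of_eq_adjoin E hL fun β hβ => ?_)⟩⟩
    obtain ⟨b, hb⟩ : ∃ b : L, b = ⟨β, hL.ge (IntermediateField.subset_adjoin _ _ hβ)⟩ := ⟨_, rfl⟩
    have k1 : b ^ n = algebraMap E L a := Subtype.ext (by rw [hb]; exact (hr β).1 hβ)
    obtain ⟨c, hc⟩ := h4 σ b k1
    obtain ⟨d, hd⟩ := h4 τ b k1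
    rw [← hb]
    show σ (τ b) = τ (σ b)
    rw [hc, hd, map_mul, map_mul, σ.commutes, τ.commutes, hc, hd, mul_left_comm]
  have h6 := h L {}
  obtain ⟨β, hβ⟩ := IsAlgClosed.exists_pow_nat_eq (algebraMap E (AlgebraicClosure E) a)
    (Nat.pos_of_ne_zero hn)
  have h7 : β ∈ L := hL.ge (IntermediateField.subset_adjoin _ _ ((hr β).2 hβ))
  rw [h6, IntermediateField.mem_bot] at h7
  obtain ⟨y, rfl⟩ := h7
  exact ⟨y, (algebraMap E (AlgebraicClosure E)).injective (by rw [map_pow, hβ])⟩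

/-- adjoin a primitive root of unity in the algebraic closure (an abelian extension), then an
`n`-th root (a cyclic extension) -/
theorem nice_of (F E : Type) [Field F] [NumberField F] [Field E] [CharZero E] [Algebra F E]
    [IsGalois F E] (h : SolvClosed E) : Nice E := by
  refine ⟨Algebra.IsAlgebraic.trans ℚ F E, ?_, fun n a hn => RC_root h a hn,
    fun n hn => RC_prim h hn⟩
  let e := AlgEquiv.ofInjectiveField (IsScalarTower.toAlgHom ℚ F E)
  refine ⟨(IsScalarTower.toAlgHom ℚ F E).fieldRange, e.toLinearEquiv.finiteDimensional, ?_⟩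
  let _ : Algebra F (IsScalarTower.toAlgHom ℚ F E).fieldRange := e.toRingHom.toAlgebra
  have : IsScalarTower F (IsScalarTower.toAlgHom ℚ F E).fieldRange E :=
    IsScalarTower.of_algebraMap_eq fun _ => rfl
  exact IsGalois.tower_top_of_isGalois F _ E

theorem nice_closure : Nice (AlgebraicClosure ℚ) :=
  have : IsAlgClosure ℚ (AlgebraicClosure ℚ) := AlgebraicClosure.instIsAlgClosure ℚ
  nice_of ℚ _ fun L _ => IntermediateField.eq_bot_of_isAlgClosed_of_isAlgebraic L

theorem RC_nhds (K E : Type) [Field K] [Field E] [Algebra K E] [Algebra.IsAlgebraic K E]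
    (U : Set Gal(E/K)) :
    U ∈ 𝓝 1 ↔ ∃ s : Finset E, ∀ g : Gal(E/K), (∀ z ∈ s, g z = z) → g ∈ U := by
  rw [krullTopology_mem_nhds_one_iff]
  constructor
  · rintro ⟨L, h1, h2⟩
    refine ⟨Finset.univ.image fun i => (Module.finBasis K L i : E), fun g hg => h2 ?_⟩
    have h3 : (g : E →ₐ[K] E).toLinearMap ∘ₗ L.val.toLinearMap = L.val.toLinearMap :=
      (Module.finBasis K L).ext fun i => hg _ (Finset.mem_image_of_mem _ (Finset.mem_univ i))
    exact (IntermediateField.mem_fixingSubgroup_iff _ _).2 fun x hx => LinearMap.congr_fun h3 ⟨x, hx⟩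
  · rintro ⟨s, hs⟩
    exact ⟨IntermediateField.adjoin K (s : Set E), IntermediateField.finiteDimensional_adjoin
      fun x _ => Algebra.IsIntegral.isIntegral x, fun g hg => hs g fun z hz =>
        (IntermediateField.mem_fixingSubgroup_iff _ _).1 hg z
          (IntermediateField.subset_adjoin _ _ hz)⟩

theorem RC_fin (F E : Type) [Field F] [NumberField F] [Field E] [CharZero E] [Algebra F E] :
    ∃ s : Finset E, stab (s : Set E) ≤ stab (Set.range (algebraMap F E)) := by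
  refine ⟨Finset.univ.image fun i => algebraMap F E (Module.finBasis ℚ F i), fun g hg => ?_⟩
  have h3 : (g : E →ₐ[ℚ] E).toLinearMap ∘ₗ (IsScalarTower.toAlgHom ℚ F E).toLinearMap =
      (IsScalarTower.toAlgHom ℚ F E).toLinearMap :=
    (Module.finBasis ℚ F).ext fun i => hg _ (Finset.mem_image_of_mem _ (Finset.mem_univ i))
  rintro _ ⟨x, rfl⟩
  exact LinearMap.congr_fun h3 x

/-- automorphisms fixing the image of `F` -/
def RC_up (F E : Type) [Field F] [Field E] [CharZero E] [Algebra F E] :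
    stab (Set.range (algebraMap F E)) →* Gal(E/F) where
  toFun g := { g.1.toRingEquiv with commutes' := fun x => g.2 _ ⟨x, rfl⟩ }
  map_one' := rfl
  map_mul' _ _ := rfl

/-- forget the base field -/
def RC_down (F E : Type) [Field F] [NumberField F] [Field E] [CharZero E] [Algebra F E] :
    Gal(E/F) →* Aut E where
  toFun g := g.restrictScalars ℚ
  map_one' := rfl
  map_mul' _ _ := rfl

theorem RC_up_cont (F E : Type) [Field F] [Field E] [CharZero E] [Nice E] [Algebra F E]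
    [IsGalois F E] : Continuous (RC_up F E) := by
  refine continuous_of_continuousAt_one _ fun U hU => ?_
  rw [map_one, RC_nhds] at hU
  obtain ⟨s, hs⟩ := hU
  exact Filter.mem_of_superset
    (((isOpen_stab s.finite_toSet).preimage continuous_subtype_val).mem_nhds (stab _).one_mem)
    fun g hg => hs _ hg

theorem RC_down_cont (F E : Type) [Field F] [NumberField F] [Field E] [CharZero E] [Nice E]
    [Algebra F E] [IsGalois F E] : Continuous (RC_down F E) := by
  refine continuous_of_continuousAt_one _ fun U hU => ?_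
  rw [map_one, RC_nhds] at hU
  obtain ⟨s, hs⟩ := hU
  exact (RC_nhds F E _).2 ⟨s, fun g hg => hs _ hg⟩

/-- `G` is the group of automorphisms that fix the image of `F₁`; compare the Krull topologies
with `krullTopology_mem_nhds_one_iff`, `isOpen_iff`, and use `Setup.of_range`. -/
theorem exists_setup (F₁ F₂ E₁ E₂ : Type) [Field F₁] [NumberField F₁] [Field F₂] [NumberField F₂]
    [Field E₁] [CharZero E₁] [Nice E₁] [Field E₂] [CharZero E₂] [Nice E₂] [Algebra F₁ E₁]
    [Algebra F₂ E₂] [IsGalois F₁ E₁] [IsGalois F₂ E₂] (α : Gal(E₁/F₁) →* Gal(E₂/F₂))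
    (hc : Continuous α) (ho : IsOpen (Set.range α)) :
    ∃ (G : Subgroup (Aut E₁)) (β : Aut E₁ → Aut E₂), Setup G β ∧
      ∀ g : Gal(E₁/F₁), ∃ g' ∈ G, (∀ x, g' x = g x) ∧ ∀ y, β g' y = α g y := by
  obtain ⟨β, hβ⟩ : ∃ β : Aut E₁ → Aut E₂, ∀ g : stab (Set.range (algebraMap F₁ E₁)),
      β g = RC_down F₂ E₂ (α (RC_up F₁ E₁ g)) :=
    ⟨fun g => if h : g ∈ stab (Set.range (algebraMap F₁ E₁)) then
      RC_down F₂ E₂ (α (RC_up F₁ E₁ ⟨g, h⟩)) else 1, fun g => dif_pos g.2⟩
  have h1 : ∀ g : Gal(E₁/F₁), ∃ g' ∈ stab (Set.range (algebraMap F₁ E₁)),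
      (∀ x, g' x = g x) ∧ β g' = RC_down F₂ E₂ (α g) := fun g => by
    have k : RC_down F₁ E₁ g ∈ stab (Set.range (algebraMap F₁ E₁)) := by
      rintro _ ⟨x, rfl⟩
      exact g.commutes x
    exact ⟨_, k, fun _ => rfl, hβ ⟨_, k⟩⟩
  obtain ⟨s, hs⟩ := (RC_nhds F₂ E₂ _).1 (ho.mem_nhds ⟨1, map_one α⟩)
  obtain ⟨s', hs'⟩ := RC_fin F₂ E₂
  refine ⟨stab (Set.range (algebraMap F₁ E₁)), β, Setup.of_range (isOpen_iff.2 (RC_fin F₁ E₁))
    (fun g hg h hh => ?_) ?_ (stab s ⊓ stab s')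
    (isOpen_inf (isOpen_stab s.finite_toSet) (isOpen_stab s'.finite_toSet)) fun w hw => ?_,
    fun g => ?_⟩
  · rw [hβ ⟨g, hg⟩, hβ ⟨h, hh⟩, ← map_mul, ← map_mul, ← map_mul]
    exact hβ (⟨g, hg⟩ * ⟨h, hh⟩)
  · rw [continuousOn_iff_continuous_domRestrict]
    exact ((RC_down_cont F₂ E₂).comp (hc.comp (RC_up_cont F₁ E₁))).congr fun g => (hβ g).symm
  · obtain ⟨g, hg⟩ := hs (RC_up F₂ E₂ ⟨w, hs' hw.2⟩) hw.1
    obtain ⟨g', k1, -, k2⟩ := h1 g
    exact ⟨g', k1, by rw [k2, hg]; rfl⟩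
  · obtain ⟨g', k1, k2, k3⟩ := h1 g
    exact ⟨g', k1, k2, fun y => by rw [k3]; rfl⟩

end Uc
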