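import Vale.Agent.P024.CB
import Vale.Agent.P024.ExtA
import Vale.Agent.P024.RC

/-! The main induction. -/

noncomputable section
namespace Uc
open scoped Classical

theorem main_closure {Ω E : Type} [Field Ω] [CharZero Ω] [Nice Ω] [IsAlgClosed Ω] [Field E]
    [CharZero E] [Nice E] (d : ℕ) : ∀ (V : Subgroup (Aut Ω)) (α : Aut Ω → Aut E), V.index = d →
      Setup V α → ∃ j : E →+* Ω, Ind V α j := by
  induction d using Nat.strong_induction_on with
  | _ d ih =>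
  intro V α hd h
  by_cases hA : ∃ t, t ∉ V ∧ ∀ x ∈ V.normalCore, α x = 1 ↔ α (t⁻¹ * x * t) = 1
  · obtain ⟨t, h1, ht⟩ := hA
    obtain ⟨V', α', hlt, h', he⟩ := ext_a h h1 ht
    have hi : V'.index < d := by
      rw [← hd]
      have h0 := index_ne_zero h.opn
      refine lt_of_le_of_ne (Nat.le_of_dvd (Nat.pos_of_ne_zero h0)
        (Subgroup.index_dvd_of_le hlt.le)) fun heq => ?_
      have h2 := Subgroup.relIndex_mul_index hlt.le
      rw [heq] at h2
      have h3 : V.relIndex V' = 1 := by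
        have := Nat.eq_of_mul_eq_mul_right (Nat.pos_of_ne_zero h0) (h2.trans (one_mul _).symm)
        exact this
      exact hlt.not_ge (Subgroup.relIndex_eq_one.1 h3)
    obtain ⟨j, hj⟩ := ih _ hi V' α' rfl h'
    exact ⟨j, fun g hg x => by rw [hj g (hlt.le hg), he g hg]⟩
  · exact case_b h fun t ht hx => hA ⟨t, ht, hx⟩

theorem main_nice {E₁ E₂ : Type} [Field E₁] [CharZero E₁] [Nice E₁] [Field E₂] [CharZero E₂]
    [Nice E₂] {G : Subgroup (Aut E₁)} {β : Aut E₁ → Aut E₂} (h : Setup G β) :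
    ∃ ε : E₂ →+* E₁, Ind G β ε := by
  haveI := nice_closure
  obtain ⟨j, V, ι, hι⟩ := exists_iod (AlgebraicClosure ℚ) E₁
  obtain ⟨j', hj⟩ := main_closure _ _ _ rfl (hι.setup.comp h)
  exact hι.desc h.map_one hj

theorem uchida (F₁ F₂ E₁ E₂ : Type) [Field F₁] [NumberField F₁] [Field F₂] [NumberField F₂]
    [Field E₁] [Field E₂] [Algebra F₁ E₁] [Algebra F₂ E₂] [IsGalois F₁ E₁] [IsGalois F₂ E₂]
    (h₁ : SolvClosed E₁) (h₂ : SolvClosed E₂) (α : Gal(E₁/F₁) →* Gal(E₂/F₂))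
    (hc : Continuous α) (ho : IsOpen (Set.range α)) :
    ∃ j : E₂ →+* E₁, ∀ (g : Gal(E₁/F₁)) (x : E₂), g (j x) = j (α g x) := by
  haveI : CharZero E₁ := charZero_of_injective_algebraMap (algebraMap F₁ E₁).injective
  haveI : CharZero E₂ := charZero_of_injective_algebraMap (algebraMap F₂ E₂).injective
  haveI := nice_of F₁ E₁ h₁
  haveI := nice_of F₂ E₂ h₂
  obtain ⟨G, β, h, hg⟩ := exists_setup F₁ F₂ E₁ E₂ α hc ho
  obtain ⟨ε, hε⟩ := main_nice h
  refine ⟨ε, fun g x => ?_⟩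
  obtain ⟨g', h1, h2, h3⟩ := hg g
  rw [← h2, hε g' h1, h3]

end Uc
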