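import Mathlib

/-! The valuation of a number field at a height one prime (copied from the NQ folder). -/

noncomputable section
namespace Uc
open NumberField IsDedekindDomain Polynomial
open scoped Classical

variable {F : Type} [Field F] [NumberField F]

/-- Finite places. -/
abbrev HS (F : Type) [Field F] [NumberField F] := HeightOneSpectrum (𝓞 F)
/-- The additive valuation (junk value `0` at `0`). -/
def ord (v : HS F) (x : F) : ℤ := -WithZero.log (v.valuation F x)
/-- The valuation is at least `n`. -/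
def OG (v : HS F) (n : ℤ) (x : F) : Prop := x = 0 ∨ n ≤ ord v x
/-- The size of the residue field. -/
def qv (v : HS F) : ℕ := Ideal.absNorm v.asIdeal

theorem Ord_val_ne (v : HS F) {x : F} (hx : x ≠ 0) : v.valuation F x ≠ 0 :=
  (Valuation.ne_zero_iff _).2 hx
theorem Ord_iff {v : HS F} {n : ℤ} {x : F} :
    OG v n x ↔ v.valuation F x ≤ WithZero.exp (-n) := by
  rcases eq_or_ne x 0 with rfl | hx
  · simp [OG]
  · rw [← WithZero.log_le_iff_le_exp (Ord_val_ne v hx)]
    simp only [OG, hx, false_or, ord]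
    constructor <;> intro h <;> linarith
theorem Ord_fin {a : 𝓞 F} (ha : a ≠ 0) : {v : HS F | a ∈ v.asIdeal}.Finite := by
  have h : (Ideal.span {a} : Ideal (𝓞 F)) ≠ 0 := by simpa using ha
  exact (Ideal.finite_factors h).subset fun v (hv : _ ∈ v.asIdeal) => Ideal.dvd_span_singleton.2 hv
theorem Ord_nat (x : F) : ∃ n : ℕ, n ≠ 0 ∧ IsIntegral ℤ ((n : F) * x) := by
  have : Algebra.IsAlgebraic ℤ F :=
    (IsFractionRing.comap_isAlgebraic_iff (A := ℤ) (K := ℚ) (C := F)).2 inferInstance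
  obtain ⟨y, hy, h⟩ := (Algebra.IsAlgebraic.isAlgebraic (R := ℤ) x).exists_integral_multiple
  refine ⟨y.natAbs, Int.natAbs_ne_zero.2 hy, ?_⟩
  rw [zsmul_eq_mul] at h
  rcases Int.natAbs_eq y with h1 | h1
  · rw [h1] at h; simpa using h
  · rw [h1] at h; simpa using h.neg
theorem Ord_unif (v : HS F) : ∃ π : F, π ≠ 0 ∧ ord v π = 1 := by
  obtain ⟨π, hπ⟩ := v.valuation_exists_uniformizer F
  refine ⟨π, ?_, by simp [ord, hπ]⟩
  rintro rfl
  simp at hπ
  exact WithZero.exp_ne_zero hπ.symm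
theorem Ord_cop {v : HS F} {a b : ℕ} (h : a.Coprime b) (ha : (a : 𝓞 F) ∈ v.asIdeal)
    (hb : (b : 𝓞 F) ∈ v.asIdeal) : False := by
  obtain ⟨x, y, hxy⟩ := (Nat.isCoprime_iff_coprime.2 h).map (Int.castRingHom (𝓞 F))
  apply v.isPrime.ne_top
  rw [Ideal.eq_top_iff_one, ← hxy]
  exact add_mem (Ideal.mul_mem_left _ _ (by simpa using ha)) (Ideal.mul_mem_left _ _ (by simpa using hb))
theorem Ord_below (v : HS F) :
    ∃ l f : ℕ, l.Prime ∧ 0 < f ∧ (l : 𝓞 F) ∈ v.asIdeal ∧ qv v = l ^ f := by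
  have := v.isMaximal
  obtain ⟨p, n, h1, h2, h3, h4⟩ := Ideal.exists_prime_and_absNorm_eq_pow v.asIdeal
  exact ⟨p, n, h3, h1, h2, h4⟩
theorem Ord_coprime_qv {v : HS F} {s : ℕ} (h : (s : 𝓞 F) ∉ v.asIdeal) : (qv v).Coprime s := by
  obtain ⟨l, f, hl, -, hm, hq⟩ := Ord_below v
  rw [hq]
  refine Nat.Coprime.pow_left _ ((Nat.Prime.coprime_iff_not_dvd hl).2 ?_)
  rintro ⟨c, rfl⟩
  exact h (by rw [Nat.cast_mul]; exact Ideal.mul_mem_right _ _ hm)
theorem ord_zero (v : HS F) : ord v 0 = 0 := by simp [ord]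
theorem ord_one (v : HS F) : ord v 1 = 0 := by simp [ord]
theorem ord_mul (v : HS F) {x y : F} (hx : x ≠ 0) (hy : y ≠ 0) :
    ord v (x * y) = ord v x + ord v y := by
  unfold ord
  rw [map_mul, WithZero.log_mul (Ord_val_ne v hx) (Ord_val_ne v hy)]; ring
theorem ord_neg (v : HS F) (x : F) : ord v (-x) = ord v x := by simp [ord]
theorem ord_inv (v : HS F) (x : F) : ord v x⁻¹ = -ord v x := by
  unfold ord
  rw [map_inv₀, WithZero.log_inv]
theorem ord_div (v : HS F) {x y : F} (hx : x ≠ 0) (hy : y ≠ 0) :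
    ord v (x / y) = ord v x - ord v y := by
  rw [div_eq_mul_inv, ord_mul v hx (inv_ne_zero hy), ord_inv]; ring
theorem ord_pow (v : HS F) (x : F) (k : ℕ) : ord v (x ^ k) = k * ord v x := by
  unfold ord
  rw [map_pow, WithZero.log_pow]; simp
theorem ord_zpow (v : HS F) (x : F) (k : ℤ) : ord v (x ^ k) = k * ord v x := by
  unfold ord
  rw [map_zpow₀, WithZero.log_zpow]; simp
theorem ord_prod {ι : Type*} (v : HS F) (s : Finset ι) (f : ι → F) (h : ∀ i ∈ s, f i ≠ 0) :
    ord v (∏ i ∈ s, f i) = ∑ i ∈ s, ord v (f i) := by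
  induction s using Finset.induction_on with
  | empty => simp [ord_one]
  | insert a s ha ih =>
    rw [Finset.prod_insert ha, Finset.sum_insert ha,
      ord_mul v (h a (Finset.mem_insert_self _ _))
        (Finset.prod_ne_zero_iff.2 fun i hi => h i (Finset.mem_insert_of_mem hi)),
      ih fun i hi => h i (Finset.mem_insert_of_mem hi)]
theorem OG.zero (v : HS F) (n : ℤ) : OG v n 0 :=
  Or.inl rfl
theorem OG.self (v : HS F) (x : F) : OG v (ord v x) x :=
  Or.inr le_rfl
theorem OG.le {v : HS F} {n : ℤ} {x : F} (h : OG v n x) (hx : x ≠ 0) : n ≤ ord v x :=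
  h.resolve_left hx
theorem OG.mono {v : HS F} {m n : ℤ} {x : F} (h : OG v n x) (hmn : m ≤ n) : OG v m x :=
  h.imp id fun h => hmn.trans h
theorem OG.add {v : HS F} {n : ℤ} {x y : F} (hx : OG v n x) (hy : OG v n y) : OG v n (x + y) := by
  rw [Ord_iff] at hx hy ⊢
  exact (Valuation.map_add _ _ _).trans (max_le hx hy)
theorem OG.neg {v : HS F} {n : ℤ} {x : F} (hx : OG v n x) : OG v n (-x) := by
  rw [Ord_iff] at hx ⊢
  rwa [Valuation.map_neg]
theorem OG.sub {v : HS F} {n : ℤ} {x y : F} (hx : OG v n x) (hy : OG v n y) : OG v n (x - y) := by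
  rw [sub_eq_add_neg]; exact hx.add hy.neg
theorem OG.mul {v : HS F} {m n : ℤ} {x y : F} (hx : OG v m x) (hy : OG v n y) :
    OG v (m + n) (x * y) := by
  rw [Ord_iff] at hx hy ⊢
  rw [map_mul, neg_add, WithZero.exp_add]
  exact mul_le_mul' hx hy
theorem OG.pow {v : HS F} {n : ℤ} {x : F} (hx : OG v n x) (k : ℕ) : OG v (k * n) (x ^ k) := by
  induction k with
  | zero => right; simp [ord_one]
  | succ k ih =>
    rw [pow_succ]
    refine (ih.mul hx).mono (le_of_eq ?_)
    push_cast; ring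
theorem OG.sum {ι : Type*} {v : HS F} {n : ℤ} (s : Finset ι) (f : ι → F)
    (h : ∀ i ∈ s, OG v n (f i)) : OG v n (∑ i ∈ s, f i) := by
  induction s using Finset.induction_on with
  | empty => simpa using OG.zero v n
  | insert a s ha ih =>
    rw [Finset.sum_insert ha]
    exact (h a (Finset.mem_insert_self _ _)).add (ih fun i hi => h i (Finset.mem_insert_of_mem hi))
theorem OG_div_iff {v : HS F} {n : ℤ} {x y : F} (hy : y ≠ 0) :
    OG v n (x / y) ↔ OG v (n + ord v y) x := by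
  rcases eq_or_ne x 0 with rfl | hx
  · simp [OG]
  · have : x / y ≠ 0 := div_ne_zero hx hy
    simp only [OG, hx, this, false_or, ord_div v hx hy]
    constructor <;> intro h <;> linarith
theorem OG_iff_valuation {v : HS F} {n : ℤ} {x : F} :
    OG v n x ↔ v.valuation F x ≤ WithZero.exp (-n) :=
  Ord_iff
/-- Close elements have the same valuation. -/
theorem ord_eq_of_OG {v : HS F} {x y : F} (hx : x ≠ 0) (h : OG v (ord v x + 1) (y - x)) :
    y ≠ 0 ∧ ord v y = ord v x := by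
  have hy : y ≠ 0 := by
    rintro rfl
    have := h.le (by simpa using hx)
    rw [zero_sub, ord_neg] at this
    omega
  refine ⟨hy, le_antisymm ?_ ?_⟩
  · by_contra hlt
    have h1 : OG v (ord v x + 1) y := Or.inr (by omega)
    have h2 := (h1.sub h).le (by simpa using hx)
    rw [sub_sub_cancel] at h2
    omega
  · have h2 : OG v (ord v x) ((y - x) + x) := (h.mono (by omega)).add (OG.self v x)
    rw [sub_add_cancel] at h2
    exact h2.le hy
theorem isIntegral_iff_OG {x : F} : IsIntegral ℤ x ↔ ∀ v : HS F, OG v 0 x := by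
  simp only [Ord_iff, neg_zero, WithZero.exp_zero]
  constructor
  · intro h v
    exact v.valuation_le_one (K := F) (⟨x, h⟩ : 𝓞 F)
  · intro h
    obtain ⟨y, rfl⟩ := HeightOneSpectrum.mem_integers_of_valuation_le_one F x h
    exact y.isIntegral_coe
theorem OG_coe (v : HS F) (x : 𝓞 F) : OG v 0 (x : F) :=
  isIntegral_iff_OG.1 x.isIntegral_coe v
theorem OG_natCast (v : HS F) (n : ℕ) : OG v 0 (n : F) := by
  simpa using OG_coe v (n : 𝓞 F)
theorem mem_pow_iff_OG (v : HS F) (x : 𝓞 F) (k : ℕ) : x ∈ v.asIdeal ^ k ↔ OG v k (x : F) := by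
  rw [Ord_iff, ← HeightOneSpectrum.intValuation_le_pow_iff_mem,
    ← HeightOneSpectrum.valuation_of_algebraMap (K := F)]
theorem mem_iff_OG (v : HS F) (x : 𝓞 F) : x ∈ v.asIdeal ↔ OG v 1 (x : F) := by
  simpa using mem_pow_iff_OG v x 1
theorem ord_eq_zero_of_not_mem {v : HS F} {x : 𝓞 F} (h : x ∉ v.asIdeal) :
    (x : F) ≠ 0 ∧ ord v (x : F) = 0 := by
  have hx : (x : F) ≠ 0 := by
    intro h0
    exact h ((mem_iff_OG v x).2 (Or.inl h0))
  refine ⟨hx, ?_⟩
  have h1 := (OG_coe v x).le hx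
  have h2 : ¬ (1 ≤ ord v (x : F)) := fun h2 => h ((mem_iff_OG v x).2 (Or.inr h2))
  omega
theorem finite_ord (x : F) : {v : HS F | ord v x ≠ 0}.Finite := by
  rcases eq_or_ne x 0 with rfl | hx
  · simp [ord_zero]
  obtain ⟨a, b, hb, rfl⟩ := IsFractionRing.div_surjective (𝓞 F) x
  have hb' : b ≠ 0 := nonZeroDivisors.ne_zero hb
  have ha : a ≠ 0 := by rintro rfl; simp at hx
  refine ((Ord_fin ha).union (Ord_fin hb')).subset fun v hv => ?_
  by_contra hn
  simp only [Set.mem_union, Set.mem_ofPred_eq, not_or] at hn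
  have h1 := ord_eq_zero_of_not_mem hn.1
  have h2 := ord_eq_zero_of_not_mem hn.2
  apply hv
  rw [ord_div v h1.1 h2.1, h1.2, h2.2, sub_zero]
theorem exists_frac {v : HS F} {x : F} (h : OG v 0 x) :
    ∃ a b : 𝓞 F, b ∉ v.asIdeal ∧ x * b = a := by
  rw [Ord_iff, neg_zero, WithZero.exp_zero] at h
  obtain ⟨a, b, hab⟩ := v.exists_primeCompl_mul_eq_of_integer x h
  exact ⟨a, b, b.2, hab⟩
/-- A `v`-integral element is congruent to an integer. -/
theorem exists_int_close {v : HS F} {x : F} (h : OG v 0 x) (n : ℤ) :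
    ∃ a : 𝓞 F, OG v n (x - a) := by
  rw [Ord_iff, neg_zero, WithZero.exp_zero] at h
  obtain ⟨a, ha⟩ := v.exists_valuation_sub_lt_of_integer h
    (Units.mk0 (WithZero.exp (-n)) WithZero.exp_ne_zero)
  refine ⟨a, ?_⟩
  rw [Ord_iff, Valuation.map_sub_swap]
  exact ha.le
/-- Strong approximation. -/
theorem approx (T : Finset (HS F)) (a : HS F → F) (n : HS F → ℤ) :
    ∃ x : F, (∀ v ∈ T, OG v (n v) (x - a v)) ∧ ∀ v ∉ T, OG v 0 x := by
  choose m hm0 hm using fun v => Ord_nat (a v)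
  set N : ℕ := ∏ v ∈ T, m v with hN
  have hN0 : N ≠ 0 := Finset.prod_ne_zero_iff.2 fun v _ => hm0 v
  have hNF : (N : F) ≠ 0 := Nat.cast_ne_zero.2 hN0
  have hint : ∀ v ∈ T, IsIntegral ℤ ((N : F) * a v) := by
    intro v hv
    obtain ⟨c, hc⟩ := Finset.dvd_prod_of_mem m hv
    rw [hN, hc, Nat.cast_mul, mul_comm (m v : F), mul_assoc]
    exact (c : 𝓞 F).isIntegral_coe.mul (hm v)
  let U : Finset (HS F) := T ∪ (finite_ord (N : F)).toFinset
  obtain ⟨t, ht, ht'⟩ : ∃ t : HS F → 𝓞 F, (∀ v ∈ T, (t v : F) = N * a v) ∧ ∀ v ∉ T, t v = 0 :=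
    ⟨fun v => if h : v ∈ T then ⟨(N : F) * a v, hint v h⟩ else 0,
      fun v hv => congrArg (fun z : 𝓞 F => (z : F)) (dif_pos hv), fun v hv => dif_neg hv⟩
  obtain ⟨y, hy⟩ := IsDedekindDomain.exists_forall_sub_mem_ideal (s := U)
    (fun v : HS F => v.asIdeal) (fun v => (max (n v) 0 + ord v (N : F)).toNat)
    (fun v _ => v.prime) (fun v _ w _ hvw h => hvw (HeightOneSpectrum.ext h)) (fun v => t v)
  refine ⟨(y : F) / N, fun v hv => ?_, fun v hv => ?_⟩
  · have h1 := (mem_pow_iff_OG v _ _).1 (hy v (Finset.mem_union_left _ hv))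
    have h2 : (y : F) / N - a v = ((y - t v : 𝓞 F) : F) / N := by
      have := ht v hv
      rw [RingOfIntegers.coe_eq_algebraMap (y - t v), map_sub,
        ← RingOfIntegers.coe_eq_algebraMap, ← RingOfIntegers.coe_eq_algebraMap, this]
      field_simp
    rw [h2, OG_div_iff hNF]
    exact h1.mono (by omega)
  · rw [OG_div_iff hNF]
    by_cases h0 : ord v (N : F) = 0
    · rw [h0]; exact OG_coe v y
    · have hU : v ∈ U := Finset.mem_union_right _ ((Set.Finite.mem_toFinset _).2 h0)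
      have h1 := (mem_pow_iff_OG v _ _).1 (hy v hU)
      simp only [ht' v hv, sub_zero] at h1
      exact h1.mono (by omega)
theorem exists_ord (T : Finset (HS F)) (n : HS F → ℤ) :
    ∃ x : F, x ≠ 0 ∧ (∀ v ∈ T, ord v x = n v) ∧ ∀ v ∉ T, 0 ≤ ord v x := by
  rcases T.eq_empty_or_nonempty with rfl | ⟨v0, hv0⟩
  · exact ⟨1, one_ne_zero, by simp, fun v _ => (ord_one v).ge⟩
  choose π hπ0 hπ using fun v : HS F => Ord_unif v
  obtain ⟨x, hx, hx'⟩ := approx T (fun v => π v ^ n v) (fun v => n v + 1)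
  have key : ∀ v ∈ T, x ≠ 0 ∧ ord v x = n v := by
    intro v hv
    have ho : ord v (π v ^ n v) = n v := by rw [ord_zpow, hπ, mul_one]
    have := ord_eq_of_OG (v := v) (x := π v ^ n v) (y := x) (zpow_ne_zero _ (hπ0 v))
      (by rw [ho]; exact hx v hv)
    exact ⟨this.1, this.2.trans ho⟩
  have hx0 := (key v0 hv0).1
  exact ⟨x, hx0, fun v hv => (key v hv).2, fun v hv => (hx' v hv).le hx0⟩
theorem exists_nat_mul_integral (x : F) : ∃ n : ℕ, n ≠ 0 ∧ IsIntegral ℤ ((n : F) * x) :=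
  Ord_nat x
theorem Ord_bound (x : F) : ∃ k : ℕ, ∀ v : HS F, OG v (-(k : ℤ)) x := by
  refine ⟨∑ v ∈ (finite_ord x).toFinset, (ord v x).natAbs, fun v => Or.inr ?_⟩
  by_cases hv : ord v x = 0
  · omega
  · have := Finset.single_le_sum (f := fun v : HS F => (ord v x).natAbs) (fun _ _ => Nat.zero_le _)
      ((Set.Finite.mem_toFinset (finite_ord x)).2 hv)
    omega
theorem two_le_qv (v : HS F) : 2 ≤ qv v :=
  NumberField.HeightOneSpectrum.one_lt_absNorm v
theorem card_quot (v : HS F) : Nat.card (𝓞 F ⧸ v.asIdeal) = qv v := by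
  rw [qv, Ideal.absNorm_apply, Submodule.cardQuot_apply]
/-- The norm of a place is a power of the rational prime below it. -/
theorem exists_prime_below (v : HS F) :
    ∃ l f : ℕ, l.Prime ∧ 0 < f ∧ (l : 𝓞 F) ∈ v.asIdeal ∧ qv v = l ^ f :=
  Ord_below v
theorem coprime_qv {v : HS F} {s : ℕ} (h : (s : 𝓞 F) ∉ v.asIdeal) : (qv v).Coprime s :=
  Ord_coprime_qv h
theorem card_above_le {l : ℕ} (hl : l.Prime) (T : Finset (HS F))
    (h : ∀ v ∈ T, (l : 𝓞 F) ∈ v.asIdeal) : T.card ≤ Module.finrank ℚ F := by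
  have h1 : (l : 𝓞 F) ∈ ∏ v ∈ T, v.asIdeal ^ 1 := by
    rw [← HeightOneSpectrum.inf_pow_eq_prod T (fun _ => 1) (fun v => v) (fun _ _ _ _ h => h),
      Submodule.mem_finsetInf]
    simpa using h
  have h2 := Ideal.absNorm_dvd_absNorm_of_le ((Ideal.span_singleton_le_iff_mem _).2 h1)
  rw [Ideal.absNorm_span_natCast, RingOfIntegers.rank, map_prod] at h2
  have h3 : l ^ T.card ∣ ∏ v ∈ T, Ideal.absNorm (v.asIdeal ^ 1) := by
    rw [← Finset.prod_const]
    refine Finset.prod_dvd_prod_of_dvd _ _ fun v hv => ?_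
    obtain ⟨l', f, hl', hf, hm, hq⟩ := exists_prime_below v
    have : l' = l := by
      by_contra hne
      exact Ord_cop ((Nat.coprime_primes hl' hl).2 hne) hm (h v hv)
    rw [pow_one, ← qv, hq, this]
    exact dvd_pow_self _ hf.ne'
  exact (Nat.pow_dvd_pow_iff_le_right hl.one_lt).1 (h3.trans h2)
/-- The product formula. -/
theorem abs_norm_eq {x : F} (hx : x ≠ 0) (T : Finset (HS F)) (hT : ∀ v, ord v x ≠ 0 → v ∈ T) :
    ((|Algebra.norm ℚ x| : ℚ) : ℝ) = ∏ v ∈ T, (qv v : ℝ) ^ ord v x := by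
  have h := NumberField.FinitePlace.prod_eq_inv_abs_norm hx
  simp only [← finprod_comp_equiv NumberField.FinitePlace.equivHeightOneSpectrum.symm,
    NumberField.FinitePlace.equivHeightOneSpectrum_symm_apply,
    NumberField.FinitePlace.norm_embedding'] at h
  have hv : ∀ v : HS F, ((WithZeroMulInt.toNNReal (NumberField.HeightOneSpectrum.absNorm_ne_zero v)
      (v.valuation F x) : NNReal) : ℝ) = ((qv v : ℝ) ^ ord v x)⁻¹ := by
    intro v
    rw [WithZeroMulInt.toNNReal_neg_apply _ (Ord_val_ne v hx), WithZero.toAdd_unzero_eq_log, ord,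
      zpow_neg, inv_inv]
    simp [qv]
  simp only [hv] at h
  rw [finprod_eq_prod_of_mulSupport_subset (s := T) _ (fun v hv => hT v (by
    intro h0; apply hv; simp [h0])), Finset.prod_inv_distrib] at h
  apply inv_injective
  rw [h]; simp
/-- Ideals with prescribed valuations. -/
theorem mem_prod_pow_iff (T : Finset (HS F)) (n : HS F → ℕ) (x : 𝓞 F) :
    x ∈ ∏ v ∈ T, v.asIdeal ^ n v ↔ ∀ v ∈ T, OG v (n v) (x : F) := by
  rw [← HeightOneSpectrum.inf_pow_eq_prod T n (fun v => v) (fun _ _ _ _ h => h),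
    Submodule.mem_finsetInf]
  simp only [mem_pow_iff_OG]
instance : Countable (HS F) := by
  have h : (Set.univ : Set (Ideal (𝓞 F))).Countable := by
    refine (Set.countable_iUnion fun n : ℕ =>
      (Ideal.finite_setOfPred_absNorm_eq (S := 𝓞 F) n).countable).mono fun I _ => ?_
    exact Set.mem_iUnion.2 ⟨_, rfl⟩
  have : Countable (Ideal (𝓞 F)) := Set.countable_univ_iff.1 h
  exact Function.Injective.countable (f := fun v : HS F => v.asIdeal)
    fun _ _ h => HeightOneSpectrum.ext h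

end Uc
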