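import Vale.Agent.P024.Val2
import Vale.Agent.P024.Ord

/-! Primes of number fields. -/

noncomputable section
namespace Uc
open NumberField
open scoped Classical
variable {L : Type} [Field L] [NumberField L]

/-- the rational prime below a place -/
def nfP (v : HS L) : ℕ := (Ord_below v).choose

theorem nfP_spec (v : HS L) : ∃ f : ℕ, (nfP v).Prime ∧ 0 < f ∧ ((nfP v : ℕ) : 𝓞 L) ∈ v.asIdeal ∧
    qv v = nfP v ^ f := (Ord_below v).choose_spec

theorem nfP_prime (v : HS L) : (nfP v).Prime := (nfP_spec v).choose_spec.1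
theorem nfP_mem (v : HS L) : ((nfP v : ℕ) : 𝓞 L) ∈ v.asIdeal := (nfP_spec v).choose_spec.2.2.1

theorem nf_one_le (v : HS L) : 1 ≤ ord v (nfP v : L) := by
  have h := (mem_iff_OG v _).1 (nfP_mem v)
  rw [RingOfIntegers.coe_eq_algebraMap, map_natCast] at h
  exact h.le (Nat.cast_ne_zero.2 (nfP_prime v).ne_zero)

/-- the ramification index -/
def nfE (v : HS L) : ℕ := (ord v (nfP v : L)).toNat

theorem nfE_cast (v : HS L) : (nfE v : ℤ) = ord v (nfP v : L) :=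
  Int.toNat_of_nonneg (zero_le_one.trans (nf_one_le v))

theorem nfE_pos (v : HS L) : 0 < nfE v := by
  have := nf_one_le v
  rw [← nfE_cast] at this
  exact_mod_cast this

theorem nfE_pos' (v : HS L) : (0 : ℚ) < nfE v := Nat.cast_pos.2 (nfE_pos v)

theorem nfE_le (v : HS L) : nfE v ≤ Module.finrank ℚ L := by
  obtain ⟨f, hp, hf, -, hq⟩ := nfP_spec v
  have h1 : ((nfP v : ℕ) : 𝓞 L) ∈ v.asIdeal ^ nfE v := by
    rw [mem_pow_iff_OG, nfE_cast, RingOfIntegers.coe_eq_algebraMap, map_natCast]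
    exact OG.self _ _
  have h2 := Ideal.absNorm_dvd_absNorm_of_le ((Ideal.span_singleton_le_iff_mem _).2 h1)
  rw [Ideal.absNorm_span_natCast, RingOfIntegers.rank, map_pow, ← qv, hq, ← pow_mul] at h2
  exact (Nat.le_mul_of_pos_left _ hf).trans ((Nat.pow_dvd_pow_iff_le_right hp.one_lt).1 h2)

/-- the prime attached to a place -/
def nfPr (v : HS L) : Pr L where
  p := nfP v
  w x := (ord v x : ℚ) / nfE v
  prime := nfP_prime v
  w_zero := by rw [ord_zero]; simp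
  w_mul x y hx hy := by rw [ord_mul v hx hy]; push_cast; ring
  w_add x y _ _ h := by
    have h1 := (((OG.self v x).mono (min_le_left _ (ord v y))).add
      ((OG.self v y).mono (min_le_right (ord v x) _))).le h
    rw [min_div_div_right (nfE_pos' v).le]
    refine div_le_div_of_nonneg_right ?_ (nfE_pos' v).le
    exact_mod_cast h1
  w_p := by rw [← nfE_cast]; exact div_self (nfE_pos' v).ne'

theorem nfPr_w (v : HS L) (x : L) : (nfPr v).w x = (ord v x : ℚ) / nfE v := rfl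

theorem nfPr_ge {v : HS L} {t : ℚ} {x : L} : (nfPr v).Ge t x ↔ OG v ⌈t * nfE v⌉ x := by
  unfold Pr.Ge OG
  rw [nfPr_w, le_div_iff₀ (nfE_pos' v), Int.ceil_le]

theorem nfPr_in {v : HS L} {x : L} : (nfPr v).In x ↔ OG v 0 x := by
  rw [← Pr.ge_zero_iff, nfPr_ge, zero_mul, Int.ceil_zero]

theorem nfPr_sm {v : HS L} {x : L} : (nfPr v).Sm x ↔ OG v 1 x := by
  unfold Pr.Sm OG
  rw [nfPr_w, div_pos_iff_of_pos_right (nfE_pos' v), Int.cast_pos]
  rfl

theorem nfPr_mem {v : HS L} {x : 𝓞 L} : (nfPr v).Sm (x : L) ↔ x ∈ v.asIdeal := by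
  rw [nfPr_sm, mem_iff_OG]

theorem nfPr_inj : Function.Injective (nfPr : HS L → Pr L) := fun v v' h =>
  IsDedekindDomain.HeightOneSpectrum.ext (Ideal.ext fun x => by rw [← nfPr_mem, ← nfPr_mem, h])

omit [NumberField L] in
theorem nf_in (B : Pr L) (x : 𝓞 L) : B.In (x : L) := Pr.In.of_isIntegral B x.isIntegral_coe

theorem nfPr_surj (B : Pr L) : ∃ v : HS L, nfPr v = B := by
  let I : Ideal (𝓞 L) :=
    { carrier := {x | B.Sm (x : L)}
      add_mem' := fun {a b} ha hb => by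
        show B.Sm (algebraMap (𝓞 L) L (a + b))
        rw [map_add]; exact ha.add hb
      zero_mem' := Or.inl (map_zero (algebraMap (𝓞 L) L))
      smul_mem' := fun c x hx => by
        show B.Sm (algebraMap (𝓞 L) L (c * x))
        rw [map_mul]; exact Pr.Sm.in_mul hx (nf_in B c) }
  have hI : ∀ x : 𝓞 L, x ∈ I ↔ B.Sm (x : L) := fun _ => Iff.rfl
  have hp : I.IsPrime := by
    refine ⟨fun h => B.not_sm_one ?_, fun {x y} h => ?_⟩
    · have := (hI 1).1 (h ▸ Submodule.mem_top)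
      rwa [RingOfIntegers.coe_eq_algebraMap, map_one] at this
    · by_contra hn
      rw [not_or, hI, hI, Pr.not_sm_iff (nf_in B x), Pr.not_sm_iff (nf_in B y)] at hn
      refine (Pr.not_sm_iff (nf_in B (x * y))).2 ?_ h
      rw [RingOfIntegers.coe_eq_algebraMap, map_mul]
      exact ⟨mul_ne_zero hn.1.1 hn.2.1, by
        rw [B.w_mul _ _ hn.1.1 hn.2.1]; exact (congrArg₂ (· + ·) hn.1.2 hn.2.2).trans (add_zero 0)⟩
  have h0 : I ≠ ⊥ := fun h => by
    have h1 : ((B.p : ℕ) : 𝓞 L) ∈ I := by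
      rw [hI, RingOfIntegers.coe_eq_algebraMap, map_natCast]; exact Pr.Sm.p B
    rw [h, Ideal.mem_bot] at h1
    exact B.prime.ne_zero (Nat.cast_eq_zero.1 h1)
  refine ⟨⟨I, hp, h0⟩, Pr.ext_le fun z hz => ?_⟩
  obtain ⟨a, b, hb, hab⟩ := exists_frac (nfPr_in.1 hz)
  obtain ⟨hb0, hb1⟩ := (Pr.not_sm_iff (nf_in B b)).1 hb
  rcases eq_or_ne z 0 with rfl | hz0
  · exact Pr.In.zero B
  have h2 := nf_in B a
  unfold Pr.In at h2 ⊢
  rwa [← hab, B.w_mul _ _ hz0 hb0, hb1, add_zero] at h2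

/-- the dictionary -/
def nfEq : HS L ≃ Pr L := Equiv.ofBijective nfPr ⟨nfPr_inj, nfPr_surj⟩

/-- reduction of integers -/
def nfRs (B : Pr L) : 𝓞 L →+* B.kk where
  toFun x := B.rs (algebraMap (𝓞 L) L x)
  map_one' := by rw [map_one, B.rs_one]
  map_mul' x y := by rw [map_mul, Pr.rs_mul (nf_in B x) (nf_in B y)]
  map_zero' := by rw [map_zero, B.rs_zero]
  map_add' x y := by rw [map_add, Pr.rs_add (nf_in B x) (nf_in B y)]

theorem nf_card (v : HS L) : Nat.card (nfPr v).kk = qv v := by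
  have h1 : Function.Surjective (nfRs (nfPr v)) := fun c => by
    obtain ⟨z, hz, rfl⟩ := (nfPr v).rs_surj c
    obtain ⟨a, ha⟩ := exists_int_close (nfPr_in.1 hz) 1
    exact ⟨a, ((Pr.rs_eq_iff hz (nf_in _ a)).2 (nfPr_sm.2 ha)).symm⟩
  have h2 : RingHom.ker (nfRs (nfPr v)) = v.asIdeal := Ideal.ext fun x =>
    (Pr.rs_eq_zero_iff (nf_in _ x)).trans nfPr_mem
  rw [← Nat.card_congr (RingHom.quotientKerEquivOfSurjective h1).toEquiv, h2, card_quot]

theorem nf_finite (v : HS L) : Finite (nfPr v).kk :=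
  Nat.finite_of_card_ne_zero (by rw [nf_card]; have := two_le_qv v; omega)

theorem nf_pow (v : HS L) {z : L} (hz : (nfPr v).In z) : (nfPr v).Sm (z ^ qv v - z) := by
  have := nf_finite v
  have := Fintype.ofFinite (nfPr v).kk
  rw [← Pr.rs_eq_iff (hz.pow _) hz, Pr.rs_pow hz, ← nf_card, Nat.card_eq_fintype_card]
  exact FiniteField.pow_card _

theorem nf_D1 (v : HS L) : (nfPr v).D1 ↔ qv v = nfP v := by
  refine ⟨fun h => ?_, fun h z hz => by have := nf_pow v hz; rwa [h] at this⟩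
  have := nf_finite v
  have := Fintype.ofFinite (nfPr v).kk
  obtain ⟨f, hp, hf, -, hq⟩ := nfP_spec v
  have h1 : ∀ x : ((nfPr v).kk)ˣ, x ^ (nfP v - 1) = 1 := fun x => by
    obtain ⟨z, hz, hx⟩ := (nfPr v).rs_surj x
    have h2 := (Pr.rs_eq_iff (hz.pow _) hz).2 (h z hz)
    rw [Pr.rs_pow hz, hx] at h2
    have h3 : x ^ nfP v = x := Units.ext (by rw [Units.val_pow_eq_pow_val]; exact h2)
    refine mul_right_cancel (b := x) ?_
    rw [← pow_succ, Nat.sub_add_cancel hp.one_le, h3, one_mul]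
  have h4 := Nat.le_of_dvd (by have := hp.two_le; omega)
    ((FiniteField.forall_pow_eq_one_iff _ _).1 h1)
  rw [← Nat.card_eq_fintype_card, nf_card] at h4
  have h5 : nfP v ≤ qv v := by rw [hq]; exact Nat.le_self_pow hf.ne' _
  have := hp.two_le
  omega

/-- The dictionary with height one primes. For `v` let `p` be the prime below, `e = ord v p`,
`w = ord v / e`. Conversely for `B` the set of integers `x` with `B.Sm x` is a nonzero prime ideal
`v`, and the prime attached to `v` has a smaller valuation ring (`exists_frac`), so it is `B` by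
`Pr.ext_le`. `e ≤ finrank` from `v ^ e ∣ (p)` and norms. -/
theorem exists_hs : ∃ (Φ : Pr L ≃ HS L) (e : Pr L → ℕ), ∀ B : Pr L, 0 < e B ∧
    e B ≤ Module.finrank ℚ L ∧ (B.p : 𝓞 L) ∈ (Φ B).asIdeal ∧
    (∀ x : L, (ord (Φ B) x : ℚ) = e B * B.w x) ∧ (B.D1 ↔ qv (Φ B) = B.p) := by
  refine ⟨nfEq.symm, fun B => nfE (nfEq.symm B), fun B => ?_⟩
  obtain ⟨v, rfl⟩ := nfEq.surjective B
  simp only [Equiv.symm_apply_apply]
  refine ⟨nfE_pos v, nfE_le v, nfP_mem v, fun x => ?_, nf_D1 v⟩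
  exact (mul_div_cancel₀ _ (nfE_pos' v).ne').symm

theorem nf_mem_map {T : Finset (Pr L)} {v : HS L} :
    v ∈ T.map nfEq.symm.toEmbedding ↔ nfPr v ∈ T := by
  rw [Finset.mem_map_equiv]; rfl

namespace Pr

theorem exists_ram (B : Pr L) : ∃ e : ℕ, 0 < e ∧ e ≤ Module.finrank ℚ L ∧
    (∀ x : L, ∃ k : ℤ, B.w x = k / e) ∧ ∃ π : L, π ≠ 0 ∧ B.w π = 1 / e := by
  obtain ⟨v, rfl⟩ := nfPr_surj B
  obtain ⟨π, h0, h1⟩ := Ord_unif v
  exact ⟨nfE v, nfE_pos v, nfE_le v, fun x => ⟨_, rfl⟩, π, h0, by rw [nfPr_w, h1, Int.cast_one]⟩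
theorem finite_above (L : Type) [Field L] [NumberField L] (p : ℕ) :
    {B : Pr L | B.p = p}.Finite := by
  rcases eq_or_ne p 0 with rfl | hp
  · exact Set.finite_empty.subset fun B hB => B.prime.ne_zero hB
  refine ((Ord_fin (F := L) (Nat.cast_ne_zero.2 hp)).image nfPr).subset fun B hB => ?_
  obtain ⟨v, rfl⟩ := nfPr_surj B
  exact ⟨v, (show nfP v = p from hB) ▸ nfP_mem v, rfl⟩
theorem card_above_le (p : ℕ) (T : Finset (Pr L)) (h : ∀ B ∈ T, B.p = p) :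
    T.card ≤ Module.finrank ℚ L := by
  rcases T.eq_empty_or_nonempty with rfl | ⟨B, hB⟩
  · exact Nat.zero_le _
  rw [← Finset.card_map nfEq.symm.toEmbedding]
  exact Uc.card_above_le (h B hB ▸ B.prime) _ fun v hv =>
    (show nfP v = p from h _ (nf_mem_map.1 hv)) ▸ nfP_mem v
theorem finite_supp (x : L) : {B : Pr L | B.w x ≠ 0}.Finite := by
  refine ((finite_ord x).image nfPr).subset fun B hB => ?_
  obtain ⟨v, rfl⟩ := nfPr_surj B
  exact ⟨v, fun h => hB (by rw [nfPr_w, h]; simp), rfl⟩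
theorem approx (T : Finset (Pr L)) (a : Pr L → L) (t : Pr L → ℚ) :
    ∃ x : L, (∀ B ∈ T, B.Ge (t B) (x - a B)) ∧ ∀ B ∉ T, B.In x := by
  obtain ⟨x, h1, h2⟩ := Uc.approx (T.map nfEq.symm.toEmbedding) (fun v => a (nfPr v))
    fun v => ⌈t (nfPr v) * nfE v⌉
  refine ⟨x, fun B hB => ?_, fun B hB => ?_⟩ <;> obtain ⟨v, rfl⟩ := nfPr_surj B
  · exact nfPr_ge.2 (h1 v (nf_mem_map.2 hB))
  · exact nfPr_in.2 (h2 v fun h => hB (nf_mem_map.1 h))
theorem exists_w (T : Finset (Pr L)) (a : Pr L → L) (ha : ∀ B ∈ T, a B ≠ 0) :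
    ∃ x : L, x ≠ 0 ∧ (∀ B ∈ T, B.w x = B.w (a B)) ∧ ∀ B ∉ T, B.In x := by
  have _ := ha
  obtain ⟨x, h0, h1, h2⟩ := exists_ord (T.map nfEq.symm.toEmbedding) fun v => ord v (a (nfPr v))
  refine ⟨x, h0, fun B hB => ?_, fun B hB => ?_⟩ <;> obtain ⟨v, rfl⟩ := nfPr_surj B
  · rw [nfPr_w, nfPr_w, h1 v (nf_mem_map.2 hB)]
  · exact nfPr_in.2 (Or.inr (h2 v fun h => hB (nf_mem_map.1 h)))
theorem isIntegral_iff {x : L} : IsIntegral ℤ x ↔ ∀ B : Pr L, B.In x :=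
  ⟨fun h B => In.of_isIntegral B h, fun h => isIntegral_iff_OG.2 fun _ => nfPr_in.1 (h _)⟩
theorem in_coe (B : Pr L) (x : 𝓞 L) : B.In (x : L) := nf_in B x
theorem exists_unit {x : L} (hx : x ≠ 0) (h : ∀ B : Pr L, B.w x = 0) :
    ∃ u : (𝓞 L)ˣ, ((u : 𝓞 L) : L) = x := by
  have h1 : IsIntegral ℤ x := isIntegral_iff.2 fun B => (h B).ge
  have h2 : IsIntegral ℤ x⁻¹ := isIntegral_iff.2 fun B => by
    unfold In; rw [B.w_inv, h B, neg_zero]
  exact ⟨⟨⟨x, h1⟩, ⟨x⁻¹, h2⟩, Subtype.ext (mul_inv_cancel₀ hx), Subtype.ext (inv_mul_cancel₀ hx)⟩,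
    rfl⟩
theorem w_unit (B : Pr L) (u : (𝓞 L)ˣ) : B.w ((u : 𝓞 L) : L) = 0 := by
  have h1 := in_coe B u
  have h2 := in_coe B (u⁻¹ : (𝓞 L)ˣ)
  have h3 : (((u⁻¹ : (𝓞 L)ˣ) : 𝓞 L) : L) = (((u : 𝓞 L) : L))⁻¹ :=
    eq_inv_of_mul_eq_one_left (by
      rw [RingOfIntegers.coe_eq_algebraMap, RingOfIntegers.coe_eq_algebraMap, ← map_mul,
        Units.inv_mul, map_one])
  unfold In at h1 h2
  rw [h3, B.w_inv] at h2
  linarith
theorem pow_dvd_iff {r : ℕ} (hr : r.Prime) (T : ℕ) (x : 𝓞 L) :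
    (r : 𝓞 L) ^ T ∣ x ↔ ∀ B : Pr L, B.p = r → B.Ge T (x : L) := by
  have h0 : (r : L) ^ T ≠ 0 := pow_ne_zero _ (Nat.cast_ne_zero.2 hr.ne_zero)
  have h1 : ∀ B : Pr L, B.p = r → B.w ((r : L) ^ T) = T := fun B hB => by
    rw [B.w_pow, ← hB, B.w_p, mul_one]
  constructor
  · rintro ⟨y, rfl⟩ B hB
    have := (Ge.self B ((r : L) ^ T)).mul (ge_zero_iff.2 (in_coe B y))
    rw [h1 B hB, add_zero] at this
    rwa [RingOfIntegers.coe_eq_algebraMap, map_mul, map_pow, map_natCast]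
  · intro h
    have h2 : IsIntegral ℤ ((x : L) / (r : L) ^ T) := isIntegral_iff.2 fun B => by
      rw [← ge_zero_iff, ge_div_iff h0, zero_add]
      by_cases hB : B.p = r
      · rw [h1 B hB]; exact h B hB
      · rw [B.w_pow, w_prime hr hB, mul_zero]; exact ge_zero_iff.2 (in_coe B x)
    obtain ⟨y, hy⟩ : ∃ y : 𝓞 L, algebraMap (𝓞 L) L y = (x : L) / (r : L) ^ T := ⟨⟨_, h2⟩, rfl⟩
    refine ⟨y, RingOfIntegers.coe_injective ?_⟩
    rw [map_mul, map_pow, map_natCast, hy]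
    exact (mul_div_cancel₀ _ h0).symm
theorem exists_int_cg (r T : ℕ) {y : L} (h : ∀ B : Pr L, B.p = r → B.In y) :
    ∃ z : 𝓞 L, Cg r T y z := by
  obtain ⟨x, h1, h2⟩ := approx (finite_above L r).toFinset (fun _ => y) fun _ => T
  have h3 : IsIntegral ℤ x := isIntegral_iff.2 fun B => by
    by_cases hB : B ∈ (finite_above L r).toFinset
    · have := (ge_zero_iff.1 ((h1 B hB).mono (Nat.cast_nonneg T))).add
        (h B ((finite_above L r).mem_toFinset.1 hB))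
      rwa [sub_add_cancel] at this
    · exact h2 B hB
  refine ⟨⟨x, h3⟩, fun B hB => ?_⟩
  have := (h1 B ((finite_above L r).mem_toFinset.2 hB)).neg
  rwa [neg_sub] at this
theorem isCoprime_iff {r : ℕ} (hr : r.Prime) (x : 𝓞 L) :
    IsCoprime x (r : 𝓞 L) ↔ (x : L) ≠ 0 ∧ ∀ B : Pr L, B.p = r → B.w (x : L) = 0 := by
  constructor
  · rintro ⟨a, b, hab⟩
    have h1 : ∀ B : Pr L, B.p = r → (x : L) ≠ 0 ∧ B.w (x : L) = 0 := fun B hB => by
      refine (not_sm_iff (in_coe B x)).1 fun hs => B.not_sm_one ?_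
      have h2 := congrArg (algebraMap (𝓞 L) L) hab
      rw [map_add, map_mul, map_mul, map_natCast, map_one] at h2
      rw [← h2]
      exact (hs.in_mul (in_coe B a)).add ((hB ▸ Sm.p B).in_mul (in_coe B b))
    obtain ⟨B, hB⟩ := exists_above (E := L) hr
    exact ⟨(h1 B hB).1, fun B hB => (h1 B hB).2⟩
  · rintro ⟨h0, h⟩
    rw [← Ideal.isCoprime_span_singleton_iff, Ideal.isCoprime_iff_sup_eq]
    by_contra hn
    obtain ⟨M, hM, hle⟩ := Ideal.exists_le_maximal _ hn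
    have hx : x ∈ M := hle (Ideal.mem_sup_left (Ideal.mem_span_singleton_self _))
    have hr' : (r : 𝓞 L) ∈ M := hle (Ideal.mem_sup_right (Ideal.mem_span_singleton_self _))
    let v : HS L := ⟨M, hM.isPrime, fun e => hr.ne_zero ((Nat.cast_eq_zero (R := 𝓞 L)).1
      (Ideal.mem_bot.1 (e ▸ hr')))⟩
    have h1 : (nfPr v).Sm ((r : 𝓞 L) : L) := nfPr_mem.2 hr'
    rw [RingOfIntegers.coe_eq_algebraMap, map_natCast, sm_natCast_iff] at h1
    have h2 := (Nat.prime_dvd_prime_iff_eq (nfPr v).prime hr).1 h1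
    exact (not_sm_iff (in_coe _ x)).2 ⟨h0, h _ h2⟩ (nfPr_mem.2 hx)
/-- the residue field is finite -/
theorem exists_res_pow (B : Pr L) : ∃ f : ℕ, 0 < f ∧ ∀ z, B.In z → B.Sm (z ^ B.p ^ f - z) := by
  obtain ⟨v, rfl⟩ := nfPr_surj B
  obtain ⟨f, -, hf, -, hq⟩ := nfP_spec v
  exact ⟨f, hf, fun z hz => by have := nf_pow v hz; rwa [hq] at this⟩
theorem finite_kk (B : Pr L) : Finite B.kk := by
  obtain ⟨v, rfl⟩ := nfPr_surj B
  exact nf_finite v
theorem exists_res_gen (B : Pr L) : ∃ θ, B.In θ ∧ ¬ B.Sm θ ∧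
    ∀ z, B.In z → ¬ B.Sm z → ∃ k : ℕ, B.Sm (z - θ ^ k) := by
  have := finite_kk B
  obtain ⟨g, hg⟩ := IsCyclic.exists_monoid_generator (α := B.kkˣ)
  obtain ⟨θ, h1, h2⟩ := B.rs_surj g
  refine ⟨θ, h1, fun h => g.ne_zero (h2 ▸ (rs_eq_zero_iff h1).2 h), fun z hz hs => ?_⟩
  obtain ⟨k, hk⟩ := hg (Units.mk0 (B.rs z) fun h => hs ((rs_eq_zero_iff hz).1 h))
  refine ⟨k, (rs_eq_iff hz (h1.pow k)).1 ?_⟩
  rw [rs_pow h1, h2, ← Units.val_pow_eq_pow_val]
  exact (congrArg Units.val hk).symm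
end Pr

end Uc
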