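import Vale.Agent.P024.FD

/-! Kummer coordinates, primeness, uniqueness. -/

noncomputable section
namespace Uc
open scoped Classical
variable {E : Type} [Field E] [CharZero E] [Nice E]

theorem QW_split {W : Subgroup (Aut E)} (hW : IsOpen (W : Set (Aut E))) (k : ℕ) :
    ∃ A : Fin k → Pr E, (∀ j, (A j).D ≤ W) ∧ ∀ j j', (A j).p = (A j').p → j = j' := by
  have hinf : {p : ℕ | ∃ A : Pr E, A.p = p ∧ A.D ≤ W}.Infinite := by
    intro hf
    obtain ⟨A, h1, h2, -⟩ := exists_split hW hf.toFinset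
    exact h1 (hf.mem_toFinset.2 ⟨A, rfl, h2⟩)
  choose A hA using fun j : Fin k => (hinf.natEmbedding _ j).2
  refine ⟨A, fun j => (hA j).2, fun j j' h => ?_⟩
  rw [(hA j).1, (hA j').1] at h
  exact Fin.ext ((hinf.natEmbedding _).injective (Subtype.ext h))

omit [Nice E] in
theorem QW_eq {W : Subgroup (Aut E)} {g g' : Aut E} (h : (g : Aut E ⧸ W) = g') {z : E}
    (hz : z ∈ Fx W) : g z = g' z := by
  have h1 := hz _ (QuotientGroup.eq.1 h)
  have h2 : g ((g⁻¹ * g') z) = g' z := by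
    rw [← AlgEquiv.mul_apply, mul_inv_cancel_left]
  rw [← h2, h1]

omit [Nice E] in
theorem QW_maps {W : Subgroup (Aut E)} [hn : W.Normal] (g : Aut E) {z : E} (hz : z ∈ Fx W) :
    g z ∈ Fx W := by
  intro x hx
  have h1 := hz _ (hn.conj_mem' x hx g)
  have h2 : g ((g⁻¹ * x * g) z) = x (g z) := by
    rw [← AlgEquiv.mul_apply, ← AlgEquiv.mul_apply, mul_assoc, mul_inv_cancel_left]
  rw [← h2, h1]

theorem QW_iff {W : Subgroup (Aut E)} (hW : IsOpen (W : Set (Aut E))) [hn : W.Normal] {A : Pr E}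
    (hA : A.D ≤ W) (g g' : Aut E) :
    (g • A).comap (Fx W).subtype = (g' • A).comap (Fx W).subtype ↔ (g : Aut E ⧸ W) = g' := by
  constructor
  · intro h
    obtain ⟨x, hx, h1⟩ := tr (A := g • A) (A' := g' • A) (W.isClosed_of_isOpen hW)
      fun z hz => congrArg (fun B : Pr (Fx W) => B.w ⟨z, hz⟩) h
    have h2 : g'⁻¹ * x * g ∈ A.D := by
      rw [Pr.mem_D, mul_smul, mul_smul, h1, inv_smul_smul]
    have h3 : g'⁻¹ * x * g * (g⁻¹ * x⁻¹ * g) ∈ W :=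
      W.mul_mem (hA h2) (hn.conj_mem' _ (W.inv_mem hx) g)
    have h4 : g'⁻¹ * x * g * (g⁻¹ * x⁻¹ * g) = g'⁻¹ * g := by group
    rw [h4] at h3
    exact (QuotientGroup.eq.2 h3).symm
  · intro h
    refine Pr.ext' rfl fun z => ?_
    have h1 : ((g⁻¹ : Aut E) : Aut E ⧸ W) = (g'⁻¹ : Aut E) := by
      rw [QuotientGroup.mk_inv, QuotientGroup.mk_inv, h]
    exact congrArg A.w (QW_eq h1 z.2)

theorem QW_elt {W : Subgroup (Aut E)} (hW : IsOpen (W : Set (Aut E))) [hn : W.Normal] {k : ℕ}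
    {A : Fin k → Pr E} (hA : ∀ j, (A j).D ≤ W) (hp : ∀ j j', (A j).p = (A j').p → j = j')
    (j : Fin k) : ∃ (a : E) (e : ℕ), a ≠ 0 ∧ a ∈ Fx W ∧ 0 < e ∧
      (∀ z ∈ Fx W, ∃ m : ℤ, (A j).w z = m / e) ∧
      ∀ (g : Aut E) j', (A j').w (g a) = if g ∈ W ∧ j' = j then (1 : ℚ) / e else 0 := by
  have := numberField_Fx hW
  have : W.FiniteIndex := ⟨index_ne_zero hW⟩
  have := Fintype.ofFinite (Aut E ⧸ W)
  obtain ⟨e, he, -, h1, π, hπ, h2⟩ := Pr.exists_ram ((A j).comap (Fx W).subtype)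
  obtain ⟨a, ha, h3, -⟩ := Pr.exists_w
    (Finset.univ.image fun i : (Aut E ⧸ W) × Fin k => (i.1.out • A i.2).comap (Fx W).subtype)
    (fun B => if B = (A j).comap (Fx W).subtype then π else 1)
    (fun B _ => by split_ifs; exacts [hπ, one_ne_zero])
  refine ⟨a, e, fun h => ha (Subtype.ext h), a.2, he, fun z hz => h1 ⟨z, hz⟩, fun g j' => ?_⟩
  have h4 := h3 ((g⁻¹ • A j').comap (Fx W).subtype) (Finset.mem_image.2
    ⟨(((g⁻¹ : Aut E) : Aut E ⧸ W), j'), Finset.mem_univ _,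
      (QW_iff hW (hA j') _ _).2 (QuotientGroup.out_eq' _)⟩)
  have h5 : ((g⁻¹ • A j').comap (Fx W).subtype).w a = (A j').w (g a) := by
    rw [Pr.comap_w, Pr.smul_w, inv_inv]; rfl
  rw [← h5, h4]
  have h6 : (g⁻¹ • A j').comap (Fx W).subtype = (A j).comap (Fx W).subtype ↔ g ∈ W ∧ j' = j := by
    constructor
    · intro h
      have h7 : j' = j := hp _ _ (congrArg (Pr.p (E := Fx W)) h)
      subst h7
      refine ⟨?_, rfl⟩
      have h8 := (QW_iff hW (hA j') g⁻¹ 1).1 (by rw [one_smul]; exact h)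
      have h9 := QuotientGroup.eq.1 h8
      rwa [inv_inv, mul_one] at h9
    · rintro ⟨h7, rfl⟩
      have h8 := (QW_iff hW (hA j') g⁻¹ 1).2 (QuotientGroup.eq.2 (by rwa [inv_inv, mul_one]))
      rwa [one_smul] at h8
  by_cases h : g ∈ W ∧ j' = j
  · rw [if_pos h, if_pos (h6.2 h), h6.2 h, h2]
  · rw [if_neg h, if_neg (fun h' => h (h6.1 h')), Pr.w_one]

/-- Choose completely split primes `A j` above different prime numbers (`exists_split`). The
restrictions of the `γ • A j` to `K = Fx W` are pairwise different (`tr`). By `Pr.exists_w`,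
`Pr.exists_ram` choose `a j ∈ K` that is a uniformizer at `A j` and a unit at the other ones. The
family `γ.out (a j)` is independent modulo cubes; use `ki`, `kc_conj`, `kc_mul_right`. -/
theorem qw {W : Subgroup (Aut E)} (hW : IsOpen (W : Set (Aut E))) [W.Normal] (h3 : W ≤ Fm E 3)
    (k : ℕ) : ∃ (c : Aut E → (Aut E ⧸ W) × Fin k → ZMod 3) (W' : Subgroup (Aut E)),
      IsOpen (W' : Set (Aut E)) ∧ W' ≤ W ∧ (∀ x ∈ W', c x = 0) ∧
      (∀ x ∈ W, ∀ y ∈ W, c (x * y) = c x + c y) ∧ (∀ v, ∃ x ∈ W, c x = v) ∧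
      ∀ g : Aut E, ∀ x ∈ W, ∀ γ j, c (g * x * g⁻¹) ((g : Aut E ⧸ W) * γ, j) =
        (chi E 3 g : (ZMod 3)ˣ) * c x (γ, j) := by
  have : W.FiniteIndex := ⟨index_ne_zero hW⟩
  have := Fintype.ofFinite (Aut E ⧸ W)
  obtain ⟨A, hA, hp⟩ := QW_split hW k
  choose a e ha hK he hv hw using QW_elt hW hA hp
  have n3 : (3 : ℕ) ≠ 0 := by norm_num
  set b : (Aut E ⧸ W) × Fin k → E := fun i => i.1.out (a i.2) with hb
  have b0 : ∀ i, b i ≠ 0 := fun i => (map_ne_zero _).2 (ha i.2)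
  have bK : ∀ i, b i ∈ Fx W := fun i => QW_maps _ (hK i.2)
  refine ⟨fun x i => kc 3 (b i) x, W ⊓ stab (Set.range fun i => rt 3 (b i)),
    isOpen_inf hW (isOpen_stab (Set.finite_range _)), inf_le_left, fun x hx => ?_,
    fun x hx y hy => ?_, fun v => ?_, fun g x hx γ j => ?_⟩
  · funext i
    exact (kc_eq_zero_iff n3 (b0 i) (bK i x hx.1) (h3 hx.1) (rt_pow n3 _)).2 (hx.2 _ ⟨i, rfl⟩)
  · funext i
    exact kc_mul_right n3 (b0 i) (bK i x hx) (bK i y hy) (h3 hx)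
  · refine (ki Nat.prime_three h3 b b0 bK ?_ v).imp fun x hx => ⟨hx.1, funext hx.2⟩
    rintro f ⟨y, hy, h⟩ ⟨γ, j⟩
    obtain ⟨m, hm⟩ := hv j _ (QW_maps γ.out⁻¹ hy)
    have h1 : (γ.out • A j).w (y ^ 3) = 3 * (m / e j) := by
      rw [Pr.w_pow, Pr.smul_w, hm]; norm_num
    have h2 : ∀ i : (Aut E ⧸ W) × Fin k, (γ.out • A j).w (b i ^ f i) =
        if i = (γ, j) then (f (γ, j) : ℚ) / e j else 0 := by
      rintro ⟨δ, j'⟩
      have h4 : (γ.out • A j).w (b (δ, j')) = (A j).w ((γ.out⁻¹ * δ.out) (a j')) := rfl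
      have h5 : γ.out⁻¹ * δ.out ∈ W ↔ γ = δ := by
        rw [← QuotientGroup.eq, QuotientGroup.out_eq', QuotientGroup.out_eq']
      rw [Pr.w_pow, h4, hw, h5]
      by_cases h6 : γ = δ ∧ j = j'
      · obtain ⟨rfl, rfl⟩ := h6
        rw [if_pos ⟨rfl, rfl⟩, if_pos rfl, mul_one_div]
      · rw [if_neg h6, if_neg, mul_zero]
        intro h7
        exact h6 ⟨(congrArg Prod.fst h7).symm, (congrArg Prod.snd h7).symm⟩
    rw [h, Pr.w_prod _ _ _ fun i _ => pow_ne_zero _ (b0 i)] at h1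
    simp only [h2, Finset.sum_ite_eq', Finset.mem_univ, if_true] at h1
    have h7 : (0 : ℚ) < e j := Nat.cast_pos.2 (he j)
    have h8 : (f (γ, j) : ℚ) = 3 * m := by
      field_simp at h1
      exact h1
    have h9 : (f (γ, j) : ℤ) = 3 * m := by exact_mod_cast h8
    exact Int.natCast_dvd_natCast.1 ⟨m, h9⟩
  · have h1 : b ((g : Aut E ⧸ W) * γ, j) = g (b (γ, j)) := by
      have h2 : ((((g : Aut E ⧸ W) * γ).out : Aut E) : Aut E ⧸ W) = (g * γ.out : Aut E) := by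
        rw [QuotientGroup.out_eq', QuotientGroup.mk_mul, QuotientGroup.out_eq']
      exact QW_eq h2 (hK j)
    simp only [h1]
    exact kc_conj n3 (b0 _) (bK _ x hx) (h3 hx) g

/-- Take `W` open normal inside `U ⊓ Fm 3` without `a`, `b`, and `k = 1`, `x` with `c x` the delta
function at `1`; evaluate `c` of the double commutator at `1`: the value is `1` or `2` up to sign. -/
theorem pr {U : Subgroup (Aut E)} (hU : IsOpen (U : Set (Aut E))) {a b : Aut E} (ha : a ≠ 1)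
    (hb : b ≠ 1) : ∃ x ∈ U, ¬ Commute (a * x * a⁻¹ * x⁻¹) b := by
  have n3 : (3 : ℕ) ≠ 0 := by norm_num
  have hex : ∀ g : Aut E, g ≠ 1 → ∃ W : Subgroup (Aut E), IsOpen (W : Set (Aut E)) ∧ g ∉ W := by
    intro g hg
    by_contra h
    exact hg (eq_one_of_forall fun W h1 _ => by_contra fun h2 => h ⟨W, h1, h2⟩)
  obtain ⟨Wa, ha1, ha2⟩ := hex a ha
  obtain ⟨Wb, hb1, hb2⟩ := hex b hb
  set W := ((U ⊓ Fm E 3) ⊓ (Wa ⊓ Wb)).normalCore with hW
  have hle : W ≤ (U ⊓ Fm E 3) ⊓ (Wa ⊓ Wb) := Subgroup.normalCore_le _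
  have hop : IsOpen (W : Set (Aut E)) :=
    isOpen_normalCore (isOpen_inf (isOpen_inf hU (isOpen_Fm n3)) (isOpen_inf ha1 hb1))
  have hn : W.Normal := Subgroup.normalCore_normal _
  obtain ⟨c, W', -, -, c0, cm, cs, cc⟩ := qw hop (fun x hx => (hle hx).1.2) 1
  obtain ⟨x, hx, hc⟩ := cs fun i => if i.1 = 1 then 1 else 0
  refine ⟨x, (hle hx).1.1, fun h => ?_⟩
  have hax : a * x * a⁻¹ ∈ W := hn.conj_mem x hx a
  have hy : a * x * a⁻¹ * x⁻¹ ∈ W := W.mul_mem hax (W.inv_mem hx)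
  have h1 : c (a * x * a⁻¹ * x⁻¹) + c x = c (a * x * a⁻¹) := by
    rw [← cm _ hy _ hx, inv_mul_cancel_right]
  have h2 : ∀ η : Aut E ⧸ W, c (a * x * a⁻¹ * x⁻¹) (η, 0) + (if η = 1 then 1 else 0) =
      (chi E 3 a : (ZMod 3)ˣ) * (if (a : Aut E ⧸ W)⁻¹ * η = 1 then 1 else 0) := by
    intro η
    have h3 := cc a x hx ((a : Aut E ⧸ W)⁻¹ * η) 0
    rw [mul_inv_cancel_left, ← h1, hc] at h3
    exact h3
  have h3 := cc b _ hy 1 0
  rw [← h.eq, mul_inv_cancel_right, mul_one] at h3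
  have a1 : (a : Aut E ⧸ W) ≠ 1 := fun h' => ha2 (hle ((QuotientGroup.eq_one_iff a).1 h')).2.1
  have b1 : (b : Aut E ⧸ W) ≠ 1 := fun h' => hb2 (hle ((QuotientGroup.eq_one_iff b).1 h')).2.2
  have h4 := h2 1
  have h5 := h2 b
  rw [if_pos rfl, if_neg (by rwa [mul_one, inv_eq_one]), mul_zero] at h4
  rw [if_neg b1, add_zero, h3, eq_neg_of_add_eq_zero_left h4] at h5
  have hu : ∀ u : (ZMod 3)ˣ, (u : ZMod 3) * -1 ≠ u * 1 ∧ (u : ZMod 3) * -1 ≠ 0 := by decide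
  by_cases h6 : (a : Aut E ⧸ W)⁻¹ * b = 1
  · have h7 : a⁻¹ * b ∈ W := QuotientGroup.eq.1 (inv_mul_eq_one.1 h6)
    have h8 := (mem_Fm_iff n3).1 (hle h7).1.2
    rw [map_mul, map_inv, inv_mul_eq_one] at h8
    rw [if_pos h6, h8] at h5
    exact (hu _).1 h5
  · rw [if_neg h6, mul_zero] at h5
    exact (hu _).2 h5

theorem slim {U : Subgroup (Aut E)} (hU : IsOpen (U : Set (Aut E))) {g : Aut E}
    (h : ∀ x ∈ U, Commute g x) : g = 1 := by
  by_contra hg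
  obtain ⟨x, hx, h1⟩ := pr hU hg hg
  apply h1
  rw [(h x hx).eq, mul_inv_cancel_right, mul_inv_cancel]
  exact Commute.one_left g

end Uc
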