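import Vale.Agent.P024.Defs

/-! Principal units modulo powers of `r`, and the auxiliary polynomial. -/

noncomputable section
namespace Uc
open scoped Classical

theorem T1_mul {R : Type} [CommRing R] {ρ π k k' a a' : R} (h : π ∣ ρ)
    (h1 : ρ * π ∣ k - (1 + ρ * a)) (h2 : ρ * π ∣ k' - (1 + ρ * a')) :
    ρ * π ∣ k * k' - (1 + ρ * (a + a')) := by
  obtain ⟨w, rfl⟩ := h
  obtain ⟨u, hu⟩ := h1
  obtain ⟨v, hv⟩ := h2
  exact ⟨u * k' + (1 + π * w * a) * v + w * a * a', by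
    linear_combination k' * hu + (1 + π * w * a) * hv⟩

theorem T1_pow {R : Type} [CommRing R] {ρ π k a : R} (h : π ∣ ρ)
    (h1 : ρ * π ∣ k - (1 + ρ * a)) (n : ℕ) : ρ * π ∣ k ^ n - (1 + ρ * (n * a)) := by
  induction n with
  | zero => simp
  | succ n ih =>
    rw [pow_succ, Nat.cast_succ, add_mul, one_mul]
    exact T1_mul h ih h1

theorem T1_prod {R ι : Type} [CommRing R] {ρ π : R} (h : π ∣ ρ) (k a : ι → R) (s : Finset ι)
    (h1 : ∀ i, ρ * π ∣ k i - (1 + ρ * a i)) :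
    ρ * π ∣ ∏ i ∈ s, k i - (1 + ρ * ∑ i ∈ s, a i) := by
  induction s using Finset.induction_on with
  | empty => simp
  | insert i s hi ih =>
    rw [Finset.prod_insert hi, Finset.sum_insert hi]
    exact T1_mul h (h1 i) ih

theorem T1_A {R : Type} [CommRing R] {r : ℕ} (hr : r.Prime) (h2 : r ≠ 2) (a : R) (m : ℕ) :
    (r : R) ^ (m + 1) * r ∣ (1 + r * a) ^ r ^ m - (1 + (r : R) ^ (m + 1) * a) := by
  have h3 : 3 ≤ r := by
    have := hr.two_le
    omega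
  obtain ⟨y, hy⟩ := ZMod.exists_one_add_mul_pow_prime_pow_eq (R := R) (u := r) (v := r) hr dvd_rfl
    (by rw [← sq, ← pow_succ]; exact pow_dvd_pow _ h3) a m
  exact ⟨y, by rw [hy]; ring⟩

theorem T1_A' {R : Type} [CommRing R] {r : ℕ} (hr : r.Prime) (h2 : r ≠ 2) {u : R}
    (hu : (r : R) ∣ u - 1) (m : ℕ) : (r : R) ^ m ∣ u ^ r ^ m - 1 := by
  obtain ⟨a, ha⟩ := hu
  obtain ⟨y, hy⟩ := T1_A hr h2 a m
  rw [show u = 1 + r * a by linear_combination ha]
  exact ⟨r * a + r * r * y, by linear_combination hy⟩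

theorem T1_one_pow {R : Type} [CommRing R] {π u : R} (hu : π ∣ u - 1) (m : ℕ) : π ∣ u ^ m - 1 :=
  hu.trans (by simpa using sub_dvd_pow_sub_pow u 1 m)

theorem T1_one_mul {R : Type} [CommRing R] {π u v : R} (hu : π ∣ u - 1) (hv : π ∣ v - 1) :
    π ∣ u * v - 1 := by
  rw [show u * v - 1 = (u - 1) * v + (v - 1) by ring]
  exact (hu.mul_right v).add hv

theorem T1_one_prod {R ι : Type} [CommRing R] {π : R} (k : ι → R) (s : Finset ι)
    (h : ∀ i, π ∣ k i - 1) : π ∣ ∏ i ∈ s, k i - 1 :=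
  Finset.prod_induction k (fun u => π ∣ u - 1) (fun _ _ => T1_one_mul) (by simp) fun i _ => h i

theorem T1_dig {R ι : Type} [CommRing R] [Fintype ι] (b : Module.Basis ι ℤ R) {r : ℕ}
    (hr : r ≠ 0) (a : R) : ∃ n : ι → ℕ, (r : R) ∣ a - ∑ i, n i * b i := by
  refine ⟨fun i => (b.repr a i % r).toNat, ∑ i, ((b.repr a i / r : ℤ) : R) * b i, ?_⟩
  rw [sub_eq_iff_eq_add, Finset.mul_sum, ← Finset.sum_add_distrib]
  conv_lhs => rw [← b.sum_repr a]
  refine Finset.sum_congr rfl fun i _ => ?_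
  have h1 : (((b.repr a i % r).toNat : ℤ) : R) = ((b.repr a i % r : ℤ) : R) := by
    rw [Int.toNat_of_nonneg (Int.emod_nonneg _ (by exact_mod_cast hr))]
  have h2 : ((b.repr a i : ℤ) : R) = ((b.repr a i % r + r * (b.repr a i / r) : ℤ) : R) := by
    rw [Int.emod_add_mul_ediv]
  rw [Int.cast_natCast] at h1
  rw [zsmul_eq_mul, h1, h2]
  push_cast
  ring

theorem T1_B {R ι : Type} [CommRing R] [Fintype ι] (b : Module.Basis ι ℤ R) {r : ℕ}
    (hr : r.Prime) (h2 : r ≠ 2) {t : ℕ} {u : R} (hu : (r : R) ^ (t + 1) ∣ u - 1) (s : ℕ) :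
    ∃ e : ι → ℕ, (r : R) ^ (t + s + 1) ∣ u - ∏ i, (1 + r * b i) ^ (r ^ t * e i) := by
  induction s with
  | zero => exact ⟨fun _ => 0, by simpa using hu⟩
  | succ s ih =>
    obtain ⟨e, a, ha⟩ := ih
    obtain ⟨n, w, hw⟩ := T1_dig b hr.ne_zero a
    obtain ⟨v, hv⟩ := T1_prod (dvd_pow_self (r : R) (Nat.succ_ne_zero (t + s)))
      (fun i => ((1 + r * b i) ^ r ^ (t + s)) ^ n i) (fun i => n i * b i) Finset.univ
      fun i => T1_pow (dvd_pow_self _ (Nat.succ_ne_zero _)) (T1_A hr h2 (b i) (t + s)) (n i)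
    obtain ⟨p, hp⟩ := T1_one_prod (π := (r : R)) (fun i => (1 + r * b i) ^ (r ^ t * e i))
      Finset.univ fun i => T1_one_pow (by simp) _
    refine ⟨fun i => e i + r ^ s * n i, ?_⟩
    have e1 : ∏ i, (1 + r * b i) ^ (r ^ t * (e i + r ^ s * n i)) =
        (∏ i, (1 + r * b i) ^ (r ^ t * e i)) * ∏ i, ((1 + r * b i) ^ r ^ (t + s)) ^ n i := by
      rw [← Finset.prod_mul_distrib]
      refine Finset.prod_congr rfl fun i _ => ?_
      rw [← pow_mul, ← pow_add]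
      exact congrArg _ (by ring)
    rw [e1, ← add_assoc, pow_succ _ (t + s + 1)]
    generalize ∏ i, (1 + r * b i) ^ (r ^ t * e i) = P at ha hp
    generalize ∏ i, ((1 + r * b i) ^ r ^ (t + s)) ^ n i = Q at hv
    generalize ∑ i, (n i : R) * b i = S at hv hw
    rw [Nat.succ_eq_add_one] at hv
    generalize (r : R) ^ (t + s + 1) = ρ at ha hv
    exact ⟨w - p * S - P * v, by linear_combination ha + ρ * hw - P * hv - ρ * S * hp⟩

theorem T1_grp {G : Type} [CommGroup G] [Finite G] {e n r c T : ℕ} (hr : r.Prime)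
    (g : Fin (e + 1) → G) (hg : ∀ j, g j ^ r ^ T = 1) (x : Fin n → G)
    (hx : ∀ i, ∃ f : Fin (e + 1) → ℕ, x i = ∏ j, g j ^ f j) (v : Fin (e + 1) → ℕ)
    (hy : ∀ m : Fin n → ℕ, ∏ j, g j ^ (r ^ c * v j) ≠ ∏ i, x i ^ m i) :
    ∃ (i₀ : Fin (e + 1)) (s : Fin e → ℕ), ∀ i, ∃ (a : Fin e → ℕ) (E : ℕ),
      x i = (∏ j, (g (i₀.succAbove j) * g i₀ ^ s j) ^ a j) * (g i₀ ^ E) ^ r ^ c := by
  have h1 : (QuotientGroup.mk' (Subgroup.closure (Set.range x)) (∏ j, g j ^ (r ^ c * v j))) ≠ 1 := by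
    intro h
    obtain ⟨a, ha⟩ := Subgroup.mem_closure_range_iff_of_fintype.1
      ((QuotientGroup.eq_one_iff _).1 h)
    have h2 : ∀ i, ∃ m : ℕ, x i ^ m = x i ^ a i := fun i =>
      mem_powers_iff_mem_zpowers.2 ⟨a i, rfl⟩
    choose m hm using h2
    exact hy m (by simp only [hm, ha])
  obtain ⟨φ, hφ⟩ := CommGroup.exists_apply_ne_one_of_hasEnoughRootsOfUnity _ ℂ h1
  obtain ⟨l, hl1, hl2⟩ : ∃ l : G →* ℂ, (∀ i, l (x i) = 1) ∧ l (∏ j, g j ^ (r ^ c * v j)) ≠ 1 := by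
    refine ⟨(Units.coeHom ℂ).comp (φ.comp (QuotientGroup.mk' _)), fun i => ?_, fun h => hφ ?_⟩
    · have : QuotientGroup.mk' (Subgroup.closure (Set.range x)) (x i) = 1 :=
        (QuotientGroup.eq_one_iff _).2 (Subgroup.subset_closure ⟨i, rfl⟩)
      simp only [MonoidHom.comp_apply, this, map_one]
    · exact Units.ext h
  have h3 : ∀ j, ∃ k, orderOf (l (g j)) = r ^ k := fun j => by
    obtain ⟨k, -, hk⟩ := (Nat.dvd_prime_pow hr).1
      (orderOf_dvd_of_pow_eq_one (show l (g j) ^ r ^ T = 1 by rw [← map_pow, hg, map_one]))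
    exact ⟨k, hk⟩
  choose k hk using h3
  obtain ⟨i₀, -, hi⟩ := Finset.exists_max_image Finset.univ k Finset.univ_nonempty
  have : NeZero (r ^ k i₀) := ⟨pow_ne_zero _ hr.ne_zero⟩
  have hp : IsPrimitiveRoot (l (g i₀)) (r ^ k i₀) := hk i₀ ▸ IsPrimitiveRoot.orderOf _
  have h4 : ∀ j, ∃ a : ℕ, l (g i₀) ^ a = l (g j) := fun j => by
    obtain ⟨a, -, ha⟩ := hp.eq_pow_of_pow_eq_one (ξ := l (g j)) (orderOf_dvd_iff_pow_eq_one.1
      (hk j ▸ pow_dvd_pow r (hi j (Finset.mem_univ _))))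
    exact ⟨a, ha⟩
  choose a ha using h4
  have h5 : c ≤ k i₀ := by
    by_contra hc
    refine hl2 ?_
    rw [map_prod]
    refine Finset.prod_eq_one fun j _ => ?_
    rw [map_pow, ← ha j, ← pow_mul, hp.pow_eq_one_iff_dvd]
    exact ((pow_dvd_pow r (not_le.1 hc).le).mul_right _).mul_left _
  obtain ⟨o, ho⟩ : ∃ o, r ^ T = o + 1 := Nat.exists_eq_succ_of_ne_zero (pow_ne_zero _ hr.ne_zero)
  have h6 : ∀ j, g j = g j * g i₀ ^ (o * a j) * g i₀ ^ a j := fun j => by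
    rw [mul_assoc, ← pow_add, ← add_one_mul, ← ho, pow_mul, hg, one_pow, mul_one]
  have h7 : ∀ j, l (g j * g i₀ ^ (o * a j)) = 1 := fun j => by
    rw [map_mul, ← ha j, ← map_pow, ← map_mul, ← pow_add, add_comm, ← add_one_mul, ← ho, pow_mul,
      hg, one_pow, map_one]
  refine ⟨i₀, fun j => o * a (i₀.succAbove j), fun i => ?_⟩
  obtain ⟨f, hf⟩ := hx i
  have h8 : x i = (∏ j, (g (i₀.succAbove j) * g i₀ ^ (o * a (i₀.succAbove j))) ^ f (i₀.succAbove j))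
      * g i₀ ^ (f i₀ + ∑ j, a (i₀.succAbove j) * f (i₀.succAbove j)) := by
    rw [hf, Fin.prod_univ_succAbove _ i₀, pow_add, ← Finset.prod_pow_eq_pow_sum, mul_left_comm,
      ← Finset.prod_mul_distrib]
    refine congrArg _ (Finset.prod_congr rfl fun j _ => ?_)
    rw [pow_mul (g i₀) (a _), ← mul_pow, ← h6]
  have h9 := hl1 i
  rw [h8, map_mul, map_prod, Finset.prod_eq_one fun j _ => by rw [map_pow, h7, one_pow], one_mul,
    map_pow, hp.pow_eq_one_iff_dvd] at h9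
  obtain ⟨E, hE⟩ := (pow_dvd_pow r h5).trans h9
  exact ⟨_, E, by rw [h8, hE, mul_comm (r ^ c), pow_mul]⟩

/-- See the blueprint, section T1. -/
theorem t1 {R : Type} [CommRing R] [IsDomain R] [CharZero R] {e : ℕ}
    (b : Module.Basis (Fin (e + 1)) ℤ R) {r : ℕ}
    (hr : r.Prime) (h2 : r ≠ 2) {n : ℕ} (x : Fin n → R) (hx : ∀ i, (r : R) ∣ x i - 1) {c T : ℕ}
    {y : R} (hy : (r : R) ^ (c + 1) ∣ y - 1)
    (hn : ∀ m : Fin n → ℕ, ¬ (r : R) ^ T ∣ y - ∏ i, x i ^ m i) :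
    ∃ z : Fin e → R, (∀ j, (r : R) ∣ z j - 1) ∧
      ∀ i, ∃ a : Fin e → ℕ, (r : R) ^ c ∣ x i - ∏ j, z j ^ a j := by
  have hcT : c ≤ T := by
    by_contra hc
    refine hn (fun _ => 0) ?_
    simpa using (pow_dvd_pow (r : R) (by omega : T ≤ c + 1)).trans hy
  have := Module.Free.of_basis b
  have := Module.Finite.of_basis b
  have : Finite (R ⧸ Ideal.span {(r : R) ^ T}) := Ideal.finiteQuotientOfFreeOfNeBot _ (by
    rw [Ne, Ideal.span_singleton_eq_bot]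
    exact pow_ne_zero _ (Nat.cast_ne_zero.2 hr.ne_zero))
  set π := Ideal.Quotient.mk (Ideal.span {(r : R) ^ T}) with hπ
  have hq : ∀ u v : R, π u = π v ↔ (r : R) ^ T ∣ u - v := fun u v => by
    rw [hπ, Ideal.Quotient.eq, Ideal.mem_span_singleton]
  have hU : ∀ u : R, (r : R) ∣ u - 1 →
      ∃ g : (R ⧸ Ideal.span {(r : R) ^ T})ˣ, (g : R ⧸ _) = π u ∧ g ^ r ^ T = 1 := fun u hu => by
    have h1 : π u ^ r ^ T = 1 := by
      rw [← map_pow, ← map_one π, hq]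
      exact T1_A' hr h2 hu T
    obtain ⟨g, hg⟩ := IsUnit.of_pow_eq_one h1 (pow_ne_zero _ hr.ne_zero)
    exact ⟨g, hg, Units.ext (by rw [Units.val_pow_eq_pow_val, hg, h1, Units.val_one])⟩
  have hb : ∀ j, (r : R) ∣ 1 + r * b j - 1 := fun j => by simp
  choose g hg1 hg2 using fun j => hU _ (hb j)
  choose X hX1 _ using fun i => hU _ (hx i)
  obtain ⟨v, hv⟩ := T1_B b hr h2 hy T
  obtain ⟨i₀, s, H⟩ := T1_grp (c := c) hr g hg2 X (fun i => by
    obtain ⟨f, hf⟩ := T1_B b hr h2 (t := 0) (u := x i) (by simpa using hx i) T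
    refine ⟨fun j => r ^ 0 * f j, Units.ext ?_⟩
    simp only [Units.coe_prod, Units.val_pow_eq_pow_val, hg1, hX1, ← map_pow, ← map_prod, hq]
    exact (pow_dvd_pow _ (by omega)).trans hf) v (fun m h => hn m (by
    have h1 := congrArg Units.val h
    simp only [Units.coe_prod, Units.val_pow_eq_pow_val, hg1, hX1, ← map_pow, ← map_prod] at h1
    rw [← hq, ← h1, hq]
    exact (pow_dvd_pow _ (by omega)).trans hv))
  refine ⟨fun j => (1 + r * b (i₀.succAbove j)) * (1 + r * b i₀) ^ s j,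
    fun j => T1_one_mul (hb _) (T1_one_pow (hb _) _), fun i => ?_⟩
  obtain ⟨a, E, h⟩ := H i
  refine ⟨a, ?_⟩
  have h1 := congrArg Units.val h
  simp only [Units.coe_prod, Units.val_pow_eq_pow_val, Units.val_mul, hg1, hX1, ← map_pow,
    ← map_prod, ← map_mul, hq] at h1
  have h3 := (pow_dvd_pow _ hcT).trans h1
  have h4 := T1_A' hr h2 (T1_one_pow (hb i₀) E) c
  generalize ∏ j, ((1 + r * b (i₀.succAbove j)) * (1 + r * b i₀) ^ s j) ^ a j = P at h3 ⊢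
  generalize ((1 + r * b i₀) ^ E) ^ r ^ c = Q at h3 h4
  rw [show x i - P = x i - P * Q + P * (Q - 1) by ring]
  exact h3.add (h4.mul_left P)

end Uc
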