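import Vale.Agent.P024.Defs

/-! Principal units modulo powers of `r`, and the auxiliary polynomial. -/

noncomputable section
namespace Uc
open scoped Classical

/-- Pigeonhole for the `S ^ e` conditions `∑ p i * ∏ (ζ i j - 1) ^ k j ≡ 0` modulo `r ^ S`,
`k j < S`; expand `ζ ^ a = ∑ choose a k * (ζ - 1) ^ k`. -/
theorem t2 {R : Type} [CommRing R] {d : ℕ} (b : Module.Basis (Fin d) ℤ R) {r : ℕ} (hr : 0 < r)
    {ι : Type} [Fintype ι] {e S H : ℕ} (ζ : ι → Fin e → R) (hζ : ∀ i j, (r : R) ∣ ζ i j - 1)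
    (hc : r ^ (S * d * S ^ e) < (H + 1) ^ Fintype.card ι) :
    ∃ p : ι → ℤ, p ≠ 0 ∧ (∀ i, |p i| ≤ H) ∧
      ∀ a : Fin e → ℕ, (r : R) ^ S ∣ ∑ i, (p i : R) * ∏ j, ζ i j ^ a j := by
  haveI : NeZero (r ^ S) := ⟨(pow_pos hr S).ne'⟩
  let F : (ι → Fin (H + 1)) → (Fin e → Fin S) → Fin d → ZMod (r ^ S) := fun p k l =>
    (b.repr (∑ i, (((p i : ℕ) : ℤ) : R) * ∏ j, (ζ i j - 1) ^ (k j : ℕ)) l : ℤ)
  obtain ⟨p, q, hpq, hF⟩ := Fintype.exists_ne_map_eq_of_card_lt F (by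
    simpa [← pow_mul] using hc)
  have key : ∀ k : Fin e → ℕ, (r : R) ^ S ∣
      ∑ i, ((((p i : ℕ) : ℤ) - (q i : ℕ) : ℤ) : R) * ∏ j, (ζ i j - 1) ^ k j := by
    intro k
    by_cases hk : ∀ j, k j < S
    · have h1 := fun l => (ZMod.intCast_eq_intCast_iff_dvd_sub _ _ _).1
        (congrFun (congrFun hF.symm fun j => ⟨k j, hk j⟩) l)
      simp only [← Finsupp.sub_apply, ← map_sub, ← Finset.sum_sub_distrib, ← sub_mul,
        ← Int.cast_sub] at h1
      generalize ∑ i, ((((p i : ℕ) : ℤ) - (q i : ℕ) : ℤ) : R) * ∏ j, (ζ i j - 1) ^ k j = x at h1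
      rw [← b.sum_repr x]
      refine Finset.dvd_sum fun l _ => ?_
      obtain ⟨c, hc⟩ := h1 l
      rw [hc, zsmul_eq_mul]
      push_cast
      exact (dvd_mul_right _ _).mul_right _
    · push Not at hk
      obtain ⟨j, hj⟩ := hk
      exact Finset.dvd_sum fun i _ => Dvd.dvd.mul_left (((pow_dvd_pow_of_dvd (hζ i j) S).trans
        (pow_dvd_pow _ hj)).trans (Finset.dvd_prod_of_mem (fun j => (ζ i j - 1) ^ k j)
          (Finset.mem_univ j))) _
  refine ⟨fun i => ((p i : ℕ) : ℤ) - (q i : ℕ), fun h => hpq (funext fun i => Fin.ext ?_),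
    fun i => ?_, fun a => ?_⟩
  · have := congrFun h i
    simp only [Pi.zero_apply] at this
    omega
  · have := (p i).2
    have := (q i).2
    simp only [abs_le]
    omega
  · have h1 : ∀ i j, ζ i j ^ a j =
        ∑ k ∈ Finset.range (a j + 1), (ζ i j - 1) ^ k * ((a j).choose k : R) := fun i j => by
      simpa using add_pow (ζ i j - 1) 1 (a j)
    simp only [h1, Finset.prod_univ_sum, Finset.mul_sum, Finset.prod_mul_distrib, ← mul_assoc]
    rw [Finset.sum_comm]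
    refine Finset.dvd_sum fun k _ => ?_
    rw [← Finset.sum_mul]
    exact (key k).mul_right _

open NumberField in
/-- Liouville inequality -/
theorem t3 {K : Type} [Field K] [NumberField K] {N : ℕ} {β : 𝓞 K} (h : (N : 𝓞 K) ∣ β)
    (hb : ∀ φ : K →+* ℂ, ‖φ (β : K)‖ < N) : β = 0 := by
  obtain ⟨γ, rfl⟩ := h
  by_contra h0
  obtain ⟨φ, hφ⟩ := NumberField.exists_conjugate_one_le_norm (right_ne_zero_of_mul h0)
  have := hb φ
  simp only [map_mul, map_natCast, norm_mul, Complex.norm_natCast] at this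
  exact this.not_ge (le_mul_of_one_le_right (Nat.cast_nonneg N) hφ)

/-- The choice of parameters: `S = 2 v ^ d u ^ d`, `H + 1 = r ^ (S / 2)`,
`D + 1 = 4 d' v ^ (d-1) u ^ (d-1)`, `M = u`, with `v` and then `u` large. -/
theorem t4 {d d' e n r C : ℕ} (hd : e + 1 ≤ d) (hd' : 1 ≤ d') (hn : d * 2 ^ d < n) (hr : 2 ≤ r)
    (hC : 1 ≤ C) : ∃ S H D M : ℕ, 1 ≤ D ∧ r ^ (S * d' * S ^ e) < (H + 1) ^ (D + 1) ^ d ∧
      (D + 1) ^ d * H * C ^ (d * D * (n * (d * M))) < r ^ S ∧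
      (2 * (d * D)) ^ 2 ^ d < (M + 1) ^ n := by
  obtain ⟨c, rfl⟩ : ∃ c, d = c + 1 := ⟨d - 1, by omega⟩
  obtain ⟨v, hv⟩ : ∃ v, v = 4 * d' * ((c + 1) + C * ((c + 1) * (n * (c + 1)))) := ⟨_, rfl⟩
  obtain ⟨u, hu⟩ : ∃ u, u = 8 * (c + 1) * d' * v ^ c := ⟨_, rfl⟩
  have v0 : 0 < v := by rw [hv]; positivity
  have u0 : 0 < u := by rw [hu]; positivity
  have w0 : 0 < (v * u) ^ c := by positivity
  obtain ⟨D, hD⟩ : ∃ D, D + 1 = 4 * d' * (v * u) ^ c :=
    ⟨4 * d' * (v * u) ^ c - 1, Nat.sub_add_cancel (Nat.succ_le_of_lt (by positivity))⟩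
  obtain ⟨s, hs⟩ : ∃ s, s = (v * u) ^ (c + 1) := ⟨_, rfl⟩
  have s0 : 0 < s := by rw [hs]; positivity
  obtain ⟨H, hH⟩ : ∃ H, H + 1 = r ^ s :=
    ⟨r ^ s - 1, Nat.sub_add_cancel (Nat.succ_le_of_lt (by positivity))⟩
  refine ⟨2 * s, H, D, u, by nlinarith, ?_, ?_, ?_⟩
  · rw [hH, ← pow_mul]
    refine Nat.pow_lt_pow_right hr ?_
    have h1 : (2 * s) ^ e ≤ (2 * s) ^ c := Nat.pow_le_pow_right (by omega) (by omega)
    have h2 : (D + 1) ^ (c + 1) = (4 * d') ^ (c + 1) * s ^ c := by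
      rw [hD, hs, mul_pow, ← pow_mul, ← pow_mul, mul_comm c]
    have h3 : 2 ^ c ≤ (4 * d') ^ c := Nat.pow_le_pow_left (by omega) _
    have h4 : 2 * d' * 2 ^ c < (4 * d') ^ (c + 1) := by
      rw [pow_succ']
      exact Nat.mul_lt_mul_of_lt_of_le (by omega) h3 (by positivity)
    calc 2 * s * d' * (2 * s) ^ e ≤ 2 * s * d' * (2 * s) ^ c := Nat.mul_le_mul_left _ h1
      _ = s * (2 * d' * 2 ^ c * s ^ c) := by ring
      _ < _ := by rw [h2]; gcongr
  · have h1 : (D + 1) ^ (c + 1) ≤ 2 ^ ((D + 1) * u * (c + 1)) := by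
      rw [pow_mul]
      exact Nat.pow_le_pow_left ((Nat.le_mul_of_pos_right _ u0).trans Nat.lt_two_pow_self.le) _
    have h2 : C ^ ((c + 1) * D * (n * ((c + 1) * u))) ≤
        2 ^ ((D + 1) * u * (C * ((c + 1) * (n * (c + 1))))) := by
      refine (Nat.pow_le_pow_left Nat.lt_two_pow_self.le _).trans ?_
      rw [← pow_mul]
      refine Nat.pow_le_pow_right two_pos ?_
      calc _ = D * u * (C * ((c + 1) * (n * (c + 1)))) := by ring
        _ ≤ _ := by gcongr; omega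
    have h3 : (D + 1) * u * (c + 1) + (D + 1) * u * (C * ((c + 1) * (n * (c + 1)))) = s := by
      rw [hs, hD, pow_succ]
      generalize (v * u) ^ c = w
      rw [hv]
      ring
    have h4 := Nat.mul_le_mul h1 h2
    rw [← pow_add, h3] at h4
    have h5 := h4.trans (Nat.pow_le_pow_left hr s)
    rw [mul_right_comm, two_mul s, pow_add r]
    exact Nat.mul_lt_mul_of_le_of_lt h5 (hH ▸ Nat.lt_succ_self H) (by positivity)
  · have h1 : 2 * ((c + 1) * D) ≤ u ^ (c + 1) := by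
      calc _ ≤ 2 * ((c + 1) * (D + 1)) := by gcongr; omega
        _ = (8 * (c + 1) * d' * v ^ c) * u ^ c := by rw [hD]; ring
        _ = _ := by rw [← hu, pow_succ']
    refine (Nat.pow_le_pow_left h1 _).trans_lt ?_
    rw [← pow_mul]
    exact (Nat.pow_le_pow_right u0 hn.le).trans_lt (Nat.pow_lt_pow_left (by omega) (by omega))

end Uc
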