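import Vale.Agent.P024.Defs

/-! A zero estimate on tori. -/

noncomputable section
namespace Uc
open MvPolynomial
open scoped Classical
variable {K : Type} [Field K]

theorem ZE2_res {A : Type} [CommRing A] [IsDomain A] [UniqueFactorizationMonoid A]
    {p q : Polynomial A} (hp : p ≠ 0) (h : IsRelPrime p q) : p.resultant q ≠ 0 := by
  let _ : NormalizedGCDMonoid A := Nonempty.some inferInstance
  have hi := IsFractionRing.injective A (FractionRing A)
  have h1 : IsCoprime (p.map (algebraMap A (FractionRing A))) (q.map (algebraMap A _)) := by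
    refine isRelPrime_iff_isCoprime.1 fun g h1 h2 => ?_
    have h0 : g ≠ 0 := ne_zero_of_dvd_ne_zero ((Polynomial.map_ne_zero_iff hi).2 hp) h1
    obtain ⟨b, hb, e⟩ := IsLocalization.integerNormalization_spec (nonZeroDivisors A) g
    have h3 := Polynomial.map_dvd (algebraMap A (FractionRing A))
      (IsLocalization.integerNormalization (nonZeroDivisors A) g).primPart_dvd
    rw [e, ← algebraMap_smul (FractionRing A), Polynomial.smul_eq_C_mul, IsUnit.dvd_mul_left
      (Polynomial.isUnit_C.2 (IsLocalization.map_units _ ⟨b, hb⟩))] at h3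
    exact Polynomial.isUnit_or_eq_zero_of_isUnit_integerNormalization_primPart h0 (h
      ((Polynomial.isPrimitive_primPart _).dvd_of_fraction_map_dvd_fraction_map (h3.trans h1))
      ((Polynomial.isPrimitive_primPart _).dvd_of_fraction_map_dvd_fraction_map (h3.trans h2)))
  have h2 := Polynomial.resultant_ne_zero _ _ h1
  rw [Polynomial.natDegree_map_eq_of_injective hi, Polynomial.natDegree_map_eq_of_injective hi,
    Polynomial.resultant_map_map] at h2
  exact fun h => h2 (by rw [h, map_zero])

theorem ZE2_det {σ n : Type} [Fintype n] [DecidableEq n] {D : ℕ}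
    (M : Matrix n n (MvPolynomial σ K))
    (h : ∀ i j, (M i j).totalDegree ≤ D) : M.det.totalDegree ≤ Fintype.card n * D := by
  rw [Matrix.det_apply]
  refine totalDegree_finsetSum_le fun s _ => (totalDegree_smul_le _ _).trans
    ((totalDegree_finsetProd _ _).trans ((Finset.sum_le_card_nsmul _ _ D fun i _ => h _ _).trans_eq
      rfl))

theorem ZE2_syl {σ : Type} {D : ℕ} {p q : Polynomial (MvPolynomial σ K)}
    (hp : ∀ i, (p.coeff i).totalDegree ≤ D) (hq : ∀ i, (q.coeff i).totalDegree ≤ D) (m n : ℕ) :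
    (p.resultant q m n).totalDegree ≤ (m + n) * D := by
  refine (ZE2_det (D := D) _ fun i j => ?_).trans_eq (by rw [Fintype.card_fin])
  refine Fin.addCases (fun j => ?_) (fun j => ?_) j <;>
    simp only [Polynomial.sylvester, Matrix.of_apply, Fin.addCases_left, Fin.addCases_right] <;>
    split_ifs
  exacts [hq _, by simp, hp _, by simp]

theorem ZE2_coeff {d D : ℕ} {P : MvPolynomial (Fin (d + 1)) K} (h : P.totalDegree ≤ D) (i : ℕ) :
    ((finSuccEquiv K d P).coeff i).totalDegree ≤ D := by
  by_cases h0 : (finSuccEquiv K d P).coeff i = 0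
  · simp [h0]
  · exact (Nat.le_add_right _ _).trans ((totalDegree_coeff_finSuccEquiv_add_le P i h0).trans h)

/-- Elimination of the first variable with the resultant (`finSuccEquiv`,
`Polynomial.resultant`, Gauss lemma over the fraction field). -/
theorem ze2 {d D : ℕ} (hD : 1 ≤ D) {P Q : MvPolynomial (Fin (d + 1)) K} (hP : P ≠ 0) (hQ : Q ≠ 0)
    (h : IsRelPrime P Q) (h1 : P.totalDegree ≤ D) (h2 : Q.totalDegree ≤ D) :
    ∃ R : MvPolynomial (Fin d) K, R ≠ 0 ∧ R.totalDegree ≤ 2 * D ^ 2 ∧
      ∀ x : Fin (d + 1) → K, eval x P = 0 → eval x Q = 0 → eval (Fin.tail x) R = 0 := by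
  have he : ∀ (x : Fin (d + 1) → K) (S : MvPolynomial (Fin (d + 1)) K), eval x S =
      Polynomial.eval₂ (eval (Fin.tail x)) (x 0) (finSuccEquiv K d S) := fun x S => by
    rw [Polynomial.eval₂_eq_eval_map, ← eval_eq_eval_mv_eval', Fin.cons_self_tail]
  have hp : finSuccEquiv K d P ≠ 0 := (map_ne_zero_iff _ (finSuccEquiv K d).injective).2 hP
  by_cases h0 : (finSuccEquiv K d P).natDegree = 0
  · have e := Polynomial.eq_C_of_natDegree_eq_zero h0
    refine ⟨(finSuccEquiv K d P).coeff 0, fun h => hp (by rw [e, h, map_zero]),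
      (ZE2_coeff h1 0).trans (by nlinarith), fun x hx _ => ?_⟩
    rwa [he, e, Polynomial.eval₂_C] at hx
  refine ⟨(finSuccEquiv K d P).resultant (finSuccEquiv K d Q), ZE2_res hp
    (IsRelPrime.of_map (finSuccEquiv K d).symm (by simpa using h)), ?_, fun x hx hy => ?_⟩
  · refine (ZE2_syl (ZE2_coeff h1) (ZE2_coeff h2) _ _).trans ?_
    rw [natDegree_finSuccEquiv, natDegree_finSuccEquiv]
    have := (degreeOf_le_totalDegree P 0).trans h1
    have := (degreeOf_le_totalDegree Q 0).trans h2
    nlinarith
  · obtain ⟨a, b, -, -, e⟩ := Polynomial.exists_mul_add_mul_eq_C_resultant (finSuccEquiv K d P)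
      (finSuccEquiv K d Q) le_rfl le_rfl (Or.inl h0)
    have := congrArg (Polynomial.eval₂ (eval (Fin.tail x)) (x 0)) e
    rwa [Polynomial.eval₂_add, Polynomial.eval₂_mul, Polynomial.eval₂_mul, ← he, ← he, hx, hy,
      zero_mul, zero_mul, add_zero, Polynomial.eval₂_C, eq_comm] at this

end Uc
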