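import Vale.Agent.P024.ZE1
import Vale.Agent.P024.ZE2

/-! A zero estimate on tori. -/

noncomputable section
namespace Uc
open MvPolynomial
open scoped Classical
variable {K : Type} [Field K]

theorem ZE_strip {d : ℕ} (P : MvPolynomial (Fin d) K) (hP : P ≠ 0) :
    ∃ Q : MvPolynomial (Fin d) K, Q ≠ 0 ∧ Q.totalDegree ≤ P.totalDegree ∧ (∀ s, ¬ X s ∣ Q) ∧
      ∀ x : Fin d → K, (∀ s, x s ≠ 0) → eval x P = 0 → eval x Q = 0 := by
  induction P using (wellFounded_dvdNotUnit (α := MvPolynomial (Fin d) K)).induction with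
  | _ P ih =>
    by_cases h : ∀ s, ¬ X s ∣ P
    · exact ⟨P, hP, le_rfl, h, fun _ _ h => h⟩
    push Not at h
    obtain ⟨s, R, rfl⟩ := h
    have hR : R ≠ 0 := right_ne_zero_of_mul hP
    obtain ⟨Q, h1, h2, h3, h4⟩ := ih R ⟨hR, X s, (X_prime (R := K) (i := s)).not_isUnit,
      mul_comm _ _⟩ hR
    refine ⟨Q, h1, h2.trans (totalDegree_le_of_dvd_of_isDomain (dvd_mul_left _ _) hP), h3,
      fun x hx h => h4 x hx ?_⟩
    rw [map_mul, eval_X] at h
    exact (mul_eq_zero.1 h).resolve_left (hx s)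

/-- induction on `d`; first remove the variables that divide `P` -/
theorem zero_est {d n D M : ℕ} (hD : 1 ≤ D) (ξ : Fin n → Fin d → K) (h0 : ∀ i s, ξ i s ≠ 0)
    (hi : ∀ (m : Fin n → ℤ) (a : Fin d → ℤ), ∏ s, (∏ i, ξ i s ^ m i) ^ a s = 1 → m = 0 ∨ a = 0)
    {P : MvPolynomial (Fin d) K} (hP : P ≠ 0) (hd : P.totalDegree ≤ D)
    (hv : ∀ m : Fin n → ℕ, (∀ i, m i ≤ d * M) → eval (fun s => ∏ i, ξ i s ^ m i) P = 0) :
    (M + 1) ^ n ≤ (2 * D) ^ 2 ^ d := by
  induction d generalizing D with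
  | zero =>
    have h := hv 0 fun _ => Nat.zero_le _
    rw [eq_C_of_isEmpty P, eval_C] at h
    exact absurd (by rw [eq_C_of_isEmpty P, h, map_zero]) hP
  | succ d ih =>
    by_contra hc
    push Not at hc
    obtain ⟨Q, h1, h2, h3, h4⟩ := ZE_strip P hP
    have hQ : ∀ m : Fin n → ℕ, (∀ i, m i ≤ (d + 1) * M) →
        eval (fun s => ∏ i, ξ i s ^ m i) Q = 0 := fun m hm =>
      h4 _ (fun s => Finset.prod_ne_zero_iff.2 fun i _ => pow_ne_zero _ (h0 i s)) (hv m hm)
    have e : (2 * D) ^ 2 ^ (d + 1) = (2 * (2 * D ^ 2)) ^ 2 ^ d := by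
      rw [pow_succ', pow_mul]
      ring
    have hD2 : 1 ≤ 2 * D ^ 2 := by nlinarith
    have hM : D ^ 2 < (M + 1) ^ n := by
      refine lt_of_le_of_lt ?_ hc
      rw [e]
      exact le_trans (by omega) (Nat.le_self_pow (pow_ne_zero d two_ne_zero) _)
    obtain ⟨c, hc1, hc2⟩ := ze1 ξ h0 hi h1 h3 (h2.trans hd) hM
    have h5 : trl (fun s => ∏ i, ξ i s ^ c i) Q ≠ 0 := fun h => by
      rw [h, isRelPrime_zero_right] at hc2
      exact (hc2.map (eval fun s => ∏ i, ξ i s ^ (0 : Fin n → ℕ) i)).ne_zero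
        (hQ 0 fun _ => Nat.zero_le _)
    obtain ⟨R, r1, r2, r3⟩ := ze2 hD h1 h5 hc2 (h2.trans hd)
      ((totalDegree_trl _ _).trans (h2.trans hd))
    refine absurd (e ▸ ih hD2 (fun i s => ξ i s.succ) (fun i s => h0 i _) (fun m a h => ?_) r1 r2
      fun m hm => ?_) hc.not_ge
    · refine (hi m (Fin.cons 0 a) ?_).imp_right fun h => funext fun s => ?_
      · rw [Fin.prod_univ_succ, Fin.cons_zero, zpow_zero, one_mul]
        simpa only [Fin.cons_succ] using h
      · simpa only [Fin.cons_succ, Pi.zero_apply] using congrFun h s.succ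
    · refine r3 (fun s => ∏ i, ξ i s ^ m i) (hQ m fun i => (hm i).trans (by nlinarith)) ?_
      rw [eval_trl]
      have := hQ (c + m) fun i => by
        have := hm i
        have := hc1 i
        rw [Pi.add_apply, add_mul, one_mul]
        omega
      simpa only [Pi.add_apply, pow_add, Finset.prod_mul_distrib] using this

end Uc
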