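import Vale.Agent.P024.T1
import Vale.Agent.P024.T2
import Vale.Agent.P024.ZE

/-! Density of many independent elements in the principal units. -/

noncomputable section
namespace Uc
open NumberField
open scoped Classical

theorem TT_dvd_iff {R : Type} [CommRing R] (N a b : R) :
    N ∣ a - b ↔ Ideal.Quotient.mk (Ideal.span {N}) a = Ideal.Quotient.mk (Ideal.span {N}) b := by
  rw [Ideal.Quotient.eq, Ideal.mem_span_singleton]

theorem TT_exp {k : Type} [Field k] [NumberField k] {r : ℕ} (hr : r ≠ 0) :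
    ∃ e : ℕ, e ≠ 0 ∧ ∀ x : 𝓞 k, IsCoprime x (r : 𝓞 k) → (r : 𝓞 k) ∣ x ^ e - 1 := by
  have h1 : Ideal.span {(r : 𝓞 k)} ≠ ⊥ := by
    rw [Ne, Ideal.span_singleton_eq_bot]
    exact Nat.cast_ne_zero.2 hr
  have := Ideal.finiteQuotientOfFreeOfNeBot _ h1
  refine ⟨Nat.card (𝓞 k ⧸ Ideal.span {(r : 𝓞 k)})ˣ, Nat.card_pos.ne', fun x hx => ?_⟩
  obtain ⟨a, b, hab⟩ := hx
  have h2 : IsUnit (Ideal.Quotient.mk (Ideal.span {(r : 𝓞 k)}) x) := by
    refine IsUnit.of_mul_eq_one (Ideal.Quotient.mk _ a) ?_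
    rw [← map_mul, ← map_one (Ideal.Quotient.mk (Ideal.span {(r : 𝓞 k)})), ← TT_dvd_iff]
    exact ⟨-b, by rw [← hab]; ring⟩
  obtain ⟨u, hu⟩ := h2
  rw [TT_dvd_iff, map_pow, ← hu, ← Units.val_pow_eq_pow_val, pow_card_eq_one', map_one,
    Units.val_one]

theorem TT_poly {K : Type} [Field K] [CharZero K] {d D : ℕ} (p : (Fin d → Fin (D + 1)) → ℤ)
    (hp : p ≠ 0) : ∃ P : MvPolynomial (Fin d) K, P ≠ 0 ∧ P.totalDegree ≤ d * D ∧
      ∀ v : Fin d → K, MvPolynomial.eval v P = ∑ l, (p l : K) * ∏ s, v s ^ (l s : ℕ) := by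
  let F : (Fin d → Fin (D + 1)) → (Fin d →₀ ℕ) := fun l =>
    Finsupp.equivFunOnFinite.symm fun s => (l s : ℕ)
  have hF : Function.Injective F := fun l l' h => by
    funext s
    exact Fin.ext (DFunLike.congr_fun h s)
  refine ⟨∑ l, MvPolynomial.monomial (F l) (p l : K), fun h => hp ?_, ?_, fun v => ?_⟩
  · funext l
    have h1 := congrArg (MvPolynomial.coeff (F l)) h
    rw [MvPolynomial.coeff_sum, Finset.sum_eq_single l
      (fun l' _ hl => by rw [MvPolynomial.coeff_monomial, if_neg fun h2 => hl (hF h2)])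
      (fun h2 => absurd (Finset.mem_univ l) h2), MvPolynomial.coeff_monomial, if_pos rfl,
      MvPolynomial.coeff_zero] at h1
    exact_mod_cast h1
  · refine MvPolynomial.totalDegree_finsetSum_le fun l _ =>
      (MvPolynomial.totalDegree_monomial_le _ _).trans ?_
    rw [Finsupp.sum_fintype _ _ fun _ => rfl]
    refine (Finset.sum_le_card_nsmul _ _ D fun s _ => Nat.lt_succ_iff.1 (l s).2).trans ?_
    simp
  · rw [map_sum]
    refine Finset.sum_congr rfl fun l _ => ?_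
    rw [MvPolynomial.eval_monomial, Finsupp.prod_fintype _ _ fun _ => pow_zero _]
    rfl

theorem TT_main {k k' : Type} [Field k] [NumberField k] [Field k'] [NumberField k'] {d n r : ℕ}
    (σ : Fin d → (k →+* k')) (hd : Module.finrank ℚ k ≤ d) (hr : r.Prime) (h2 : r ≠ 2)
    (hn : d * 2 ^ d < n) (x : Fin n → 𝓞 k) (hx : ∀ i, (r : 𝓞 k) ∣ x i - 1)
    (hi : ∀ (m : Fin n → ℤ) (a : Fin d → ℤ),
      ∏ s, (∏ i, σ s (x i : k) ^ m i) ^ a s = 1 → m = 0 ∨ a = 0) :
    ∃ c : ℕ, ∀ (T : ℕ) (y : 𝓞 k), (r : 𝓞 k) ^ c ∣ y - 1 →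
      ∃ m : Fin n → ℕ, (r : 𝓞 k) ^ T ∣ y - ∏ i, x i ^ m i := by
  obtain ⟨e, he⟩ : ∃ e, Module.finrank ℚ k = e + 1 :=
    ⟨_, (Nat.succ_pred_eq_of_pos Module.finrank_pos).symm⟩
  let b := Module.finBasisOfFinrankEq ℤ (𝓞 k) ((RingOfIntegers.rank k).trans he)
  let b' := Module.finBasisOfFinrankEq ℤ (𝓞 k') (RingOfIntegers.rank k')
  have hx0 : ∀ i, x i ≠ 0 := fun i h => by
    obtain ⟨w, hw⟩ := hx i
    rw [h, zero_sub] at hw
    have h3 : b 0 = (r : ℤ) • (-(w * b 0)) := by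
      rw [zsmul_eq_mul, Int.cast_natCast, mul_neg, ← mul_assoc, ← hw]
      ring
    have h4 := congrArg (fun v => b.repr v 0) h3
    simp only [map_zsmul, Module.Basis.repr_self, Finsupp.single_eq_same, Finsupp.smul_apply,
      smul_eq_mul] at h4
    have h5 : (r : ℤ) ∣ 1 := ⟨_, h4⟩
    exact hr.one_lt.ne' (Nat.dvd_one.1 (by exact_mod_cast h5))
  obtain ⟨C, hC1, hC⟩ : ∃ C : ℕ, 1 ≤ C ∧
      ∀ (φ : k' →+* ℂ) s i, ‖φ (σ s (x i : k))‖ ≤ C := by
    obtain ⟨B, hB⟩ := (Set.finite_range fun q : (k' →+* ℂ) × Fin d × Fin n =>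
      ‖q.1 (σ q.2.1 (x q.2.2 : k))‖).bddAbove
    refine ⟨⌈B⌉₊ + 1, by omega, fun φ s i => (hB ⟨(φ, s, i), rfl⟩).trans ?_⟩
    push_cast
    linarith [Nat.le_ceil B]
  obtain ⟨S, H, D, M, hD, h41, h42, h43⟩ := t4 (d := d) (d' := Module.finrank ℚ k') (e := e)
    (n := n) (r := r) (C := C) (he ▸ hd) Module.finrank_pos hn hr.two_le hC1
  refine ⟨S + 1, fun T y hy => ?_⟩
  by_contra hcon
  obtain ⟨z, hz, hA⟩ := t1 b hr h2 x hx hy fun m hm => hcon ⟨m, hm⟩
  choose A hA using hA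
  let τ : Fin d → (𝓞 k →+* 𝓞 k') := fun s => RingOfIntegers.mapRingHom (σ s)
  let ζ : (Fin d → Fin (D + 1)) → Fin e → 𝓞 k' := fun l j => ∏ s, τ s (z j) ^ (l s : ℕ)
  have hζ : ∀ l j, (r : 𝓞 k') ∣ ζ l j - 1 := fun l j => by
    rw [TT_dvd_iff, map_one, map_prod]
    refine Finset.prod_eq_one fun s _ => ?_
    have h3 := map_dvd (τ s) (hz j)
    rw [map_natCast, map_sub, map_one, TT_dvd_iff, map_one] at h3
    rw [map_pow, h3, one_pow]
  obtain ⟨p, hp0, hpH, hp⟩ := t2 (S := S) (H := H) b' hr.pos ζ hζ (by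
    rw [Fintype.card_fun, Fintype.card_fin, Fintype.card_fin]
    exact h41)
  obtain ⟨P, hP0, hPd, hPe⟩ := TT_poly (K := k') p hp0
  have hd1 : 1 ≤ d := by omega
  refine absurd (zero_est (M := M) (Nat.mul_pos hd1 hD) (fun i s => σ s (x i : k))
    (fun i s => (map_ne_zero _).2 (RingOfIntegers.coe_ne_zero_iff.2 (hx0 i))) hi hP0 hPd
    fun m hm => ?_) (not_le.2 h43)
  have h5 : (r : 𝓞 k) ^ S ∣ ∏ i, x i ^ m i - ∏ j, z j ^ ∑ i, A i j * m i := by
    rw [TT_dvd_iff]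
    simp only [← Finset.prod_pow_eq_pow_sum, pow_mul]
    rw [Finset.prod_comm, map_prod, map_prod]
    refine Finset.prod_congr rfl fun i _ => ?_
    rw [Finset.prod_pow, map_pow, map_pow, (TT_dvd_iff _ _ _).1 (hA i)]
  let β : 𝓞 k' := ∑ l, (p l : 𝓞 k') * ∏ s, τ s (∏ i, x i ^ m i) ^ (l s : ℕ)
  have h6 : ((r ^ S : ℕ) : 𝓞 k') ∣ β := by
    have h7 := hp fun j => ∑ i, A i j * m i
    rw [Nat.cast_pow]
    refine (dvd_iff_dvd_of_dvd_sub ?_).2 h7
    rw [TT_dvd_iff, map_sum, map_sum]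
    refine Finset.sum_congr rfl fun l _ => ?_
    rw [map_mul, map_mul]
    congr 1
    simp only [ζ, ← Finset.prod_pow]
    rw [Finset.prod_comm, map_prod, map_prod]
    refine Finset.prod_congr rfl fun s _ => ?_
    have h8 := map_dvd (τ s) h5
    rw [map_pow, map_natCast, map_sub, TT_dvd_iff] at h8
    rw [map_pow, h8, ← map_pow, map_prod, ← Finset.prod_pow]
    congr 1
    refine Finset.prod_congr rfl fun j _ => ?_
    rw [map_pow, pow_right_comm]
  have h7 : (β : k') = ∑ l, (p l : k') * ∏ s, (∏ i, σ s (x i : k) ^ m i) ^ (l s : ℕ) := by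
    simp only [β, RingOfIntegers.coe_eq_algebraMap, map_sum, map_mul, map_prod, map_pow,
      map_intCast]
    rfl
  have h8 : β = 0 := by
    refine t3 h6 fun φ => lt_of_le_of_lt ?_ (Nat.cast_lt.2 h42)
    have hC1' : (1 : ℝ) ≤ C := by exact_mod_cast hC1
    rw [h7, map_sum]
    refine (norm_sum_le _ _).trans ((Finset.sum_le_card_nsmul _ _
      ((H : ℝ) * (C : ℝ) ^ (d * D * (n * (d * M)))) fun l _ => ?_).trans (le_of_eq ?_))
    · rw [map_mul, norm_mul, map_intCast, Complex.norm_intCast, map_prod, norm_prod]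
      refine mul_le_mul (by exact_mod_cast hpH l) ?_ (by positivity) (by positivity)
      refine (Finset.prod_le_prod (g := fun _ => (C : ℝ) ^ (D * (n * (d * M))))
        (fun _ _ => norm_nonneg _) fun s _ => ?_).trans (le_of_eq ?_)
      · rw [map_pow, norm_pow, map_prod, norm_prod]
        have h9 : ∏ i, ‖φ (σ s (x i : k) ^ m i)‖ ≤ (C : ℝ) ^ (n * (d * M)) := by
          refine (Finset.prod_le_prod (g := fun _ => (C : ℝ) ^ (d * M))
            (fun _ _ => norm_nonneg _) fun i _ => ?_).trans (le_of_eq ?_)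
          · rw [map_pow, norm_pow]
            exact (pow_le_pow_left₀ (norm_nonneg _) (hC φ s i) _).trans
              (pow_le_pow_right₀ hC1' (hm i))
          · rw [Finset.prod_const, Finset.card_univ, Fintype.card_fin, ← pow_mul, mul_comm]
        refine (pow_le_pow_left₀ (by positivity) h9 _).trans ?_
        rw [← pow_mul, mul_comm D]
        exact pow_le_pow_right₀ hC1' (Nat.mul_le_mul_left _ (Nat.lt_succ_iff.1 (l s).2))
      · rw [Finset.prod_const, Finset.card_univ, Fintype.card_fin, ← pow_mul]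
        congr 1
        ring
    · rw [Finset.card_univ, Fintype.card_fun, Fintype.card_fin, Fintype.card_fin, nsmul_eq_mul]
      push_cast
      ring
  rw [hPe, ← h7, h8]
  rfl

/-- See the blueprint, section TT. -/
theorem dens {k k' : Type} [Field k] [NumberField k] [Field k'] [NumberField k'] {d n r : ℕ}
    (σ : Fin d → (k →+* k')) (hd : Module.finrank ℚ k ≤ d) (hr : r.Prime) (h2 : r ≠ 2)
    (hn : d * 2 ^ d < n) (x : Fin n → 𝓞 k) (hx : ∀ i, IsCoprime (x i) (r : 𝓞 k))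
    (hi : ∀ (m : Fin n → ℤ) (a : Fin d → ℤ),
      ∏ s, (∏ i, σ s (x i : k) ^ m i) ^ a s = 1 → m = 0 ∨ a = 0) :
    ∃ c : ℕ, ∀ (T : ℕ) (y : 𝓞 k), (r : 𝓞 k) ^ c ∣ y - 1 →
      ∃ m : Fin n → ℕ, (r : 𝓞 k) ^ T ∣ y - ∏ i, x i ^ m i := by
  obtain ⟨e, he, hxe⟩ := TT_exp (k := k) hr.ne_zero
  obtain ⟨c, hc⟩ := TT_main σ hd hr h2 hn (fun i => x i ^ e) (fun i => hxe _ (hx i))
    fun m a h => by
      refine (hi (fun i => e * m i) a ?_).imp_left fun h1 => ?_
      · rw [← h]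
        refine Finset.prod_congr rfl fun s _ => ?_
        congr 1
        refine Finset.prod_congr rfl fun i _ => ?_
        rw [zpow_mul, zpow_natCast, ← map_pow]
        rfl
      · funext i
        exact (mul_eq_zero.1 (congrFun h1 i)).resolve_left (Nat.cast_ne_zero.2 he)
  refine ⟨c, fun T y hy => ?_⟩
  obtain ⟨m, hm⟩ := hc T y hy
  exact ⟨fun i => e * m i, by simpa only [pow_mul] using hm⟩

end Uc
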