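import Vale.Agent.P024.Val2
import Vale.Agent.P024.Top2

/-! Tame inertia. -/

noncomputable section
namespace Uc
open scoped Classical
variable {E : Type} [Field E] [CharZero E] [Nice E] {A : Pr E}

namespace Tame0

omit [Nice E] in
theorem t_w {g : Aut E} (hg : g • A = A) {x : E} (hx : x ≠ 0) : A.w (g x / x) = 0 := by
  rw [A.w_div ((map_ne_zero g).2 hx) hx, Pr.w_of_smul hg, sub_self]

omit [Nice E] in
theorem t_in {g : Aut E} (hg : g • A = A) {x : E} (hx : x ≠ 0) : A.In (g x / x) :=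
  (t_w hg hx).ge

omit [CharZero E] [Nice E] in
theorem rs_ne {u : E} (hu : u ≠ 0) (h : A.w u = 0) : A.rs u ≠ 0 := by
  have hi : A.In u := h.ge
  rw [Ne, Pr.rs_eq_zero_iff hi, Pr.not_sm_iff hi]
  exact ⟨hu, h⟩

omit [Nice E] in
theorem t_ne {g : Aut E} (hg : g • A = A) {x : E} (hx : x ≠ 0) : A.rs (g x / x) ≠ 0 :=
  rs_ne (div_ne_zero ((map_ne_zero g).2 hx) hx) (t_w hg hx)

omit [Nice E] in
theorem wild_iff {g : Aut E} (hg : g • A = A) :
    A.Wild g ↔ ∀ x, x ≠ 0 → A.rs (g x / x) = 1 := by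
  refine forall_congr' fun x => forall_congr' fun hx => ?_
  rw [← Pr.rs_eq_iff (t_in hg hx) (Pr.In.one A), Pr.rs_one]

omit [Nice E] in
theorem t_mul {g h : Aut E} (hg : g ∈ A.I) (hh : h • A = A) {x : E} (hx : x ≠ 0) :
    A.rs ((g * h) x / x) = A.rs (g x / x) * A.rs (h x / x) := by
  obtain ⟨g1, g2⟩ := Pr.mem_I_iff.1 hg
  have hi := t_in hh hx
  have hi' : A.In (g (h x / x)) := by
    unfold Pr.In
    rw [Pr.w_of_smul g1]
    exact hi
  have e : (g * h) x / x = g x / x * g (h x / x) := by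
    have := (map_ne_zero g).2 hx
    rw [AlgEquiv.mul_apply, map_div₀]
    field_simp
  rw [e, Pr.rs_mul (t_in g1 hx) hi', g2 _ hi]

omit [Nice E] in
theorem t_val {g : Aut E} (hg : g ∈ A.I) {x y : E} (hx : x ≠ 0) (hy : y ≠ 0)
    (h : A.w x = A.w y) : A.rs (g x / x) = A.rs (g y / y) := by
  obtain ⟨g1, g2⟩ := Pr.mem_I_iff.1 hg
  have hu : x / y ≠ 0 := div_ne_zero hx hy
  have wu : A.w (x / y) = 0 := by rw [A.w_div hx hy, h, sub_self]
  have h1 : A.rs (g (x / y) / (x / y)) = 1 := by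
    refine mul_right_cancel₀ (rs_ne hu wu) ?_
    rw [← Pr.rs_mul (t_in g1 hu) wu.ge, div_mul_cancel₀ _ hu, g2 _ wu.ge, one_mul]
  have e : g x / x = g (x / y) / (x / y) * (g y / y) := by
    have := (map_ne_zero g).2 hy
    rw [map_div₀]
    field_simp
  rw [e, Pr.rs_mul (t_in g1 hu) (t_in g1 hy), h1, one_mul]

omit [Nice E] in
theorem t_pow {g : Aut E} (hg : g ∈ A.I) {x : E} (hx : x ≠ 0) (n : ℕ) :
    A.rs ((g ^ n) x / x) = A.rs (g x / x) ^ n := by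
  induction n with
  | zero => rw [pow_zero, pow_zero, AlgEquiv.one_apply, div_self hx, Pr.rs_one]
  | succ n ih => rw [pow_succ, t_mul (A.I.pow_mem hg n) (Pr.mem_I.1 hg).1 hx, ih, pow_succ]

omit [Nice E] in
theorem conj_eq (t g : Aut E) (x : E) : (t * g * t⁻¹) x / x = t (g (t⁻¹ x) / t⁻¹ x) := by
  have h : t (t⁻¹ x) = x := t.apply_symm_apply x
  rw [map_div₀, h, AlgEquiv.mul_apply, AlgEquiv.mul_apply]

end Tame0

open Tame0

theorem exists_wild_subgroup (A : Pr E) : ∃ P : Subgroup (Aut E), ∀ g, g ∈ P ↔ A.Wild g := by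
  refine ⟨{ carrier := {g | A.Wild g}, mul_mem' := ?_, one_mem' := ?_, inv_mem' := ?_ },
    fun g => Iff.rfl⟩
  · intro g h hg hh
    have g1 := Pr.Wild.mem_I hg
    have h1 := Pr.Wild.mem_I hh
    refine (wild_iff (Pr.mem_I.1 (A.I.mul_mem g1 h1)).1).2 fun x hx => ?_
    rw [t_mul g1 (Pr.mem_I.1 h1).1 hx, (wild_iff (Pr.mem_I.1 g1).1).1 hg x hx,
      (wild_iff (Pr.mem_I.1 h1).1).1 hh x hx, one_mul]
  · intro x hx
    rw [AlgEquiv.one_apply, div_self hx, sub_self]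
    exact Pr.Sm.zero A
  · intro g hg
    have g1 := Pr.Wild.mem_I hg
    have g2 := (Pr.mem_I.1 (A.I.inv_mem g1)).1
    refine (wild_iff g2).2 fun x hx => ?_
    have h := t_mul g1 g2 hx
    rw [mul_inv_cancel, AlgEquiv.one_apply, div_self hx, Pr.rs_one,
      (wild_iff (Pr.mem_I.1 g1).1).1 hg x hx, one_mul] at h
    exact h.symm
theorem Pr.Wild.conj {g t : Aut E} (hg : A.Wild g) (ht : t ∈ A.D) : A.Wild (t * g * t⁻¹) := by
  intro x hx
  rw [conj_eq, ← map_one t, ← map_sub]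
  rcases hg (t⁻¹ x) ((map_ne_zero _).2 hx) with h | h
  · exact Or.inl (by rw [h, map_zero])
  · exact Or.inr (by rwa [Pr.w_of_smul (Pr.mem_D.1 ht)])
/-- If the orbit of `z` has size dividing `p ^ a * m` with `m` prime to `p`, put `π = g ^ p ^ a`,
`x = z - π z`; then `∑ π ^ i x = 0` but `∑ π ^ i x / x` is congruent to `m`. -/
theorem Pr.Wild.proL {g : Aut E} (hg : A.Wild g) : ProL A.p g := by
  intro z
  obtain ⟨n, hn, hz⟩ := exists_pow_fix z
  obtain ⟨a, m, hm, rfl⟩ := Nat.exists_eq_pow_mul_and_not_dvd hn.ne' A.p A.prime.ne_one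
  refine ⟨a, ?_⟩
  obtain ⟨P, hP⟩ := exists_wild_subgroup A
  have h1 := hz g
  rw [pow_mul] at h1
  have h2 : g ^ A.p ^ a ∈ P := P.pow_mem ((hP g).2 hg) _
  generalize g ^ A.p ^ a = π at h1 h2
  by_contra hne
  have hx : z - π z ≠ 0 := sub_ne_zero.2 (Ne.symm hne)
  have h3 : ∀ i : ℕ, (π ^ i) • A = A := fun i =>
    (Pr.mem_I.1 (Pr.Wild.mem_I ((hP _).1 (P.pow_mem h2 i)))).1
  have h4 : ∑ i ∈ Finset.range m, (π ^ i) (z - π z) / (z - π z) = 0 := by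
    have e : ∀ i : ℕ, (π ^ i) (z - π z) = (π ^ i) z - (π ^ (i + 1)) z := fun i => by
      rw [map_sub, pow_succ, AlgEquiv.mul_apply]
    rw [← Finset.sum_div]
    simp only [e]
    rw [Finset.sum_range_sub' (fun i => (π ^ i) z), h1, pow_zero, AlgEquiv.one_apply, sub_self,
      zero_div]
  have h5 := congrArg A.rs h4
  rw [Pr.rs_sum _ _ fun i _ => t_in (h3 i) hx, Pr.rs_zero,
    Finset.sum_congr rfl fun i _ => (wild_iff (h3 i)).1 ((hP _).1 (P.pow_mem h2 i)) _ hx,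
    Finset.sum_const, Finset.card_range, nsmul_eq_mul, mul_one, ← Pr.rs_natCast,
    Pr.rs_eq_zero_iff (Pr.In.natCast A m), Pr.sm_natCast_iff] at h5
  exact hm h5
/-- The tame character `t g x = rs (g x / x)` is multiplicative in `g ∈ A.I`, depends only on
`A.w x`, and `t (φ τ φ⁻¹) x = (t τ x) ^ q`. -/
theorem wild_frob {q : ℕ} {φ τ : Aut E} (hφ : A.IsFrob q φ) (hτ : τ ∈ A.I) :
    A.Wild ((τ ^ q)⁻¹ * (φ * τ * φ⁻¹)) := by
  obtain ⟨f1, f2⟩ := Pr.isFrob_iff.1 hφ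
  have a1 : τ ^ q ∈ A.I := A.I.pow_mem hτ q
  have b1 : φ * τ * φ⁻¹ ∈ A.I := by
    have := Pr.conj_mem_I hτ φ
    rwa [f1] at this
  have c1 := (Pr.mem_I.1 (A.I.mul_mem (A.I.inv_mem a1) b1)).1
  refine (wild_iff c1).2 fun x hx => ?_
  have hy : φ⁻¹ x ≠ 0 := (map_ne_zero _).2 hx
  have f3 : φ⁻¹ • A = A := by rw [inv_smul_eq_iff, f1]
  have h := t_mul a1 c1 hx
  rw [mul_inv_cancel_left, conj_eq, f2 _ (t_in (Pr.mem_I.1 hτ).1 hy),
    t_val hτ hy hx (Pr.w_of_smul f3 x), ← t_pow hτ hx] at h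
  exact mul_left_cancel₀ (t_ne (Pr.mem_I.1 a1).1 hx) (h.symm.trans (mul_one _).symm)
theorem wild_comm {σ τ : Aut E} (hσ : σ ∈ A.I) (hτ : τ ∈ A.I) :
    A.Wild (τ⁻¹ * (σ * τ * σ⁻¹)) := by
  have h := wild_frob (Pr.isFrob_one.2 hσ) hτ
  rwa [pow_one] at h

end Uc
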