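import Vale.Agent.P024.Val

/-! The topological group of automorphisms. -/

noncomputable section
namespace Uc
open scoped Classical
variable {E : Type} [Field E] [CharZero E] [Nice E]

theorem Top0_open {s : Set E} (hs : s.Finite) : IsOpen (stab s : Set (Aut E)) := by
  have e : (stab s : Set (Aut E)) = ⋂ z ∈ s, (MulAction.stabilizer (Aut E) z : Set (Aut E)) := by
    ext g
    simp only [SetLike.mem_coe, mem_stab, Set.mem_iInter, MulAction.mem_stabilizer_iff]
    rfl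
  rw [e]
  exact hs.isOpen_biInter fun z _ => stabilizer_isOpen_of_isIntegral z

theorem Top0_nhds {U : Set (Aut E)} (hU : U ∈ nhds (1 : Aut E)) :
    ∃ s : Finset E, (stab (s : Set E) : Set (Aut E)) ⊆ U := by
  obtain ⟨F, hF, h⟩ := (krullTopology_mem_nhds_one_iff ℚ E U).1 hU
  obtain ⟨S, hS⟩ := Module.Finite.fg_top (R := ℚ) (M := F)
  refine ⟨S.image Subtype.val, fun g hg => h ?_⟩
  rw [SetLike.mem_coe, IntermediateField.mem_fixingSubgroup_iff]
  intro x hx
  have key : ∀ y : F, y ∈ Submodule.span ℚ (S : Set F) → g (y : E) = y := by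
    intro y hy
    induction hy using Submodule.span_induction with
    | mem y hy => exact hg y (Finset.mem_coe.2 (Finset.mem_image_of_mem _ hy))
    | zero => exact map_zero g
    | add a b _ _ ha hb => rw [IntermediateField.coe_add, map_add, ha, hb]
    | smul c a _ ha => rw [IntermediateField.coe_smul, map_rat_smul, ha]
  exact key ⟨x, hx⟩ (hS ▸ Submodule.mem_top)

/-- Ultrafilter argument: each `g z` takes finitely many values; the limit is a field
endomorphism, hence bijective. -/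
instance compactSpace_aut : CompactSpace (Aut E) := by
  refine ⟨isCompact_iff_ultrafilter_le_nhds.2 fun f _ => ?_⟩
  have h1 : ∀ z : E, ∃ y : E, ∀ᶠ g in (f : Filter (Aut E)), g z = y := by
    intro z
    have hz : IsIntegral ℚ z := Algebra.IsIntegral.isIntegral z
    obtain ⟨y, _, hy⟩ := Ultrafilter.eq_pure_of_finite_mem (f := f.map fun g : Aut E => g z)
      (Polynomial.rootSet_finite (minpoly ℚ z) E) (by
        rw [Ultrafilter.mem_map]
        refine Filter.univ_mem' fun g => ?_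
        rw [Set.mem_preimage, Polynomial.mem_rootSet]
        exact ⟨minpoly.ne_zero hz, by rw [Polynomial.aeval_algHom_apply, minpoly.aeval, map_zero]⟩)
    refine ⟨y, ?_⟩
    have h2 : ({y} : Set E) ∈ f.map fun g : Aut E => g z := by
      rw [hy]
      exact Ultrafilter.mem_pure.2 rfl
    exact h2
  choose φ hφ using h1
  let ψ : E →ₐ[ℚ] E :=
    { toFun := φ
      map_one' := by
        obtain ⟨g, hg⟩ := (hφ 1).exists
        rw [← hg, map_one]
      map_mul' := fun a b => by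
        obtain ⟨g, h1, h2, h3⟩ := ((hφ (a * b)).and ((hφ a).and (hφ b))).exists
        rw [← h1, ← h2, ← h3, map_mul]
      map_zero' := by
        obtain ⟨g, hg⟩ := (hφ 0).exists
        rw [← hg, map_zero]
      map_add' := fun a b => by
        obtain ⟨g, h1, h2, h3⟩ := ((hφ (a + b)).and ((hφ a).and (hφ b))).exists
        rw [← h1, ← h2, ← h3, map_add]
      commutes' := fun r => by
        obtain ⟨g, hg⟩ := (hφ (algebraMap ℚ E r)).exists
        rw [← hg, AlgEquiv.commutes] }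
  let σ : Aut E := AlgEquiv.ofBijective ψ (Algebra.IsAlgebraic.algHom_bijective ψ)
  refine ⟨σ, Set.mem_univ _, fun U hU => ?_⟩
  have h2 : (fun x => σ * x) ⁻¹' U ∈ nhds (1 : Aut E) :=
    (continuous_const_mul σ).continuousAt.preimage_mem_nhds (by rwa [mul_one])
  obtain ⟨s, hs⟩ := Top0_nhds h2
  have h3 : ∀ᶠ g in (f : Filter (Aut E)), ∀ z ∈ s, g z = φ z :=
    (Filter.eventually_all_finset s).2 fun z _ => hφ z
  filter_upwards [h3] with g hg
  have h4 : σ⁻¹ * g ∈ stab (s : Set E) := fun z hz => by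
    rw [AlgEquiv.mul_apply, hg z hz]
    exact σ.symm_apply_apply z
  have h5 := hs h4
  rwa [Set.mem_preimage, mul_inv_cancel_left] at h5

instance t2Space_aut : T2Space (Aut E) := krullTopology_t2

theorem Top0_eval (z : E) (P : E → Prop) : IsOpen {g : Aut E | P (g z)} := by
  refine isOpen_iff_mem_nhds.2 fun g hg => ?_
  have h : IsOpen ((fun x => g⁻¹ * x) ⁻¹' (stab ({z} : Set E) : Set (Aut E))) :=
    (Top0_open (Set.finite_singleton z)).preimage (continuous_const_mul _)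
  refine Filter.mem_of_superset (h.mem_nhds ?_) fun x hx => ?_
  · rw [Set.mem_preimage, inv_mul_cancel]
    exact one_mem _
  · have h1 : (g⁻¹ * x) z = z := hx z rfl
    have h2 : x z = g z := by
      conv_rhs => rw [← h1, ← AlgEquiv.mul_apply, mul_inv_cancel_left]
    show P (x z)
    rw [h2]
    exact hg

theorem isClopen_eval (z : E) (P : E → Prop) : IsClopen {g : Aut E | P (g z)} :=
  ⟨⟨Top0_eval z fun y => ¬ P y⟩, Top0_eval z P⟩
theorem isOpen_stab {s : Set E} (hs : s.Finite) : IsOpen (stab s : Set (Aut E)) := Top0_open hs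
theorem isClosed_stab (s : Set E) : IsClosed (stab s : Set (Aut E)) := by
  have e : (stab s : Set (Aut E)) = ⋂ z ∈ s, {g : Aut E | g z = z} := by
    ext g
    simp only [SetLike.mem_coe, mem_stab, Set.mem_iInter, Set.mem_ofPred_eq]
  rw [e]
  exact isClosed_biInter fun z _ => (isClopen_eval z fun y => y = z).isClosed
theorem isOpen_iff {W : Subgroup (Aut E)} :
    IsOpen (W : Set (Aut E)) ↔ ∃ s : Finset E, stab (s : Set E) ≤ W :=
  ⟨fun h => Top0_nhds (h.mem_nhds (one_mem W)),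
    fun ⟨s, hs⟩ => Subgroup.isOpen_mono hs (isOpen_stab s.finite_toSet)⟩
theorem isOpen_top : IsOpen ((⊤ : Subgroup (Aut E)) : Set (Aut E)) := isOpen_univ
theorem isOpen_inf {W W' : Subgroup (Aut E)} (h : IsOpen (W : Set (Aut E)))
    (h' : IsOpen (W' : Set (Aut E))) : IsOpen ((W ⊓ W' : Subgroup (Aut E)) : Set (Aut E)) :=
  h.inter h'
theorem index_ne_zero {W : Subgroup (Aut E)} (h : IsOpen (W : Set (Aut E))) : W.index ≠ 0 :=
  haveI := W.quotient_finite_of_isOpen h
  Subgroup.index_ne_zero_of_finite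
theorem isOpen_normalCore {W : Subgroup (Aut E)} (h : IsOpen (W : Set (Aut E))) :
    IsOpen (W.normalCore : Set (Aut E)) :=
  haveI : W.FiniteIndex := ⟨index_ne_zero h⟩
  Subgroup.isOpen_of_isClosed_of_finiteIndex _ (W.normalCore_isClosed (W.isClosed_of_isOpen h))
theorem isOpen_of_closed {W H : Subgroup (Aut E)} (hW : IsOpen (W : Set (Aut E)))
    (hH : IsClosed (H : Set (Aut E))) (hi : H.relIndex W ≠ 0) : IsOpen (H : Set (Aut E)) := by
  have : (H ⊓ W).FiniteIndex := ⟨by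
    rw [← Subgroup.relIndex_mul_index (inf_le_right : H ⊓ W ≤ W), Subgroup.inf_relIndex_right]
    exact mul_ne_zero hi (index_ne_zero hW)⟩
  exact Subgroup.isOpen_mono (inf_le_left : H ⊓ W ≤ H)
    (Subgroup.isOpen_of_isClosed_of_finiteIndex _ (hH.inter (W.isClosed_of_isOpen hW)))
theorem isOpen_conj {W : Subgroup (Aut E)} (h : IsOpen (W : Set (Aut E))) (t : Aut E) :
    IsOpen ((W.comap (MulAut.conj t).toMonoidHom : Subgroup (Aut E)) : Set (Aut E)) :=
  h.preimage (IsTopologicalGroup.continuous_conj t)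
theorem exists_pow_mem {W : Subgroup (Aut E)} (h : IsOpen (W : Set (Aut E))) :
    ∃ n : ℕ, 0 < n ∧ ∀ g : Aut E, g ^ n ∈ W :=
  ⟨W.normalCore.index, Nat.pos_of_ne_zero (index_ne_zero (isOpen_normalCore h)),
    fun g => W.normalCore_le (W.normalCore.pow_index_mem g)⟩
theorem exists_pow_fix (z : E) : ∃ n : ℕ, 0 < n ∧ ∀ g : Aut E, (g ^ n) z = z := by
  obtain ⟨n, hn, h⟩ := exists_pow_mem (isOpen_stab (Set.finite_singleton z))
  exact ⟨n, hn, fun g => h g z rfl⟩
/-- an open neighbourhood of `g` contains a coset of an open normal subgroup -/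
theorem exists_normal_subset {O : Set (Aut E)} (hO : IsOpen O) {g : Aut E} (hg : g ∈ O) :
    ∃ W : Subgroup (Aut E), IsOpen (W : Set (Aut E)) ∧ W.Normal ∧ ∀ x ∈ W, g * x ∈ O := by
  have h2 : (fun x => g * x) ⁻¹' O ∈ nhds (1 : Aut E) :=
    (continuous_const_mul g).continuousAt.preimage_mem_nhds (by rw [mul_one]; exact hO.mem_nhds hg)
  obtain ⟨s, hs⟩ := Top0_nhds h2
  exact ⟨(stab (s : Set E)).normalCore, isOpen_normalCore (isOpen_stab s.finite_toSet),
    inferInstance, fun x hx => hs (Subgroup.normalCore_le _ hx)⟩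
theorem eq_one_of_forall {g : Aut E}
    (h : ∀ W : Subgroup (Aut E), IsOpen (W : Set (Aut E)) → W.Normal → g ∈ W) : g = 1 :=
  AlgEquiv.ext fun z => Subgroup.normalCore_le _
    (h _ (isOpen_normalCore (isOpen_stab (Set.finite_singleton z))) inferInstance) z rfl
theorem mem_of_approx {C : Set (Aut E)} (hC : IsClosed C) {g : Aut E}
    (h : ∀ W : Subgroup (Aut E), IsOpen (W : Set (Aut E)) → W.Normal → ∃ x ∈ C, x⁻¹ * g ∈ W) :
    g ∈ C := by
  by_contra hg
  obtain ⟨W, h1, h2, h3⟩ := exists_normal_subset hC.isOpen_compl hg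
  obtain ⟨x, hx, h4⟩ := h W h1 h2
  have h5 := h3 _ (W.inv_mem h4)
  rw [mul_inv_rev, inv_inv, mul_inv_cancel_left] at h5
  exact h5 hx
/-- compactness, indexed by open normal subgroups -/
theorem exists_of_levels (C : Subgroup (Aut E) → Set (Aut E))
    (hc : ∀ W : Subgroup (Aut E), IsOpen (W : Set (Aut E)) → W.Normal → IsClosed (C W))
    (hn : ∀ W : Subgroup (Aut E), IsOpen (W : Set (Aut E)) → W.Normal → (C W).Nonempty)
    (hm : ∀ W W' : Subgroup (Aut E), IsOpen (W : Set (Aut E)) → W.Normal →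
      IsOpen (W' : Set (Aut E)) → W'.Normal → W ≤ W' → C W ⊆ C W') :
    ∃ g, ∀ W : Subgroup (Aut E), IsOpen (W : Set (Aut E)) → W.Normal → g ∈ C W := by
  have : Nonempty {W : Subgroup (Aut E) // IsOpen (W : Set (Aut E)) ∧ W.Normal} :=
    ⟨⟨⊤, isOpen_top, inferInstance⟩⟩
  obtain ⟨g, hg⟩ := IsCompact.nonempty_iInter_of_directed_nonempty_isCompact_isClosed
    (fun W : {W : Subgroup (Aut E) // IsOpen (W : Set (Aut E)) ∧ W.Normal} => C W.1)
    (fun W W' => by
      have := W.2.2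
      have := W'.2.2
      have ho := isOpen_inf W.2.1 W'.2.1
      exact ⟨⟨W.1 ⊓ W'.1, ho, inferInstance⟩, hm _ _ ho inferInstance W.2.1 W.2.2 inf_le_left,
        hm _ _ ho inferInstance W'.2.1 W'.2.2 inf_le_right⟩)
    (fun W => hn _ W.2.1 W.2.2) (fun W => (hc _ W.2.1 W.2.2).isCompact) fun W => hc _ W.2.1 W.2.2
  exact ⟨g, fun W h1 h2 => Set.mem_iInter.1 hg ⟨W, h1, h2⟩⟩
/-- solving an equation level by level -/
theorem exists_eq_of_levels {C : Set (Aut E)} (hC : IsClosed C) {f g : Aut E → Aut E}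
    (hf : Continuous f) (hg : Continuous g)
    (h : ∀ W : Subgroup (Aut E), IsOpen (W : Set (Aut E)) → W.Normal →
      ∃ x ∈ C, (f x)⁻¹ * g x ∈ W) : ∃ x ∈ C, f x = g x := by
  obtain ⟨x, hx⟩ := exists_of_levels (fun W => C ∩ (fun x => (f x)⁻¹ * g x) ⁻¹' (W : Set (Aut E)))
    (fun W h1 _ => hC.inter ((W.isClosed_of_isOpen h1).preimage (hf.inv.mul hg)))
    (fun W h1 h2 => h W h1 h2) fun W W' _ _ _ _ hle y hy => ⟨hy.1, hle hy.2⟩
  exact ⟨x, (hx ⊤ isOpen_top inferInstance).1,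
    inv_mul_eq_one.1 (eq_one_of_forall fun W h1 h2 => (hx W h1 h2).2)⟩
theorem exists_transversal {W W' : Subgroup (Aut E)} (h' : IsOpen (W' : Set (Aut E))) :
    ∃ T : Finset (Aut E), (∀ t ∈ T, t ∈ W) ∧ (∀ g ∈ W, ∃ t ∈ T, t⁻¹ * g ∈ W') ∧
      ∀ t ∈ T, ∀ t' ∈ T, t⁻¹ * t' ∈ W' → t = t' := by
  have := W'.quotient_finite_of_isOpen h'
  have : Fintype {q : Aut E ⧸ W' // ∃ g ∈ W, (g : Aut E ⧸ W') = q} := Fintype.ofFinite _
  have h1 : ∀ q : {q : Aut E ⧸ W' // ∃ g ∈ W, (g : Aut E ⧸ W') = q},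
      ∃ g ∈ W, (g : Aut E ⧸ W') = q.1 := fun q => q.2
  choose r hr1 hr2 using h1
  refine ⟨Finset.univ.image r, fun t ht => ?_, fun g hg => ?_, fun t ht t' ht' h => ?_⟩
  · obtain ⟨q, _, rfl⟩ := Finset.mem_image.1 ht
    exact hr1 q
  · exact ⟨r ⟨g, g, hg, rfl⟩, Finset.mem_image_of_mem _ (Finset.mem_univ _),
      QuotientGroup.eq.1 (hr2 _)⟩
  · obtain ⟨q, _, rfl⟩ := Finset.mem_image.1 ht
    obtain ⟨q', _, rfl⟩ := Finset.mem_image.1 ht'
    have h2 := QuotientGroup.eq.2 h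
    rw [hr2, hr2] at h2
    rw [Subtype.ext h2]
/-- sums and products over a transversal are invariant -/
theorem transversal_prod {W W' : Subgroup (Aut E)} (hle : W' ≤ W) {T : Finset (Aut E)}
    (h1 : ∀ t ∈ T, t ∈ W) (h2 : ∀ g ∈ W, ∃ t ∈ T, t⁻¹ * g ∈ W')
    (h3 : ∀ t ∈ T, ∀ t' ∈ T, t⁻¹ * t' ∈ W' → t = t') {M : Type} [CommMonoid M] (f : Aut E → M)
    (hf : ∀ g ∈ W, ∀ x ∈ W', f (g * x) = f g) {g : Aut E} (hg : g ∈ W) :
    ∏ t ∈ T, f (g * t) = ∏ t ∈ T, f t := by
  have h4 : ∀ t ∈ T, ∃ u ∈ T, u⁻¹ * (g * t) ∈ W' := fun t ht => h2 _ (W.mul_mem hg (h1 t ht))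
  choose π hπ1 hπ2 using h4
  have hinj : ∀ a ha b hb, π a ha = π b hb → a = b := by
    intro a ha b hb e
    refine h3 a ha b hb ?_
    have h5 := W'.mul_mem (W'.inv_mem (hπ2 a ha)) (hπ2 b hb)
    rw [e] at h5
    have e2 : ((π b hb)⁻¹ * (g * a))⁻¹ * ((π b hb)⁻¹ * (g * b)) = a⁻¹ * b := by group
    rwa [e2] at h5
  refine Finset.prod_bij π hπ1 hinj (fun b hb => ?_) fun a ha => ?_
  · obtain ⟨a, ha, e⟩ := Finset.surj_on_of_inj_on_of_card_le π hπ1
      (fun a b ha hb => hinj a ha b hb) le_rfl b hb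
    exact ⟨a, ha, e.symm⟩
  · rw [← hf _ (h1 _ (hπ1 a ha)) _ (hπ2 a ha), mul_inv_cancel_left]
theorem transversal_sum {W W' : Subgroup (Aut E)} (hle : W' ≤ W) {T : Finset (Aut E)}
    (h1 : ∀ t ∈ T, t ∈ W) (h2 : ∀ g ∈ W, ∃ t ∈ T, t⁻¹ * g ∈ W')
    (h3 : ∀ t ∈ T, ∀ t' ∈ T, t⁻¹ * t' ∈ W' → t = t') {M : Type} [AddCommMonoid M] (f : Aut E → M)
    (hf : ∀ g ∈ W, ∀ x ∈ W', f (g * x) = f g) {g : Aut E} (hg : g ∈ W) :
    ∑ t ∈ T, f (g * t) = ∑ t ∈ T, f t :=
  transversal_prod hle h1 h2 h3 (M := Multiplicative M) (fun x => Multiplicative.ofAdd (f x))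
    (fun g hg x hx => congrArg Multiplicative.ofAdd (hf g hg x hx)) hg

end Uc
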