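import Vale.Agent.P024.Defs

/-! Basic properties of primes. -/

noncomputable section
namespace Uc
open scoped Classical
namespace Pr
variable {E K : Type} [Field E] [Field K] {A B : Pr E} {x y z : E}

theorem p_ne_zero (A : Pr E) : (A.p : E) ≠ 0 := fun h => by
  have := A.w_p
  rw [h, A.w_zero] at this
  exact zero_ne_one this
theorem w_div (A : Pr E) (hx : x ≠ 0) (hy : y ≠ 0) : A.w (x / y) = A.w x - A.w y := by
  rw [div_eq_mul_inv, A.w_mul _ _ hx (inv_ne_zero hy), A.w_inv, sub_eq_add_neg]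
theorem w_pow (A : Pr E) (x : E) (n : ℕ) : A.w (x ^ n) = n * A.w x := by
  rcases eq_or_ne x 0 with rfl | hx
  · rcases n with _ | n
    · simp [A.w_one]
    · simp [A.w_zero]
  induction n with
  | zero => simp [A.w_one]
  | succ n ih =>
    rw [pow_succ, A.w_mul _ _ (pow_ne_zero _ hx) hx, ih]
    push_cast; ring
theorem w_zpow (A : Pr E) (x : E) (n : ℤ) : A.w (x ^ n) = n * A.w x := by
  obtain ⟨m, rfl | rfl⟩ := n.eq_nat_or_neg
  · rw [zpow_natCast, A.w_pow]; simp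
  · rw [zpow_neg, zpow_natCast, A.w_inv, A.w_pow]; simp
theorem w_prod {ι : Type} (A : Pr E) (s : Finset ι) (f : ι → E) (h : ∀ i ∈ s, f i ≠ 0) :
    A.w (∏ i ∈ s, f i) = ∑ i ∈ s, A.w (f i) := by
  induction s using Finset.induction_on with
  | empty => simp [A.w_one]
  | insert a s ha ih =>
    have h' : ∀ i ∈ s, f i ≠ 0 := fun i hi => h i (Finset.mem_insert_of_mem hi)
    rw [Finset.prod_insert ha, Finset.sum_insert ha,
      A.w_mul _ _ (h a (Finset.mem_insert_self _ _)) (Finset.prod_ne_zero_iff.2 h'), ih h']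
theorem w_sub_comm (A : Pr E) (x y : E) : A.w (x - y) = A.w (y - x) := by
  rw [← A.w_neg, neg_sub]

theorem Ge.zero (A : Pr E) (t : ℚ) : A.Ge t 0 := Or.inl rfl
theorem Ge.self (A : Pr E) (x : E) : A.Ge (A.w x) x := Or.inr le_rfl
theorem Ge.mono {s t : ℚ} (h : A.Ge t x) (hst : s ≤ t) : A.Ge s x :=
  h.imp id fun h => hst.trans h
theorem Ge.add {t : ℚ} (hx : A.Ge t x) (hy : A.Ge t y) : A.Ge t (x + y) := by
  rcases eq_or_ne x 0 with rfl | h1
  · rwa [zero_add]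
  rcases eq_or_ne y 0 with rfl | h2
  · rwa [add_zero]
  rcases eq_or_ne (x + y) 0 with h3 | h3
  · exact Or.inl h3
  exact Or.inr ((le_min (hx.resolve_left h1) (hy.resolve_left h2)).trans (A.w_add _ _ h1 h2 h3))
theorem Ge.neg {t : ℚ} (hx : A.Ge t x) : A.Ge t (-x) :=
  hx.imp (fun h => by rw [h, neg_zero]) fun h => by rwa [A.w_neg]
theorem Ge.sub {t : ℚ} (hx : A.Ge t x) (hy : A.Ge t y) : A.Ge t (x - y) := by
  rw [sub_eq_add_neg]; exact hx.add hy.neg
theorem Ge.mul {s t : ℚ} (hx : A.Ge s x) (hy : A.Ge t y) : A.Ge (s + t) (x * y) := by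
  rcases eq_or_ne x 0 with rfl | h1
  · exact Or.inl (zero_mul _)
  rcases eq_or_ne y 0 with rfl | h2
  · exact Or.inl (mul_zero _)
  refine Or.inr ?_
  rw [A.w_mul _ _ h1 h2]
  exact add_le_add (hx.resolve_left h1) (hy.resolve_left h2)
theorem Ge.pow {t : ℚ} (hx : A.Ge t x) (n : ℕ) : A.Ge (n * t) (x ^ n) := by
  induction n with
  | zero => exact Or.inr (by simp [A.w_one])
  | succ n ih =>
    have := ih.mul hx
    rw [pow_succ]
    refine this.mono (le_of_eq ?_)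
    push_cast; ring
theorem Ge.sum {ι : Type} {t : ℚ} (s : Finset ι) (f : ι → E) (h : ∀ i ∈ s, A.Ge t (f i)) :
    A.Ge t (∑ i ∈ s, f i) :=
  Finset.sum_induction f (A.Ge t) (fun _ _ => Ge.add) (Ge.zero A t) h
theorem ge_zero_iff : A.Ge 0 x ↔ A.In x :=
  ⟨fun h => h.elim (fun h => by rw [h]; exact A.w_zero.ge) id, Or.inr⟩
theorem ge_div_iff {t : ℚ} (hy : y ≠ 0) : A.Ge t (x / y) ↔ A.Ge (t + A.w y) x := by
  rcases eq_or_ne x 0 with rfl | hx
  · rw [zero_div]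
    exact iff_of_true (Ge.zero _ _) (Ge.zero _ _)
  · unfold Ge
    rw [A.w_div hx hy, le_sub_iff_add_le]
    simp [hx, hy]
theorem Ge.sm {t : ℚ} (h : A.Ge t x) (ht : 0 < t) : A.Sm x := h.imp id fun h => ht.trans_le h

theorem In.zero (A : Pr E) : A.In 0 := A.w_zero.ge
theorem In.one (A : Pr E) : A.In 1 := A.w_one.ge
theorem In.neg (hx : A.In x) : A.In (-x) := A.vs.neg_mem _ hx
theorem In.sub (hx : A.In x) (hy : A.In y) : A.In (x - y) := by
  rw [sub_eq_add_neg]; exact hx.add hy.neg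
theorem In.pow (hx : A.In x) (n : ℕ) : A.In (x ^ n) := by
  unfold In at *
  rw [A.w_pow]; positivity
theorem In.sum {ι : Type} (s : Finset ι) (f : ι → E) (h : ∀ i ∈ s, A.In (f i)) :
    A.In (∑ i ∈ s, f i) :=
  Finset.sum_induction f A.In (fun _ _ => In.add) (In.zero A) h
theorem In.prod {ι : Type} (s : Finset ι) (f : ι → E) (h : ∀ i ∈ s, A.In (f i)) :
    A.In (∏ i ∈ s, f i) :=
  Finset.prod_induction f A.In (fun _ _ => In.mul) (In.one A) h
theorem In.natCast (A : Pr E) (n : ℕ) : A.In n := natCast_mem A.vs n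
theorem In.intCast (A : Pr E) (n : ℤ) : A.In n := intCast_mem A.vs n
theorem In.of_pow {n : ℕ} (hn : n ≠ 0) (h : A.In (x ^ n)) : A.In x := by
  unfold In at *
  rw [A.w_pow] at h
  exact nonneg_of_mul_nonneg_right h (by positivity)
theorem In.of_isIntegral (A : Pr E) (h : IsIntegral ℤ x) : A.In x := by
  have h1 : IsIntegral A.vs x := h.tower_top
  obtain ⟨y, rfl⟩ := IsIntegrallyClosed.algebraMap_eq_of_integral h1
  exact y.2
theorem mem_vs : x ∈ A.vs ↔ A.In x := Iff.rfl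

theorem Sm.zero (A : Pr E) : A.Sm 0 := Or.inl rfl
theorem Sm.in (h : A.Sm x) : A.In x :=
  h.elim (fun h => by rw [h]; exact In.zero A) le_of_lt
theorem Sm.sub (hx : A.Sm x) (hy : A.Sm y) : A.Sm (x - y) := by
  rw [sub_eq_add_neg]; exact hx.add hy.neg
theorem Sm.symm (h : A.Sm (x - y)) : A.Sm (y - x) := by
  rw [← neg_sub]; exact h.neg
theorem Sm.trans (h : A.Sm (x - y)) (h' : A.Sm (y - z)) : A.Sm (x - z) := by
  rw [← sub_add_sub_cancel x y z]; exact h.add h'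
theorem Sm.mul_in (hx : A.Sm x) (hy : A.In y) : A.Sm (x * y) := by
  rcases eq_or_ne x 0 with rfl | h1
  · exact Or.inl (zero_mul _)
  rcases eq_or_ne y 0 with rfl | h2
  · exact Or.inl (mul_zero _)
  refine Or.inr ?_
  rw [A.w_mul _ _ h1 h2]
  exact add_pos_of_pos_of_nonneg (hx.resolve_left h1) hy
theorem Sm.in_mul (hy : A.Sm y) (hx : A.In x) : A.Sm (x * y) := by
  rw [mul_comm]; exact hy.mul_in hx
theorem Sm.sum {ι : Type} (s : Finset ι) (f : ι → E) (h : ∀ i ∈ s, A.Sm (f i)) :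
    A.Sm (∑ i ∈ s, f i) :=
  Finset.sum_induction f A.Sm (fun _ _ => Sm.add) (Sm.zero A) h
theorem Sm.p (A : Pr E) : A.Sm A.p := Or.inr (by rw [A.w_p]; exact one_pos)
theorem not_sm_one (A : Pr E) : ¬ A.Sm 1 := by
  rintro (h | h)
  · exact one_ne_zero h
  · rw [A.w_one] at h; exact lt_irrefl _ h
theorem not_sm_iff (h : A.In x) : ¬ A.Sm x ↔ x ≠ 0 ∧ A.w x = 0 := by
  unfold Sm
  rw [not_or, not_lt]
  exact and_congr_right fun _ => ⟨fun h' => le_antisymm h' h, fun h' => h'.le⟩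
theorem sm_natCast_iff (A : Pr E) (n : ℕ) : A.Sm n ↔ A.p ∣ n := by
  constructor
  · intro h
    by_contra hn
    have hc : IsCoprime (A.p : ℤ) (n : ℤ) :=
      Nat.isCoprime_iff_coprime.2 ((Nat.Prime.coprime_iff_not_dvd A.prime).2 hn)
    obtain ⟨a, b, hab⟩ := hc
    have h1 : (a : E) * A.p + b * n = 1 := by exact_mod_cast congrArg (Int.cast : ℤ → E) hab
    apply A.not_sm_one
    rw [← h1]
    exact ((Sm.p A).in_mul (In.intCast A a)).add (h.in_mul (In.intCast A b))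
  · rintro ⟨k, rfl⟩
    rw [Nat.cast_mul]
    exact (Sm.p A).mul_in (In.natCast A k)
theorem w_natCast {n : ℕ} (h : ¬ A.p ∣ n) : (n : E) ≠ 0 ∧ A.w n = 0 :=
  (not_sm_iff (In.natCast A n)).1 fun h' => h ((A.sm_natCast_iff n).1 h')
theorem w_prime {q : ℕ} (hq : q.Prime) (h : A.p ≠ q) : A.w q = 0 :=
  (w_natCast fun h' => h ((Nat.prime_dvd_prime_iff_eq A.prime hq).1 h')).2
theorem w_add_eq (hx : x ≠ 0) (h : y = 0 ∨ A.w x < A.w y) :
    x + y ≠ 0 ∧ A.w (x + y) = A.w x := by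
  rcases eq_or_ne y 0 with rfl | hy
  · rw [add_zero]; exact ⟨hx, rfl⟩
  have h1 := h.resolve_left hy
  have h2 : x + y ≠ 0 := fun h2 => by
    rw [eq_neg_of_add_eq_zero_left h2, A.w_neg] at h1
    exact lt_irrefl _ h1
  refine ⟨h2, le_antisymm ?_ ?_⟩
  · have h3 := A.w_add (x + y) (-y) h2 (neg_ne_zero.2 hy) (by rwa [add_neg_cancel_right])
    rw [add_neg_cancel_right, A.w_neg] at h3
    rcases min_le_iff.1 h3 with h4 | h4
    · exact h4
    · exact absurd h4 (not_le.2 h1)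
  · have h3 := A.w_add x y hx hy h2
    rwa [min_eq_left h1.le] at h3
theorem w_eq_zero_of_sm_sub_one (h : A.Sm (x - 1)) : x ≠ 0 ∧ A.w x = 0 := by
  have := w_add_eq (A := A) (x := 1) (y := x - 1) one_ne_zero (by rwa [A.w_one])
  rwa [add_sub_cancel, A.w_one] at this
theorem w_eq_of_sm (hy : y ≠ 0) (h : A.Sm (x / y - 1)) : x ≠ 0 ∧ A.w x = A.w y := by
  obtain ⟨h1, h2⟩ := w_eq_zero_of_sm_sub_one h
  have hx : x ≠ 0 := fun hx => h1 (by rw [hx, zero_div])
  rw [A.w_div hx hy] at h2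
  exact ⟨hx, sub_eq_zero.1 h2⟩
/-- terms with pairwise different valuations -/
theorem w_sum_le {ι : Type} (s : Finset ι) (f : ι → E)
    (h : ∀ i ∈ s, ∀ j ∈ s, f i ≠ 0 → f j ≠ 0 → A.w (f i) = A.w (f j) → i = j)
    {i : ι} (hi : i ∈ s) (h0 : f i ≠ 0) :
    ∑ j ∈ s, f j ≠ 0 ∧ A.w (∑ j ∈ s, f j) ≤ A.w (f i) := by
  obtain ⟨k, hk, hmin⟩ := Finset.exists_min_image (s.filter fun j => f j ≠ 0) (fun j => A.w (f j))
    ⟨i, Finset.mem_filter.2 ⟨hi, h0⟩⟩
  obtain ⟨hks, hk0⟩ := Finset.mem_filter.1 hk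
  have h1 : A.Sm (∑ j ∈ s.erase k, f j / f k) := by
    refine Sm.sum _ _ fun j hj => ?_
    obtain ⟨hjk, hjs⟩ := Finset.mem_erase.1 hj
    rcases eq_or_ne (f j) 0 with h2 | h2
    · exact Or.inl (by rw [h2, zero_div])
    · refine Or.inr ?_
      rw [A.w_div h2 hk0, sub_pos]
      exact lt_of_le_of_ne (hmin j (Finset.mem_filter.2 ⟨hjs, h2⟩))
        fun h3 => hjk (h j hjs k hks h2 hk0 h3.symm)
  have h2 : (∑ j ∈ s, f j) / f k - 1 = ∑ j ∈ s.erase k, f j / f k := by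
    rw [← Finset.add_sum_erase s f hks, add_div, div_self hk0, add_sub_cancel_left, Finset.sum_div]
  rw [← h2] at h1
  obtain ⟨h3, h4⟩ := w_eq_of_sm hk0 h1
  exact ⟨h3, h4.trans_le (hmin i (Finset.mem_filter.2 ⟨hi, h0⟩))⟩

theorem w_root {n : ℕ} (hn : n ≠ 0) (h : z ^ n = 1) : A.w z = 0 := by
  have := A.w_pow z n
  rw [h, A.w_one] at this
  exact (mul_eq_zero.1 this.symm).resolve_left (Nat.cast_ne_zero.2 hn)
theorem Val_sm_pow (hz : A.In z) (hs : A.Sm (z - 1)) (i : ℕ) : A.Sm (z ^ i - 1) := by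
  rw [← mul_geom_sum]
  exact hs.mul_in (In.sum _ _ fun j _ => hz.pow j)
/-- use the geometric sum: it vanishes and is congruent to `n` -/
theorem eq_one_of_sm {n : ℕ} (hn : ¬ A.p ∣ n) (h : z ^ n = 1) (hs : A.Sm (z - 1)) : z = 1 := by
  by_contra hz
  have h1 : ∑ i ∈ Finset.range n, z ^ i = 0 := by
    have := mul_geom_sum z n
    rw [h, sub_self] at this
    exact (mul_eq_zero.1 this).resolve_left (sub_ne_zero.2 hz)
  have hin : A.In z := (w_eq_zero_of_sm_sub_one hs).2.ge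
  have h2 : A.Sm (∑ i ∈ Finset.range n, (z ^ i - 1)) :=
    Sm.sum _ _ fun i _ => Val_sm_pow hin hs i
  rw [Finset.sum_sub_distrib, h1, Finset.sum_const, Finset.card_range, nsmul_eq_mul, mul_one,
    zero_sub] at h2
  have h3 := h2.neg
  rw [neg_neg] at h3
  exact hn ((A.sm_natCast_iff n).1 h3)
theorem root_eq_of_sm {n : ℕ} (hn : ¬ A.p ∣ n) (hx : x ^ n = 1) (hy : y ^ n = 1)
    (hs : A.Sm (x - y)) : x = y := by
  have hn0 : n ≠ 0 := by rintro rfl; exact hn (dvd_zero _)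
  have hy0 : y ≠ 0 := by
    rintro rfl
    rw [zero_pow hn0] at hy
    exact zero_ne_one hy
  have h1 : x / y = 1 := by
    refine eq_one_of_sm hn (by rw [div_pow, hx, hy, div_one]) ?_
    rw [div_sub_one hy0, div_eq_mul_inv]
    refine hs.mul_in ?_
    unfold In
    rw [A.w_inv, w_root hn0 hy, neg_zero]
  exact (div_eq_one_iff_eq hy0).1 h1
theorem Val_w_le (hz : A.In z) (i : ℕ) (h : 1 - z ^ i ≠ 0) : A.w (1 - z) ≤ A.w (1 - z ^ i) := by
  have h1 := (Ge.self A (1 - z)).mul (ge_zero_iff.2 (In.sum (Finset.range i) _ fun j _ => hz.pow j))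
  rw [mul_neg_geom_sum, add_zero] at h1
  exact h1.resolve_left h
/-- all `1 - z ^ a` with `a` prime to `p` have the same valuation and their product is `p`
(value at `1` of the cyclotomic polynomial) -/
theorem w_one_sub [CharZero E] {k : ℕ} (h : IsPrimitiveRoot z (A.p ^ (k + 1))) :
    A.w (1 - z) = 1 / ((A.p : ℚ) ^ k * (A.p - 1)) := by
  have : Fact A.p.Prime := ⟨A.prime⟩
  have hpos : 0 < A.p ^ (k + 1) := pow_pos A.prime.pos _
  have : NeZero (A.p ^ (k + 1)) := ⟨hpos.ne'⟩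
  have hlt : 1 < A.p ^ (k + 1) := Nat.one_lt_pow (Nat.succ_ne_zero k) A.prime.one_lt
  have hne : ∀ μ, IsPrimitiveRoot μ (A.p ^ (k + 1)) → (1 : E) - μ ≠ 0 := fun μ hμ =>
    sub_ne_zero.2 (hμ.ne_one hlt).symm
  have hle : ∀ μ ν : E, IsPrimitiveRoot μ (A.p ^ (k + 1)) → IsPrimitiveRoot ν (A.p ^ (k + 1)) →
      A.w (1 - μ) ≤ A.w (1 - ν) := by
    intro μ ν hμ hν
    obtain ⟨i, -, rfl⟩ := hμ.eq_pow_of_pow_eq_one hν.pow_eq_one
    exact Val_w_le (w_root hpos.ne' hμ.pow_eq_one).ge i (hne _ hν)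
  have h1 := Polynomial.eval_one_cyclotomic_prime_pow (R := E) (p := A.p) k
  rw [Polynomial.cyclotomic_eq_prod_X_sub_primitiveRoots h, Polynomial.eval_prod] at h1
  simp only [Polynomial.eval_sub, Polynomial.eval_X, Polynomial.eval_C] at h1
  have h2 := congrArg A.w h1
  rw [A.w_p, A.w_prod _ _ fun μ hμ => hne μ ((mem_primitiveRoots hpos).1 hμ),
    Finset.sum_congr rfl fun μ hμ => le_antisymm (hle μ z ((mem_primitiveRoots hpos).1 hμ) h)
      (hle z μ h ((mem_primitiveRoots hpos).1 hμ)), Finset.sum_const, h.card_primitiveRoots,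
    Nat.totient_prime_pow_succ A.prime, nsmul_eq_mul, Nat.cast_mul, Nat.cast_pow,
    Nat.cast_sub A.prime.one_le, Nat.cast_one] at h2
  exact eq_one_div_of_mul_eq_one_right h2

/-- the valuation ring determines the prime: if `A.w z = a / b` then `z ^ b / p ^ a` is a unit -/
theorem ext_le (h : ∀ z, A.In z → B.In z) : A = B := by
  have hu : ∀ z, A.w z = 0 → B.w z = 0 := by
    intro z hz
    have h1 : 0 ≤ B.w z := h z hz.ge
    have h2 : 0 ≤ B.w z⁻¹ := h z⁻¹ (by unfold In; rw [A.w_inv, hz, neg_zero])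
    rw [B.w_inv] at h2
    linarith
  have hp : A.p = B.p := by
    by_contra hp
    have := hu _ (w_prime B.prime hp)
    rw [B.w_p] at this
    exact one_ne_zero this
  refine ext' hp fun z => ?_
  rcases eq_or_ne z 0 with rfl | hz
  · rw [A.w_zero, B.w_zero]
  have h1 : ∀ C : Pr E, C.p = A.p → C.w (z ^ (A.w z).den / (A.p : E) ^ (A.w z).num) =
      (A.w z).den * C.w z - (A.w z).num := by
    intro C hC
    rw [C.w_div (pow_ne_zero _ hz) (zpow_ne_zero _ A.p_ne_zero), C.w_pow, C.w_zpow, ← hC, C.w_p,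
      mul_one]
  have h2 := h1 A rfl
  rw [Rat.den_mul_eq_num, sub_self] at h2
  have h3 := hu _ h2
  rw [h1 B hp.symm, ← Rat.den_mul_eq_num, sub_eq_zero] at h3
  exact (mul_left_cancel₀ (Nat.cast_ne_zero.2 (A.w z).den_nz) h3).symm
theorem exists_pos_neg (h : A ≠ B) : ∃ z, z ≠ 0 ∧ 0 < A.w z ∧ B.w z < 0 := by
  have h1 : ¬ ∀ z, A.In z → B.In z := fun h' => h (ext_le h')
  have h2 : ¬ ∀ z, B.In z → A.In z := fun h' => h (ext_le h').symm
  push Not at h1 h2
  obtain ⟨x, hx, hx'⟩ := h1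
  obtain ⟨y, hy, hy'⟩ := h2
  have hx0 : x ≠ 0 := by rintro rfl; exact hx' (In.zero B)
  have hy0 : y ≠ 0 := by rintro rfl; exact hy' (In.zero A)
  unfold In at *
  refine ⟨x / y, div_ne_zero hx0 hy0, ?_, ?_⟩
  · rw [A.w_div hx0 hy0]; linarith
  · rw [B.w_div hx0 hy0]; linarith
/-- take `u = (1 + x s) / (1 + s)` with `s` a high power of the element above -/
theorem approx_two (h : A ≠ B) (hx : x ≠ 0) : ∃ u, u ≠ 0 ∧ A.w u = 0 ∧ B.w u = B.w x := by
  obtain ⟨z, hz, ha, hb⟩ := exists_pos_neg h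
  obtain ⟨N1, hN1⟩ := exists_nat_gt (|A.w x| / A.w z)
  obtain ⟨N2, hN2⟩ := exists_nat_gt (|B.w x| / -B.w z)
  have hb' : 0 < -B.w z := neg_pos.2 hb
  rw [div_lt_iff₀ ha] at hN1
  rw [div_lt_iff₀ hb'] at hN2
  have e1 : (0 : ℚ) ≤ N1 := Nat.cast_nonneg _
  have e2 : (0 : ℚ) ≤ N2 := Nat.cast_nonneg _
  have hs : z ^ (N1 + N2) ≠ 0 := pow_ne_zero _ hz
  have hA : |A.w x| < A.w (z ^ (N1 + N2)) := by
    rw [A.w_pow]; push_cast; nlinarith
  have hB : B.w (z ^ (N1 + N2)) < -|B.w x| := by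
    rw [B.w_pow]; push_cast; nlinarith
  generalize z ^ (N1 + N2) = s at hs hA hB
  have a1 := abs_nonneg (A.w x)
  have a2 := neg_abs_le (A.w x)
  have b1 := abs_nonneg (B.w x)
  have b2 := le_abs_self (B.w x)
  obtain ⟨h1, h2⟩ := w_add_eq (A := A) (x := 1) (y := x * s) one_ne_zero
    (Or.inr (by rw [A.w_one, A.w_mul _ _ hx hs]; linarith))
  obtain ⟨h3, h4⟩ := w_add_eq (A := A) (x := 1) (y := s) one_ne_zero
    (Or.inr (by rw [A.w_one]; linarith))
  obtain ⟨-, h5⟩ := w_add_eq (A := B) (x := x * s) (y := 1) (mul_ne_zero hx hs)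
    (Or.inr (by rw [B.w_one, B.w_mul _ _ hx hs]; linarith))
  obtain ⟨-, h6⟩ := w_add_eq (A := B) (x := s) (y := 1) hs
    (Or.inr (by rw [B.w_one]; linarith))
  refine ⟨(1 + x * s) / (1 + s), div_ne_zero h1 h3, ?_, ?_⟩
  · rw [A.w_div h1 h3, h2, h4, sub_self]
  · rw [B.w_div h1 h3, add_comm 1, add_comm 1, h5, h6, B.w_mul _ _ hx hs, add_sub_cancel_right]

theorem comap_comap {M : Type} [Field M] (A : Pr E) (i : K →+* E) (j : M →+* K) :
    (A.comap i).comap j = A.comap (i.comp j) := rfl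
theorem comap_id (A : Pr E) : A.comap (RingHom.id E) = A := rfl
theorem comap_in (i : K →+* E) {x : K} : (A.comap i).In x ↔ A.In (i x) := Iff.rfl
theorem comap_sm (i : K →+* E) {x : K} : (A.comap i).Sm x ↔ A.Sm (i x) :=
  or_congr (map_eq_zero i).symm Iff.rfl
theorem comap_ge (i : K →+* E) {t : ℚ} {x : K} : (A.comap i).Ge t x ↔ A.Ge t (i x) :=
  or_congr (map_eq_zero i).symm Iff.rfl

theorem Val_rs (hx : A.In x) : A.rs x = IsLocalRing.residue A.vs ⟨x, hx⟩ := dif_pos hx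
theorem Val_rs' (u : A.vs) : A.rs u = IsLocalRing.residue A.vs u := dif_pos u.2
theorem rs_zero (A : Pr E) : A.rs 0 = 0 := (Val_rs' (0 : A.vs)).trans (map_zero _)
theorem rs_one (A : Pr E) : A.rs 1 = 1 := (Val_rs' (1 : A.vs)).trans (map_one _)
theorem rs_add (hx : A.In x) (hy : A.In y) : A.rs (x + y) = A.rs x + A.rs y := by
  rw [Val_rs hx, Val_rs hy, ← map_add]
  exact Val_rs _
theorem rs_mul (hx : A.In x) (hy : A.In y) : A.rs (x * y) = A.rs x * A.rs y := by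
  rw [Val_rs hx, Val_rs hy, ← map_mul]
  exact Val_rs _
theorem rs_neg (hx : A.In x) : A.rs (-x) = -A.rs x := by
  rw [Val_rs hx, ← map_neg]
  exact Val_rs _
theorem rs_sub (hx : A.In x) (hy : A.In y) : A.rs (x - y) = A.rs x - A.rs y := by
  rw [sub_eq_add_neg, rs_add hx hy.neg, rs_neg hy, sub_eq_add_neg]
theorem rs_pow (hx : A.In x) (n : ℕ) : A.rs (x ^ n) = A.rs x ^ n := by
  induction n with
  | zero => rw [pow_zero, pow_zero, rs_one]
  | succ n ih => rw [pow_succ, pow_succ, rs_mul (hx.pow n) hx, ih]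
theorem rs_sum {ι : Type} (s : Finset ι) (f : ι → E) (h : ∀ i ∈ s, A.In (f i)) :
    A.rs (∑ i ∈ s, f i) = ∑ i ∈ s, A.rs (f i) := by
  induction s using Finset.induction_on with
  | empty => simp [rs_zero]
  | insert a s ha ih =>
    have h' : ∀ i ∈ s, A.In (f i) := fun i hi => h i (Finset.mem_insert_of_mem hi)
    rw [Finset.sum_insert ha, Finset.sum_insert ha,
      rs_add (h a (Finset.mem_insert_self _ _)) (In.sum _ _ h'), ih h']
theorem rs_prod {ι : Type} (s : Finset ι) (f : ι → E) (h : ∀ i ∈ s, A.In (f i)) :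
    A.rs (∏ i ∈ s, f i) = ∏ i ∈ s, A.rs (f i) := by
  induction s using Finset.induction_on with
  | empty => simp [rs_one]
  | insert a s ha ih =>
    have h' : ∀ i ∈ s, A.In (f i) := fun i hi => h i (Finset.mem_insert_of_mem hi)
    rw [Finset.prod_insert ha, Finset.prod_insert ha,
      rs_mul (h a (Finset.mem_insert_self _ _)) (In.prod _ _ h'), ih h']
theorem rs_natCast (A : Pr E) (n : ℕ) : A.rs n = n :=
  (Val_rs' (n : A.vs)).trans (map_natCast _ n)
theorem rs_intCast (A : Pr E) (n : ℤ) : A.rs n = n :=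
  (Val_rs' (n : A.vs)).trans (map_intCast _ n)
theorem rs_eq_zero_iff (hx : A.In x) : A.rs x = 0 ↔ A.Sm x := by
  rw [Val_rs hx, IsLocalRing.residue_eq_zero_iff, IsLocalRing.mem_maximalIdeal, mem_nonunits_iff,
    ← not_iff_not, not_not, not_sm_iff hx, isUnit_iff_exists_inv]
  constructor
  · rintro ⟨u, hu⟩
    have h1 : x * u = 1 := congrArg Subtype.val hu
    have h2 : x ≠ 0 := left_ne_zero_of_mul_eq_one h1
    have h3 := A.w_mul x u h2 (right_ne_zero_of_mul_eq_one h1)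
    rw [h1, A.w_one] at h3
    have h4 : 0 ≤ A.w u := u.2
    have h5 : 0 ≤ A.w x := hx
    exact ⟨h2, by linarith⟩
  · rintro ⟨h1, h2⟩
    exact ⟨⟨x⁻¹, show 0 ≤ A.w x⁻¹ by rw [A.w_inv, h2, neg_zero]⟩,
      Subtype.ext (mul_inv_cancel₀ h1)⟩
theorem rs_eq_iff (hx : A.In x) (hy : A.In y) : A.rs x = A.rs y ↔ A.Sm (x - y) := by
  rw [← rs_eq_zero_iff (hx.sub hy), rs_sub hx hy, sub_eq_zero]
theorem rs_surj (A : Pr E) (c : A.kk) : ∃ z, A.In z ∧ A.rs z = c := by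
  obtain ⟨u, rfl⟩ := IsLocalRing.residue_surjective c
  exact ⟨u, u.2, Val_rs' u⟩
theorem charP (A : Pr E) : CharP A.kk A.p :=
  ⟨fun n => by rw [← rs_natCast, rs_eq_zero_iff (In.natCast A n), sm_natCast_iff]⟩
/-- an element fixed by the Frobenius map is congruent to a natural number -/
theorem exists_nat_of_sm (hz : A.In z) (h : A.Sm (z ^ A.p - z)) : ∃ a : ℕ, A.Sm (z - a) := by
  have : Fact A.p.Prime := ⟨A.prime⟩
  have := A.charP
  rw [← rs_eq_iff (hz.pow _) hz, rs_pow hz, ← Subfield.mem_bot_iff_pow_eq_self,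
    ← ZMod.fieldRange_castHom_eq_bot A.p] at h
  obtain ⟨c, hc⟩ := h
  obtain ⟨a, rfl⟩ := ZMod.natCast_zmod_surjective c
  refine ⟨a, ?_⟩
  rw [← rs_eq_iff hz (In.natCast A a), ← hc, map_natCast, rs_natCast]

variable [CharZero E]

theorem smul_in {g : Aut E} : (g • A).In z ↔ A.In (g⁻¹ z) := Iff.rfl
theorem smul_sm {g : Aut E} : (g • A).Sm z ↔ A.Sm (g⁻¹ z) :=
  or_congr (map_eq_zero (g⁻¹ : Aut E)).symm Iff.rfl
theorem smul_w_apply (g : Aut E) (A : Pr E) (z : E) : (g • A).w (g z) = A.w z :=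
  congrArg A.w (g.symm_apply_apply z)
theorem mem_D {g : Aut E} : g ∈ A.D ↔ g • A = A := Iff.rfl
theorem mem_D_iff_w {g : Aut E} : g ∈ A.D ↔ ∀ z, A.w (g z) = A.w z := by
  refine ⟨fun h z => w_of_smul h z, fun h => ext' rfl fun z => ?_⟩
  rw [smul_w, ← h]
  exact congrArg A.w (g.apply_symm_apply z)
theorem mem_I {g : Aut E} : g ∈ A.I ↔ g • A = A ∧ ∀ z, A.In z → A.Sm (g z - z) := Iff.rfl
theorem I_le_D (A : Pr E) : A.I ≤ A.D := fun _ h => h.1
theorem isFrob_one {g : Aut E} : A.IsFrob 1 g ↔ g ∈ A.I := by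
  simp only [IsFrob, pow_one, mem_I]
theorem Val_in {g : Aut E} (h : g • A = A) (hz : A.In z) : A.In (g z) := by
  unfold In; rw [w_of_smul h]; exact hz
theorem isFrob_iff {q : ℕ} {g : Aut E} :
    A.IsFrob q g ↔ g • A = A ∧ ∀ z, A.In z → A.rs (g z) = A.rs z ^ q := by
  refine and_congr_right fun h => forall₂_congr fun z hz => ?_
  rw [← rs_pow hz, rs_eq_iff (Val_in h hz) (hz.pow q)]
theorem mem_I_iff {g : Aut E} :
    g ∈ A.I ↔ g • A = A ∧ ∀ z, A.In z → A.rs (g z) = A.rs z := by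
  simp only [← isFrob_one, isFrob_iff, pow_one]
/-- an element of the decomposition group acts on the residue field -/
theorem exists_rsHom {g : Aut E} (h : g • A = A) :
    ∃ ρ : A.kk ≃+* A.kk, ∀ z, A.In z → A.rs (g z) = ρ (A.rs z) := by
  have h' : g⁻¹ • A = A := by rw [inv_smul_eq_iff, h]
  let e : A.vs ≃+* A.vs :=
    { toFun := fun u => ⟨g u, Val_in h u.2⟩
      invFun := fun u => ⟨g⁻¹ u, Val_in h' u.2⟩
      left_inv := fun u => Subtype.ext (g.symm_apply_apply u)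
      right_inv := fun u => Subtype.ext (g.apply_symm_apply u)
      map_mul' := fun u v => Subtype.ext (map_mul g (u : E) v)
      map_add' := fun u v => Subtype.ext (map_add g (u : E) v) }
  refine ⟨IsLocalRing.ResidueField.mapEquiv e, fun z hz => ?_⟩
  rw [Val_rs hz, Val_rs (Val_in h hz)]
  rfl
theorem IsFrob.mul {q q' : ℕ} {g h : Aut E} (hg : A.IsFrob q g) (hh : A.IsFrob q' h) :
    A.IsFrob (q * q') (g * h) := by
  rw [isFrob_iff] at *
  refine ⟨by rw [mul_smul, hh.1, hg.1], fun z hz => ?_⟩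
  rw [AlgEquiv.mul_apply, hg.2 _ (Val_in hh.1 hz), hh.2 z hz, ← pow_mul, mul_comm]
theorem IsFrob.pow {q : ℕ} {g : Aut E} (hg : A.IsFrob q g) (n : ℕ) :
    A.IsFrob (q ^ n) (g ^ n) := by
  induction n with
  | zero => rw [pow_zero, pow_zero, isFrob_one]; exact A.I.one_mem
  | succ n ih => rw [pow_succ, pow_succ]; exact ih.mul hg
theorem IsFrob.mul_I {q : ℕ} {g i : Aut E} (hg : A.IsFrob q g) (hi : i ∈ A.I) :
    A.IsFrob q (g * i) := by
  have := hg.mul (isFrob_one.2 hi)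
  rwa [mul_one] at this
theorem IsFrob.I_mul {q : ℕ} {g i : Aut E} (hg : A.IsFrob q g) (hi : i ∈ A.I) :
    A.IsFrob q (i * g) := by
  have := (isFrob_one.2 hi).mul hg
  rwa [one_mul] at this
theorem IsFrob.inv_mul {q : ℕ} {g h : Aut E} (hg : A.IsFrob q g) (hh : A.IsFrob q h) :
    g⁻¹ * h ∈ A.I := by
  rw [isFrob_iff] at *
  have h1 : (g⁻¹ * h) • A = A := by rw [mul_smul, hh.1, inv_smul_eq_iff, hg.1]
  obtain ⟨ρ, hρ⟩ := exists_rsHom hg.1
  refine mem_I_iff.2 ⟨h1, fun z hz => ρ.injective ?_⟩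
  rw [← hρ _ (Val_in h1 hz), ← hρ z hz, hg.2 z hz, ← hh.2 z hz, ← AlgEquiv.mul_apply,
    mul_inv_cancel_left]
theorem IsFrob.conj {q : ℕ} {g : Aut E} (hg : A.IsFrob q g) (t : Aut E) :
    (t • A).IsFrob q (t * g * t⁻¹) := by
  refine ⟨by rw [mul_smul, inv_smul_smul, mul_smul, hg.1], fun z hz => ?_⟩
  rw [smul_sm, map_sub, map_pow, ← AlgEquiv.mul_apply, mul_assoc, inv_mul_cancel_left]
  exact hg.2 _ hz
theorem conj_mem_I {g : Aut E} (hg : g ∈ A.I) (t : Aut E) : t * g * t⁻¹ ∈ (t • A).I :=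
  isFrob_one.1 ((isFrob_one.2 hg).conj t)
theorem conj_mem_D {g : Aut E} (hg : g ∈ A.D) (t : Aut E) : t * g * t⁻¹ ∈ (t • A).D := by
  rw [mem_D] at *
  rw [mul_smul, inv_smul_smul, mul_smul, hg]
theorem IsFrob.acts {q n : ℕ} {g : Aut E} (hg : A.IsFrob q g) (hn : ¬ A.p ∣ n) : Acts n g q := by
  intro ζ hζ
  have hn0 : n ≠ 0 := by rintro rfl; exact hn (dvd_zero _)
  exact root_eq_of_sm hn (by rw [← map_pow, hζ, map_one])
    (by rw [← pow_mul, mul_comm, pow_mul, hζ, one_pow]) (hg.2 ζ (w_root hn0 hζ).ge)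
theorem mem_Fm_of_I {n : ℕ} {g : Aut E} (hg : g ∈ A.I) (hn : ¬ A.p ∣ n) : g ∈ Fm E n := by
  intro ζ hζ
  rw [(isFrob_one.2 hg).acts hn ζ hζ, pow_one]
/-- an inertia element fixes an `n`-th root of a fixed unit -/
theorem fix_root_of_I {n : ℕ} {g : Aut E} (hg : g ∈ A.I) (hn : ¬ A.p ∣ n) (hy : y ≠ 0)
    (h0 : A.w y = 0) (hf : g (y ^ n) = y ^ n) : g y = y := by
  have h1 : g y / y = 1 := by
    refine eq_one_of_sm hn (by rw [div_pow, ← map_pow, hf, div_self (pow_ne_zero _ hy)]) ?_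
    rw [div_sub_one hy, div_eq_mul_inv]
    refine (hg.2 y h0.ge).mul_in ?_
    unfold In
    rw [A.w_inv, h0, neg_zero]
  exact (div_eq_one_iff_eq hy).1 h1
theorem comap_smul [CharZero K] {g : Aut E} {γ : Aut K} (i : K →+* E)
    (hi : ∀ x, g (i x) = i (γ x)) (A : Pr E) : (g • A).comap i = γ • A.comap i := by
  refine ext' rfl fun x => ?_
  have h1 : γ (γ⁻¹ x) = x := γ.apply_symm_apply x
  rw [comap_w, smul_w γ, comap_w, ← smul_w_apply g A (i (γ⁻¹ x)), hi, h1]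
/-- compatibility along an equivariant embedding -/
theorem IsFrob.comap [CharZero K] {q : ℕ} {g : Aut E} {γ : Aut K} (i : K →+* E)
    (hi : ∀ x, g (i x) = i (γ x)) (hg : A.IsFrob q g) : (A.comap i).IsFrob q γ := by
  refine ⟨by rw [← comap_smul i hi, hg.1], fun z hz => ?_⟩
  rw [comap_sm, map_sub, map_pow, ← hi]
  exact hg.2 _ hz

end Pr
end Uc
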