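import Vale.Agent.P024.W0a
import Vale.Agent.P024.FI
import Vale.Agent.P024.VD

/-! Characters that kill infinitely many Frobenius elements have bounded order. -/

noncomputable section
namespace Uc
open NumberField
open scoped Classical
variable {Ω : Type} [Field Ω] [CharZero Ω] [Nice Ω] [IsAlgClosed Ω]

theorem W0_gen {G : Type} [Group G] {V : Subgroup G} {ν : G → ℂˣ} {N : ℕ} (hN : N ≠ 0)
    (hm : ∀ g ∈ V, ∀ h ∈ V, ν (g * h) = ν g * ν h) (ho : ∀ g ∈ V, ν g ^ N = 1) :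
    ∃ γ ∈ V, ∀ g ∈ V, ∃ k : ℕ, ν g = ν γ ^ k := by
  have : NeZero N := ⟨hN⟩
  let f : V →* ℂˣ := MonoidHom.mk' (fun g => ν g) fun g h => hm g g.2 h h.2
  have hle : f.range ≤ rootsOfUnity N ℂ := by
    rintro _ ⟨g, rfl⟩
    exact ho g g.2
  have := Subgroup.isCyclic_of_le hle
  have : Finite f.range := Finite.of_injective _ (Subgroup.inclusion_injective hle)
  obtain ⟨⟨_, γ, rfl⟩, hγ⟩ := IsCyclic.exists_monoid_generator (α := f.range)
  refine ⟨γ, γ.2, fun g hg => ?_⟩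
  obtain ⟨k, hk⟩ := hγ ⟨f ⟨g, hg⟩, ⟨g, hg⟩, rfl⟩
  exact ⟨k, (congrArg Subtype.val hk).symm⟩

/-- See the blueprint, section W0. -/
theorem w0 {V : Subgroup (Aut Ω)} (hV : IsOpen (V : Set (Aut Ω))) {r : ℕ} (hr : r.Prime)
    (h2 : r ≠ 2) (A : ℕ → Pr Ω) (hA : Function.Injective fun i => (A i).p) (φ : ℕ → Aut Ω)
    (hφ : ∀ i, φ i ∈ V ∧ (A i).IsFrob (A i).p (φ i)) :
    ∃ h : ℕ, 0 < h ∧ ∀ ν : Aut Ω → ℂˣ, IsChar V r ν → Unr V {r} ν → (∀ i, ν (φ i) = 1) →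
      ∀ g ∈ V, ν g ^ h = 1 := by
  have := numberField_Fx hV
  obtain ⟨n, c, e, x, h1, h3, h4, h5⟩ := w0a hV hr h2 A hA φ hφ
  obtain ⟨h₀, hfi⟩ := fi hr h2 x h3 h5
  refine ⟨h₀.factorial, Nat.factorial_pos _, fun ν hν hu hφ1 => ?_⟩
  obtain ⟨T, hT⟩ := hν.ord
  obtain ⟨γ, hγ, hgen⟩ := W0_gen (pow_ne_zero T hr.ne_zero) hν.mul hT
  let V₁ : Subgroup (Aut Ω) :=
    { carrier := {g | g ∈ V ∧ ν g = 1}
      mul_mem' := fun {a b} ha hb => ⟨mul_mem ha.1 hb.1, by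
        rw [hν.mul _ ha.1 _ hb.1, ha.2, hb.2, mul_one]⟩
      one_mem' := ⟨one_mem _, ch_one hν.mul⟩
      inv_mem' := fun {a} ha => ⟨inv_mem ha.1, by rw [ch_inv hν.mul ha.1, ha.2, inv_one]⟩ }
  have hmem : ∀ g, g ∈ V₁ ↔ g ∈ V ∧ ν g = 1 := fun _ => Iff.rfl
  have hle : V₁ ≤ V := fun _ h => h.1
  have hV₁ : IsOpen (V₁ : Set (Aut Ω)) := by
    obtain ⟨W', h6, h7, h8⟩ := hν.opn
    exact Subgroup.isOpen_mono (H₁ := W') (fun g hg => ⟨h7 hg, h8 g hg⟩) h6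
  have hnorm : ∀ g ∈ V, g ∈ Subgroup.normalizer (V₁ : Set (Aut Ω)) := fun g hg => by
    refine Subgroup.mem_normalizer_iff.2 fun y => ⟨fun hy => ⟨mul_mem (mul_mem hg hy.1)
      (inv_mem hg), ?_⟩, fun hy => ?_⟩
    · have := ch_conj hν.mul hy.1 (inv_mem hg)
      rw [inv_inv] at this
      rw [this, hy.2]
    · have h6 : y ∈ V := by simpa [mul_assoc] using mul_mem (mul_mem (inv_mem hg) hy.1) hg
      have := ch_conj hν.mul h6 (inv_mem hg)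
      rw [inv_inv] at this
      exact ⟨h6, by rw [← this, hy.2]⟩
  have := numberField_Fx hV₁
  have hpow : ∀ j : ℕ, res V₁ γ ^ j = res V₁ (γ ^ j) := fun j => by
    induction j with
    | zero => rw [pow_zero, pow_zero, (res_eq_one_iff hV₁ (one_mem _)).2 (one_mem _)]
    | succ j ih => rw [pow_succ, pow_succ, ih, res_mul (hnorm _ (pow_mem hγ j)) (hnorm _ hγ)]
  have hone : ∀ j : ℕ, res V₁ γ ^ j = 1 ↔ ν γ ^ j = 1 := fun j => by
    rw [hpow, res_eq_one_iff hV₁ (hnorm _ (pow_mem hγ j)), hmem, ch_pow hν.mul hγ]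
    exact ⟨fun h => h.2, fun h => ⟨pow_mem hγ j, h⟩⟩
  have hord : orderOf (res V₁ γ) = orderOf (ν γ) := orderOf_eq_orderOf_iff.2 hone
  have hdvd : orderOf (ν γ) ∣ r ^ T := orderOf_dvd_of_pow_eq_one (hT γ hγ)
  have hbound := hfi (Fx V₁) (Subfield.inclusion (Fx_anti hle)) (res V₁ γ) (fun z => ?_) ?_
    (fun B hB z hz => ?_) fun i => ?_
  · intro g hg
    obtain ⟨k, hk⟩ := hgen g hg
    rw [hord] at hbound
    have h6 : orderOf (ν γ) ∣ h₀.factorial := Nat.dvd_factorial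
      (Nat.pos_of_dvd_of_pos hdvd (pow_pos hr.pos T)) hbound
    rw [hk, ← pow_mul, mul_comm, pow_mul, orderOf_dvd_iff_pow_eq_one.1 h6, one_pow]
  · constructor
    · intro hz
      have h6 : γ z = z := by rw [← res_apply (hnorm γ hγ), hz]
      have h7 : ∀ k : ℕ, (γ ^ k) z = z := fun k => by
        induction k with
        | zero => rfl
        | succ k ih => rw [pow_succ, AlgEquiv.mul_apply, h6, ih]
      refine ⟨⟨z, fun g hg => ?_⟩, rfl⟩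
      obtain ⟨k, hk⟩ := hgen g hg
      have h8 : (γ ^ k)⁻¹ * g ∈ V₁ := ⟨mul_mem (inv_mem (pow_mem hγ k)) hg, by
        rw [hν.mul _ (inv_mem (pow_mem hγ k)) _ hg, ch_inv hν.mul (pow_mem hγ k),
          ch_pow hν.mul hγ, hk, inv_mul_cancel]⟩
      rw [← mul_inv_cancel_left (γ ^ k) g, AlgEquiv.mul_apply, z.2 _ h8, h7]
    · rintro ⟨y, rfl⟩
      exact Subtype.ext ((res_apply (hnorm γ hγ) _).trans (y.2 γ hγ))
  · rw [hord]
    exact Odd.of_dvd_nat ((hr.odd_of_ne_two h2).pow) hdvd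
  · obtain ⟨A', rfl⟩ := Pr.exists_ext (Fx V₁).subtype B
    obtain ⟨c, h6, h7, h8⟩ := vd hV A' (z := z) (fun hc => hz (Subtype.ext hc)) fun g hg hi =>
      z.2 g ⟨hg, hu A' (by simpa using hB) g hg hi⟩
    exact ⟨⟨c, h6⟩, fun hc => h7 (congrArg Subtype.val hc), h8⟩
  · refine ⟨(A (e i)).comap (Fx V₁).subtype, fun j hj => ?_, fun B' hB' => h4 i _ hB'⟩
    rw [hpow, ← Pr.comap_smul (g := γ ^ j) (Fx V₁).subtype
      fun z => (res_apply (hnorm _ (pow_mem hγ j)) z).symm] at hj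
    obtain ⟨w, hw, h6⟩ := tr (H := V₁) (V₁.isClosed_of_isOpen hV₁) (A := γ ^ j • A (e i))
      (A' := A (e i)) fun z hz => congrArg (fun B : Pr (Fx V₁) => B.w ⟨z, hz⟩) hj
    rw [← mul_smul] at h6
    obtain ⟨a, ι, h7, y, h8, h9⟩ := df (hφ (e i)).2 h6 hV₁
    have h10 : φ (e i) ^ a ∈ V₁ := pow_mem ((hmem _).2 ⟨(hφ _).1, hφ1 _⟩) a
    have h11 : ι ∈ V := by
      have : ι = (φ (e i) ^ a)⁻¹ * (w * γ ^ j) * y⁻¹ := by rw [h9]; group
      rw [this]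
      exact mul_mem (mul_mem (inv_mem (hle h10)) (mul_mem (hle hw) (pow_mem hγ j)))
        (inv_mem (hle h8))
    have h12 : ι ∈ V₁ := ⟨h11, hu (A (e i)) (by simpa using h1 i) ι h11 h7⟩
    rw [hpow, res_eq_one_iff hV₁ (hnorm _ (pow_mem hγ j))]
    have : γ ^ j = w⁻¹ * (φ (e i) ^ a * ι * y) := by rw [← h9]; group
    rw [this]
    exact mul_mem (inv_mem hw) (mul_mem (mul_mem h10 h12) h8)

end Uc
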