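import Vale.Agent.P024.TT
import Vale.Agent.P024.IO
import Vale.Agent.P024.Dec2

/-! Characters that kill infinitely many Frobenius elements have bounded order. -/

noncomputable section
namespace Uc
open NumberField
open scoped Classical
variable {Ω : Type} [Field Ω] [CharZero Ω] [Nice Ω] [IsAlgClosed Ω]

/-- the restriction of an automorphism, with values in the normal closure -/
def W0a_emb {E : Type} [Field E] [CharZero E] (V : Subgroup (Aut E)) (t : Aut E) :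
    Fx V →+* Fx V.normalCore :=
  ((t : E →+* E).comp (Fx V).subtype).codRestrict (Fx V.normalCore) fun z g hg => by
    have h1 : (t⁻¹ * g * t⁻¹⁻¹) (z : E) = z := z.2 _ (hg t⁻¹)
    have h2 := congrArg t h1
    rw [inv_inv, ← AlgEquiv.mul_apply, ← mul_assoc, ← mul_assoc, mul_inv_cancel, one_mul] at h2
    exact h2

theorem W0a_emb_apply {E : Type} [Field E] [CharZero E] (V : Subgroup (Aut E)) (t : Aut E)
    (z : Fx V) : (W0a_emb V t z : E) = t z := rfl

theorem W0a_rank {V : Subgroup (Aut Ω)} [NumberField (Fx V)] {d : ℕ} (t : Fin d → Aut Ω)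
    (h : ∀ g, ∃ s, (t s)⁻¹ * g ∈ V) : Module.finrank ℚ (Fx V) ≤ d := by
  rw [← NumberField.Embeddings.card (Fx V) Ω]
  refine (Fintype.card_le_of_surjective
    (fun s => ((t s : Ω →+* Ω).comp (Fx V).subtype)) fun j => ?_).trans (Fintype.card_fin d).le
  obtain ⟨u, hu⟩ := exists_aut_comp (Fx V).subtype j
  obtain ⟨s, hs⟩ := h u
  refine ⟨s, RingHom.ext fun z => ?_⟩
  have h1 : ((t s)⁻¹ * u) (z : Ω) = z := z.2 _ hs
  have h2 := congrArg (t s) h1
  rw [← AlgEquiv.mul_apply, mul_inv_cancel_left] at h2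
  exact h2.symm.trans (hu z)

omit [IsAlgClosed Ω] in
theorem W0a_mem {V : Subgroup (Aut Ω)} (hV : IsOpen (V : Set (Aut Ω))) {A : Pr Ω} {φ g : Aut Ω}
    (hφ : φ ∈ V) (hf : A.IsFrob A.p φ) (hI : A.I ≤ V)
    (h : (g • A).comap (Fx V).subtype = A.comap (Fx V).subtype) : g ∈ V := by
  obtain ⟨v, hv, hvg⟩ := tr (V.isClosed_of_isOpen hV) (A := g • A) (A' := A) fun z hz =>
    congrArg (fun B : Pr (Fx V) => B.w ⟨z, hz⟩) h
  rw [← mul_smul] at hvg
  obtain ⟨a, i, hi, x, hx, e⟩ := df hf (Pr.mem_D.2 hvg) hV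
  have h1 : v * g ∈ V := e ▸ mul_mem (mul_mem (pow_mem hφ a) (hI hi)) hx
  exact (mul_mem_cancel_left hv).1 h1

/-- Independent generators. See the blueprint, section W0. -/
theorem w0a {V : Subgroup (Aut Ω)} (hV : IsOpen (V : Set (Aut Ω))) {r : ℕ} (hr : r.Prime)
    (h2 : r ≠ 2) (A : ℕ → Pr Ω) (hA : Function.Injective fun i => (A i).p) (φ : ℕ → Aut Ω)
    (hφ : ∀ i, φ i ∈ V ∧ (A i).IsFrob (A i).p (φ i)) :
    ∃ (n c : ℕ) (e : Fin n → ℕ) (x : Fin n → 𝓞 (Fx V)), (∀ i, (A (e i)).p ≠ r) ∧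
      (∀ i, IsCoprime (x i) (r : 𝓞 (Fx V))) ∧
      (∀ i, ∀ B : Pr (Fx V), B.w (x i : Fx V) ≠ 0 → B = (A (e i)).comap (Fx V).subtype) ∧
      ∀ (T : ℕ) (y : 𝓞 (Fx V)), (r : 𝓞 (Fx V)) ^ c ∣ y - 1 →
        ∃ m : Fin n → ℕ, (r : 𝓞 (Fx V)) ^ T ∣ y - ∏ i, x i ^ m i := by
  have := numberField_Fx hV
  have := numberField_Fx (isOpen_normalCore hV)
  obtain ⟨T, -, hT2, hT3⟩ := exists_transversal (W := ⊤) hV
  obtain ⟨t, ht⟩ : ∃ t : Fin T.card → Aut Ω, t = fun s => (T.equivFin.symm s).1 := ⟨_, rfl⟩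
  have ht2 : ∀ g, ∃ s, (t s)⁻¹ * g ∈ V := fun g => by
    obtain ⟨u, hu, h⟩ := hT2 g trivial
    refine ⟨T.equivFin ⟨u, hu⟩, ?_⟩
    rw [ht]
    simpa using h
  have ht3 : ∀ s s', (t s)⁻¹ * t s' ∈ V → s = s' := fun s s' h => by
    rw [ht] at h
    exact T.equivFin.symm.injective
      (Subtype.ext (hT3 _ (T.equivFin.symm s).2 _ (T.equivFin.symm s').2 h))
  have hfin := (((ur hV).insert r).preimage hA.injOn).infinite_compl
  obtain ⟨e, he, he'⟩ : ∃ e : Fin (T.card * 2 ^ T.card + 1) → ℕ, Function.Injective e ∧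
      ∀ i, (A (e i)).p ≠ r ∧ (A (e i)).I ≤ V := by
    refine ⟨fun i => (hfin.natEmbedding _ i).1, fun i j h => Fin.ext
      ((hfin.natEmbedding _).injective (Subtype.ext h)), fun i => ?_⟩
    have h := (hfin.natEmbedding _ i).2
    refine ⟨fun h1 => h (Or.inl h1), ?_⟩
    by_contra h1
    exact h (Or.inr ⟨_, rfl, h1⟩)
  choose x hx0 hx1 hx2 using fun i => exists_gen ((A (e i)).comap (Fx V).subtype)
  have hx3 : ∀ i, ∀ B : Pr (Fx V), B.w (x i : Fx V) ≠ 0 → B = (A (e i)).comap (Fx V).subtype :=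
    fun i B h => by_contra fun h1 => h (hx2 i B h1)
  have hcop : ∀ i, IsCoprime (x i) (r : 𝓞 (Fx V)) := fun i =>
    (Pr.isCoprime_iff hr _).2 ⟨hx0 i, fun B hB => hx2 i B fun h => (he' i).1 (by
      rw [h] at hB
      exact hB)⟩
  obtain ⟨c, hc⟩ := dens (fun s => W0a_emb V (t s)) (W0a_rank t ht2) hr h2 (Nat.lt_succ_self _) x
    hcop (by
      intro m a h
      by_contra hne
      obtain ⟨hm, ha⟩ := not_or.1 hne
      obtain ⟨i₀, hi₀⟩ := Function.ne_iff.1 hm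
      obtain ⟨s₀, hs₀⟩ := Function.ne_iff.1 ha
      obtain ⟨B, hB⟩ : ∃ B : Pr (Fx V.normalCore),
        B = (t s₀ • A (e i₀)).comap (Fx V.normalCore).subtype := ⟨_, rfl⟩
      have hw : ∀ s i, B.w (W0a_emb V (t s) (x i)) =
          ((((t s)⁻¹ * t s₀) • A (e i₀)).comap (Fx V).subtype).w (x i) := fun s i => by
        rw [hB, Pr.comap_w, Pr.comap_w, Pr.smul_w, Pr.smul_w, mul_inv_rev, inv_inv]
        rfl
      have hz : ∀ s i, B.w (W0a_emb V (t s) (x i)) ≠ 0 → i = i₀ ∧ s = s₀ := fun s i h => by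
        rw [hw] at h
        have h1 := hx3 i _ h
        have h3 : i = i₀ := he (hA (congrArg Pr.p h1).symm)
        subst h3
        exact ⟨rfl, ht3 _ _ (W0a_mem hV (hφ _).1 (hφ _).2 (he' i).2 h1)⟩
      have hn0 : ∀ s i, W0a_emb V (t s) (x i) ≠ 0 := fun s i => (map_ne_zero _).2 (hx0 i)
      have h4 := congrArg B.w h
      rw [B.w_one, B.w_prod _ _ fun s _ => zpow_ne_zero _
        (Finset.prod_ne_zero_iff.2 fun i _ => zpow_ne_zero _ (hn0 s i))] at h4
      simp only [B.w_zpow, B.w_prod _ _ fun i _ => zpow_ne_zero _ (hn0 _ i)] at h4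
      rw [Finset.sum_eq_single s₀, Finset.sum_eq_single i₀, hw, inv_mul_cancel, one_smul] at h4
      · exact mul_ne_zero (Int.cast_ne_zero.2 hs₀)
          (mul_ne_zero (Int.cast_ne_zero.2 hi₀) (hx1 i₀).ne') h4
      · intro i _ hi
        rw [not_not.1 fun h => hi (hz s₀ i h).1, mul_zero]
      · simp
      · intro s _ hs
        rw [Finset.sum_eq_zero fun i _ => by rw [not_not.1 fun h => hs (hz s i h).2, mul_zero],
          mul_zero]
      · simp)
  exact ⟨_, c, e, x, fun i => (he' i).1, hcop, hx3, hc⟩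

end Uc
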