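import Vale.Agent.P024.W0
import Vale.Agent.P024.Hit

/-! Norms of characters. -/

noncomputable section
namespace Uc
open scoped Classical
variable {Ω E : Type} [Field Ω] [CharZero Ω] [Nice Ω] [IsAlgClosed Ω] [Field E] [CharZero E]
  [Nice E]

/-- `μ = Nm φ₀ n ν` is invariant (`nm_conj`), extend it to `V₁ = zpowers φ₀ ⊔ V'` (`ext_char`) and
apply `w0` to the `n`-th power `y ↦ μ (y ^ n)` of the extension; `nm_congr` with `φ i`. -/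
theorem w1 {V' : Subgroup (Aut Ω)} (hV : IsOpen (V' : Set (Aut Ω))) (hn : V'.Normal) {r : ℕ}
    (hr : r.Prime) (h2 : r ≠ 2) (A : ℕ → Pr Ω) (hA : Function.Injective fun i => (A i).p)
    (φ : ℕ → Aut Ω) (hφ : ∀ i, (A i).IsFrob (A i).p (φ i)) (φ₀ : Aut Ω) {n : ℕ} (h0 : 0 < n)
    (hp : ∀ j : ℕ, φ₀ ^ j ∈ V' ↔ n ∣ j) (hc : ∀ i, φ₀⁻¹ * φ i ∈ V') :
    ∃ h : ℕ, 0 < h ∧ ∀ ν : Aut Ω → ℂˣ, IsChar V' r ν → Unr V' {r} ν → (∀ i, ν (φ i ^ n) = 1) →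
      ∀ x ∈ V', Nm φ₀ n ν x ^ h = 1 := by
  haveI := hn
  have hle : V' ≤ Subgroup.zpowers φ₀ ⊔ V' := le_sup_right
  have hn0 : φ₀ ^ n ∈ V' := (hp n).2 dvd_rfl
  have hpow : ∀ y ∈ Subgroup.zpowers φ₀ ⊔ V', y ^ n ∈ V' := by
    intro y hy
    obtain ⟨k, hk⟩ := (mem_zpowers_sup V' φ₀ h0 hn0).1 hy
    rw [← QuotientGroup.eq_one_iff, QuotientGroup.mk_pow, ← QuotientGroup.eq.2 hk,
      ← QuotientGroup.mk_pow, QuotientGroup.eq_one_iff, ← pow_mul]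
    exact (hp _).2 (dvd_mul_left n k)
  have hm : ∀ i, φ i ∈ Subgroup.zpowers φ₀ ⊔ V' := fun i =>
    (mem_zpowers_sup V' φ₀ h0 hn0).2 ⟨1, by rw [pow_one]; exact hc i⟩
  obtain ⟨h, h3, h4⟩ := w0 (Subgroup.isOpen_mono hle hV) hr h2 A hA φ fun i => ⟨hm i, hφ i⟩
  refine ⟨n * h, Nat.mul_pos h0 h3, fun ν c1 c2 c3 x hx => ?_⟩
  have d1 := c1.nm hn φ₀ n
  have d2 := c2.nm hn φ₀ n
  obtain ⟨μ, m1, m2⟩ := ext_char V' φ₀ h0 hp (Nm φ₀ n ν) d1.mul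
    fun x hx => nm_conj c1.mul hn0 hx
  have e1 : ∀ y ∈ Subgroup.zpowers φ₀ ⊔ V', μ y ^ n = Nm φ₀ n ν (y ^ n) := fun y hy => by
    rw [← ch_pow m1 hy, m2 _ (hpow y hy)]
  have := h4 (fun y => μ y ^ n) ⟨fun g hg g' hg' => by rw [m1 g hg g' hg', mul_pow], ?_, ?_⟩
    ?_ ?_ x (hle hx)
  · rwa [m2 x hx, ← pow_mul] at this
  · obtain ⟨W, w1, w2, w3⟩ := d1.opn
    exact ⟨W, w1, w2.trans hle, fun g hg => by rw [m2 g (w2 hg), w3 g hg, one_pow]⟩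
  · obtain ⟨T, hT⟩ := d1.ord
    exact ⟨T, fun g hg => by rw [e1 g hg, hT _ (hpow g hg)]⟩
  · intro B hB g hg hi
    show μ g ^ n = 1
    rw [e1 g hg]
    exact d2 B hB _ (hpow g hg) (pow_mem hi n)
  · intro i
    rw [e1 _ (hm i), nm_congr c1.mul (hc i) n (hpow _ (hm i))]
    refine Finset.prod_eq_one fun j _ => ?_
    rw [mul_assoc, (Commute.pow_pow_self (φ i) n j).eq, inv_mul_cancel_left, c3 i]

theorem w1_cyc (K : Type) [Field K] [CharZero K] [Nice K] {l : ℕ} (hl : l.Prime) (T : ℕ)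
    (ψ : (ZMod (l ^ T))ˣ →* ℂˣ) :
    IsChar ⊤ l (fun g : Aut K => ψ (chi K (l ^ T) g) ^ (l - 1)) ∧
      Unr ⊤ {l} fun g : Aut K => ψ (chi K (l ^ T) g) ^ (l - 1) := by
  have h0 : l ^ T ≠ 0 := pow_ne_zero T hl.ne_zero
  refine ⟨⟨fun g _ g' _ => by rw [map_mul, map_mul, mul_pow],
    ⟨Fm K (l ^ T), isOpen_Fm h0, le_top, fun g hg => ?_⟩, T, fun g _ => ?_⟩, fun B hB g _ hi => ?_⟩
  · rw [(mem_Fm_iff h0).1 hg, map_one, one_pow]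
  · have hd : Nat.totient (l ^ T) ∣ (l - 1) * l ^ T := by
      rcases Nat.eq_zero_or_pos T with rfl | hT
      · simp
      · rw [Nat.totient_prime_pow hl hT, mul_comm]
        exact Nat.mul_dvd_mul_left _ (pow_dvd_pow l (Nat.sub_le T 1))
    obtain ⟨k, hk⟩ := hd
    rw [← pow_mul, ← map_pow, hk, pow_mul, ZMod.pow_totient, one_pow, map_one]
  · have hd : ¬ B.p ∣ l ^ T := fun hd => hB (Finset.mem_singleton.2
      ((Nat.prime_dvd_prime_iff_eq B.prime hl).1 (B.prime.dvd_of_dvd_pow hd)))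
    show ψ (chi K (l ^ T) g) ^ (l - 1) = 1
    rw [(mem_Fm_iff h0).1 (Pr.mem_Fm_of_I hi hd), map_one, one_pow]

variable {V : Subgroup (Aut Ω)} {α : Aut Ω → Aut E}

/-- Apply `w0` with `r = l` to `ν v = e ((chi (α v) / chi v) ^ (l - 1))`, where `e` is an
injective character of the cyclic group `(ZMod (l ^ T))ˣ` (`ZMod.isCyclic_units_of_prime_pow`);
unramified by `up` (for `W = ⊤`) and `Pr.mem_Fm_of_I`. -/
theorem theta (h : Setup V α) {l : ℕ} (hl : l.Prime) (h2 : l ≠ 2) {Q : Set ℕ} (hQ : Q.Infinite)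
    (h1 : ∀ q ∈ Q, ∃ (A : Pr Ω) (σ : Aut Ω), A.p = q ∧ σ ∈ V ∧ A.IsFrob q σ ∧
      ∀ T, Acts (l ^ T) (α σ) q) : ∃ e : ℕ, 0 < e ∧ ∀ T : ℕ, ∀ v ∈ V,
      chi E (l ^ T) (α v) ^ e = chi Ω (l ^ T) v ^ e := by
  have hQ' : (Q \ {l}).Infinite := hQ.diff (Set.finite_singleton l)
  choose A σ a1 a2 a3 a4 using fun i => h1 _ (hQ'.natEmbedding _ i).2.1
  have hA : Function.Injective fun i => (A i).p := fun i j hij =>
    (hQ'.natEmbedding _).injective (Subtype.ext (by simpa only [a1] using hij))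
  obtain ⟨k, k0, hk⟩ := w0 h.opn hl h2 A hA σ fun i => ⟨a2 i, by rw [a1]; exact a3 i⟩
  refine ⟨(l - 1) * k, Nat.mul_pos (Nat.sub_pos_of_lt hl.one_lt) k0, fun T v hv => ?_⟩
  have h0 : l ^ T ≠ 0 := pow_ne_zero T hl.ne_zero
  haveI : NeZero (l ^ T) := ⟨h0⟩
  by_contra hne
  obtain ⟨ψ, hψ⟩ := CommGroup.exists_apply_ne_one_of_hasEnoughRootsOfUnity (ZMod (l ^ T))ˣ ℂ
    (a := chi E (l ^ T) (α v) ^ ((l - 1) * k) * (chi Ω (l ^ T) v ^ ((l - 1) * k))⁻¹)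
    fun e => hne (mul_inv_eq_one.1 e)
  obtain ⟨c1, u1⟩ := w1_cyc E hl T ψ
  obtain ⟨c2, u2⟩ := w1_cyc Ω hl T ψ
  have hle : V ≤ h.pre ⊤ := fun g hg => h.mem_pre.2 ⟨hg, trivial⟩
  have := hk _ (((h.isChar c1).mono h.opn hle).mul' (c2.mono h.opn le_top).inv)
    (((up h hl h2 c1 u1).mono hle).mul (u2.mono le_top).inv) (fun i => ?_) v hv
  · apply hψ
    rw [map_mul, map_inv, map_pow, map_pow, pow_mul, pow_mul, ← inv_pow, ← mul_pow]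
    exact this
  · have hd : ¬ (A i).p ∣ l ^ T := fun hd => (hQ'.natEmbedding _ i).2.2 (by
      rw [← a1 i]
      exact (Nat.prime_dvd_prime_iff_eq (A i).prime hl).1 ((A i).prime.dvd_of_dvd_pow hd))
    have e : chi E (l ^ T) (α (σ i)) = chi Ω (l ^ T) (σ i) :=
      Units.ext (((acts_iff h0).1 (a4 i T)).trans ((acts_iff h0).1 ((a3 i).acts hd)).symm)
    show ψ (chi E (l ^ T) (α (σ i))) ^ (l - 1) * (ψ (chi Ω (l ^ T) (σ i)) ^ (l - 1))⁻¹ = 1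
    rw [e, mul_inv_cancel]

end Uc
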