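import Vale.Agent.P024.Defs

/-! A zero estimate on tori. -/

noncomputable section
namespace Uc
open MvPolynomial
open scoped Classical
variable {K : Type} [Field K]

/-- the substitution `X s ↦ c s * X s` -/
def trl {d : ℕ} (c : Fin d → K) : MvPolynomial (Fin d) K →ₐ[K] MvPolynomial (Fin d) K :=
  aeval fun s => C (c s) * X s

theorem ZE1_mono {d : ℕ} (c : Fin d → K) (a : Fin d →₀ ℕ) (r : K) :
    trl c (monomial a r) = C (∏ s, c s ^ a s) * monomial a r := by
  rw [trl, aeval_monomial, monomial_eq, Finsupp.prod_fintype _ _ fun _ => pow_zero _,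
    Finsupp.prod_fintype _ _ fun _ => pow_zero _, algebraMap_eq]
  simp only [mul_pow, Finset.prod_mul_distrib, map_prod, map_pow]
  ring

theorem ZE1_coeff {d : ℕ} (c : Fin d → K) (a : Fin d →₀ ℕ) (P : MvPolynomial (Fin d) K) :
    coeff a (trl c P) = (∏ s, c s ^ a s) * coeff a P := by
  induction P using induction_on' with
  | monomial u r =>
    rw [ZE1_mono, coeff_C_mul, coeff_monomial]
    split_ifs with h
    · rw [h]
    · rw [mul_zero, mul_zero]
  | add p q hp hq => rw [map_add, coeff_add, coeff_add, hp, hq, mul_add]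

theorem eval_trl {d : ℕ} (c x : Fin d → K) (P : MvPolynomial (Fin d) K) :
    eval x (trl c P) = eval (fun s => c s * x s) P := by
  induction P using MvPolynomial.induction_on with
  | C a => simp [trl]
  | add p q hp hq => rw [map_add, map_add, map_add, hp, hq]
  | mul_X p s hp =>
    rw [map_mul, map_mul, map_mul, hp]
    simp [trl]
theorem totalDegree_trl {d : ℕ} (c : Fin d → K) (P : MvPolynomial (Fin d) K) :
    (trl c P).totalDegree ≤ P.totalDegree :=
  totalDegree_le_of_support_subset fun a ha => by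
    rw [mem_support_iff] at ha ⊢
    rw [ZE1_coeff] at ha
    exact right_ne_zero_of_mul ha

theorem ZE1_irr {d : ℕ} {c : Fin d → K} (hc : ∀ s, c s ≠ 0) {Q : MvPolynomial (Fin d) K}
    (hQ : Irreducible Q) : Irreducible (trl c Q) := by
  have h : ∀ c c' : Fin d → K, (∀ s, c s * c' s = 1) →
      (trl c).comp (trl c') = AlgHom.id K _ := fun c c' h => by
    refine AlgHom.ext fun P => MvPolynomial.ext _ _ fun a => ?_
    rw [AlgHom.comp_apply, ZE1_coeff, ZE1_coeff, ← mul_assoc, ← Finset.prod_mul_distrib]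
    simp [← mul_pow, h]
  exact (MulEquiv.irreducible_iff (AlgEquiv.ofAlgHom (trl c) (trl fun s => (c s)⁻¹)
    (h _ _ fun s => mul_inv_cancel₀ (hc s)) (h _ _ fun s => inv_mul_cancel₀ (hc s)))).2 hQ

theorem ZE1_card {σ : Type} (s : Multiset (MvPolynomial σ K)) (h : ∀ Q ∈ s, Irreducible Q) :
    s.card ≤ s.prod.totalDegree := by
  induction s using Multiset.induction_on with
  | empty => simp
  | cons Q s ih =>
    have h1 := h Q (Multiset.mem_cons_self _ _)
    have h2 : ∀ R ∈ s, Irreducible R := fun R hR => h R (Multiset.mem_cons_of_mem hR)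
    have h3 : Q.totalDegree ≠ 0 := fun h0 => by
      have e := totalDegree_eq_zero_iff_eq_C.1 h0
      refine h1.not_isUnit (e ▸ (IsUnit.mk0 _ fun h4 => h1.ne_zero ?_).map C)
      rw [e, h4, map_zero]
    rw [Multiset.card_cons, Multiset.prod_cons, totalDegree_mul_of_isDomain h1.ne_zero
      (Multiset.prod_ne_zero fun h0 => (h2 0 h0).ne_zero rfl)]
    have := ih h2
    omega

theorem ZE1_two {d : ℕ} {Q : MvPolynomial (Fin d) K} (hQ : Irreducible Q) (hX : ∀ s, ¬ X s ∣ Q) :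
    ∃ a b, a ≠ b ∧ coeff a Q ≠ 0 ∧ coeff b Q ≠ 0 := by
  by_contra hc
  obtain ⟨a, ha⟩ := ne_zero_iff.1 hQ.ne_zero
  have e : Q = monomial a (coeff a Q) := MvPolynomial.ext _ _ fun b => by
    rw [coeff_monomial]
    split_ifs with h
    · rw [h]
    · by_contra hb
      exact hc ⟨a, b, h, ha, hb⟩
  have h0 : a = 0 := Finsupp.ext fun s => by
    by_contra hs
    exact hX s (e ▸ X_dvd_monomial.2 (Or.inr hs))
  rw [h0] at e ha
  exact hQ.not_isUnit (e ▸ (IsUnit.mk0 _ ha).map C)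

theorem ZE1_sep {d : ℕ} {c c' : Fin d → K} (hc' : ∀ s, c' s ≠ 0) (hc : ∀ s, c s ≠ 0)
    {Q : MvPolynomial (Fin d) K} (hQ : Irreducible Q) (hX : ∀ s, ¬ X s ∣ Q)
    (h : Associated (trl c Q) (trl c' Q)) :
    ∃ a : Fin d → ℤ, a ≠ 0 ∧ ∏ s, (c s / c' s) ^ a s = 1 := by
  obtain ⟨a, b, hab, ha, hb⟩ := ZE1_two hQ hX
  obtain ⟨u, hu⟩ := h
  obtain ⟨κ, hκ, e⟩ := isUnit_iff_eq_C_of_isReduced.1 u.isUnit
  have key : ∀ a, coeff a Q ≠ 0 → ∏ s, (c s / c' s) ^ a s = κ⁻¹ := fun a ha => by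
    have h1 := congrArg (coeff a) hu
    rw [e, mul_comm, coeff_C_mul, ZE1_coeff, ZE1_coeff, ← mul_assoc] at h1
    have h2 := mul_right_cancel₀ ha h1
    have h3 : ∏ s, c s ^ a s ≠ 0 := Finset.prod_ne_zero_iff.2 fun s _ => pow_ne_zero _ (hc s)
    simp only [div_pow, Finset.prod_div_distrib]
    rw [← h2, div_mul_cancel_right₀ h3]
  refine ⟨fun s => (a s : ℤ) - b s, fun h0 => hab (Finsupp.ext fun s => ?_), ?_⟩
  · have := congrFun h0 s
    simp only [Pi.zero_apply] at this
    omega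
  · simp only [zpow_sub₀ (div_ne_zero (hc _) (hc' _)), zpow_natCast, Finset.prod_div_distrib]
    rw [key a ha, key b hb, div_self (inv_ne_zero hκ.ne_zero)]

/-- The translates of an irreducible factor `Q` (it has two different monomials, as no variable
divides `P`) are pairwise not associated: `coeff a (trl c Q) = c ^ a * coeff a Q`. `P` has at most
`D` irreducible factors, each pair of them excludes at most one `m`. -/
theorem ze1 {d n D M : ℕ} (ξ : Fin n → Fin d → K) (h0 : ∀ i s, ξ i s ≠ 0)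
    (hi : ∀ (m : Fin n → ℤ) (a : Fin d → ℤ), ∏ s, (∏ i, ξ i s ^ m i) ^ a s = 1 → m = 0 ∨ a = 0)
    {P : MvPolynomial (Fin d) K} (hP : P ≠ 0) (hX : ∀ s, ¬ X s ∣ P) (hD : P.totalDegree ≤ D)
    (hM : D ^ 2 < (M + 1) ^ n) : ∃ m : Fin n → ℕ, (∀ i, m i ≤ M) ∧
      IsRelPrime P (trl (fun s => ∏ i, ξ i s ^ m i) P) := by
  by_contra hc
  obtain ⟨F, hF, hFP⟩ := UniqueFactorizationMonoid.exists_prime_factors P hP
  have hcard : F.toFinset.card ≤ D := (Multiset.toFinset_card_le F).trans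
    ((ZE1_card F fun Q hQ => (hF Q hQ).irreducible).trans
      ((totalDegree_le_of_dvd_of_isDomain hFP.dvd hP).trans hD))
  have hne : ∀ (m : Fin n → ℕ) s, ∏ i, ξ i s ^ m i ≠ 0 := fun m s =>
    Finset.prod_ne_zero_iff.2 fun i _ => pow_ne_zero _ (h0 i s)
  have h1 : ∀ m : Fin n → Fin (M + 1), ∃ q ∈ F.toFinset ×ˢ F.toFinset,
      Associated q.1 (trl (fun s => ∏ i, ξ i s ^ (m i : ℕ)) q.2) := fun m => by
    have h2 : ¬ IsRelPrime P (trl (fun s => ∏ i, ξ i s ^ (m i : ℕ)) P) := fun h =>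
      hc ⟨fun i => m i, fun i => Nat.le_of_lt_succ (m i).2, h⟩
    rw [UniqueFactorizationMonoid.isRelPrime_iff_no_prime_factors hP] at h2
    push Not at h2
    obtain ⟨R, r1, r2, hR⟩ := h2
    obtain ⟨Q, hQ, q1⟩ := hR.exists_mem_multiset_dvd (r1.trans hFP.symm.dvd)
    have r3 := r2.trans (map_dvd _ hFP.symm.dvd)
    rw [map_multiset_prod] at r3
    obtain ⟨Q', hQ', q2⟩ := hR.exists_mem_multiset_map_dvd r3
    refine ⟨(Q, Q'), Finset.mem_product.2 ⟨Multiset.mem_toFinset.2 hQ, Multiset.mem_toFinset.2 hQ'⟩,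
      ?_⟩
    exact (hR.irreducible.associated_of_dvd (hF Q hQ).irreducible q1).symm.trans
      (hR.irreducible.associated_of_dvd (ZE1_irr (hne _) (hF Q' hQ').irreducible) q2)
  choose q hq1 hq2 using h1
  obtain ⟨m, -, m', -, hmm, e⟩ := Finset.exists_ne_map_eq_of_card_lt_of_maps_to
    (s := Finset.univ) (t := F.toFinset ×ˢ F.toFinset) (f := q) (by
      rw [Finset.card_product, Finset.card_univ, Fintype.card_fun, Fintype.card_fin,
        Fintype.card_fin]
      exact (Nat.mul_le_mul hcard hcard).trans_lt (sq D ▸ hM)) fun m _ => hq1 m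
  have hQ : (q m).2 ∈ F := Multiset.mem_toFinset.1 (Finset.mem_product.1 (hq1 m)).2
  have h3 := hq2 m'
  rw [← e] at h3
  obtain ⟨a, ha, h4⟩ := ZE1_sep (hne _) (hne _) (hF _ hQ).irreducible
    (fun s h => hX s (h.trans ((Multiset.dvd_prod hQ).trans hFP.dvd))) ((hq2 m).symm.trans h3)
  refine (hi (fun i => ((m i : ℕ) : ℤ) - (m' i : ℕ)) a ?_).elim (fun h => hmm ?_) ha
  · simp only [zpow_sub₀ (h0 _ _), zpow_natCast, Finset.prod_div_distrib]
    exact h4
  · funext i
    have := congrFun h i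
    simp only [Pi.zero_apply] at this
    exact Fin.ext (by omega)

end Uc
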