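import Vale.Agent.P024.ZNa
import Vale.Agent.P024.UL

/-! Many units in twisted eigenspaces, and an upper bound. -/

noncomputable section
namespace Uc
open NumberField
open scoped Classical

section Ring
variable {R : Type} [Ring R]

/-- `n` minus the norm element -/
def ZN_E (x : R) (n : ℕ) : R := (n : R) - ∑ j ∈ Finset.range n, x ^ j

/-- the same, but `1` for `n = 1` -/
def ZN_F (x : R) (n : ℕ) : R := if n = 1 then 1 else ZN_E x n

theorem ZN_mul_sum {x : R} {n : ℕ} (h : x ^ n = 1) :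
    x * ∑ j ∈ Finset.range n, x ^ j = ∑ j ∈ Finset.range n, x ^ j := by
  have h1 := mul_geom_sum x n
  rw [h, sub_self, sub_mul, one_mul, sub_eq_zero] at h1
  exact h1

theorem ZN_pow_mul_sum {x : R} {n : ℕ} (h : x ^ n = 1) (i : ℕ) :
    x ^ i * ∑ j ∈ Finset.range n, x ^ j = ∑ j ∈ Finset.range n, x ^ j := by
  induction i with
  | zero => rw [pow_zero, one_mul]
  | succ i ih => rw [pow_succ, mul_assoc, ZN_mul_sum h, ih]

theorem ZN_sum_mul_E {x : R} {n : ℕ} (h : x ^ n = 1) :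
    (∑ j ∈ Finset.range n, x ^ j) * ZN_E x n = 0 := by
  have h1 : (∑ j ∈ Finset.range n, x ^ j) * (∑ j ∈ Finset.range n, x ^ j) =
      (∑ j ∈ Finset.range n, x ^ j) * (n : R) := by
    conv_lhs => rw [Finset.sum_mul]
    rw [Finset.sum_congr rfl fun i _ => ZN_pow_mul_sum h i, Finset.sum_const, Finset.card_range,
      nsmul_eq_mul, Nat.cast_comm]
  rw [ZN_E, mul_sub, h1, sub_self]

theorem ZN_E_sq {x : R} {n : ℕ} (h : x ^ n = 1) : ZN_E x n * ZN_E x n = (n : R) * ZN_E x n := by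
  conv_lhs => rw [ZN_E, sub_mul, ← ZN_E, ZN_sum_mul_E h, sub_zero]

theorem ZN_F_sq {x : R} {n : ℕ} (h : x ^ n = 1) : ZN_F x n * ZN_F x n = (n : R) * ZN_F x n := by
  unfold ZN_F
  split_ifs with h1
  · rw [h1, Nat.cast_one]
  · exact ZN_E_sq h

theorem ZN_comm_E {y x : R} (h : Commute y x) (n : ℕ) : Commute y (ZN_E x n) :=
  (Nat.commute_cast y n).sub_right (Commute.sum_right _ _ _ fun j _ => h.pow_right j)

theorem ZN_comm_F {y x : R} (h : Commute y x) (n : ℕ) : Commute y (ZN_F x n) := by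
  unfold ZN_F
  split_ifs with h1
  · exact Commute.one_right y
  · exact ZN_comm_E h n

theorem ZN_comm_EF {y x : R} (h : Commute y x) (n n' : ℕ) : Commute (ZN_E y n') (ZN_F x n) :=
  ZN_comm_F (ZN_comm_E h.symm n').symm n

theorem ZN_E_coef [Algebra ℂ R] (x : R) {n : ℕ} (hn : 2 ≤ n) :
    ∃ a : ℕ → ℂ, a 0 ≠ 0 ∧ ZN_E x n = ∑ j ∈ Finset.range n, a j • x ^ j := by
  refine ⟨fun j => (if j = 0 then (n : ℂ) else 0) - 1, ?_, ?_⟩
  · have : (n : ℂ) ≠ 1 := by exact_mod_cast (by omega : n ≠ 1)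
    simpa [sub_eq_zero] using this
  · simp only [sub_smul, one_smul, Finset.sum_sub_distrib, ite_smul, zero_smul]
    rw [Finset.sum_ite_eq' (Finset.range n) 0 fun j => (n : ℂ) • x ^ j,
      if_pos (Finset.mem_range.2 (by omega)), pow_zero, ZN_E, Nat.cast_smul_eq_nsmul,
      nsmul_eq_mul, mul_one]

theorem ZN_F_coef [Algebra ℂ R] (x : R) {n : ℕ} (hn : 1 ≤ n) :
    ∃ a : ℕ → ℂ, a 0 ≠ 0 ∧ ZN_F x n = ∑ j ∈ Finset.range n, a j • x ^ j := by
  unfold ZN_F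
  split_ifs with h1
  · exact ⟨fun _ => 1, one_ne_zero, by simp [h1]⟩
  · exact ZN_E_coef x (by omega)

end Ring

section Mod
variable {A M : Type} [CommRing A] [AddCommGroup M] [Module A M]

theorem ZN_E_apply (x : Module.End A M) (n : ℕ) (v : M) :
    ZN_E x n v = n • v - ∑ j ∈ Finset.range n, (x ^ j) v := by
  rw [ZN_E, LinearMap.sub_apply, LinearMap.sum_apply, Module.End.natCast_apply]

theorem ZN_E_fix {x : Module.End A M} {v : M} (h : x v = v) (n : ℕ) : ZN_E x n v = 0 := by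
  have h1 : ∀ j : ℕ, (x ^ j) v = v := fun j => by
    induction j with
    | zero => rfl
    | succ j ih => rw [pow_succ, Module.End.mul_apply, h, ih]
  rw [ZN_E_apply, Finset.sum_congr rfl fun j _ => h1 j, Finset.sum_const, Finset.card_range,
    sub_self]

theorem ZN_E_mem {x : Module.End A M} {U : Submodule A M} (h : ∀ v ∈ U, x v ∈ U) (n : ℕ)
    {v : M} (hv : v ∈ U) : ZN_E x n v ∈ U := by
  have h1 : ∀ j : ℕ, (x ^ j) v ∈ U := fun j => by
    induction j with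
    | zero => exact hv
    | succ j ih => rw [pow_succ', Module.End.mul_apply]; exact h _ ih
  rw [ZN_E_apply]
  exact U.sub_mem (U.toAddSubmonoid.nsmul_mem hv n) (U.sum_mem fun j _ => h1 j)

theorem ZN_F_mem {x : Module.End A M} {U : Submodule A M} (h : ∀ v ∈ U, x v ∈ U) (n : ℕ)
    {v : M} (hv : v ∈ U) : ZN_F x n v ∈ U := by
  unfold ZN_F
  split_ifs with h1
  · exact hv
  · exact ZN_E_mem h n hv

variable {A' M' : Type} [CommRing A'] [AddCommGroup M'] [Module A' M']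

theorem ZN_E_map {x : Module.End A M} {y : Module.End A' M'} (ψ : M →+ M')
    (h : ∀ v, ψ (x v) = y (ψ v)) (n : ℕ) (v : M) : ψ (ZN_E x n v) = ZN_E y n (ψ v) := by
  have h1 : ∀ j : ℕ, ψ ((x ^ j) v) = (y ^ j) (ψ v) := fun j => by
    induction j with
    | zero => rfl
    | succ j ih => rw [pow_succ', pow_succ', Module.End.mul_apply, Module.End.mul_apply, h, ih]
  rw [ZN_E_apply, ZN_E_apply, map_sub, map_nsmul, map_sum, Finset.sum_congr rfl fun j _ => h1 j]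

theorem ZN_F_map {x : Module.End A M} {y : Module.End A' M'} (ψ : M →+ M')
    (h : ∀ v, ψ (x v) = y (ψ v)) (n : ℕ) (v : M) : ψ (ZN_F x n v) = ZN_F y n (ψ v) := by
  unfold ZN_F
  split_ifs with h1
  · rfl
  · exact ZN_E_map ψ h n v

end Mod

variable {L : Type} [Field L] [NumberField L]

/-- the permutation representation on the infinite places -/
def ZN_P (L : Type) [Field L] [NumberField L] : Aut L →* Module.End ℂ (InfinitePlace L → ℂ) where
  toFun δ := LinearMap.funLeft ℂ ℂ (plc δ)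
  map_one' := by
    rw [plc_one]
    rfl
  map_mul' γ δ := by
    rw [plc_mul]
    rfl

theorem ZN_P_apply (δ : Aut L) (f : InfinitePlace L → ℂ) (v : InfinitePlace L) :
    ZN_P L δ f v = f (plc δ v) := rfl

theorem ZN_llog (δ : Aut L) (x : Additive Lˣ) : llog L (act δ x) = ZN_P L δ (llog L x) :=
  funext fun v => llog_act δ x v

theorem ZN_comm_act {γ δ : Aut L} (h : Commute γ δ) : Commute (act γ) (act δ) := by
  show act γ * act δ = act δ * act γ
  rw [← act_mul, ← act_mul, h.eq]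

theorem ZN_val {r : ℕ} (hr : 2 < r) {ζ : L} (hζ : IsPrimitiveRoot ζ r) {m g γ : Aut L}
    {s' s N : ℕ} (hm : m ζ = ζ) (hg : g ζ = ζ) (hγ : γ ζ = ζ) (h1 : 0 < s') (h2 : 0 < s)
    (h3 : 0 < N) (hi : ∀ i j k : ℕ, m ^ i * g ^ j * γ ^ k = 1 → s' ∣ i ∧ s ∣ j ∧ N ∣ k)
    (a b c : ℕ → ℂ) (x₀ : InfinitePlace L) :
    ((∑ i ∈ Finset.range s', a i • ZN_P L m ^ i) * (∑ j ∈ Finset.range s, b j • ZN_P L g ^ j) *
      (∑ k ∈ Finset.range N, c k • ZN_P L γ ^ k)) (Pi.single x₀ 1) x₀ = a 0 * b 0 * c 0 := by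
  have hf : ∀ (δ : Aut L), δ ζ = ζ → ∀ i : ℕ, (δ ^ i) ζ = ζ := fun δ hδ i => by
    induction i with
    | zero => rfl
    | succ i ih => rw [pow_succ, AlgEquiv.mul_apply, hδ, ih]
  have key : ∀ i ∈ Finset.range s', ∀ j ∈ Finset.range s, ∀ k ∈ Finset.range N,
      ¬ (i = 0 ∧ j = 0 ∧ k = 0) →
      (ZN_P L m ^ i * ZN_P L g ^ j * ZN_P L γ ^ k) (Pi.single x₀ 1) x₀ = 0 := by
    intro i hi' j hj k hk hne
    rw [← map_pow, ← map_pow, ← map_pow, ← map_mul, ← map_mul, ZN_P_apply]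
    refine Pi.single_eq_of_ne (fun h => hne ?_) _
    have h4 := eq_one_of_plc h hr hζ (by
      rw [AlgEquiv.mul_apply, AlgEquiv.mul_apply, hf γ hγ, hf g hg, hf m hm])
    obtain ⟨d1, d2, d3⟩ := hi i j k h4
    exact ⟨Nat.eq_zero_of_dvd_of_lt d1 (Finset.mem_range.1 hi'),
      Nat.eq_zero_of_dvd_of_lt d2 (Finset.mem_range.1 hj),
      Nat.eq_zero_of_dvd_of_lt d3 (Finset.mem_range.1 hk)⟩
  have e1 : (∑ i ∈ Finset.range s', a i • ZN_P L m ^ i) *
      (∑ j ∈ Finset.range s, b j • ZN_P L g ^ j) * (∑ k ∈ Finset.range N, c k • ZN_P L γ ^ k) =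
      ∑ i ∈ Finset.range s', ∑ j ∈ Finset.range s, ∑ k ∈ Finset.range N,
        (a i * b j * c k) • (ZN_P L m ^ i * ZN_P L g ^ j * ZN_P L γ ^ k) := by
    rw [Finset.sum_mul_sum, Finset.sum_mul]
    refine Finset.sum_congr rfl fun i _ => ?_
    rw [Finset.sum_mul]
    refine Finset.sum_congr rfl fun j _ => ?_
    rw [Finset.mul_sum]
    refine Finset.sum_congr rfl fun k _ => ?_
    rw [smul_mul_smul_comm, smul_mul_smul_comm]
  rw [e1]
  simp only [LinearMap.sum_apply, Finset.sum_apply, LinearMap.smul_apply, Pi.smul_apply,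
    smul_eq_mul]
  rw [Finset.sum_eq_single_of_mem 0 (Finset.mem_range.2 h1),
    Finset.sum_eq_single_of_mem 0 (Finset.mem_range.2 h2),
    Finset.sum_eq_single_of_mem 0 (Finset.mem_range.2 h3)]
  · simp
  · intro k hk h0
    rw [key 0 (Finset.mem_range.2 h1) 0 (Finset.mem_range.2 h2) k hk (fun h => h0 h.2.2), mul_zero]
  · intro j hj h0
    refine Finset.sum_eq_zero fun k hk => ?_
    rw [key 0 (Finset.mem_range.2 h1) j hj k hk (fun h => h0 h.2.1), mul_zero]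
  · intro i hi' h0
    refine Finset.sum_eq_zero fun j hj => Finset.sum_eq_zero fun k hk => ?_
    rw [key i hi' j hj k hk (fun h => h0 h.1), mul_zero]

/-- the range of an operator that kills the constants lies in the span of the logarithms -/
theorem ZN_span {e : Module.End ℤ (Additive Lˣ)} {E : Module.End ℂ (InfinitePlace L → ℂ)}
    (h : ∀ x, llog L (e x) = E (llog L x)) (h0 : E (fun _ => 1) = 0) (f : InfinitePlace L → ℂ) :
    E f ∈ Submodule.span ℂ (llog L '' (UU L).map e) := by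
  have hc : (Fintype.card (InfinitePlace L) : ℂ) ≠ 0 := Nat.cast_ne_zero.2 Fintype.card_ne_zero
  set t : ℂ := (∑ v, f v) / (Fintype.card (InfinitePlace L) : ℂ) with ht
  have h1 : f - t • (fun _ => (1 : ℂ)) ∈ Submodule.span ℂ (llog L '' UU L) := by
    rw [span_llog, LinearMap.mem_ker, LinearMap.sum_apply]
    simp only [LinearMap.proj_apply, Pi.sub_apply, Pi.smul_apply, smul_eq_mul, mul_one,
      Finset.sum_sub_distrib, Finset.sum_const, Finset.card_univ, nsmul_eq_mul]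
    rw [ht, mul_div_cancel₀ _ hc, sub_self]
  have h2 : E f = E (f - t • (fun _ => (1 : ℂ))) := by
    rw [map_sub, map_smul, h0, smul_zero, sub_zero]
  rw [h2]
  have h3 : (Submodule.span ℂ (llog L '' UU L)).map E ≤
      Submodule.span ℂ (llog L '' (UU L).map e) := by
    rw [Submodule.map_span]
    refine Submodule.span_mono ?_
    rintro _ ⟨_, ⟨x, hx, rfl⟩, rfl⟩
    exact ⟨e x, ⟨x, hx, rfl⟩, h x⟩
  exact h3 ⟨_, h1, rfl⟩

omit [NumberField L] in
theorem ZN_ext {x y : Additive Lˣ} (h : ((x.toMul : Lˣ) : L) = (y.toMul : Lˣ)) : x = y :=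
  Additive.toMul.injective (Units.ext h)

/-- See the blueprint, section ZN. -/
theorem zn {L : Type} [Field L] [NumberField L] {r : ℕ} (hr : r.Prime) (h2 : r ≠ 2) {ζ : L}
    (hζ : IsPrimitiveRoot ζ r) (m g γ : Aut L) {s' s N T c : ℕ} (hs' : s'.Prime)
    (hs : s.Prime ∨ s = 1) (h1 : s' ≠ r) (h3 : s ≠ r)
    (hm : ∀ (z : L) (n : ℕ), n ≠ 0 → z ^ n = 1 → m z = z) (hg : g ζ = ζ) (hγ : γ ζ = ζ)
    (o1 : m ^ s' = 1) (o2 : g ^ s = 1) (o3 : γ ^ N = 1) (hN : 0 < N) (c1 : Commute m g)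
    (c2 : Commute m γ) (c3 : Commute g γ)
    (hi : ∀ i j k : ℕ, m ^ i * g ^ j * γ ^ k = 1 → s' ∣ i ∧ s ∣ j ∧ N ∣ k) (hc : 2 ≤ c)
    (hT : (r : ℤ) ^ T ∣ (c : ℤ) ^ N - 1) :
    ∃ S : Finset L, r ^ T ≤ S.card ∧
      (∀ u ∈ S, u ≠ 0 ∧ (∀ B : Pr L, B.w u = 0) ∧ ∏ i ∈ Finset.range s', (m ^ i) u = 1 ∧
        (s ≠ 1 → ∏ j ∈ Finset.range s, (g ^ j) u = 1) ∧ ∃ y : L, γ u = u ^ c * y ^ r ^ T) ∧
      ∀ u ∈ S, ∀ u' ∈ S, (∃ y : L, u = u' * y ^ r ^ T) → u = u' := by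
  have hs1 : 1 ≤ s := hs.elim (fun h => h.one_le) fun h => h.ge
  have hr2 : 2 < r := lt_of_le_of_ne hr.two_le h2.symm
  have a1 : act m ^ s' = 1 := by rw [← act_pow, o1, act_one]
  have a2 : act g ^ s = 1 := by rw [← act_pow, o2, act_one]
  have a3 : act γ ^ N = 1 := by rw [← act_pow, o3, act_one]
  have cEF : Commute (ZN_E (act m) s') (ZN_F (act g) s) := ZN_comm_EF (ZN_comm_act c1) s s'
  obtain ⟨e, he⟩ : ∃ e, e = ZN_E (act m) s' * ZN_F (act g) s := ⟨_, rfl⟩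
  obtain ⟨E, hE⟩ : ∃ E, E = ZN_E (ZN_P L m) s' * ZN_F (ZN_P L g) s := ⟨_, rfl⟩
  have heU : ∀ x ∈ UU L, e x ∈ UU L := fun x hx => by
    rw [he]
    exact ZN_E_mem (fun v hv => act_mem_UU m hv) s' (ZN_F_mem (fun v hv => act_mem_UU g hv) s hx)
  have hcm : Commute (act γ) e := by
    rw [he]
    exact (ZN_comm_E (ZN_comm_act c2.symm) s').mul_right (ZN_comm_F (ZN_comm_act c3.symm) s)
  have hk : e * e = ((s' * s : ℕ) : ℤ) • e := by
    rw [he, cEF.symm.mul_mul_mul_comm, ZN_E_sq a1, ZN_F_sq a2,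
      (Nat.commute_cast (ZN_E (act m) s') s).mul_mul_mul_comm, natCast_zsmul, nsmul_eq_mul,
      Nat.cast_mul]
  have ht : ∀ x ∈ UU L, llog L x = 0 → e x = 0 := fun x hx h0 => by
    obtain ⟨n, hn, h4⟩ := (llog_eq_zero_iff hx).1 h0
    have h5 : act m x = x := ZN_ext (by rw [act_apply, hm _ n hn h4])
    rw [he, cEF.eq, Module.End.mul_apply, ZN_E_fix h5, map_zero]
  have ht' : ∀ x ∈ UU L, llog L x = 0 → ∃ n : ℕ, n ≠ 0 ∧ n • x = 0 := fun x hx h0 => by
    obtain ⟨n, hn, h4⟩ := (llog_eq_zero_iff hx).1 h0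
    exact ⟨n, hn, ZN_ext (by rw [toMul_nsmul, Units.val_pow_eq_pow_val, h4]; rfl)⟩
  have heE : ∀ x, llog L (e x) = E (llog L x) := fun x => by
    rw [he, hE, Module.End.mul_apply, Module.End.mul_apply, ZN_E_map _ (ZN_llog m),
      ZN_F_map _ (ZN_llog g)]
  have hE0 : E (fun _ => 1) = 0 := by
    rw [hE, (ZN_comm_EF (c1.map (ZN_P L)) s s').eq, Module.End.mul_apply,
      ZN_E_fix (x := ZN_P L m) (v := fun _ => 1) rfl, map_zero]
  have hv : ∀ ω : ℂ, ω ^ N = 1 → ∃ v ∈ Submodule.span ℂ (llog L '' (UU L).map e), v ≠ 0 ∧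
      ZN_P L γ v = ω • v := by
    intro ω hω
    have hω0 : ω ≠ 0 := fun h => by
      rw [h, zero_pow hN.ne'] at hω
      exact zero_ne_one hω
    obtain ⟨x₀⟩ : Nonempty (InfinitePlace L) := inferInstance
    have q1 : (ω⁻¹ • ZN_P L γ) ^ N = 1 := by
      rw [smul_pow, ← map_pow, o3, map_one, inv_pow, hω, inv_one, one_smul]
    have q2 := ZN_mul_sum q1
    obtain ⟨Q, hQ⟩ : ∃ Q, Q = ∑ j ∈ Finset.range N, (ω⁻¹ • ZN_P L γ) ^ j := ⟨_, rfl⟩
    rw [← hQ] at q2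
    have q3 : ZN_P L γ * Q = ω • Q := by
      conv_rhs => rw [← q2, smul_mul_assoc, smul_smul, mul_inv_cancel₀ hω0, one_smul]
    have q4 : Commute (ZN_P L γ) E := by
      rw [hE]
      exact (ZN_comm_E (c2.symm.map (ZN_P L)) s').mul_right (ZN_comm_F (c3.symm.map (ZN_P L)) s)
    refine ⟨E (Q (Pi.single x₀ 1)), ZN_span heE hE0 _, fun h0 => ?_, ?_⟩
    · obtain ⟨a, a0, ha⟩ := ZN_E_coef (ZN_P L m) hs'.two_le
      obtain ⟨b, b0, hb⟩ := ZN_F_coef (ZN_P L g) hs1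
      have h4 := ZN_val hr2 hζ (hm ζ r hr.ne_zero hζ.pow_eq_one) hg hγ hs'.pos hs1 hN hi a b
        (fun k => ω⁻¹ ^ k) x₀
      have h5 : Q = ∑ k ∈ Finset.range N, ω⁻¹ ^ k • ZN_P L γ ^ k := by
        rw [hQ]
        exact Finset.sum_congr rfl fun k _ => smul_pow _ _ _
      rw [← ha, ← hb, ← hE, ← h5, Module.End.mul_apply, h0, pow_zero, mul_one] at h4
      exact mul_ne_zero a0 b0 h4.symm
    · rw [← Module.End.mul_apply, q4.eq, Module.End.mul_apply, ← Module.End.mul_apply _ Q, q3,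
        LinearMap.smul_apply, map_smul]
  have hrk : ¬ (r : ℤ) ∣ ((s' * s : ℕ) : ℤ) := by
    rw [Int.natCast_dvd_natCast, hr.dvd_mul]
    rintro (h | h)
    · exact h1 ((Nat.prime_dvd_prime_iff_eq hr hs').1 h).symm
    · rcases hs with hs | hs
      · exact h3 ((Nat.prime_dvd_prime_iff_eq hr hs).1 h).symm
      · rw [hs] at h
        exact hr.not_dvd_one h
  obtain ⟨S, S1, S2, S3⟩ := zna (act γ) e hN a3 (UU L) (fun x hx => act_mem_UU γ hx) heU (fg_UU L)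
    hcm hk (llog L) (cinj_llog L) ht ht' (ZN_P L γ) (ZN_llog γ) hv hr hrk hc hT
  have hz : ∀ y : Additive Lˣ, ((((r : ℤ) ^ T • y).toMul : Lˣ) : L) =
      ((y.toMul : Lˣ) : L) ^ r ^ T := fun y => by
    rw [← Nat.cast_pow, natCast_zsmul, toMul_nsmul, Units.val_pow_eq_pow_val]
  have hSU : ∀ u ∈ S, u ∈ UU L := fun u hu => by
    obtain ⟨⟨x, hx, rfl⟩, -⟩ := S2 u hu
    exact heU x hx
  refine ⟨S.image fun x => ((x.toMul : Lˣ) : L), ?_, ?_, ?_⟩
  · rwa [Finset.card_image_of_injective _ fun x y h => ZN_ext h]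
  · intro u0 hu0
    obtain ⟨u, hu, rfl⟩ := Finset.mem_image.1 hu0
    obtain ⟨⟨x, hx, hxu⟩, y, -, hy⟩ := S2 u hu
    refine ⟨Units.ne_zero _, mem_UU.1 (hSU u hu), ?_, fun h4 => ?_, (y.toMul : Lˣ), ?_⟩
    · rw [← ns_act, ← hxu, he, ← Module.End.mul_apply, ← mul_assoc, Ns, ZN_sum_mul_E a1, zero_mul]
      rfl
    · rw [← ns_act, ← hxu, he, cEF.eq, ← Module.End.mul_apply, ← mul_assoc, Ns, ZN_F, if_neg h4,
        ZN_sum_mul_E a2, zero_mul]
      rfl
    · rw [← act_apply, hy, toMul_add, Units.val_mul, hz, natCast_zsmul, toMul_nsmul,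
        Units.val_pow_eq_pow_val]
  · intro u0 hu0 u1 hu1 ⟨y, hy⟩
    obtain ⟨u, hu, rfl⟩ := Finset.mem_image.1 hu0
    obtain ⟨u', hu', rfl⟩ := Finset.mem_image.1 hu1
    have y0 : y ≠ 0 := fun h => by
      rw [h, zero_pow (pow_ne_zero T hr.ne_zero), mul_zero] at hy
      exact Units.ne_zero _ hy
    have h4 : u - u' = (r : ℤ) ^ T • Additive.ofMul (Units.mk0 y y0) := by
      rw [sub_eq_iff_eq_add']
      refine ZN_ext ?_
      rw [toMul_add, Units.val_mul, hz]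
      exact hy
    have h5 : Additive.ofMul (Units.mk0 y y0) ∈ UU L :=
      mem_UU_of_smul (n := (r : ℤ) ^ T) (pow_ne_zero T (Nat.cast_ne_zero.2 hr.ne_zero))
        (h4 ▸ (UU L).sub_mem (hSU u hu) (hSU u' hu'))
    rw [S3 u hu u' hu' ⟨_, h5, h4⟩]

end Uc
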