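import Vale.Agent.P024.Lat
import Vale.Agent.P024.Lat2

/-! Many units in twisted eigenspaces, and an upper bound. -/

noncomputable section
namespace Uc
open NumberField
open scoped Classical

/-- See the blueprint, section ZN. -/
theorem zna {M X : Type} [AddCommGroup M] [Fintype X] (γ e : Module.End ℤ M) {N : ℕ} (hN : 0 < N)
    (hγ : γ ^ N = 1) (U : Submodule ℤ M) (hU : ∀ x ∈ U, γ x ∈ U) (hU' : ∀ x ∈ U, e x ∈ U)
    (hfg : U.FG) (hc : Commute γ e) {k : ℤ} (hk : e * e = k • e) (ψ : M →+ (X → ℂ))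
    (hψ : CInj U ψ) (ht : ∀ x ∈ U, ψ x = 0 → e x = 0)
    (ht' : ∀ x ∈ U, ψ x = 0 → ∃ n : ℕ, n ≠ 0 ∧ n • x = 0) (P : Module.End ℂ (X → ℂ))
    (hP : ∀ x, ψ (γ x) = P (ψ x))
    (hv : ∀ ω : ℂ, ω ^ N = 1 → ∃ v ∈ Submodule.span ℂ (ψ '' U.map e), v ≠ 0 ∧ P v = ω • v)
    {r T c : ℕ} (hr : r.Prime) (hrk : ¬ (r : ℤ) ∣ k) (h2 : 2 ≤ c)
    (hT : (r : ℤ) ^ T ∣ (c : ℤ) ^ N - 1) :
    ∃ S : Finset M, r ^ T ≤ S.card ∧
      (∀ u ∈ S, u ∈ U.map e ∧ ∃ y ∈ U, γ u = (c : ℤ) • u + (r : ℤ) ^ T • y) ∧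
      ∀ u ∈ S, ∀ u' ∈ S, (∃ y ∈ U, u - u' = (r : ℤ) ^ T • y) → u = u' := by
  let φ : M →ₗ[ℤ] (X → ℂ) := ψ.toIntLinearMap
  let Λ : Submodule ℤ (X → ℂ) := (U.map e).map φ
  have hUe : U.map e ≤ U := by
    rintro _ ⟨x, hx, rfl⟩
    exact hU' x hx
  have hγe : ∀ x, γ (e x) = e (γ x) := fun x => LinearMap.congr_fun hc.eq x
  have hee : ∀ x ∈ U.map e, e x = k • x := by
    rintro _ ⟨x, -, rfl⟩
    exact LinearMap.congr_fun hk x
  have hγU : ∀ x ∈ U.map e, γ x ∈ U.map e := by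
    rintro _ ⟨x, hx, rfl⟩
    exact ⟨γ x, hU x hx, (hγe x).symm⟩
  have : Module.Finite ℤ Λ := Module.Finite.iff_fg.2 ((hfg.map e).map φ)
  have : Module.Free ℤ Λ := Module.free_of_finite_type_torsion_free'
  have hst : ∀ v ∈ Λ, P.restrictScalars ℤ v ∈ Λ := by
    rintro _ ⟨x, hx, rfl⟩
    exact ⟨γ x, hγU x hx, hP x⟩
  let g : Module.End ℤ Λ := (P.restrictScalars ℤ).restrict hst
  have hg : ∀ v : Λ, (g v : X → ℂ) = P v := fun v => rfl
  choose lf hlf hlf' using fun v : Λ => v.2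
  have hlf2 : ∀ v : Λ, ψ (lf v) = v := hlf'
  have hgn : ∀ (n : ℕ) (v : Λ), ((g ^ n) v : X → ℂ) = ψ ((γ ^ n) (lf v)) := by
    intro n v
    induction n with
    | zero => simp [hlf2]
    | succ n ih => rw [pow_succ', pow_succ', Module.End.mul_apply, Module.End.mul_apply, hg, ih, hP]
  have hgN : g ^ N = 1 := by
    refine LinearMap.ext fun v => Subtype.ext ?_
    rw [hgn, hγ, Module.End.one_apply, Module.End.one_apply, hlf2]
  let ι : Λ →+ (X → ℂ) := Λ.subtype.toAddMonoidHom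
  have hι : CInj ⊤ ι := by
    intro I _ v _ hv'
    have h1 : LinearIndependent ℤ (φ ∘ fun i => lf (v i)) := by
      have h2 := hv'.map' Λ.subtype (Submodule.ker_subtype Λ)
      have h3 : (φ ∘ fun i => lf (v i)) = Λ.subtype ∘ v := funext fun i => hlf2 (v i)
      rwa [h3]
    have h4 := hψ I (fun i => lf (v i)) (fun i => hUe (hlf _)) (LinearIndependent.of_comp φ h1)
    have h5 : (fun i => ψ (lf (v i))) = fun i => ι (v i) := funext fun i => hlf2 (v i)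
    rwa [h5] at h4
  have hrange : Set.range ι = ψ '' U.map e := by
    ext v
    constructor
    · rintro ⟨w, rfl⟩
      exact ⟨lf w, hlf w, hlf2 w⟩
    · rintro ⟨x, hx, rfl⟩
      exact ⟨⟨ψ x, x, hx, rfl⟩, rfl⟩
  have hdvd : ((Polynomial.X ^ N - 1 : Polynomial ℤ) ^ 1) ∣ g.charpoly := by
    refine dvd_of_mult (LinearMap.charpoly_monic g) ?_ fun ω => ?_
    · rw [pow_one]
      exact Polynomial.monic_X_pow_sub_C 1 hN.ne'
    · rw [mult_X_pow_sub_one hN, mult_eq g hN hgN ι hι P (fun v => hg v), hrange]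
      split_ifs with hω
      · obtain ⟨v, hv1, hv2, hv3⟩ := hv ω hω
        refine Nat.one_le_iff_ne_zero.2 fun h0 => hv2 ?_
        have h6 := Submodule.finrank_eq_zero.1 h0
        have h7 : v ∈ Submodule.span ℂ (ψ '' U.map e) ⊓ P.eigenspace ω :=
          ⟨hv1, Module.End.mem_eigenspace_iff.2 hv3⟩
        rw [h6] at h7
        exact h7
      · exact Nat.zero_le _
  have hne : g.charpoly.eval (c : ℤ) ≠ 0 := by
    intro h0
    have h1 : (g.charpoly.map (Int.castRingHom ℂ)).rootMultiplicity (c : ℂ) ≠ 0 := by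
      refine ((Polynomial.rootMultiplicity_pos
        ((LinearMap.charpoly_monic g).map _).ne_zero).2 ?_).ne'
      have h2 := Polynomial.eval₂_at_apply (Int.castRingHom ℂ) (c : ℤ) (p := g.charpoly)
      rw [h0, map_zero, ← Polynomial.eval_map] at h2
      simpa using h2
    have h3 : c ^ N = 1 := by exact_mod_cast mult_root hN hgN h1
    have h4 := Nat.one_lt_pow hN.ne' h2
    omega
  have hdv : (r : ℤ) ^ T ∣ g.charpoly.eval (c : ℤ) := by
    refine hT.trans ?_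
    simpa using Polynomial.eval_dvd (x := (c : ℤ)) hdvd
  obtain ⟨S, hS, hS1, hS2⟩ := lat_lo g hr hne hdv
  have hcop : IsCoprime (k ^ 2) ((r : ℤ) ^ T) :=
    IsCoprime.pow ((Nat.prime_iff_prime_int.1 hr).irreducible.coprime_iff_not_dvd.2 hrk).symm
  obtain ⟨a, b, hab⟩ := hcop
  have hinj : ∀ v ∈ S, ∀ v' ∈ S, (∃ y ∈ U, e (lf v) - e (lf v') = (r : ℤ) ^ T • y) → v = v' := by
    rintro v hv1 v' hv2 ⟨y, hy, h1⟩
    refine hS2 v hv1 v' hv2 ⟨a • ⟨ψ (e y), e y, ⟨y, hy, rfl⟩, rfl⟩ + b • (v - v'), ?_⟩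
    have h2 : (k ^ 2) • (lf v - lf v') = (r : ℤ) ^ T • e y := by
      rw [← map_zsmul, ← h1, ← map_sub, hee _ ⟨_, hUe (sub_mem (hlf v) (hlf v')), rfl⟩,
        hee _ (sub_mem (hlf v) (hlf v')), smul_smul, sq]
    have h3 : (k ^ 2) • (v - v') = (r : ℤ) ^ T • (⟨ψ (e y), e y, ⟨y, hy, rfl⟩, rfl⟩ : Λ) := by
      refine Subtype.ext ?_
      have h4 := congrArg ψ h2
      rw [map_zsmul, map_zsmul, map_sub, hlf2, hlf2] at h4
      exact h4
    rw [smul_add, smul_comm _ a, ← h3, smul_smul, smul_smul, ← add_smul, mul_comm _ b, hab,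
      one_smul]
  refine ⟨S.image fun v => e (lf v), ?_, ?_, ?_⟩
  · rw [Finset.card_image_of_injOn fun v hv1 v' hv2 h =>
      hinj v hv1 v' hv2 ⟨0, U.zero_mem, by rw [smul_zero]; exact sub_eq_zero.2 h⟩]
    exact hS
  · intro u hu
    obtain ⟨v, hv1, rfl⟩ := Finset.mem_image.1 hu
    obtain ⟨y, hy⟩ := hS1 v hv1
    refine ⟨⟨_, hUe (hlf v), rfl⟩, e (lf y), hU' _ (hUe (hlf y)), ?_⟩
    have h1 := ht (γ (lf v) - ((c : ℤ) • lf v + (r : ℤ) ^ T • lf y))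
      (sub_mem (hU _ (hUe (hlf v))) (add_mem (U.smul_mem _ (hUe (hlf v)))
        (U.smul_mem _ (hUe (hlf y))))) (by
      rw [map_sub, map_add, map_zsmul, map_zsmul, hP, hlf2, hlf2, ← hg, hy]
      simp)
    rw [map_sub, map_add, map_zsmul, map_zsmul, sub_eq_zero] at h1
    rw [hγe, h1]
  · intro u hu u' hu' h
    obtain ⟨v, hv1, rfl⟩ := Finset.mem_image.1 hu
    obtain ⟨v', hv2, rfl⟩ := Finset.mem_image.1 hu'
    rw [hinj v hv1 v' hv2 h]

end Uc
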