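import Vale.Agent.P024.ZZ0
import Vale.Agent.P024.ZN
import Vale.Agent.P024.SF

/-! Characters of large order, unramified outside `r`, killed by norms. -/

noncomputable section
namespace Uc
open scoped Classical
variable {E : Type} [Field E] [CharZero E] [Nice E]

theorem ZZ_emb_pow {n : ℕ} {e : ZMod n → ℂˣ} (h0 : e 0 = 1) (ha : ∀ a b, e (a + b) = e a * e b)
    (a : ZMod n) (j : ℕ) : e a ^ j = e (j * a) := by
  induction j with
  | zero => simp [h0]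
  | succ j ih => rw [pow_succ, ih, ← ha]; push_cast; ring_nf

theorem ZZ_emb_sum {n : ℕ} {e : ZMod n → ℂˣ} (h0 : e 0 = 1) (ha : ∀ a b, e (a + b) = e a * e b)
    (f : ℕ → ZMod n) (s : ℕ) :
    ∏ j ∈ Finset.range s, e (f j) = e (∑ j ∈ Finset.range s, f j) := by
  induction s with
  | zero => simp [h0]
  | succ s ih => rw [Finset.prod_range_succ, Finset.sum_range_succ, ih, ha]

theorem ZZ_kc_pow {n : ℕ} (hn : n ≠ 0) {x : E} (hx : x ≠ 0) {g : Aut E} (hg : g x = x)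
    (hm : g ∈ Fm E n) (c : ℕ) : kc n (x ^ c) g = c * kc n x g := by
  have := kc_prod_pow hn ({()} : Finset Unit) (fun _ => x) (fun _ => c) (fun _ _ => hx)
    (fun _ _ => hg) hm
  simpa using this

omit [Nice E] in
theorem ZZ_conj_mem {H : Subgroup (Aut E)} (hH : H.Normal) {x : Aut E} (hx : x ∈ H) (t : Aut E) :
    t⁻¹ * x * t ∈ H := hH.conj_mem' x hx t

theorem ZZ_kc_conj {n : ℕ} (hn : n ≠ 0) {H : Subgroup (Aut E)} (hH : H.Normal) (hle : H ≤ Fm E n)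
    {u : E} (hu : u ≠ 0) (hf : u ∈ Fx H) {x : Aut E} (hx : x ∈ H) (t : Aut E) :
    kc n (t u) x = ((chi E n t : (ZMod n)ˣ) : ZMod n) * kc n u (t⁻¹ * x * t) := by
  have h1 := ZZ_conj_mem hH hx t
  have := kc_conj hn hu (hf _ h1) (hle h1) t
  rwa [show t * (t⁻¹ * x * t) * t⁻¹ = x by group] at this

omit [Nice E] in
theorem ZZ_fix {H : Subgroup (Aut E)} (hH : H.Normal) {u : E} (hf : u ∈ Fx H) (t : Aut E) :
    t u ∈ Fx H := fun x hx => by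
  have := congrArg t (hf _ (ZZ_conj_mem hH hx t))
  simpa [AlgEquiv.mul_apply] using this

theorem ZZ_nm {n : ℕ} (hn : n ≠ 0) {e : ZMod n → ℂˣ} (h0 : e 0 = 1)
    (ha : ∀ a b, e (a + b) = e a * e b) {H : Subgroup (Aut E)} (hH : H.Normal) (hle : H ≤ Fm E n)
    {u : E} (hu : u ≠ 0) (hf : u ∈ Fx H) {t : Aut E} (ht : t ∈ Fm E n) {s : ℕ}
    (hp : ∏ j ∈ Finset.range s, (t ^ j) u = 1) {x : Aut E} (hx : x ∈ H) :
    Nm t s (fun y => e (kc n u y)) x = 1 := by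
  have h1 : ∀ j : ℕ, kc n u ((t ^ j)⁻¹ * x * t ^ j) = kc n ((t ^ j) u) x := fun j => by
    rw [ZZ_kc_conj hn hH hle hu hf hx, (mem_Fm_iff hn).1 (pow_mem ht j), Units.val_one, one_mul]
  have h2 := kc_prod_pow hn (Finset.range s) (fun j => (t ^ j) u) (fun _ => 1)
    (fun j _ => (map_ne_zero _).2 hu) (fun j _ => ZZ_fix hH hf _ x hx) (hle hx)
  simp only [pow_one, Nat.cast_one, one_mul] at h2
  have h3 : kc n (1 : E) x = 0 :=
    (kc_eq_zero_iff hn one_ne_zero (map_one x) (hle hx) (one_pow n)).2 (map_one x)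
  unfold Nm
  simp only [h1]
  rw [ZZ_emb_sum h0 ha, ← h2, hp, h3, h0]

omit [Nice E] in
theorem ZZ_nm_pow {H : Subgroup (Aut E)} (hH : H.Normal) {ν κ : Aut E → ℂˣ} {k : ℕ}
    (h : ∀ x ∈ H, ν x = κ x ^ k) (t : Aut E) (s : ℕ) {x : Aut E} (hx : x ∈ H) :
    Nm t s ν x = Nm t s κ x ^ k := by
  unfold Nm
  rw [← Finset.prod_pow]
  exact Finset.prod_congr rfl fun j _ => h _ (ZZ_conj_mem hH hx _)

/-- the Kummer character of a unit in the eigenspace extends to `W` -/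
theorem ZZ_ext {W : Subgroup (Aut E)} (hW : IsOpen (W : Set (Aut E))) (hn : W.Normal) {r T : ℕ}
    (hr : r.Prime) (hF : W ≤ Fm E r) {e : ZMod (r ^ T) → ℂˣ} (h0 : e 0 = 1)
    (ha : ∀ a b, e (a + b) = e a * e b) {γ : Aut E} {a c : ℕ} (hγ : γ ∈ W)
    (hc : Acts (r ^ T) γ c) (hj : ∀ j : ℕ, γ ^ j ∈ Fm E (r ^ T) ↔ r ^ a ∣ j)
    (hk : ∀ x ∈ W, ∃ k : ℕ, (γ ^ k)⁻¹ * x ∈ Fm E (r ^ T)) {u y : E} (hu : u ≠ 0)
    (hf : u ∈ Fx (W ⊓ Fm E (r ^ T))) (hy : y ∈ Fx (W ⊓ Fm E (r ^ T)))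
    (hw : ∀ A : Pr E, A.w u = 0) (he : γ u = u ^ c * y ^ r ^ T) :
    ∃ ν : Aut E → ℂˣ, IsChar W r ν ∧ Unr W {r} ν ∧
      ∀ x ∈ W ⊓ Fm E (r ^ T), ν x = e (kc (r ^ T) u x) := by
  have hn0 : r ^ T ≠ 0 := pow_ne_zero T hr.ne_zero
  have := normal_Fm (E := E) (r ^ T)
  set H := W ⊓ Fm E (r ^ T) with hH
  have hHn : H.Normal := inferInstance
  have hle : H ≤ Fm E (r ^ T) := inf_le_right
  have hy0 : y ≠ 0 := by
    rintro rfl
    rw [zero_pow hn0, mul_zero] at he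
    exact (map_ne_zero γ).2 hu he
  have hφ : ∀ j : ℕ, γ ^ j ∈ H ↔ r ^ a ∣ j := fun j => by
    rw [← hj]
    exact ⟨fun h => h.2, fun h => ⟨pow_mem hγ j, h⟩⟩
  have hpos : 0 < r ^ a := pow_pos hr.pos a
  obtain ⟨ν, hν, hκ⟩ := ext_char H γ hpos hφ (fun x => e (kc (r ^ T) u x))
    (fun x hx z hz => by rw [kc_mul_right hn0 hu (hf x hx) (hf z hz) (hle hx), ha])
    (fun x hx => by
      have h1 := ZZ_kc_conj hn0 hHn hle hu hf hx γ
      rw [he, kc_mul_left hn0 (pow_ne_zero _ hu) (pow_ne_zero _ hy0)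
        (by rw [map_pow, hf x hx]) (by rw [map_pow, hy x hx]) (hle hx),
        kc_pow_self hn0 hy0 (hy x hx) (hle hx), add_zero, ZZ_kc_pow hn0 hu (hf x hx) (hle hx),
        ← (acts_iff hn0).1 hc] at h1
      rw [(Units.mul_right_inj _).1 h1])
  have hsup : W ≤ Subgroup.zpowers γ ⊔ H := fun x hx => by
    obtain ⟨k, hk'⟩ := hk x hx
    exact (mem_zpowers_sup H γ hpos ((hφ _).2 dvd_rfl)).2
      ⟨k, W.mul_mem (W.inv_mem (W.pow_mem hγ k)) hx, hk'⟩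
  have hmul : ∀ x ∈ W, ∀ z ∈ W, ν (x * z) = ν x * ν z := fun x hx z hz =>
    hν x (hsup hx) z (hsup hz)
  have hone : ∀ x ∈ H, x (rt (r ^ T) u) = rt (r ^ T) u → ν x = 1 := fun x hx h => by
    rw [hκ x hx, (kc_eq_zero_iff hn0 hu (hf x hx) (hle hx) (rt_pow hn0 u)).2 h, h0]
  refine ⟨ν, ⟨hmul, ⟨H ⊓ stab {rt (r ^ T) u}, isOpen_inf (isOpen_inf hW (isOpen_Fm hn0))
    (isOpen_stab (Set.finite_singleton _)), inf_le_left.trans inf_le_left,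
    fun x hx => hone x hx.1 (hx.2 _ rfl)⟩, T + T, fun x hx => ?_⟩, fun A hA x hx hI => ?_, hκ⟩
  · have h1 : x ^ r ^ T ∈ H := ⟨pow_mem hx _, pow_mem_Fm hr (hF hx) T⟩
    rw [pow_add, pow_mul, ← ch_pow hmul hx, hκ _ h1, ZZ_emb_pow h0 ha, ZMod.natCast_self,
      zero_mul, h0]
  · have hp : ¬ A.p ∣ r ^ T := fun h => hA (Finset.mem_singleton.2
      ((Nat.prime_dvd_prime_iff_eq A.prime hr).1 (A.prime.dvd_of_dvd_pow h)))
    have h1 : x ∈ H := ⟨hx, Pr.mem_Fm_of_I hI hp⟩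
    refine hone x h1 (Pr.fix_root_of_I hI hp (rt_ne_zero hn0 hu) ?_ ?_)
    · have h2 := A.w_pow (rt (r ^ T) u) (r ^ T)
      rw [rt_pow hn0, hw] at h2
      exact (mul_eq_zero.1 h2.symm).resolve_left (Nat.cast_ne_zero.2 hn0)
    · rw [rt_pow hn0, hf x h1]

/-- killing the norms -/
theorem ZZ_kill {W H : Subgroup (Aut E)} (hn : W.Normal) (hH : H.Normal) (hle : H ≤ W)
    {r s' s : ℕ} {m g g' : Aut E} (hc : m * g * m⁻¹ * g⁻¹ ∈ W) (o1 : m ^ s' ∈ W) (o2 : g ^ s ∈ W)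
    (hg : g⁻¹ * g' ∈ W) {ν κ : Aut E → ℂˣ} (h1 : IsChar W r ν) (h2 : Unr W {r} ν)
    (h3 : ∀ x ∈ H, ν x = κ x) (h4 : ∀ x ∈ H, Nm m s' κ x = 1)
    (h5 : s ≠ 1 → ∀ x ∈ H, Nm g' s κ x = 1) :
    ∃ μ : Aut E → ℂˣ, (IsChar W r μ ∧ Unr W {r} μ ∧ (∀ x ∈ W, Nm m s' μ x = 1) ∧
      (s ≠ 1 → ∀ x ∈ W, Nm g s μ x = 1)) ∧ ∀ x ∈ H, μ x = κ x ^ (s' * s) := by
  obtain ⟨ν₁, a1, a2, a3, a4, -⟩ := zz_op hn o1 h1 h2
  have a5 : ∀ x ∈ H, ν₁ x = κ x ^ s' := fun x hx => by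
    rw [a1, ZZ_nm_pow hH (k := 1) (κ := κ) (fun x hx => by rw [h3 x hx, pow_one]) m s' hx,
      h4 x hx, one_pow, div_one, h3 x hx]
  by_cases hs : s = 1
  · exact ⟨ν₁, ⟨a2, a3, a4, fun h => absurd hs h⟩, fun x hx => by rw [a5 x hx, hs, mul_one]⟩
  · obtain ⟨ν₂, b1, b2, b3, b4, b5⟩ := zz_op hn o2 a2 a3
    refine ⟨ν₂, ⟨b2, b3, b5 m s' hc a4, fun _ => b4⟩, fun x hx => ?_⟩
    rw [b1, nm_congr a2.mul hg s (hle hx), ZZ_nm_pow hH a5 g' s hx, h5 hs x hx, one_pow, div_one,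
      a5 x hx, pow_mul]

theorem ZZ_comm {G : Type} [Group G] {W : Subgroup G} [W.Normal] {m g : G}
    (hc : m * g * m⁻¹ * g⁻¹ ∈ W) (k : ℕ) : m * g ^ k * m⁻¹ * (g ^ k)⁻¹ ∈ W := by
  have h1 : Commute (QuotientGroup.mk' W m) (QuotientGroup.mk' W g) := by
    have := (QuotientGroup.eq_one_iff _).2 hc
    rw [← commutatorElement_eq_one_iff_commute, commutatorElement_def]
    simpa using this
  have h2 := commutatorElement_eq_one_iff_commute.2 (h1.pow_right k)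
  rw [commutatorElement_def] at h2
  rw [← QuotientGroup.eq_one_iff]
  simpa using h2

/-- See the blueprint, section ZZ. -/
theorem zz_many {W : Subgroup (Aut E)} (hW : IsOpen (W : Set (Aut E))) (hn : W.Normal)
    {r s' s : ℕ} (hr : r.Prime) (h2 : r ≠ 2) (hF : W ≤ Fm E r) (hs' : s'.Prime)
    (hs : s.Prime ∨ s = 1) (h1 : s' ≠ r) (h3 : s ≠ r) {m g : Aut E}
    (hm : ∀ n : ℕ, n ≠ 0 → m ∈ Fm E n) (hg : g ∈ Fm E r) (hc : m * g * m⁻¹ * g⁻¹ ∈ W)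
    (o1 : m ^ s' ∈ W) (o2 : g ^ s ∈ W) (hi : ∀ i j : ℕ, m ^ i * g ^ j ∈ W → s' ∣ i ∧ s ∣ j)
    (T : ℕ) : ∃ X : Finset (Aut E → ℂˣ), r ^ T ≤ X.card ∧
      (∀ ν ∈ X, IsChar W r ν ∧ Unr W {r} ν ∧ (∀ x ∈ W, Nm m s' ν x = 1) ∧
        (s ≠ 1 → ∀ x ∈ W, Nm g s ν x = 1)) ∧
      ∀ ν ∈ X, ∀ ν' ∈ X, (∀ x ∈ W, ν x = ν' x) → ν = ν' := by
  have hn0 : r ^ T ≠ 0 := pow_ne_zero T hr.ne_zero
  have := normal_Fm (E := E) (r ^ T)
  obtain ⟨γ, a, c, hγ, hc2, hac, hj, hdv, hk⟩ := zz_gen hr h2 hF T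
  obtain ⟨e, einj, e0, ea⟩ := exists_emb (n := r ^ T) hn0
  have hsr : Nat.Coprime (r ^ T) s := by
    rcases hs with hs | rfl
    · exact Nat.Coprime.pow_left T ((Nat.coprime_primes hr hs).2 h3.symm)
    · exact Nat.coprime_one_right _
  have hs0 : 0 < s := by
    rcases hs with hs | rfl
    · exact hs.pos
    · exact one_pos
  obtain ⟨k, hk1, hk2⟩ : ∃ k : ℕ, r ^ T ∣ k ∧ ∃ j : ℕ, k = 1 + s * j := by
    refine ⟨(r ^ T) ^ s.totient, dvd_pow_self _ (Nat.totient_pos.2 hs0).ne', ?_⟩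
    have h := (Nat.ModEq.pow_totient hsr).symm
    obtain ⟨j, hj⟩ := (Nat.modEq_iff_dvd' (Nat.one_le_pow _ _ (Nat.pos_of_ne_zero hn0))).1 h
    exact ⟨j, by have := Nat.one_le_pow s.totient _ (Nat.pos_of_ne_zero hn0); omega⟩
  obtain ⟨k₁, hk1⟩ := hk1
  obtain ⟨k₂, hk2⟩ := hk2
  have hgk : g ^ k ∈ Fm E (r ^ T) := by
    rw [hk1, pow_mul]
    exact pow_mem (pow_mem_Fm hr hg T) _
  have hgg : g⁻¹ * g ^ k ∈ W := by
    rw [hk2, pow_add, pow_one, inv_mul_cancel_left, pow_mul]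
    exact pow_mem o2 _
  set H := W ⊓ Fm E (r ^ T) with hH
  have hHn : H.Normal := inferInstance
  have hHo : IsOpen (H : Set (Aut E)) := isOpen_inf hW (isOpen_Fm hn0)
  have hle : H ≤ Fm E (r ^ T) := inf_le_right
  have := numberField_Fx hHo
  obtain ⟨ρ, hρ⟩ := exists_resHom hHn
  have hap : ∀ (t : Aut E) (z : Fx H), (ρ t z : E) = t z := fun t z => by
    rw [hρ, res_apply' hHn]
  have hker : ∀ t : Aut E, ρ t = 1 ↔ t ∈ H := fun t => by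
    rw [hρ, res_eq_one_iff hHo (by rw [Subgroup.normalizer_eq_top]; trivial)]
  have hcm : ∀ x y : Aut E, x * y * x⁻¹ * y⁻¹ ∈ W → Commute (ρ x) (ρ y) := fun x y h => by
    have := (hker _).2 ⟨h, commutator_mem_Fm hn0 x y⟩
    rw [← commutatorElement_eq_one_iff_commute, commutatorElement_def]
    simpa using this
  have hz := zt_prim (E := E) hr.ne_zero
  have hzH : zt E r ∈ Fx H := fun x hx => hF hx.1 _ hz.pow_eq_one
  have hζ : IsPrimitiveRoot (⟨zt E r, hzH⟩ : Fx H) r :=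
    IsPrimitiveRoot.of_map_of_injective (f := (Fx H).subtype) hz Subtype.val_injective
  have hfix : ∀ t ∈ Fm E r, ρ t ⟨zt E r, hzH⟩ = ⟨zt E r, hzH⟩ := fun t ht =>
    Subtype.ext (by rw [hap]; exact ht _ hz.pow_eq_one)
  obtain ⟨S, hS1, hS2, hS3⟩ := zn hr h2 hζ (ρ m) (ρ (g ^ k)) (ρ γ) (N := r ^ a) (T := T) (c := c)
    hs' hs h1 h3
    (fun z n hn' h => Subtype.ext (by
      rw [hap]
      exact hm n hn' _ (by simpa using congrArg (Fx H).subtype h)))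
    (hfix _ (pow_mem hg k)) (hfix _ (hF hγ))
    (by rw [← map_pow, hker]; exact ⟨o1, pow_mem (hm _ hn0) _⟩)
    (by
      rw [← map_pow, hker]
      exact ⟨by rw [← pow_mul, mul_comm, pow_mul]; exact pow_mem o2 _, pow_mem hgk _⟩)
    (by rw [← map_pow, hker]; exact ⟨pow_mem hγ _, (hj _).2 dvd_rfl⟩)
    (pow_pos hr.pos a) (hcm _ _ (ZZ_comm hc k))
    (hcm _ _ (mul_mem (hn.conj_mem _ hγ _) (inv_mem hγ)))
    (hcm _ _ (mul_mem (hn.conj_mem _ hγ _) (inv_mem hγ)))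
    (fun i j l h => by
      rw [← map_pow, ← map_pow, ← map_pow, ← map_mul, ← map_mul, hker] at h
      have b1 : m ^ i * (g ^ k) ^ j ∈ W := (Subgroup.mul_mem_cancel_right _ (pow_mem hγ l)).1 h.1
      have b2 : γ ^ l ∈ Fm E (r ^ T) := (Subgroup.mul_mem_cancel_left _
        (mul_mem (pow_mem (hm _ hn0) i) (pow_mem hgk j))).1 h.2
      rw [← pow_mul] at b1
      obtain ⟨b3, b4⟩ := hi _ _ b1
      refine ⟨b3, ?_, (hj l).1 b2⟩
      rw [hk2, add_mul, one_mul, mul_assoc] at b4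
      exact (Nat.dvd_add_left (dvd_mul_right s _)).1 b4)
    hc2 hdv
  have hco : ∀ (t : Aut E) (s : ℕ) (u : Fx H), ∏ j ∈ Finset.range s, (ρ t ^ j) u = 1 →
      ∏ j ∈ Finset.range s, (t ^ j) (u : E) = 1 := fun t s u h => by
    have := congrArg (Fx H).subtype h
    rw [map_prod, map_one] at this
    rw [← this]
    exact Finset.prod_congr rfl fun j _ => by rw [← map_pow]; exact (hap _ u).symm
  have key : ∀ u ∈ S, ∃ μ : Aut E → ℂˣ, (IsChar W r μ ∧ Unr W {r} μ ∧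
      (∀ x ∈ W, Nm m s' μ x = 1) ∧ (s ≠ 1 → ∀ x ∈ W, Nm g s μ x = 1)) ∧
      ∀ x ∈ H, μ x = e (kc (r ^ T) (u : E) x) ^ (s' * s) := by
    intro u hu
    obtain ⟨u0, uw, um, ug, y, hy⟩ := hS2 u hu
    have u1 : (u : E) ≠ 0 := fun h => u0 (Subtype.ext h)
    obtain ⟨ν, n1, n2, n3⟩ := ZZ_ext hW hn hr hF e0 ea hγ hac hj hk u1 u.2 y.2
      (fun A => uw (A.comap (Fx H).subtype)) (by
        rw [← hap, hy]
        push_cast
        rfl)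
    exact ZZ_kill hn hHn inf_le_left hc o1 o2 hgg n1 n2 n3
      (fun x hx => ZZ_nm hn0 e0 ea hHn hle u1 u.2 (hm _ hn0) (hco _ _ _ um) hx)
      (fun h x hx => ZZ_nm hn0 e0 ea hHn hle u1 u.2 hgk (hco _ _ _ (ug h)) hx)
  choose! f hf1 hf2 using key
  have hrs : ¬ r ∣ s' * s := fun h => by
    rcases (Nat.Prime.dvd_mul hr).1 h with h | h
    · exact h1 ((Nat.prime_dvd_prime_iff_eq hr hs').1 h).symm
    · rcases hs with hs | rfl
      · exact h3 ((Nat.prime_dvd_prime_iff_eq hr hs).1 h).symm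
      · exact hr.one_lt.ne' (Nat.dvd_one.1 h)
  have hinj : ∀ u ∈ S, ∀ u' ∈ S, (∀ x ∈ W, f u x = f u' x) → u = u' := by
    intro u hu u' hu' h
    have u1 : (u : E) ≠ 0 := fun h => (hS2 u hu).1 (Subtype.ext h)
    have u2 : (u' : E) ≠ 0 := fun h => (hS2 u' hu').1 (Subtype.ext h)
    have hy : rt (r ^ T) (u : E) / rt (r ^ T) (u' : E) ∈ Fx H := fun x hx => by
      have b1 := h x hx.1
      rw [hf2 u hu x hx, hf2 u' hu' x hx] at b1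
      have b2 : e (kc (r ^ T) (u : E) x) / e (kc (r ^ T) (u' : E) x) = 1 := by
        refine eq_one_of_coprime (T := T) hr hrs (by rw [div_pow, b1, div_self']) ?_
        rw [div_pow, ZZ_emb_pow e0 ea, ZZ_emb_pow e0 ea, ZMod.natCast_self, zero_mul, zero_mul,
          div_self']
      have b3 := einj (div_eq_one.1 b2)
      rw [map_div₀, kc_spec hn0 u1 (u.2 x hx), kc_spec hn0 u2 (u'.2 x hx), b3,
        mul_div_mul_left _ _ (pow_ne_zero _ ((zt_prim hn0).ne_zero hn0))]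
    refine hS3 u hu u' hu' ⟨⟨_, hy⟩, Subtype.ext ?_⟩
    push_cast
    rw [div_pow, rt_pow hn0, rt_pow hn0, mul_div_cancel₀ _ u2]
  refine ⟨S.image f, ?_, ?_, ?_⟩
  · rwa [Finset.card_image_of_injOn fun u hu u' hu' h => hinj u hu u' hu' fun x _ => by rw [h]]
  · intro ν hν
    obtain ⟨u, hu, rfl⟩ := Finset.mem_image.1 hν
    exact hf1 u hu
  · intro ν hν ν' hν' h
    obtain ⟨u, hu, rfl⟩ := Finset.mem_image.1 hν
    obtain ⟨u', hu', rfl⟩ := Finset.mem_image.1 hν'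
    rw [hinj u hu u' hu' h]

/-- `zz_many` and `sf` -/
theorem zz {W : Subgroup (Aut E)} (hW : IsOpen (W : Set (Aut E))) (hn : W.Normal)
    {r s' s : ℕ} (hr : r.Prime) (h2 : r ≠ 2) (hF : W ≤ Fm E r) (hs' : s'.Prime)
    (hs : s.Prime ∨ s = 1) (h1 : s' ≠ r) (h3 : s ≠ r) {m g : Aut E}
    (hm : ∀ n : ℕ, n ≠ 0 → m ∈ Fm E n) (hg : g ∈ Fm E r) (hc : m * g * m⁻¹ * g⁻¹ ∈ W)
    (o1 : m ^ s' ∈ W) (o2 : g ^ s ∈ W) (hi : ∀ i j : ℕ, m ^ i * g ^ j ∈ W → s' ∣ i ∧ s ∣ j)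
    (b : ℕ) : ∃ ν : Aut E → ℂˣ, IsChar W r ν ∧ Unr W {r} ν ∧ (∀ x ∈ W, Nm m s' ν x = 1) ∧
      (s ≠ 1 → ∀ x ∈ W, Nm g s ν x = 1) ∧ ∃ x ∈ W, ν x ^ r ^ b ≠ 1 := by
  obtain ⟨R, hR⟩ := sf hW hr {r} b
  obtain ⟨X, x1, x2, x3⟩ := zz_many hW hn hr h2 hF hs' hs h1 h3 hm hg hc o1 o2 hi R
  by_contra hne
  have h4 : X.card ≤ R := by
    refine hR X (fun ν hν => ?_) x3
    obtain ⟨a1, a2, a3, a4⟩ := x2 ν hν
    refine ⟨a1, a2, fun x hx => ?_⟩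
    by_contra h
    exact hne ⟨ν, a1, a2, a3, a4, x, hx, h⟩
  have h5 : R < r ^ R := Nat.lt_pow_self hr.one_lt
  omega

end Uc
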