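import Vale.Agent.P024.Setup

/-! Characters of large order, unramified outside `r`, killed by norms. -/

noncomputable section
namespace Uc
open scoped Classical
variable {E : Type} [Field E] [CharZero E] [Nice E]

/-- a generator of `W / (W ⊓ Fm (r ^ T))`: the image of `chi (r ^ T)` is a subgroup of a cyclic
group and consists of elements congruent to `1` modulo `r` -/
theorem zz_gen {W : Subgroup (Aut E)} {r : ℕ} (hr : r.Prime) (h2 : r ≠ 2) (hW : W ≤ Fm E r)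
    (T : ℕ) : ∃ (γ : Aut E) (a c : ℕ), γ ∈ W ∧ 2 ≤ c ∧ Acts (r ^ T) γ c ∧
      (∀ j : ℕ, γ ^ j ∈ Fm E (r ^ T) ↔ r ^ a ∣ j) ∧ (r : ℤ) ^ T ∣ (c : ℤ) ^ r ^ a - 1 ∧
      ∀ x ∈ W, ∃ k : ℕ, (γ ^ k)⁻¹ * x ∈ Fm E (r ^ T) := by
  have hn : r ^ T ≠ 0 := pow_ne_zero _ hr.ne_zero
  have : NeZero (r ^ T) := ⟨hn⟩
  have := ZMod.isCyclic_units_of_prime_pow r hr h2 T
  obtain ⟨⟨_, γ, hγ, rfl⟩, hu⟩ := IsCyclic.exists_monoid_generator (α := W.map (chi E (r ^ T)))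
  have h1 := (mem_Fm_iff hn).1 (pow_mem_Fm hr (hW hγ) T)
  rw [map_pow] at h1
  obtain ⟨a, -, ha⟩ := (Nat.dvd_prime_pow hr).1 (orderOf_dvd_of_pow_eq_one h1)
  have h3 : ((((chi E (r ^ T) γ : (ZMod (r ^ T))ˣ) : ZMod (r ^ T)).val + 2 * r ^ T : ℕ) :
      ZMod (r ^ T)) = (chi E (r ^ T) γ : (ZMod (r ^ T))ˣ) := by
    rw [Nat.cast_add, Nat.cast_mul, ZMod.natCast_self, mul_zero, add_zero, ZMod.natCast_zmod_val]
  refine ⟨γ, a, _, hγ, by omega, (acts_iff hn).2 h3.symm, fun j => ?_, ?_, fun x hx => ?_⟩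
  · rw [mem_Fm_iff hn, map_pow, ← ha, orderOf_dvd_iff_pow_eq_one]
  · rw [← Nat.cast_pow, ← ZMod.intCast_zmod_eq_zero_iff_dvd, Int.cast_sub, Int.cast_pow,
      Int.cast_natCast, h3, ← Units.val_pow_eq_pow_val, ← ha, pow_orderOf_eq_one, Units.val_one,
      Int.cast_one, sub_self]
  · obtain ⟨k, hk⟩ := hu ⟨_, x, hx, rfl⟩
    have h4 : chi E (r ^ T) γ ^ k = chi E (r ^ T) x := congrArg Subtype.val hk
    exact ⟨k, by rw [mem_Fm_iff hn, map_mul, map_inv, map_pow, h4, inv_mul_cancel]⟩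

theorem ZZ0_nm {G : Type} [Group G] (g : G) (t s : ℕ) (ν μ : G → ℂˣ) (x : G) :
    Nm g t (fun x => ν x ^ s / μ x) x = Nm g t ν x ^ s / Nm g t μ x := by
  simp only [Nm, Finset.prod_div_distrib, Finset.prod_pow]

/-- Removing the norm: `ν₁ = ν ^ s / Nm m s ν`. -/
theorem zz_op {W : Subgroup (Aut E)} (hn : W.Normal) {r s : ℕ} {m : Aut E} (hm : m ^ s ∈ W)
    {ν : Aut E → ℂˣ} (h1 : IsChar W r ν) (h3 : Unr W {r} ν) :
    ∃ ν₁ : Aut E → ℂˣ, (∀ x, ν₁ x = ν x ^ s / Nm m s ν x) ∧ IsChar W r ν₁ ∧ Unr W {r} ν₁ ∧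
      (∀ x ∈ W, Nm m s ν₁ x = 1) ∧
      ∀ (g : Aut E) (t : ℕ), g * m * g⁻¹ * m⁻¹ ∈ W → (∀ x ∈ W, Nm g t ν x = 1) →
        ∀ x ∈ W, Nm g t ν₁ x = 1 := by
  refine ⟨fun x => ν x ^ s / Nm m s ν x, fun _ => rfl, ?_, ?_, fun x hx => ?_,
    fun g t hg h x hx => ?_⟩
  · simpa only [div_eq_mul_inv] using (h1.pow s).mul' (h1.nm hn m s).inv
  · simpa only [div_eq_mul_inv] using (h3.pow s).mul (h3.nm hn m s).inv
  · rw [ZZ0_nm, nm_of_inv (ν := Nm m s ν) s (fun y hy => nm_conj h1.mul hm hy) hx, div_self']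
  · have hc : Commute (g : Aut E ⧸ W) m := by
      rw [← QuotientGroup.eq_one_iff, QuotientGroup.mk_mul, QuotientGroup.mk_mul,
        QuotientGroup.mk_mul, QuotientGroup.mk_inv, QuotientGroup.mk_inv, mul_inv_eq_one,
        mul_inv_eq_iff_eq_mul] at hg
      exact hg
    have h4 : Nm g t (Nm m s ν) x = 1 := by
      rw [Nm]
      simp only [Nm]
      rw [Finset.prod_comm]
      refine Finset.prod_eq_one fun j _ => ?_
      rw [← h _ (hn.conj_mem' x hx (m ^ j)), Nm]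
      refine Finset.prod_congr rfl fun i _ => ?_
      have h5 : (g ^ i * m ^ j)⁻¹ * (m ^ j * g ^ i) ∈ W := by
        rw [← QuotientGroup.eq, QuotientGroup.mk_mul, QuotientGroup.mk_mul, QuotientGroup.mk_pow,
          QuotientGroup.mk_pow]
        exact (hc.pow_pow i j).eq
      simpa only [mul_inv_rev, mul_assoc] using Grp_cos h1.mul h5 hx
    rw [ZZ0_nm, h x hx, h4, one_pow, div_one]

end Uc
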